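import Crest.Agent.R177.Defs

/-!
Fox calculus for triangular presentations.
-/

set_option autoImplicit false

namespace Crest.Agent.R177

open Finset
open scoped Classical

namespace AlgAux

section Act

variable {G ι : Type} [Group G]

/-- translation of chains -/
noncomputable def act (g : G) : (G × ι →₀ ℤ) →+ (G × ι →₀ ℤ) :=
  Finsupp.mapDomain.addMonoidHom fun p => (g * p.1, p.2)

@[simp] theorem act_single (g h : G) (i : ι) (n : ℤ) :
    act g (Finsupp.single (h, i) n) = Finsupp.single (g * h, i) n :=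
  Finsupp.mapDomain_single

theorem hom_ext {X K : Type} [AddCommGroup K] {f g : (X →₀ ℤ) →+ K}
    (h : ∀ p, f (Finsupp.single p 1) = g (Finsupp.single p 1)) (c : X →₀ ℤ) : f c = g c :=
  DFunLike.congr_fun (Finsupp.addHom_ext' fun p => AddMonoidHom.ext_int (h p)) c

theorem act_act (g h : G) (c : G × ι →₀ ℤ) : act g (act h c) = act (g * h) c :=
  hom_ext (f := (act g).comp (act h)) (fun p => by
    obtain ⟨a, i⟩ := p
    simp [mul_assoc]) c

@[simp] theorem act_one (c : G × ι →₀ ℤ) : act (1 : G) c = c :=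
  hom_ext (g := AddMonoidHom.id _) (fun p => by
    obtain ⟨a, i⟩ := p
    simp) c

/-- the additive map with given values on the basis -/
noncomputable def ext {X K : Type} [AddCommGroup K] (f : X → K) : (X →₀ ℤ) →+ K :=
  Finsupp.liftAddHom fun p => zmultiplesHom K (f p)

@[simp] theorem ext_single {X K : Type} [AddCommGroup K] (f : X → K) (p : X) :
    ext f (Finsupp.single p 1) = f p := by simp [ext]

theorem abs_le_mass {X : Type} (Θ : (X →₀ ℤ) →+ ℤ) (B : ℕ)
    (h : ∀ p, |Θ (Finsupp.single p 1)| ≤ B) (c : X →₀ ℤ) : |Θ c| ≤ B * Tri.mass c := by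
  conv_lhs => rw [← c.sum_single, Finsupp.sum, map_sum]
  refine (Finset.abs_sum_le_sum_abs _ _).trans ?_
  rw [Tri.mass, Nat.cast_sum, Finset.mul_sum]
  refine Finset.sum_le_sum fun p _ => ?_
  rw [← Finsupp.smul_single_one, map_zsmul, smul_eq_mul, abs_mul, Nat.cast_natAbs, Int.cast_id,
    mul_comm]
  exact mul_le_mul_of_nonneg_right (h p) (abs_nonneg _)

variable (G ι) in
/-- translation as an action on the multiplicative chains -/
noncomputable def actAut : G →* MulAut (Multiplicative (G × ι →₀ ℤ)) where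
  toFun g :=
    { toFun := fun c => Multiplicative.ofAdd (act g c.toAdd)
      invFun := fun c => Multiplicative.ofAdd (act g⁻¹ c.toAdd)
      left_inv := fun c => by simp [act_act]
      right_inv := fun c => by simp [act_act]
      map_mul' := fun a b => by simp }
  map_one' := by ext c; simp
  map_mul' g h := by ext c; simp [act_act]

/-- averaging over a finite subgroup -/
noncomputable def avg {κ : Type} (H : Subgroup G) [Fintype H] (φ : (G × ι →₀ ℤ) →+ (G × κ →₀ ℤ))
    (c : G × ι →₀ ℤ) : G × κ →₀ ℤ := ∑ h : H, act (h : G) (φ (act (h : G)⁻¹ c))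

theorem avg_act {κ : Type} (H : Subgroup G) [Fintype H] (φ : (G × ι →₀ ℤ) →+ (G × κ →₀ ℤ))
    (c : G × ι →₀ ℤ) (g : H) : avg H φ (act (g : G) c) = act (g : G) (avg H φ c) := by
  rw [avg, avg, map_sum, ← Equiv.sum_comp (Equiv.mulLeft g)]
  simp [act_act]

theorem avg_sub {κ : Type} (H : Subgroup G) [Fintype H] (φ : (G × ι →₀ ℤ) →+ (G × κ →₀ ℤ))
    (c c' : G × ι →₀ ℤ) : avg H φ (c - c') = avg H φ c - avg H φ c' := by
  simp [avg]

/-- the identity of a free permutation module is an average -/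
theorem exists_higman (ι : Type) (H : Subgroup G) [Fintype H] :
    ∃ θ : (G × ι →₀ ℤ) →+ (G × ι →₀ ℤ), ∀ c, avg H θ c = c := by
  let rep : G → G := fun y => (Quotient.mk (QuotientGroup.rightRel H) y).out
  have h1 : ∀ y, y * (rep y)⁻¹ ∈ H := fun y =>
    QuotientGroup.rightRel_apply.1 (Quotient.mk_out (s := QuotientGroup.rightRel H) y)
  have h2 : ∀ y (h : H), rep ((h : G)⁻¹ * y) = rep y := fun y h =>
    congrArg Quotient.out (Quotient.sound (QuotientGroup.rightRel_apply.2 (by simp)))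
  let θ : (G × ι →₀ ℤ) →+ (G × ι →₀ ℤ) :=
    ext fun p => if rep p.1 = p.1 then Finsupp.single p 1 else 0
  refine ⟨θ, fun c => ?_⟩
  have := hom_ext (f := ∑ h : H, (act (h : G)).comp (θ.comp (act (h : G)⁻¹)))
    (g := AddMonoidHom.id _) (fun p => ?_) c
  · simpa [avg] using this
  · obtain ⟨y, i⟩ := p
    simp only [AddMonoidHom.finsetSum_apply, AddMonoidHom.comp_apply, act_single, θ, ext_single, h2,
      AddMonoidHom.id_apply]
    rw [Finset.sum_eq_single ⟨_, h1 y⟩ (fun h _ hh => ?_) (by simp)]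
    · simp
    · rw [if_neg, map_zero]
      intro e
      exact hh (Subtype.ext (by simp [e]))

end Act

variable {A R : Type} (T : Tri A R)

/-- the chain of the path spelled by a word -/
noncomputable def pc (w : FreeGroup A) : T.G × A →₀ ℤ :=
  (FreeGroup.lift (fun s => (⟨Multiplicative.ofAdd (Finsupp.single (1, s) 1), T.x s⟩ :
    Multiplicative (T.G × A →₀ ℤ) ⋊[actAut T.G A] T.G)) w).left.toAdd

theorem pc_of (s : A) : pc T (FreeGroup.of s) = Finsupp.single (1, s) 1 := by simp [pc]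

theorem pc_mul (u v : FreeGroup A) : pc T (u * v) = pc T u + act (T.π u) (pc T v) := by
  have h : ∀ w, (FreeGroup.lift (fun s => (⟨Multiplicative.ofAdd (Finsupp.single (1, s) 1), T.x s⟩ :
      Multiplicative (T.G × A →₀ ℤ) ⋊[actAut T.G A] T.G)) w).right = T.π w := fun w =>
    DFunLike.congr_fun (FreeGroup.ext_hom (SemidirectProduct.rightHom.comp _) T.π
      fun s => by simp [Tri.x]) w
  simp only [pc, map_mul, SemidirectProduct.mul_left, h]
  rfl

theorem pc_one : pc T 1 = 0 := by simp [pc]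

theorem pc_inv (u : FreeGroup A) : pc T u⁻¹ = -act (T.π u)⁻¹ (pc T u) := by
  have := pc_mul T u⁻¹ u
  rw [inv_mul_cancel, pc_one, map_inv] at this
  exact eq_neg_of_add_eq_zero_left this.symm

theorem π_rel (ρ : R) : T.π (T.rel ρ) = 1 := PresentedGroup.one_of_mem ⟨ρ, rfl⟩

theorem x_rel (ρ : R) : T.x (T.a ρ) * T.x (T.b ρ) = T.x (T.c ρ) := by
  have := π_rel T ρ
  rwa [Tri.rel, map_mul, map_mul, map_inv, mul_inv_eq_one] at this

theorem d2_single (g : T.G) (ρ : R) : T.d2 (Finsupp.single (g, ρ) 1) =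
    Finsupp.single (g, T.a ρ) 1 + Finsupp.single (g * T.x (T.a ρ), T.b ρ) 1 -
      Finsupp.single (g, T.c ρ) 1 := ext_single _ _

theorem d2_act (g : T.G) (c : T.G × R →₀ ℤ) : T.d2 (act g c) = act g (T.d2 c) :=
  hom_ext (f := T.d2.comp (act g)) (g := (act g).comp T.d2) (fun p => by
    obtain ⟨h, ρ⟩ := p
    simp [d2_single, mul_assoc]) c

theorem pc_rel (ρ : R) : pc T (T.rel ρ) = T.d2 (Finsupp.single (1, ρ) 1) := by
  have := x_rel T ρ
  simp only [Tri.x] at this
  simp [Tri.rel, pc_mul, pc_inv, pc_of, d2_single, this, Tri.x, sub_eq_add_neg]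

theorem of_mem_D {p : FreeGroup A × Multiplicative (T.G × R →₀ ℤ)} (hp : p ∈ T.D) :
    T.π p.1 = 1 ∧ pc T p.1 = T.d2 p.2.toAdd := by
  induction hp using Subgroup.closure_induction with
  | mem p hp =>
    obtain ⟨u, ρ, rfl⟩ := hp
    refine ⟨by simp [π_rel], ?_⟩
    simp [pc_mul, pc_inv, π_rel, act_act, pc_rel, ← d2_act]
  | one => simp [pc_one]
  | mul p q _ _ hp hq => simp [pc_mul, hp, hq]
  | inv p _ hp => simp [pc_inv, hp]

theorem conj_mem_D (u : FreeGroup A) {p : FreeGroup A × Multiplicative (T.G × R →₀ ℤ)}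
    (hp : p ∈ T.D) : (u * p.1 * u⁻¹, Multiplicative.ofAdd (act (T.π u) p.2.toAdd)) ∈ T.D := by
  have := Subgroup.mem_map_of_mem
    (((MulAut.conj u).toMonoidHom).prodMap (actAut T.G R (T.π u)).toMonoidHom) hp
  rw [Tri.D, MonoidHom.map_closure] at this
  refine Subgroup.closure_mono ?_ this
  rintro _ ⟨_, ⟨v, ρ, rfl⟩, rfl⟩
  exact ⟨u * v, ρ, by simp [actAut, mul_assoc]⟩

theorem mem_D_of_π {n : FreeGroup A} (hn : T.π n = 1) :
    ∃ c, (n, Multiplicative.ofAdd c) ∈ T.D := by
  have : (T.D.map (MonoidHom.fst _ _)).Normal := ⟨by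
    rintro _ ⟨p, hp, rfl⟩ u
    exact ⟨_, conj_mem_D T u hp, rfl⟩⟩
  obtain ⟨p, hp, rfl⟩ := Subgroup.normalClosure_le_normal (N := T.D.map (MonoidHom.fst _ _))
    (by
      rintro _ ⟨ρ, rfl⟩
      exact ⟨_, Subgroup.subset_closure ⟨1, ρ, rfl⟩, by simp⟩) (PresentedGroup.mk_eq_one_iff.1 hn)
  exact ⟨p.2.toAdd, hp⟩

theorem exists_mem_D (c : T.G × R →₀ ℤ) : ∃ n, (n, Multiplicative.ofAdd c) ∈ T.D := by
  induction c using Finsupp.induction_linear with
  | zero => exact ⟨1, T.D.one_mem⟩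
  | add a b ha hb =>
    obtain ⟨n, hn⟩ := ha
    obtain ⟨m, hm⟩ := hb
    exact ⟨n * m, T.D.mul_mem hn hm⟩
  | single p m =>
    obtain ⟨g, ρ⟩ := p
    obtain ⟨u, rfl⟩ := PresentedGroup.mk_surjective _ g
    refine ⟨(u * T.rel ρ * u⁻¹) ^ m, ?_⟩
    have := T.D.zpow_mem (Subgroup.subset_closure ⟨u, ρ, rfl⟩) m
    rwa [Prod.pow_mk, ← ofAdd_zsmul, Finsupp.smul_single_one] at this

/-- a section of the projection -/
noncomputable def sec (g : T.G) : FreeGroup A :=
  if g = 1 then 1 else (PresentedGroup.mk_surjective _ g).choose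

theorem π_sec (g : T.G) : T.π (sec T g) = g := by
  unfold sec
  split_ifs with h
  · rw [map_one, h]
  · exact (PresentedGroup.mk_surjective _ g).choose_spec

theorem sec_one : sec T 1 = 1 := if_pos rfl

theorem mem_D_of_pc {n : FreeGroup A} (hn : T.π n = 1) (h : pc T n = 0) : (n, 1) ∈ T.D := by
  let e : T.G → FreeGroup A → T.π.ker := fun g w =>
    ⟨sec T g * w * (sec T (g * T.π w))⁻¹, by simp [MonoidHom.mem_ker, π_sec]⟩
  let ψ : (T.G × A →₀ ℤ) →+ Additive (Abelianization T.π.ker) :=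
    ext fun p => Additive.ofMul (Abelianization.of (e p.1 (FreeGroup.of p.2)))
  have key : ∀ w g, ψ (act g (pc T w)) = Additive.ofMul (Abelianization.of (e g w)) := by
    intro w
    induction w using FreeGroup.induction_on with
    | C1 =>
      intro g
      rw [show e g 1 = 1 from Subtype.ext (by simp [e])]
      simp [pc_one]
    | of s => intro g; simp [pc_of, ψ]
    | inv_of s ih =>
      intro g
      rw [pc_inv, map_neg, map_neg, act_act, ih, ← ofMul_inv, ← map_inv]
      congr 2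
      exact Subtype.ext (by simp [e, mul_assoc])
    | mul u v hu hv =>
      intro g
      rw [pc_mul, map_add, map_add, act_act, hu, hv, ← ofMul_mul, ← map_mul]
      congr 2
      exact Subtype.ext (by simp [e, mul_assoc])
  have h1 := key n 1
  rw [h, map_zero, map_zero] at h1
  have h2 : e 1 n ∈ commutator T.π.ker := by
    rw [← Abelianization.ker_of]
    exact h1.symm
  have h3 : commutator T.π.ker ≤ T.D.comap ((MonoidHom.inl _ _).comp T.π.ker.subtype) := by
    refine Subgroup.commutator_le.2 fun a _ b _ => ?_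
    obtain ⟨c, hc⟩ := mem_D_of_π T a.2
    obtain ⟨d, hd⟩ := mem_D_of_π T b.2
    have := T.D.mul_mem (T.D.mul_mem (T.D.mul_mem hc hd) (T.D.inv_mem hc)) (T.D.inv_mem hd)
    simpa [commutatorElement_def] using this
  simpa [e, hn, sec_one] using h3 h2

theorem d2_inj {C : ℕ} (h : T.Fill C) : Function.Injective T.d2 := by
  rw [injective_iff_map_eq_zero]
  intro c hc
  obtain ⟨n, hn⟩ := exists_mem_D T c
  have h1 := of_mem_D T hn
  have h2 := T.D.mul_mem (T.D.inv_mem (mem_D_of_pc T h1.1 (h1.2.trans hc))) hn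
  have h3 := h [] c (by simpa [← FreeGroup.one_eq_mk] using h2)
  rw [List.length_nil, mul_zero, Nat.le_zero, Tri.mass, Finset.sum_eq_zero_iff] at h3
  ext p
  by_contra h0
  exact h0 (Int.natAbs_eq_zero.1 (h3 p (Finsupp.mem_support_iff.2 h0)))

theorem iso [Fintype A] {C : ℕ} (hC : T.Fill C) : Iso (univ.image T.x) (12 * C) := by
  intro l hl hl1 g f h hf hh
  let Φ : (T.G × A →₀ ℤ) →+ ℤ :=
    ext fun p => (f p.1 + f (p.1 * T.x p.2)) * (h (p.1 * T.x p.2) - h p.1)
  have key : ∀ l : List T.G, (∀ x ∈ l, x ∈ univ.image T.x ∨ x⁻¹ ∈ univ.image T.x) →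
      ∃ w : List (A × Bool), w.length = l.length ∧ T.π (FreeGroup.mk w) = l.prod ∧
        ∀ g, Φ (act g (pc T (FreeGroup.mk w))) = area f h g l := by
    intro l hl
    induction l with
    | nil => exact ⟨[], rfl, map_one _, fun g => by simp [← FreeGroup.one_eq_mk, pc_one, area]⟩
    | cons x l ih =>
      obtain ⟨w, h1, h2, h3⟩ := ih fun y hy => hl y (List.mem_cons_of_mem _ hy)
      rcases hl x List.mem_cons_self with hx | hx
      · obtain ⟨s, -, rfl⟩ := Finset.mem_image.1 hx
        have e : FreeGroup.mk ((s, true) :: w) = FreeGroup.of s * FreeGroup.mk w := rfl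
        refine ⟨(s, true) :: w, by simp [h1], by rw [e, map_mul, h2]; rfl, fun g => ?_⟩
        rw [e, pc_mul, map_add, map_add, act_act, h3, pc_of]
        simp [area, Φ, Tri.x]
      · obtain ⟨s, -, hs⟩ := Finset.mem_image.1 hx
        obtain rfl : x = (T.x s)⁻¹ := by rw [hs, inv_inv]
        have e : FreeGroup.mk ((s, false) :: w) = (FreeGroup.of s)⁻¹ * FreeGroup.mk w := rfl
        refine ⟨(s, false) :: w, by simp [h1], by rw [e, map_mul, h2]; rfl, fun g => ?_⟩
        rw [e, pc_mul, map_add, map_add, act_act, h3, pc_inv, pc_of]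
        simp only [area, Φ, Tri.x, act_single, map_neg, ext_single, map_inv, mul_one,
          inv_mul_cancel_right]
        ring
  obtain ⟨w, h1, h2, h3⟩ := key l hl
  obtain ⟨c, hc⟩ := mem_D_of_π T (h2.trans hl1)
  have h4 := abs_le_mass (Φ.comp ((act g).comp T.d2)) 12 (fun p => ?_) c
  · rw [← h3, (of_mem_D T hc).2, ← h1]
    have : (Tri.mass c : ℤ) ≤ C * w.length := by exact_mod_cast hC w c hc
    refine h4.trans ?_
    push_cast
    linarith
  · obtain ⟨y, ρ⟩ := p
    have m : ∀ s, T.x s ∈ univ.image T.x := fun s => Finset.mem_image_of_mem _ (Finset.mem_univ s)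
    have a1 := abs_le.1 (hf (g * y) _ (m (T.a ρ)))
    have a2 := abs_le.1 (hf (g * y) _ (m (T.c ρ)))
    have a3 := abs_le.1 (hh (g * y) _ (m (T.a ρ)))
    have a4 := abs_le.1 (hh (g * y) _ (m (T.c ρ)))
    simp only [AddMonoidHom.comp_apply, d2_single, map_sub, map_add, act_single, Φ, ext_single,
      mul_assoc, x_rel] at a1 a2 a3 a4 ⊢
    rw [abs_le]
    constructor <;> push_cast <;> nlinarith

/-- the boundary of 1-chains -/
noncomputable def d1 : (T.G × A →₀ ℤ) →+ (T.G × Unit →₀ ℤ) :=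
  ext fun p => Finsupp.single (p.1 * T.x p.2, ()) 1 - Finsupp.single (p.1, ()) 1

/-- the path to a vertex -/
noncomputable def tr : (T.G × Unit →₀ ℤ) →+ (T.G × A →₀ ℤ) := ext fun p => pc T (sec T p.1)

theorem d1_act (g : T.G) (c : T.G × A →₀ ℤ) : d1 T (act g c) = act g (d1 T c) :=
  hom_ext (f := (d1 T).comp (act g)) (g := (act g).comp (d1 T)) (fun p => by
    obtain ⟨h, ρ⟩ := p
    simp [d1, mul_assoc]) c

theorem d1_d2 (c : T.G × R →₀ ℤ) : d1 T (T.d2 c) = 0 :=
  hom_ext (f := (d1 T).comp T.d2) (g := 0) (fun p => by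
    obtain ⟨h, ρ⟩ := p
    simp [d1, d2_single, mul_assoc, x_rel]) c

theorem d1_pc (w : FreeGroup A) :
    d1 T (pc T w) = Finsupp.single (T.π w, ()) 1 - Finsupp.single (1, ()) 1 := by
  induction w using FreeGroup.induction_on with
  | C1 => simp [pc_one]
  | of s => simp [pc_of, d1, Tri.x]
  | inv_of s ih => simp [pc_inv, d1_act, ih]
  | mul u v hu hv => simp [pc_mul, d1_act, hu, hv]

theorem exists_sigma : ∃ σ : (T.G × A →₀ ℤ) →+ (T.G × R →₀ ℤ),
    ∀ z, T.d2 (σ z) = z - tr T (d1 T z) := by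
  have key : ∀ p : T.G × A, ∃ c, T.d2 c = Finsupp.single p 1 - tr T (d1 T (Finsupp.single p 1)) := by
    rintro ⟨g, s⟩
    obtain ⟨c, hc⟩ := mem_D_of_π T (n := sec T g * FreeGroup.of s * (sec T (g * T.x s))⁻¹)
      (by simp [π_sec, Tri.x])
    refine ⟨c, (of_mem_D T hc).2.symm.trans ?_⟩
    simp only [pc_mul, pc_inv, pc_of, π_sec, map_mul, map_neg, act_act, act_single, d1, tr,
      ext_single, map_sub, mul_one, Tri.x, mul_inv_cancel, act_one]
    abel
  choose σ hσ using key
  exact ⟨ext σ, hom_ext (f := T.d2.comp (ext σ)) (g := AddMonoidHom.id _ - (tr T).comp (d1 T))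
    fun p => by simp [hσ]⟩

theorem split (h : Function.Injective T.d2) : T.Split := by
  intro K _ ω
  obtain ⟨σ, hσ⟩ := exists_sigma T
  refine ⟨fun p => ext ω (σ (Finsupp.single p 1)), fun g ρ => ?_⟩
  rw [← map_add, ← map_add, ← map_sub, ← map_sub, ← d2_single,
    h (show T.d2 (σ (T.d2 _)) = T.d2 (Finsupp.single (g, ρ) 1) by
      rw [hσ, d1_d2, map_zero, sub_zero]), ext_single]

theorem torsionFree (h : Function.Injective T.d2) (g : T.G) (hg : IsOfFinOrder g) : g = 1 := by
  let H := Subgroup.zpowers g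
  have : Finite H := finite_zpowers.2 hg
  have := Fintype.ofFinite H
  obtain ⟨σ, hσ⟩ := exists_sigma T
  obtain ⟨θ₀, h₀⟩ := exists_higman Unit H
  obtain ⟨θ₁, h₁⟩ := exists_higman A H
  obtain ⟨θ₂, h₂⟩ := exists_higman R H
  let aug : (T.G × Unit →₀ ℤ) →+ ℤ := ext fun _ => 1
  have aug_act : ∀ (y : T.G) c, aug (act y c) = aug c := fun y =>
    hom_ext (f := aug.comp (act y)) fun p => by
      obtain ⟨a, i⟩ := p
      simp [aug]
  have aug_d1 : ∀ c, aug (d1 T c) = 0 :=
    hom_ext (f := aug.comp (d1 T)) (g := 0) fun p => by simp [aug, d1]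
  have d1_tr : ∀ y, d1 T (tr T y) = y - aug y • Finsupp.single (1, ()) 1 :=
    hom_ext (f := (d1 T).comp (tr T)) (g := AddMonoidHom.id _ - (zmultiplesHom _ _).comp aug)
      fun p => by simp [aug, tr, d1_pc, π_sec]
  have hσ' : ∀ c, σ (T.d2 c) = c := fun c => h (by rw [hσ, d1_d2, map_zero, sub_zero])
  let P : (T.G × A →₀ ℤ) →+ (T.G × A →₀ ℤ) := AddMonoidHom.id _ -
    T.d2.comp (∑ y : H, (act (y : T.G)).comp ((θ₂.comp σ).comp (act (y : T.G)⁻¹)))
  have hP : ∀ z, P z = z - T.d2 (avg H (θ₂.comp σ) z) := fun z => by simp [P, avg]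
  have P0 : ∀ z, d1 T z = 0 → P z = 0 := fun z hz => by
    have e : T.d2 (σ z) = z := by rw [hσ, hz, map_zero, sub_zero]
    rw [hP, ← e, sub_eq_zero]
    congr 1
    conv_lhs => rw [← h₂ (σ z)]
    simp [avg, ← d2_act, hσ']
  have Pact : ∀ (y : H) z, P (act (y : T.G) z) = act (y : T.G) (P z) := fun y z => by
    rw [hP, hP, avg_act, d2_act, map_sub]
  have d1P : ∀ z, d1 T (P z) = d1 T z := fun z => by rw [hP, map_sub, d1_d2, sub_zero]
  have sact : ∀ (y : H) z, aug z = 0 → P (tr T (act (y : T.G) z)) = act (y : T.G) (P (tr T z)) :=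
    fun y z hz => by
      rw [← Pact, ← sub_eq_zero, ← map_sub]
      exact P0 _ (by simp [d1_tr, d1_act, aug_act, hz])
  let φ := (d1 T).comp (θ₁.comp (P.comp (tr T)))
  have hR : ∀ z, aug z = 0 → avg H φ z = z := fun z hz => by
    have e : ∀ y : H, act (y : T.G) (φ (act (y : T.G)⁻¹ z)) =
        d1 T (act (y : T.G) (θ₁ (act (y : T.G)⁻¹ (P (tr T z))))) := fun y => by
      have := sact y⁻¹ z hz
      rw [Subgroup.coe_inv] at this
      simp [φ, this, d1_act]
    rw [avg, Finset.sum_congr rfl fun y _ => e y, ← map_sum, ← avg, h₁, d1P, d1_tr, hz, zero_smul,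
      sub_zero]
  let o : T.G × Unit →₀ ℤ := Finsupp.single (1, ()) 1
  let v := o - avg H φ o
  have hv : ∀ y : H, act (y : T.G) v = v := fun y => by
    have := hR (act (y : T.G) o - o) (by rw [map_sub, aug_act, sub_self])
    rw [avg_sub, avg_act] at this
    simp only [v, map_sub]
    rw [sub_eq_sub_iff_sub_eq_sub, this]
  have e1 : aug v = 1 := by simp [v, o, avg, map_sum, aug_act, φ, aug_d1, aug]
  have e2 : aug v = Fintype.card H * aug (θ₀ v) := by
    conv_lhs => rw [← h₀ v, avg, map_sum]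
    have : ∀ y : H, act (y : T.G)⁻¹ v = v := fun y => hv y⁻¹
    simp [aug_act, this]
  have e3 : Fintype.card H = 1 := by
    exact_mod_cast Int.eq_one_of_mul_eq_one_right (by positivity) (e2.symm.trans e1)
  have := Fintype.card_le_one_iff_subsingleton.1 e3.le
  exact congrArg Subtype.val (Subsingleton.elim (⟨g, Subgroup.mem_zpowers g⟩ : H) 1)

theorem dedekind (G : Type) [Group G] (K : Type) [Field K] [Finite K]
    (hG : Group.ResiduallyFinite G) (a b c : MonoidAlgebra K G) (h1 : a * b = 1) (h2 : a * c = 0) :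
    c = 0 := by
  have key : ∀ S : Finset G, ∃ H : FiniteIndexNormalSubgroup G, ∀ x ∈ S, x ∈ H → x = 1 := by
    intro S
    induction S using Finset.induction_on with
    | empty => exact ⟨.ofSubgroup ⊤, by simp⟩
    | insert x S _ ih =>
      obtain ⟨H, hH⟩ := ih
      by_cases hx : x = 1
      · exact ⟨H, by simpa [hx] using hH⟩
      · obtain ⟨H', hH'⟩ := Group.exists_finiteIndexNormalSubgroup_notMem x hx
        refine ⟨H ⊓ H', fun y hy hy' => ?_⟩
        rcases Finset.mem_insert.1 hy with rfl | hy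
        · exact absurd hy'.2 hH'
        · exact hH y hy hy'.1
  obtain ⟨H, hH⟩ := key ((c.coeff.support ×ˢ c.coeff.support).image fun p => p.1⁻¹ * p.2)
  let f := MonoidAlgebra.mapDomainRingHom K (QuotientGroup.mk' H.toSubgroup)
  have : Finite (MonoidAlgebra K (G ⧸ H.toSubgroup)) :=
    Finite.of_injective (fun x => (x.coeff : _ → K))
      (DFunLike.coe_injective.comp MonoidAlgebra.coeff_injective)
  have e1 : f b * f a = 1 := mul_eq_one_symm (by rw [← map_mul, h1, map_one])
  have e2 : f c = 0 := by rw [← one_mul (f c), ← e1, mul_assoc, ← map_mul, h2, map_zero, mul_zero]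
  ext g
  by_contra h0
  have hg : g ∈ c.coeff.support := Finsupp.mem_support_iff.2 h0
  have := Finsupp.mapDomain_apply' (f := QuotientGroup.mk' H.toSubgroup) (c.coeff.support : Set G)
    c.coeff subset_rfl (fun x hx y hy e => eq_of_inv_mul_eq_one (hH _ (Finset.mem_image.2
      ⟨(x, y), Finset.mem_product.2 ⟨hx, hy⟩, rfl⟩) (QuotientGroup.eq.1 e))) hg
  exact h0 (this.symm.trans (congrArg (fun x => MonoidAlgebra.coeff x (g : G ⧸ H.toSubgroup)) e2))

end AlgAux

theorem mem_D_of_π {A R : Type} (T : Tri A R) {n : FreeGroup A} (hn : T.π n = 1) :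
    ∃ c, (n, Multiplicative.ofAdd c) ∈ T.D := AlgAux.mem_D_of_π T hn

theorem algStmt : AlgStmt :=
  ⟨fun _ _ _ T _ h => ⟨AlgAux.d2_inj T h, AlgAux.iso T h, by
    rw [Finset.coe_image, Finset.coe_univ, Set.image_univ]
    exact PresentedGroup.closure_range_of _⟩,
   fun _ _ T h => ⟨AlgAux.split T h, AlgAux.torsionFree T h⟩, AlgAux.dedekind⟩

end Crest.Agent.R177
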