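import Crest.Agent.R177.CW1

/-! Row 177, CW part 2: the presentation complex is a finite classifying complex. -/

set_option autoImplicit false

namespace Crest.Agent.R177.CW

open unitInterval Metric Set
open scoped Classical

variable {A R : Type} (T : Tri A R)

/-- the presentation complex -/
def XX (_ : Tri A R) : Type := Pt A R

/-- the covering projection -/
def pp (e : T.Cov) : XX T := e.2

noncomputable instance : TopologicalSpace (XX T) := TopologicalSpace.coinduced (pp T) inferInstance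

lemma isQuotientCoveringMap : IsQuotientCoveringMap (pp T) T.G where
  surjective x := ⟨(1, x), rfl⟩
  eq_coinduced := rfl
  continuous_const_smul := continuous_smul' T
  apply_eq_iff_mem_orbit := by
    rintro ⟨g, p⟩ ⟨g', p'⟩
    constructor
    · intro h
      refine ⟨g * g'⁻¹, ?_⟩
      change (g * g'⁻¹ * g', p') = (g, p)
      rw [inv_mul_cancel_right]
      exact Prod.ext rfl (Eq.symm h)
    · rintro ⟨h, hh⟩
      exact (congrArg Prod.snd hh).symm
  disjoint := disjoint_nhds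

lemma continuous_pp : Continuous (pp T) := continuous_coinduced_rng

/-- invariant data -/
def inv (b b' : A → ℝ) (d : R → I × I → ℝ) : Dat T :=
  ⟨0, fun _ => b, fun _ => b', fun _ => d⟩

/-- invariant function on the complex -/
noncomputable def ψ (b b' : A → ℝ) (d : R → I × I → ℝ) (x : XX T) : ℝ := (inv T b b' d).Φ (1, x)

lemma ψ_pp (b b' : A → ℝ) (d : R → I × I → ℝ) (e : T.Cov) :
    ψ T b b' d (pp T e) = (inv T b b' d).Φ e := by
  have h := (inv T b b' d).Φ_smul e.1⁻¹ e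
  have h2 : e.1⁻¹ • e = (1, pp T e) := Prod.ext (inv_mul_cancel _) rfl
  rw [h2] at h
  exact h

lemma continuous_ψ (b b' : A → ℝ) (d : R → I × I → ℝ) (hd : ∀ ρ, Continuous (d ρ)) :
    Continuous (ψ T b b' d) := by
  refine continuous_coinduced_dom.2 ?_
  have : ψ T b b' d ∘ pp T = (inv T b b' d).Φ := funext (ψ_pp T b b' d)
  rw [this]
  exact Dat.continuous_Φ _ fun _ ρ => hd ρ

/-- edge coordinates -/
noncomputable def e1 (s : A) : XX T → ℝ := ψ T (Pi.single s 1) 0 0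
noncomputable def e2 (s : A) : XX T → ℝ := ψ T 0 (Pi.single s 1) 0
/-- face coordinates -/
noncomputable def fc (ρ : R) (k : I × I → ℝ) : XX T → ℝ := ψ T 0 0 (Pi.single ρ k)

lemma continuous_e1 (s : A) : Continuous (e1 T s) := continuous_ψ T _ _ _ fun _ => continuous_zero
lemma continuous_e2 (s : A) : Continuous (e2 T s) := continuous_ψ T _ _ _ fun _ => continuous_zero
lemma continuous_fc (ρ : R) (k : I × I → ℝ) (hk : Continuous k) : Continuous (fc T ρ k) :=
  continuous_ψ T _ _ _ fun ρ' => by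
    by_cases h : ρ' = ρ
    · subst h; simpa using hk
    · simp only [Pi.single_eq_of_ne h]; exact continuous_zero

lemma e1_v (s : A) : e1 T s Pt.v = 0 := rfl
lemma fc_v (ρ : R) (k : I × I → ℝ) : fc T ρ k Pt.v = 0 := rfl
lemma e1_e (s s' : A) (t : I) (h0 : t ≠ 0) (h1 : t ≠ 1) :
    e1 T s (Pt.e s' t h0 h1) = if s' = s then (t : ℝ) * (1 - t) else 0 := by
  change Dat.φ1 _ _ _ _ = _
  by_cases h : s' = s
  · subst h; simp [Dat.φ1, inv, mul_comm]
  · simp [Dat.φ1, inv, h]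
lemma e2_e (s : A) (t : I) (h0 : t ≠ 0) (h1 : t ≠ 1) :
    e2 T s (Pt.e s t h0 h1) = (t : ℝ) * (1 - t) * t := by
  change Dat.φ1 _ _ _ _ = _
  simp [Dat.φ1, inv, mul_comm]
lemma fc_e (ρ : R) (k : I × I → ℝ) (s : A) (t : I) (h0 : t ≠ 0) (h1 : t ≠ 1) :
    fc T ρ k (Pt.e s t h0 h1) = 0 := by
  change Dat.φ1 _ _ _ _ = _
  simp [Dat.φ1, inv]
lemma fc_f (ρ ρ' : R) (k : I × I → ℝ) (s β : I) (h0 : s ≠ 0) (h1 : s ≠ 1) (h2 : β ≠ 0)
    (h3 : β ≠ 1) :
    fc T ρ k (Pt.f ρ' s β h0 h1 h2 h3) = if ρ' = ρ then bub (s, β) * k (s, β) else 0 := by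
  change Dat.φ2 _ _ _ _ = _
  by_cases h : ρ' = ρ
  · subst h; simp [Dat.φ2, inv]
  · simp [Dat.φ2, inv, h]

lemma bub_pos {s β : I} (h0 : s ≠ 0) (h1 : s ≠ 1) (h2 : β ≠ 0) (h3 : β ≠ 1) : 0 < bub (s, β) :=
  mul_pos (mul_one_sub_pos h0 h1) (mul_one_sub_pos h2 h3)

lemma t2 : T2Space (XX T) := by
  let F : XX T → (A → ℝ × ℝ) × (R → ℝ × ℝ × ℝ) := fun x =>
    (fun s => (e1 T s x, e2 T s x),
      fun ρ => (fc T ρ (fun _ => 1) x, fc T ρ (fun z => z.1) x, fc T ρ (fun z => z.2) x))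
  have hc : Continuous F :=
    (continuous_pi fun s => (continuous_e1 T s).prodMk (continuous_e2 T s)).prodMk
      (continuous_pi fun ρ => (continuous_fc T ρ _ continuous_const).prodMk
        ((continuous_fc T ρ _ (by fun_prop)).prodMk (continuous_fc T ρ _ (by fun_prop))))
  refine T2Space.of_injective_continuous (f := F) ?_ hc
  intro x y hxy
  have a1 : ∀ s, e1 T s x = e1 T s y := fun s => congrArg (fun q => (q.1 s).1) hxy
  have a2 : ∀ s, e2 T s x = e2 T s y := fun s => congrArg (fun q => (q.1 s).2) hxy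
  have b1 : ∀ ρ, fc T ρ (fun _ => 1) x = fc T ρ (fun _ => 1) y :=
    fun ρ => congrArg (fun q => (q.2 ρ).1) hxy
  have b2 : ∀ ρ, fc T ρ (fun z => z.1) x = fc T ρ (fun z => z.1) y :=
    fun ρ => congrArg (fun q => (q.2 ρ).2.1) hxy
  have b3 : ∀ ρ, fc T ρ (fun z => z.2) x = fc T ρ (fun z => z.2) y :=
    fun ρ => congrArg (fun q => (q.2 ρ).2.2) hxy
  clear hxy hc F
  rcases x with _ | ⟨s, t, h0, h1⟩ | ⟨ρ, s, β, h0, h1, h2, h3⟩ <;>
    rcases y with _ | ⟨s', t', h0', h1'⟩ | ⟨ρ', s', β', h0', h1', h2', h3'⟩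
  · rfl
  · have := a1 s'
    rw [e1_v, e1_e, if_pos rfl] at this
    exact absurd this (mul_one_sub_pos h0' h1').ne
  · have := b1 ρ'
    rw [fc_v, fc_f, if_pos rfl, mul_one] at this
    exact absurd this (bub_pos h0' h1' h2' h3').ne
  · have := a1 s
    rw [e1_v, e1_e, if_pos rfl] at this
    exact absurd this (mul_one_sub_pos h0 h1).ne'
  · have h := a1 s
    rw [e1_e, e1_e, if_pos rfl] at h
    have hp := mul_one_sub_pos h0 h1
    have hs : s' = s := by
      by_contra hne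
      rw [if_neg hne] at h
      exact hp.ne' h
    subst hs
    rw [if_pos rfl] at h
    have h' := a2 s'
    rw [e2_e, e2_e, ← h] at h'
    have ht : t = t' := Subtype.ext (mul_left_cancel₀ hp.ne' h')
    subst ht
    rfl
  · have := b1 ρ'
    rw [fc_e, fc_f, if_pos rfl, mul_one] at this
    exact absurd this (bub_pos h0' h1' h2' h3').ne
  · have := b1 ρ
    rw [fc_v, fc_f, if_pos rfl, mul_one] at this
    exact absurd this (bub_pos h0 h1 h2 h3).ne'
  · have := b1 ρ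
    rw [fc_e, fc_f, if_pos rfl, mul_one] at this
    exact absurd this (bub_pos h0 h1 h2 h3).ne'
  · have h := b1 ρ
    rw [fc_f, fc_f, if_pos rfl, mul_one] at h
    have hp := bub_pos h0 h1 h2 h3
    have hs : ρ' = ρ := by
      by_contra hne
      rw [if_neg hne] at h
      exact hp.ne' h
    subst hs
    rw [if_pos rfl, mul_one] at h
    have h' := b2 ρ'
    have h'' := b3 ρ'
    rw [fc_f, fc_f, if_pos rfl, if_pos rfl, ← h] at h' h''
    have hs : s = s' := Subtype.ext (mul_left_cancel₀ hp.ne' h')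
    have hb : β = β' := Subtype.ext (mul_left_cancel₀ hp.ne' h'')
    subst hs hb
    rfl

/-- the affine map `[-1, 1] → [0, 1]`, clamped -/
noncomputable def sg (r : ℝ) : I := projIcc 0 1 zero_le_one ((r + 1) / 2)

lemma continuous_sg : Continuous sg := continuous_projIcc.comp (by fun_prop)

lemma sg_coe {r : ℝ} (h : |r| ≤ 1) : (sg r : ℝ) = (r + 1) / 2 := by
  obtain ⟨a, b⟩ := abs_le.1 h
  rw [sg, projIcc_of_mem _ ⟨by linarith, by linarith⟩]

lemma sg_ne {r : ℝ} (h : |r| < 1) : sg r ≠ 0 ∧ sg r ≠ 1 := by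
  obtain ⟨a, b⟩ := abs_lt.1 h
  constructor
  · intro h0
    have := sg_coe h.le
    rw [h0] at this
    simp only [Icc.coe_zero] at this
    linarith
  · intro h0
    have := sg_coe h.le
    rw [h0] at this
    simp only [Icc.coe_one] at this
    linarith

lemma sg_eq {r : ℝ} (h : |r| = 1) : sg r = 0 ∨ sg r = 1 := by
  have := sg_coe h.le
  rcases abs_eq_abs.1 (h.trans abs_one.symm) with h' | h'
  · right; apply Subtype.ext; rw [this, h']; norm_num
  · left; apply Subtype.ext; rw [this, h']; norm_num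

lemma sg_two (t : I) : sg (2 * t - 1) = t := by
  apply Subtype.ext
  rw [sg_coe (abs_le_one' t)]
  ring

lemma abs_lt_of_mem {n : ℕ} {y : Fin n → ℝ} (h : y ∈ ball (0 : Fin n → ℝ) 1) (i : Fin n) :
    |y i| < 1 := (norm_le_pi_norm y i).trans_lt (mem_ball_zero_iff.1 h)

/-- a partial equivalence from a left inverse on the ball -/
def mkPE {n : ℕ} {X : Type} (f : (Fin n → ℝ) → X) (r : X → Fin n → ℝ)
    (h : ∀ y ∈ ball (0 : Fin n → ℝ) 1, r (f y) = y) : PartialEquiv (Fin n → ℝ) X where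
  toFun := f
  invFun := r
  source := ball 0 1
  target := f '' ball 0 1
  map_source' _ hy := mem_image_of_mem _ hy
  map_target' := by rintro _ ⟨y, hy, rfl⟩; rw [h y hy]; exact hy
  left_inv' := h
  right_inv' := by rintro _ ⟨y, hy, rfl⟩; rw [h y hy]

/-- characteristic map of an edge -/
noncomputable def f1 (s : A) (y : Fin 1 → ℝ) : XX T := pp T (T.edge 1 s (sg (y 0)))
/-- characteristic map of a face -/
noncomputable def f2 (ρ : R) (y : Fin 2 → ℝ) : XX T := pp T (T.face 1 ρ (sg (y 0), sg (y 1)))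

lemma pp_edge (g : T.G) (s : A) (t : I) (h0 : t ≠ 0) (h1 : t ≠ 1) :
    pp T (T.edge g s t) = Pt.e s t h0 h1 := by
  rw [Tri.edge, dif_neg h0, dif_neg h1]; rfl

lemma pp_face (g : T.G) (ρ : R) (s β : I) (h0 : s ≠ 0) (h1 : s ≠ 1) (h2 : β ≠ 0) (h3 : β ≠ 1) :
    pp T (T.face g ρ (s, β)) = Pt.f ρ s β h0 h1 h2 h3 := by
  rw [Tri.face, dif_neg h3, dif_neg h2, dif_neg h0, dif_neg h1]; rfl

lemma f1_eq (s : A) {y : Fin 1 → ℝ} (h : y ∈ ball (0 : Fin 1 → ℝ) 1) :
    f1 T s y = Pt.e s (sg (y 0)) (sg_ne (abs_lt_of_mem h 0)).1 (sg_ne (abs_lt_of_mem h 0)).2 :=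
  pp_edge T _ _ _ _ _

lemma f2_eq (ρ : R) {y : Fin 2 → ℝ} (h : y ∈ ball (0 : Fin 2 → ℝ) 1) :
    f2 T ρ y = Pt.f ρ (sg (y 0)) (sg (y 1)) (sg_ne (abs_lt_of_mem h 0)).1
      (sg_ne (abs_lt_of_mem h 0)).2 (sg_ne (abs_lt_of_mem h 1)).1 (sg_ne (abs_lt_of_mem h 1)).2 :=
  pp_face T _ _ _ _ _ _ _ _

/-- inverse on an open edge -/
noncomputable def r1 (s : A) (x : XX T) : Fin 1 → ℝ := fun _ => 2 * (e2 T s x / e1 T s x) - 1
/-- inverse on an open face -/
noncomputable def r2 (ρ : R) (x : XX T) : Fin 2 → ℝ :=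
  ![2 * (fc T ρ (fun z => z.1) x / fc T ρ (fun _ => 1) x) - 1,
    2 * (fc T ρ (fun z => z.2) x / fc T ρ (fun _ => 1) x) - 1]

lemma r1_f1 (s : A) (y : Fin 1 → ℝ) (h : y ∈ ball (0 : Fin 1 → ℝ) 1) : r1 T s (f1 T s y) = y := by
  have hp := mul_one_sub_pos (sg_ne (abs_lt_of_mem h 0)).1 (sg_ne (abs_lt_of_mem h 0)).2
  funext i
  rw [Subsingleton.elim i 0, f1_eq T s h, r1, e2_e, e1_e, if_pos rfl, mul_div_cancel_left₀ _ hp.ne',
    sg_coe (abs_lt_of_mem h 0).le]
  ring

lemma r2_f2 (ρ : R) (y : Fin 2 → ℝ) (h : y ∈ ball (0 : Fin 2 → ℝ) 1) : r2 T ρ (f2 T ρ y) = y := by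
  have hp := bub_pos (sg_ne (abs_lt_of_mem h 0)).1 (sg_ne (abs_lt_of_mem h 0)).2
    (sg_ne (abs_lt_of_mem h 1)).1 (sg_ne (abs_lt_of_mem h 1)).2
  rw [f2_eq T ρ h, r2, fc_f, fc_f, fc_f, if_pos rfl, if_pos rfl, if_pos rfl, mul_one,
    mul_div_cancel_left₀ _ hp.ne', mul_div_cancel_left₀ _ hp.ne']
  funext i
  fin_cases i
  · simp only [Fin.zero_eta, Matrix.cons_val_zero]
    rw [sg_coe (abs_lt_of_mem h 0).le]; ring
  · simp only [Fin.mk_one, Matrix.cons_val_one, Matrix.cons_val_zero]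
    rw [sg_coe (abs_lt_of_mem h 1).le]; ring

/-- the cells -/
def cell (A R : Type) : ℕ → Type
  | 0 => Unit
  | 1 => A
  | 2 => R
  | _ + 3 => Empty

/-- the characteristic maps -/
noncomputable def cmap : (n : ℕ) → cell A R n → PartialEquiv (Fin n → ℝ) (XX T)
  | 0, _ => mkPE (fun _ => Pt.v) (fun _ => 0) fun _ _ => Subsingleton.elim _ _
  | 1, s => mkPE (f1 T s) (r1 T s) (r1_f1 T s)
  | 2, ρ => mkPE (f2 T ρ) (r2 T ρ) (r2_f2 T ρ)
  | _ + 3, i => i.elim

/-- the open cell of a point -/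
def lbl : XX T → Σ n, cell A R n
  | Pt.v => ⟨0, ()⟩
  | Pt.e s _ _ _ => ⟨1, s⟩
  | Pt.f ρ _ _ _ _ _ _ => ⟨2, ρ⟩

lemma lbl_cmap : ∀ (n : ℕ) (i : cell A R n) (y : Fin n → ℝ), y ∈ ball (0 : Fin n → ℝ) 1 →
    lbl T (cmap T n i y) = ⟨n, i⟩
  | 0, _, _, _ => rfl
  | 1, s, _, h => congrArg (lbl T) (f1_eq T s h)
  | 2, ρ, _, h => congrArg (lbl T) (f2_eq T ρ h)
  | _ + 3, i, _, _ => i.elim

lemma source_eq : ∀ (n : ℕ) (i : cell A R n), (cmap T n i).source = ball 0 1
  | 0, _ => rfl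
  | 1, _ => rfl
  | 2, _ => rfl
  | _ + 3, i => i.elim

lemma contOn : ∀ (n : ℕ) (i : cell A R n), ContinuousOn (cmap T n i) (closedBall 0 1)
  | 0, _ => continuousOn_const
  | 1, s => ((continuous_pp T).comp ((continuous_edge T 1 s).comp
      (continuous_sg.comp (continuous_apply 0)))).continuousOn
  | 2, ρ => ((continuous_pp T).comp ((continuous_face T 1 ρ).comp
      ((continuous_sg.comp (continuous_apply 0)).prodMk
        (continuous_sg.comp (continuous_apply 1))))).continuousOn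
  | _ + 3, i => i.elim

lemma contOn_r1 (s : A) : ContinuousOn (r1 T s) (f1 T s '' ball 0 1) := by
  refine continuousOn_pi.2 fun _ => ?_
  refine (continuousOn_const.mul ((continuous_e2 T s).continuousOn.div
    (continuous_e1 T s).continuousOn ?_)).sub continuousOn_const
  rintro _ ⟨y, h, rfl⟩
  rw [f1_eq T s h, e1_e, if_pos rfl]
  exact (mul_one_sub_pos (sg_ne (abs_lt_of_mem h 0)).1 (sg_ne (abs_lt_of_mem h 0)).2).ne'

lemma contOn_r2 (ρ : R) : ContinuousOn (r2 T ρ) (f2 T ρ '' ball 0 1) := by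
  have h0 : ∀ x ∈ f2 T ρ '' ball 0 1, fc T ρ (fun _ => 1) x ≠ 0 := by
    rintro _ ⟨y, h, rfl⟩
    rw [f2_eq T ρ h, fc_f, if_pos rfl, mul_one]
    exact (bub_pos (sg_ne (abs_lt_of_mem h 0)).1 (sg_ne (abs_lt_of_mem h 0)).2
      (sg_ne (abs_lt_of_mem h 1)).1 (sg_ne (abs_lt_of_mem h 1)).2).ne'
  refine continuousOn_pi.2 fun i => ?_
  fin_cases i
  · exact (continuousOn_const.mul ((continuous_fc T ρ _ (by fun_prop)).continuousOn.div
      (continuous_fc T ρ _ continuous_const).continuousOn h0)).sub continuousOn_const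
  · exact (continuousOn_const.mul ((continuous_fc T ρ _ (by fun_prop)).continuousOn.div
      (continuous_fc T ρ _ continuous_const).continuousOn h0)).sub continuousOn_const

lemma contOn_symm : ∀ (n : ℕ) (i : cell A R n),
    ContinuousOn (cmap T n i).symm (cmap T n i).target
  | 0, _ => continuousOn_const
  | 1, s => contOn_r1 T s
  | 2, ρ => contOn_r2 T ρ
  | _ + 3, i => i.elim

lemma v_mem : (Pt.v : XX T) ∈ cmap T 0 () '' closedBall 0 1 :=
  ⟨0, mem_closedBall_self zero_le_one, rfl⟩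

lemma edge_mem (g : T.G) (s : A) (t : I) : pp T (T.edge g s t) ∈ cmap T 1 s '' closedBall 0 1 := by
  refine ⟨fun _ => 2 * t - 1, ?_, ?_⟩
  · rw [mem_closedBall_zero_iff, pi_norm_const]
    exact abs_le_one' t
  · change pp T (T.edge 1 s (sg (2 * t - 1))) = _
    rw [sg_two, ← mul_one g, ← smul_edge]
    rfl

lemma face_mem (ρ : R) (s β : I) : pp T (T.face 1 ρ (s, β)) ∈ cmap T 2 ρ '' closedBall 0 1 := by
  refine ⟨![2 * s - 1, 2 * β - 1], ?_, ?_⟩
  · rw [mem_closedBall_zero_iff, pi_norm_le_iff_of_nonneg zero_le_one]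
    intro i
    fin_cases i
    · exact abs_le_one' s
    · exact abs_le_one' β
  · change pp T (T.face 1 ρ (sg (2 * s - 1), sg (2 * β - 1))) = _
    rw [sg_two, sg_two]

lemma exists_abs_eq {n : ℕ} {y : Fin n → ℝ} (h : y ∈ sphere (0 : Fin n → ℝ) 1) :
    ∃ i, |y i| = 1 := by
  rw [mem_sphere_zero_iff_norm] at h
  by_contra hne
  push Not at hne
  have : ‖y‖ < 1 := (pi_norm_lt_iff zero_lt_one).2 fun i =>
    lt_of_le_of_ne (h ▸ norm_le_pi_norm y i) (hne i)
  exact this.ne h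

lemma mapsTo : ∀ (n : ℕ) (i : cell A R n), MapsTo (cmap T n i) (sphere 0 1)
    (⋃ (m < n) (j : cell A R m), cmap T m j '' closedBall 0 1)
  | 0, _ => fun _ h => (exists_abs_eq h).choose.elim0
  | 1, s => fun y h => by
      obtain ⟨i, hi⟩ := exists_abs_eq h
      rw [Subsingleton.elim i 0] at hi
      simp only [mem_iUnion]
      refine ⟨0, zero_lt_one, (), ?_⟩
      change pp T (T.edge 1 s (sg (y 0))) ∈ _
      unfold Tri.edge
      split_ifs with h0 h1
      · exact v_mem T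
      · exact v_mem T
      · exact absurd (sg_eq hi) (not_or.2 ⟨h0, h1⟩)
  | 2, ρ => fun y h => by
      obtain ⟨i, hi⟩ := exists_abs_eq h
      simp only [mem_iUnion]
      change ∃ m, ∃ _ : m < 2, ∃ j, pp T (T.face 1 ρ (sg (y 0), sg (y 1))) ∈ _
      unfold Tri.face
      split_ifs with h3 h2 hs h0 h1
      · exact ⟨1, one_lt_two, _, edge_mem T _ _ _⟩
      · exact ⟨1, one_lt_two, _, edge_mem T _ _ _⟩
      · exact ⟨1, one_lt_two, _, edge_mem T _ _ _⟩
      · exact ⟨0, zero_lt_two, (), v_mem T⟩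
      · exact ⟨0, zero_lt_two, (), v_mem T⟩
      · fin_cases i
        · exact absurd (sg_eq hi) (not_or.2 ⟨h0, h1⟩)
        · exact absurd (sg_eq hi) (not_or.2 ⟨h2, h3⟩)
  | _ + 3, i => i.elim

lemma union : ⋃ (n : ℕ) (j : cell A R n), cmap T n j '' closedBall 0 1 = univ := by
  refine eq_univ_of_forall fun x => ?_
  simp only [mem_iUnion]
  rcases x with _ | ⟨s, t, h0, h1⟩ | ⟨ρ, s, β, h0, h1, h2, h3⟩
  · exact ⟨0, (), v_mem T⟩
  · exact ⟨1, s, pp_edge T 1 s t h0 h1 ▸ edge_mem T 1 s t⟩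
  · exact ⟨2, ρ, pp_face T 1 ρ s β h0 h1 h2 h3 ▸ face_mem T ρ s β⟩

lemma pairwise : (univ : Set (Σ n, cell A R n)).PairwiseDisjoint
    (fun ni => cmap T ni.1 ni.2 '' ball 0 1) := by
  intro a _ b _ hab
  refine Set.disjoint_left.2 ?_
  rintro _ ⟨y, hy, rfl⟩ ⟨y', hy', h⟩
  apply hab
  have h1 := lbl_cmap T a.1 a.2 y hy
  have h2 := lbl_cmap T b.1 b.2 y' hy'
  rw [h, h1] at h2
  exact h2

lemma isEmpty_cell : ∀ n : ℕ, 2 < n → IsEmpty (cell A R n)
  | 0, h => absurd h (by norm_num)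
  | 1, h => absurd h (by norm_num)
  | 2, h => absurd h (by norm_num)
  | _ + 3, _ => inferInstanceAs (IsEmpty Empty)

lemma finite_cell [Finite A] [Finite R] : ∀ n : ℕ, Finite (cell A R n)
  | 0 => inferInstanceAs (Finite Unit)
  | 1 => inferInstanceAs (Finite A)
  | 2 => inferInstanceAs (Finite R)
  | _ + 3 => inferInstanceAs (Finite Empty)

end Crest.Agent.R177.CW

namespace Crest.Agent.R177

open CW

theorem cwStmt : CWStmt := by
  intro A R _ _ T hc
  have hev : ∀ᶠ n in Filter.atTop, IsEmpty (cell A R n) :=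
    Filter.eventually_atTop.2 ⟨3, fun n hn => isEmpty_cell n hn⟩
  refine ⟨XX T, inferInstance, Topology.CWComplex.mkFinite Set.univ (cell A R) (cmap T) hev
    finite_cell (source_eq T) (contOn T) (contOn_symm T) (pairwise T) (mapsTo T) (union T),
    t2 T, Topology.CWComplex.finite_mkFinite Set.univ (cell A R) (cmap T) hev
    finite_cell (source_eq T) (contOn T) (contOn_symm T) (pairwise T) (mapsTo T) (union T),
    fun n hn => isEmpty_cell n hn,
    ⟨T.Cov, inferInstance, pp T, hc, (isQuotientCoveringMap T).isCoveringMap,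
      (isQuotientCoveringMap T).surjective⟩, Pt.v, ⟨?_⟩⟩
  exact ((isQuotientCoveringMap T).fundamentalGroupEquiv
    (x := Pt.v) ⟨T.vtx 1, rfl⟩).trans (MulEquiv.inv' T.G).symm

end Crest.Agent.R177
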