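import Crest.Agent.R177.Defs

/-!
The algebraic lemma for designs: the Gram matrices on both sides of a configuration give the
same group ring elements.
-/

set_option autoImplicit false

namespace Crest.Agent.R177

open Finset
open scoped Classical

namespace DesAlg

/-- the pairing of two sets of coloured labels -/
noncomputable def ip {P Λ K : Type} [Field K] (pr : Λ → P) (val : Λ → K) (S S' : Finset Λ) : K :=
  ∑ l ∈ S, ∑ l' ∈ S', if pr l = pr l' then val l * val l' else 0

variable {P Λ : Type} [Fintype Λ] {pr : Λ → P} (D : Des pr)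

lemma sumU {M : Type} [AddCommMonoid M] (f : D.U → Λ → M) :
    ∑ w, ∑ l ∈ D.SU w, f w l = ∑ e : D.E, f e.1.1 e.1.2 := by
  rw [← Finset.sum_subtype (univ.filter fun p : D.U × Λ => p.2 ∈ D.SU p.1)
    (p := fun p : D.U × Λ => p.2 ∈ D.SU p.1) (by simp) (fun p => f p.1 p.2), Finset.sum_filter,
    Fintype.sum_prod_type]
  refine Finset.sum_congr rfl fun w _ => ?_
  rw [← Finset.sum_filter]
  congr 1
  ext l
  simp

lemma sumY {M : Type} [AddCommMonoid M] (β : D.Conf) (f : D.Y → Λ → M) :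
    ∑ y, ∑ l ∈ D.SY y, f y l = ∑ e : D.E, f (β.1 e) e.1.2 := by
  have h1 : ∑ y, ∑ l ∈ D.SY y, f y l =
      ∑ p ∈ (univ.filter fun p : D.Y × Λ => p.2 ∈ D.SY p.1), f p.1 p.2 := by
    rw [Finset.sum_filter, Fintype.sum_prod_type]
    refine Finset.sum_congr rfl fun w _ => ?_
    rw [← Finset.sum_filter]
    congr 1
    ext l
    simp
  rw [h1]
  symm
  refine Finset.sum_bij (fun e _ => (β.1 e, e.1.2)) ?_ ?_ ?_ ?_
  · intro e _
    simpa using β.2.1 e
  · intro e _ e' _ h
    simp only [Prod.mk.injEq] at h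
    exact β.2.2.1 e e' h.1 h.2
  · intro p hp
    simp only [mem_filter, mem_univ, true_and] at hp
    obtain ⟨e, h1, h2⟩ := β.2.2.2 p.1 p.2 hp
    exact ⟨e, mem_univ _, by simp [h1, h2]⟩
  · intro e _
    rfl

/-- expansion of a Gram sum over darts -/
lemma gram {V K G : Type} [Fintype V] [Field K] [Group G] (val : Λ → K) (sh : Λ → Bool)
    (S : V → Finset Λ) (shV : V → Bool) (hS : ∀ v, ∀ l ∈ S v, sh l = shV v) (ψ : V → G)
    (σ σ' : Bool) :
    ∑ v, ∑ v', (if shV v = σ ∧ shV v' = σ' then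
        MonoidAlgebra.single (ψ v * (ψ v')⁻¹) (ip pr val (S v) (S v')) else 0) =
      ∑ v, ∑ l ∈ S v, ∑ v', ∑ l' ∈ S v',
        (if sh l = σ ∧ sh l' = σ' ∧ pr l = pr l' then
          (MonoidAlgebra.single (ψ v * (ψ v')⁻¹) (val l * val l') : MonoidAlgebra K G) else 0) := by
  refine Finset.sum_congr rfl fun v _ => ?_
  rw [Finset.sum_comm]
  refine Finset.sum_congr rfl fun v' _ => ?_
  have key : (MonoidAlgebra.single (ψ v * (ψ v')⁻¹) (ip pr val (S v) (S v')) :
      MonoidAlgebra K G) = ∑ l ∈ S v, ∑ l' ∈ S v', if pr l = pr l' then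
        MonoidAlgebra.single (ψ v * (ψ v')⁻¹) (val l * val l') else 0 := by
    have := map_sum (MonoidAlgebra.singleAddHom (R := K) (ψ v * (ψ v')⁻¹))
      (fun l => ∑ l' ∈ S v', if pr l = pr l' then val l * val l' else 0) (S v)
    simp only [MonoidAlgebra.singleAddHom_apply] at this
    rw [ip, this]
    refine Finset.sum_congr rfl fun l _ => ?_
    have := map_sum (MonoidAlgebra.singleAddHom (R := K) (ψ v * (ψ v')⁻¹))
      (fun l' => if pr l = pr l' then val l * val l' else 0) (S v')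
    simp only [MonoidAlgebra.singleAddHom_apply] at this
    rw [this]
    refine Finset.sum_congr rfl fun l' _ => ?_
    split_ifs <;> simp
  split_ifs with h
  · rw [key]
    refine Finset.sum_congr rfl fun l hl => Finset.sum_congr rfl fun l' hl' => ?_
    simp [hS v l hl, hS v' l' hl', h.1, h.2]
  · symm
    refine Finset.sum_eq_zero fun l hl => Finset.sum_eq_zero fun l' hl' => ?_
    rw [if_neg]
    rintro ⟨h1, h2, -⟩
    exact h ⟨(hS v l hl).symm.trans h1, (hS v' l' hl').symm.trans h2⟩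

/-- both Gram sums agree -/
lemma gram_eq {K G : Type} [Field K] [Group G] (val : Λ → K) (sh : Λ → Bool)
    (shU : D.U → Bool) (shY : D.Y → Bool) (hU : ∀ w, ∀ l ∈ D.SU w, sh l = shU w)
    (hY : ∀ y, ∀ l ∈ D.SY y, sh l = shY y) (β : D.Conf) (φ : D.U ⊕ D.Y → G) (x : P → G)
    (hφ : ∀ e : D.E, φ (Sum.inl e.1.1) * x (pr e.1.2) = φ (Sum.inr (β.1 e))) (σ σ' : Bool) :
    ∑ w, ∑ w', (if shU w = σ ∧ shU w' = σ' then
        MonoidAlgebra.single (φ (Sum.inl w) * (φ (Sum.inl w'))⁻¹)
          (ip pr val (D.SU w) (D.SU w')) else (0 : MonoidAlgebra K G)) =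
    ∑ y, ∑ y', (if shY y = σ ∧ shY y' = σ' then
        MonoidAlgebra.single (φ (Sum.inr y) * (φ (Sum.inr y'))⁻¹)
          (ip pr val (D.SY y) (D.SY y')) else (0 : MonoidAlgebra K G)) := by
  rw [gram val sh D.SU shU hU (fun w => φ (Sum.inl w)),
    gram val sh D.SY shY hY (fun y => φ (Sum.inr y)), sumU, sumY D β]
  refine Finset.sum_congr rfl fun e _ => ?_
  rw [sumU, sumY D β]
  refine Finset.sum_congr rfl fun e' _ => ?_
  split_ifs with h
  · rw [← hφ e, ← hφ e', h.2.2]
    congr 1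
    group
  · rfl

/-- the algebraic property from the two Gram matrices -/
theorem alg_of (K : Type) [Field K] (val : Λ → K) (sh : Λ → Bool)
    (shU : D.U → Bool) (shY : D.Y → Bool) (hU : ∀ w, ∀ l ∈ D.SU w, sh l = shU w)
    (hY : ∀ y, ∀ l ∈ D.SY y, sh l = shY y) (ε : D.U → K) (ν : D.Y) (κ : K) (hκ : κ ≠ 0)
    (hUU : ∀ w w', ip pr val (D.SU w) (D.SU w') = ε w * ε w')
    (hYY : ∀ y y', ip pr val (D.SY y) (D.SY y') = if y = ν ∧ y' = ν then κ else 0)
    (hν : shY ν = true) (γ : D.U) (hγ : shU γ = false) (hε : ε γ ≠ 0) : D.Alg K γ := by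
  intro β G _ φ x hφ halone
  let a : MonoidAlgebra K G :=
    ∑ w, if shU w = true then MonoidAlgebra.single (φ (Sum.inl w)) (ε w) else 0
  let b : Bool → MonoidAlgebra K G := fun σ =>
    ∑ w, if shU w = σ then MonoidAlgebra.single (φ (Sum.inl w))⁻¹ (ε w) else 0
  have hab : ∀ σ, a * b σ = if σ = true then MonoidAlgebra.single 1 κ else 0 := by
    intro σ
    have h1 : a * b σ = ∑ w, ∑ w', (if shU w = true ∧ shU w' = σ then
        MonoidAlgebra.single (φ (Sum.inl w) * (φ (Sum.inl w'))⁻¹)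
          (ip pr val (D.SU w) (D.SU w')) else (0 : MonoidAlgebra K G)) := by
      simp only [a, b, Finset.sum_mul_sum]
      refine Finset.sum_congr rfl fun w _ => Finset.sum_congr rfl fun w' _ => ?_
      by_cases h1 : shU w = true <;> by_cases h2 : shU w' = σ <;>
        simp [h1, h2, hUU, MonoidAlgebra.single_mul_single]
    rw [h1, gram_eq D val sh shU shY hU hY β φ x hφ, Finset.sum_eq_single ν, Finset.sum_eq_single ν]
    · cases σ <;> simp [hYY, hν]
    · intro y _ hy
      simp [hYY, hy]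
    · simp
    · intro y _ hy
      simp [hYY, hy]
    · simp
  refine ⟨a, b true * MonoidAlgebra.single 1 κ⁻¹, b false, ?_, ?_, ?_⟩
  · rw [← mul_assoc, hab, if_pos rfl, MonoidAlgebra.single_mul_single, mul_one,
      mul_inv_cancel₀ hκ, MonoidAlgebra.one_def]
  · simpa using hab false
  · intro h
    have h2 := congrArg (fun z : MonoidAlgebra K G => z.coeff (φ (Sum.inl γ))⁻¹) h
    simp only [b, MonoidAlgebra.coeff_sum, Finsupp.finset_sum_apply] at h2
    rw [Finset.sum_eq_single γ] at h2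
    · simp [hγ] at h2
      exact hε h2
    · intro w _ hw
      have : (φ (Sum.inl w))⁻¹ ≠ (φ (Sum.inl γ))⁻¹ := fun h3 =>
        hw (Sum.inl_injective (halone _ (inv_injective h3)))
      split_ifs
      · simp [Finsupp.single_apply, this]
      · simp
    · simp

end DesAlg

end Crest.Agent.R177
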