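import Crest.Agent.R177.Plane
import Crest.Agent.R177.DesAlg

/-!
The design over `ZMod 2`.
-/

set_option autoImplicit false
set_option linter.unusedSimpArgs false

namespace Crest.Agent.R177

open Finset
open scoped Classical

namespace Des2

def T : Type := Fin 2077
instance : Finite T := inferInstanceAs (Finite (Fin 2077))
noncomputable instance : Fintype T := Fintype.ofFinite T
@[simp] lemma card_T : Fintype.card T = 2077 := by
  rw [← Nat.card_eq_fintype_card]
  exact (Nat.card_congr (Equiv.refl (Fin 2077))).trans (Nat.card_fin 2077)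
abbrev P : Type := Fin 7 ⊕ (T × Bool)
abbrev Λ : Type := P × Bool

/-- complement of the Fano line `{i, i+1, i+3}` -/
def quad (i : Fin 7) : Finset (Fin 7) := {i + 2, i + 4, i + 5, i + 6}

lemma quad_count : ∀ j : Fin 7, #((univ : Finset (Fin 7)).filter fun i => j ∈ quad i) = 4 := by
  decide

lemma quad_inter : ∀ i j : Fin 7, #(quad i ∩ quad j) % 2 = 0 := by decide

lemma quad_card : ∀ i : Fin 7, #(quad i) = 4 := by decide

/-- a set of points in one sheet -/
noncomputable def sheet (S : Finset P) (σ : Bool) : Finset Λ := S.image fun s => (s, σ)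

lemma mem_sheet {S : Finset P} {σ : Bool} {l : Λ} : l ∈ sheet S σ ↔ l.1 ∈ S ∧ l.2 = σ := by
  obtain ⟨s, τ⟩ := l
  simp only [sheet, mem_image, Prod.mk.injEq]
  constructor
  · rintro ⟨a, ha, rfl, rfl⟩
    exact ⟨ha, rfl⟩
  · rintro ⟨h, rfl⟩
    exact ⟨s, h, rfl, rfl⟩

lemma injOn_sheet (S : Finset P) (σ : Bool) : Set.InjOn Prod.fst (sheet S σ : Set Λ) := by
  intro a ha b hb h
  have ha' := mem_sheet.1 (mem_coe.1 ha)
  have hb' := mem_sheet.1 (mem_coe.1 hb)
  exact Prod.ext h (ha'.2.trans hb'.2.symm)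

lemma ip_sheet (S S' : Finset P) (σ σ' : Bool) :
    DesAlg.ip Prod.fst (fun _ => (1 : ZMod 2)) (sheet S σ) (sheet S' σ') = (#(S ∩ S') : ℕ) := by
  rw [DesAlg.ip, sheet, Finset.sum_image (fun a _ b _ h => (Prod.ext_iff.1 h).1)]
  have : ∀ s ∈ S, (∑ l' ∈ sheet S' σ', if ((s, σ) : Λ).1 = l'.1 then (1 : ZMod 2) * 1 else 0) =
      if s ∈ S' then 1 else 0 := by
    intro s _
    rw [sheet, Finset.sum_image (fun a _ b _ h => (Prod.ext_iff.1 h).1)]
    simp
  rw [← Finset.filter_mem_eq_inter, ← Finset.sum_boole]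
  refine Finset.sum_congr rfl fun s hs => ?_
  convert this s hs

noncomputable def pairS (t : T) : Finset P := {Sum.inr (t, false), Sum.inr (t, true)}
noncomputable def fanoS (S : Finset (Fin 7)) : Finset P := S.map ⟨Sum.inl, Sum.inl_injective⟩

@[simp] lemma inl_mem_pairS (j : Fin 7) (t : T) : Sum.inl j ∉ pairS t := by simp [pairS]
@[simp] lemma inr_mem_pairS (p : T × Bool) (t : T) : Sum.inr p ∈ pairS t ↔ p.1 = t := by
  obtain ⟨u, b⟩ := p
  cases b <;> simp [pairS]
@[simp] lemma inl_mem_fanoS (j : Fin 7) (S : Finset (Fin 7)) : Sum.inl j ∈ fanoS S ↔ j ∈ S := by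
  simp [fanoS]
@[simp] lemma inr_mem_fanoS (p : T × Bool) (S : Finset (Fin 7)) : Sum.inr p ∉ fanoS S := by
  simp [fanoS]

lemma pair_pair (t t' : T) : ((#(pairS t ∩ pairS t') : ℕ) : ZMod 2) = 0 := by
  by_cases h : t = t'
  · subst h
    rw [inter_self, pairS, card_pair (by simp)]
    rfl
  · have : pairS t ∩ pairS t' = ∅ := by
      ext (j | p)
      · simp
      · simp only [mem_inter, inr_mem_pairS, notMem_empty, iff_false, not_and]
        rintro rfl
        exact h
    simp [this]

lemma pair_fano (t : T) (S : Finset (Fin 7)) : pairS t ∩ fanoS S = ∅ := by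
  ext (j | p) <;> simp

lemma fano_pair (t : T) (S : Finset (Fin 7)) : fanoS S ∩ pairS t = ∅ := by
  ext (j | p) <;> simp

lemma fano_fano (S S' : Finset (Fin 7)) : #(fanoS S ∩ fanoS S') = #(S ∩ S') := by
  rw [fanoS, fanoS, ← Finset.map_inter, card_map]

variable (π : Plane P 64) (N : ℕ)

abbrev U : Type := (π.Ln × Bool × Fin (4 * N)) ⊕ Unit
abbrev Y : Type := (T × Bool × Fin (260 * N)) ⊕ (Fin 7 × Bool × Fin (65 * N)) ⊕ T ⊕ Unit

noncomputable def ptU : U π N → Finset P := Sum.elim (fun p => π.pts p.1) (fun _ => univ)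
def shU : U π N → Bool := Sum.elim (fun p => p.2.1) (fun _ => true)
noncomputable def ptY : Y N → Finset P :=
  Sum.elim (fun p => pairS p.1) (Sum.elim (fun p => fanoS (quad p.1))
    (Sum.elim pairS (fun _ => fanoS univ)))
def shY : Y N → Bool := Sum.elim (fun p => p.2.1) (Sum.elim (fun p => p.2.1) (fun _ => true))

noncomputable abbrev des : Des (Prod.fst : Λ → P) where
  U := U π N
  Y := Y N
  SU w := sheet (ptU π N w) (shU π N w)
  SY y := sheet (ptY N y) (shY N y)
  injU _ := injOn_sheet _ _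
  injY _ := injOn_sheet _ _

lemma card_triple {A : Type} [Fintype A] (p : A → Prop) [DecidablePred p] (σ : Bool) (n : ℕ) :
    (∑ x : A × Bool × Fin n, if p x.1 ∧ σ = x.2.1 then 1 else 0) = #{a | p a} * n := by
  rw [Fintype.sum_prod_type, card_filter, Finset.sum_mul]
  refine Finset.sum_congr rfl fun a _ => ?_
  rw [Fintype.sum_prod_type]
  by_cases h : p a
  · cases σ <;> simp [h]
  · simp [h]

lemma countU (l : Λ) : #{w : U π N | l ∈ sheet (ptU π N w) (shU π N w)} =
    260 * N + if l.2 = true then 1 else 0 := by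
  rw [card_filter, Fintype.sum_sum_type]
  simp only [mem_sheet, ptU, shU, Sum.elim_inl, Sum.elim_inr]
  have h : #{a | l.1 ∈ π.pts a} = 65 := by convert π.card_lines l.1
  rw [card_triple (fun a => l.1 ∈ π.pts a), h]
  simp
  ring

lemma countY (l : Λ) : #{y : Y N | l ∈ sheet (ptY N y) (shY N y)} =
    260 * N + if l.2 = true then 1 else 0 := by
  rw [card_filter, Fintype.sum_sum_type, Fintype.sum_sum_type, Fintype.sum_sum_type]
  simp only [mem_sheet, ptY, shY, Sum.elim_inl, Sum.elim_inr]
  rw [card_triple (fun a => l.1 ∈ pairS a), card_triple (fun a => l.1 ∈ fanoS (quad a))]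
  obtain ⟨j | p, σ⟩ := l
  · have := quad_count j
    simp only [inl_mem_pairS, inl_mem_fanoS, false_and, if_false, mem_univ, true_and]
    simp only [filter_false, card_empty, zero_mul, sum_const_zero, zero_add, univ_unique,
      sum_singleton]
    convert congrArg (fun n => n * (65 * N) + if σ = true then 1 else 0) this using 2
    ring
  · simp only [inr_mem_pairS, inr_mem_fanoS, false_and, if_false]
    cases σ <;> simp [Finset.filter_eq]

noncomputable def St : Finset (P × P) :=
  (univ : Finset (T × Bool)).image (fun p => (Sum.inr p, Sum.inr (p.1, !p.2))) ∪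
    (univ : Finset (Fin 7 × Fin 7)).image (fun p => (Sum.inl p.1, Sum.inl p.2))

lemma card_St : #St < 65 ^ 2 := by
  refine lt_of_le_of_lt (card_union_le _ _) (lt_of_le_of_lt (add_le_add card_image_le
    card_image_le) ?_)
  simp

lemma pair_St (t : T) {s s' : P} (h : s ∈ pairS t) (h' : s' ∈ pairS t) (hne : s ≠ s') :
    (s, s') ∈ St := by
  obtain j | ⟨u, b⟩ := s
  · simp at h
  obtain j | ⟨u', b'⟩ := s'
  · simp at h'
  simp only [inr_mem_pairS] at h h'
  subst h h'
  refine mem_union_left _ (mem_image.2 ⟨(u', b), mem_univ _, ?_⟩)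
  cases b <;> cases b' <;> simp_all

lemma fano_St (S : Finset (Fin 7)) {s s' : P} (h : s ∈ fanoS S) (h' : s' ∈ fanoS S) :
    (s, s') ∈ St := by
  obtain j | p := s
  swap
  · simp at h
  obtain j' | p := s'
  swap
  · simp at h'
  exact mem_union_right _ (mem_image.2 ⟨(j, j'), mem_univ _, rfl⟩)

lemma good : (des π N).Good 65 65 St (260 * N) where
  bal l := by convert (countU π N l).trans (countY N l).symm
  lo l := by
    have := countU π N l
    have h : 260 * N ≤ #{w : U π N | l ∈ sheet (ptU π N w) (shU π N w)} := by omega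
    convert h
  hi l := by
    have := countU π N l
    have h : #{w : U π N | l ∈ sheet (ptU π N w) (shU π N w)} ≤ 260 * N + 65 := by
      split_ifs at this <;> omega
    convert h
  two l s hs := by
    have h1 : #{w : U π N | l ∈ sheet (ptU π N w) (shU π N w) ∧
        ∃ l' ∈ sheet (ptU π N w) (shU π N w), l'.1 = s} ≤ 4 * N + 1 := by
      rw [card_filter, Fintype.sum_sum_type]
      refine add_le_add ?_ ?_
      · calc _ ≤ ∑ x : π.Ln × Bool × Fin (4 * N),
              if (l.1 ∈ π.pts x.1 ∧ s ∈ π.pts x.1) ∧ l.2 = x.2.1 then 1 else 0 := by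
              refine Finset.sum_le_sum fun x _ => ?_
              split_ifs with h1 h2
              · exact le_rfl
              · exfalso
                obtain ⟨h3, l', h4, rfl⟩ := h1
                rw [mem_sheet] at h3 h4
                exact h2 ⟨⟨h3.1, h4.1⟩, h3.2⟩
              · exact Nat.zero_le _
              · exact le_rfl
          _ = _ := card_triple (fun a => l.1 ∈ π.pts a ∧ s ∈ π.pts a) l.2 (4 * N)
          _ ≤ 1 * (4 * N) := Nat.mul_le_mul_right _ (by
              convert π.join l.1 s (Ne.symm hs))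
          _ = _ := one_mul _
      · simp only [univ_unique, sum_singleton]
        split_ifs <;> omega
    have h : 65 * #{w : U π N | l ∈ sheet (ptU π N w) (shU π N w) ∧
        ∃ l' ∈ sheet (ptU π N w) (shU π N w), l'.1 = s} ≤ 260 * N + 65 := by omega
    convert h
  st y l hl l' hl' hne := by
    change l ∈ sheet (ptY N y) (shY N y) at hl
    change l' ∈ sheet (ptY N y) (shY N y) at hl'
    rw [mem_sheet] at hl hl'
    have hne' : l.1 ≠ l'.1 := fun h => hne (Prod.ext h (hl.2.trans hl'.2.symm))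
    obtain p | p | t | u := y
    · exact pair_St _ hl.1 hl'.1 hne'
    · exact fano_St _ hl.1 hl'.1
    · exact pair_St _ hl.1 hl'.1 hne'
    · exact fano_St _ hl.1 hl'.1

lemma gramU (w w' : U π N) : ((#(ptU π N w ∩ ptU π N w') : ℕ) : ZMod 2) = 1 := by
  obtain p | u := w <;> obtain p' | u' := w'
  · simp only [ptU, Sum.elim_inl]
    by_cases h : p.1 = p'.1
    · rw [h, inter_self, π.card_pts]
      rfl
    · have : #(π.pts p.1 ∩ π.pts p'.1) = 1 := by convert π.meet _ _ h
      rw [this]
      rfl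
  · simp only [ptU, Sum.elim_inl, Sum.elim_inr, inter_univ, π.card_pts]
    rfl
  · simp only [ptU, Sum.elim_inl, Sum.elim_inr, univ_inter, π.card_pts]
    rfl
  · simp only [ptU, Sum.elim_inr, inter_univ, card_univ]
    have : Fintype.card P = 4161 := by simp
    rw [this]
    rfl

lemma gramY (y y' : Y N) : ((#(ptY N y ∩ ptY N y') : ℕ) : ZMod 2) =
    if y = Sum.inr (Sum.inr (Sum.inr ())) ∧ y' = Sum.inr (Sum.inr (Sum.inr ())) then 1 else 0 := by
  have hq : ∀ i j : Fin 7, ((#(quad i ∩ quad j) : ℕ) : ZMod 2) = 0 := fun i j =>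
    (ZMod.natCast_eq_zero_iff _ _).2 (Nat.dvd_of_mod_eq_zero (quad_inter i j))
  have h4 : ((4 : ℕ) : ZMod 2) = 0 := rfl
  have h7 : ((7 : ℕ) : ZMod 2) = 1 := rfl
  obtain p | p | t | u := y <;> obtain p' | p' | t' | u' := y' <;>
    simp only [ptY, Sum.elim_inl, Sum.elim_inr, pair_pair, pair_fano, fano_pair, fano_fano, hq,
      card_empty, Nat.cast_zero, inter_univ, univ_inter, quad_card, h4, card_univ,
      Fintype.card_fin, h7, reduceCtorEq, Sum.inr.injEq, false_and, and_false, if_false,
      and_self, if_true]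

lemma alg (γ : Fin (4 * N)) (l : π.Ln) :
    (des π N).Alg (ZMod 2) (Sum.inl (l, false, γ)) := by
  refine DesAlg.alg_of (des π N) (ZMod 2) (fun _ => 1) Prod.snd (shU π N) (shY N)
    (fun w l hl => (mem_sheet.1 hl).2) (fun y l hl => (mem_sheet.1 hl).2) (fun _ => 1)
    (Sum.inr (Sum.inr (Sum.inr ()))) 1 one_ne_zero ?_ ?_ rfl _ rfl one_ne_zero
  · intro w w'
    exact (ip_sheet _ _ _ _).trans ((gramU π N w w').trans (one_mul _).symm)
  · intro y y'
    refine (ip_sheet _ _ _ _).trans ((gramY N y y').trans ?_)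
    congr

end Des2

theorem des2Stmt : Des2Stmt := by
  have hk : Nat.card (GaloisField 2 6) = 64 := by
    rw [GaloisField.card 2 6 (by norm_num)]
    norm_num
  obtain ⟨π⟩ := exists_plane_on (GaloisField 2 6) Des2.P (by rw [hk]; simp)
  rw [hk] at π
  have hl : Nonempty π.Ln := by
    have := π.card_lines (Sum.inl 0)
    obtain ⟨l, -⟩ := card_pos.1 ((Nat.succ_pos 64).trans_eq this.symm)
    exact ⟨l⟩
  obtain ⟨l⟩ := hl
  refine ⟨Des2.P, Des2.Λ, inferInstance, inferInstance, Prod.fst, 65, 65, 260, Des2.St,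
    Des2.card_St, by norm_num, by norm_num, fun N hN => ?_⟩
  exact ⟨Des2.des π N, Sum.inl (l, false, ⟨0, by omega⟩), Des2.good π N, Des2.alg π N _ l⟩

end Crest.Agent.R177
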