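import Mathlib

/-!
The projective plane over `ZMod p` in coordinates adapted to two lines.
-/

set_option autoImplicit false

namespace Crest.Agent.R177.FO

open Finset Configuration
open scoped Classical LinearAlgebra.Projectivization

lemma exists_plane0 (p : ℕ) [Fact p.Prime] :
    ∃ (P Ln : Type) (_ : Fintype P) (_ : Fintype Ln) (I : Ln → P → Prop),
      Fintype.card P = p ^ 2 + p + 1 ∧ (∀ s, #{ℓ | I ℓ s} = p + 1) ∧ (∀ ℓ, #{s | I ℓ s} = p + 1) ∧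
      (∀ ℓ ℓ', ℓ ≠ ℓ' → ∃! s, I ℓ s ∧ I ℓ' s) ∧ ∃ ℓ ℓ' : Ln, ℓ ≠ ℓ' := by
  let P := ℙ (ZMod p) (Fin 3 → ZMod p)
  have : Finite P := inferInstance
  let _ : Fintype P := Fintype.ofFinite P
  have h1 : Fintype.card P = p ^ 2 + p + 1 := by
    rw [← Nat.card_eq_fintype_card, Projectivization.card_of_finrank (ZMod p) _ (n := 3) (by simp)]
    simp [Finset.sum_range_succ]
    ring
  have h2 : ProjectivePlane.order P P = p := by
    have h3 := ProjectivePlane.card_points P P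
    rw [h1] at h3
    rcases lt_trichotomy (ProjectivePlane.order P P) p with h | h | h
    · nlinarith
    · exact h
    · nlinarith
  refine ⟨P, P, inferInstance, inferInstance, fun ℓ s => s ∈ ℓ, h1, fun s => ?_, fun ℓ => ?_,
    fun ℓ ℓ' h => HasPoints.existsUnique_point P P ℓ ℓ' h, ?_⟩
  · have := ProjectivePlane.lineCount_eq P s
    rwa [h2, lineCount, Nat.card_eq_fintype_card, Fintype.card_subtype] at this
  · have := ProjectivePlane.pointCount_eq P ℓ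
    rwa [h2, pointCount, Nat.card_eq_fintype_card, Fintype.card_subtype] at this
  · have : 1 < Fintype.card P := by
      have := (Fact.out : p.Prime).pos
      rw [h1]
      nlinarith
    exact Fintype.exists_pair_of_one_lt_card this

/-- points in adapted coordinates -/
abbrev Pt (T₀ T₁ : Type) : Type := Fin 3 ⊕ ((T₀ ⊕ T₁) × Bool)

lemma exists_plane (p : ℕ) [Fact p.Prime] :
    ∃ (T₀ T₁ Ln : Type) (_ : Fintype T₀) (_ : Fintype T₁) (_ : Fintype Ln)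
      (I : Ln → Pt T₀ T₁ → Prop) (ℓ₁ ℓ₂ : Ln),
      Fintype.card (Pt T₀ T₁) = p ^ 2 + p + 1 ∧ (∀ s, #{ℓ | I ℓ s} = p + 1) ∧
      (∀ ℓ, #{s | I ℓ s} = p + 1) ∧ (∀ ℓ ℓ', ℓ ≠ ℓ' → ∃! s, I ℓ s ∧ I ℓ' s) ∧
      (∀ s, I ℓ₁ s ↔ s = .inl 0 ∨ s = .inl 1 ∨ ∃ t, s = .inr (.inl t, false)) ∧
      (∀ s, I ℓ₂ s ↔ s = .inl 0 ∨ s = .inl 2 ∨ ∃ t, s = .inr (.inl t, true)) := by
  obtain ⟨P, Ln, _, _, I, h1, h2, h3, h4, ℓ₁, ℓ₂, hne⟩ := exists_plane0 p
  have hp := (Fact.out : p.Prime).two_le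
  obtain ⟨o, ⟨ho1, ho2⟩, ho⟩ := h4 ℓ₁ ℓ₂ hne
  have hex : ∀ ℓ, ∃ s, I ℓ s ∧ s ≠ o := fun ℓ => by
    obtain ⟨s, hs, hs'⟩ := exists_mem_ne (s := {s | I ℓ s}) (by rw [h3]; omega) o
    exact ⟨s, (mem_filter.1 hs).2, hs'⟩
  obtain ⟨o₁, h11, h12⟩ := hex ℓ₁
  obtain ⟨o₂, h21, h22⟩ := hex ℓ₂
  let A₁ : Finset P := (({s | I ℓ₁ s} : Finset P).erase o).erase o₁
  let A₂ : Finset P := (({s | I ℓ₂ s} : Finset P).erase o).erase o₂
  let Z : Finset P := {s | ¬ I ℓ₁ s ∧ ¬ I ℓ₂ s}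
  have c1 : #A₁ = p - 1 := by
    rw [card_erase_of_mem (by simp [h11, h12]), card_erase_of_mem (by simp [ho1]), h3]
    omega
  have c2 : #A₂ = p - 1 := by
    rw [card_erase_of_mem (by simp [h21, h22]), card_erase_of_mem (by simp [ho2]), h3]
    omega
  have c3 : #Z + (2 * p + 1) = p ^ 2 + p + 1 := by
    have e1 : ({s | I ℓ₁ s} : Finset P) ∩ ({s | I ℓ₂ s} : Finset P) = {o} := by
      ext s
      simp only [mem_inter, mem_filter, mem_univ, true_and, mem_singleton]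
      exact ⟨fun h => ho s h, fun h => h ▸ ⟨ho1, ho2⟩⟩
    have e2 := card_union_add_card_inter ({s | I ℓ₁ s} : Finset P) ({s | I ℓ₂ s} : Finset P)
    rw [e1, h3, h3, card_singleton] at e2
    have e3 : Z = (({s | I ℓ₁ s} : Finset P) ∪ ({s | I ℓ₂ s} : Finset P))ᶜ := by
      ext s
      simp [Z]
    have e4 := card_compl_add_card (({s | I ℓ₁ s} : Finset P) ∪ ({s | I ℓ₂ s} : Finset P))
    rw [← e3, h1] at e4
    omega
  obtain ⟨k, hk⟩ : Even #Z := by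
    have e1 : #Z = p * (p - 1) := by
      obtain ⟨q, rfl⟩ : ∃ q, p = q + 1 := ⟨p - 1, by omega⟩
      simp only [Nat.add_sub_cancel]
      nlinarith
    rw [e1]
    exact Nat.even_mul_pred_self p
  let j : A₁ ≃ A₂ := Fintype.equivOfCardEq (by simp [c1, c2])
  let z : Fin k × Bool ≃ Z := Fintype.equivOfCardEq (by simp [hk]; ring)
  let f : Pt A₁ (Fin k) → P := fun s => match s with
    | .inl i => ![o, o₁, o₂] i
    | .inr (.inl t, false) => t
    | .inr (.inl t, true) => j t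
    | .inr (.inr t, b) => z (t, b)
  have hcard : Fintype.card (Pt A₁ (Fin k)) = Fintype.card P := by
    simp only [Fintype.card_sum, Fintype.card_fin, Fintype.card_prod, Fintype.card_coe,
      Fintype.card_bool, c1, h1]
    omega
  have hsurj : Function.Surjective f := by
    intro s
    by_cases hs : s = o
    · exact ⟨.inl 0, hs.symm⟩
    by_cases hs1 : s = o₁
    · exact ⟨.inl 1, hs1.symm⟩
    by_cases hs2 : s = o₂
    · exact ⟨.inl 2, hs2.symm⟩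
    by_cases hI1 : I ℓ₁ s
    · exact ⟨.inr (.inl ⟨s, by simp [A₁, hs, hs1, hI1]⟩, false), rfl⟩
    by_cases hI2 : I ℓ₂ s
    · exact ⟨.inr (.inl (j.symm ⟨s, by simp [A₂, hs, hs2, hI2]⟩), true), by simp [f]⟩
    · obtain ⟨⟨t, b⟩, ht⟩ := z.surjective ⟨s, by simp [Z, hI1, hI2]⟩
      exact ⟨.inr (.inr t, b), by simp [f, ht]⟩
  let e : Pt A₁ (Fin k) ≃ P :=
    Equiv.ofBijective f ((Fintype.bijective_iff_surjective_and_card f).2 ⟨hsurj, hcard⟩)
  have m1 : ∀ t : A₁, I ℓ₁ t ∧ ¬ I ℓ₂ t := fun t => by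
    have := t.2
    simp only [A₁, mem_erase, mem_filter, mem_univ, true_and] at this
    exact ⟨this.2.2, fun h => this.2.1 (ho _ ⟨this.2.2, h⟩)⟩
  have m2 : ∀ t : A₂, I ℓ₂ t ∧ ¬ I ℓ₁ t := fun t => by
    have := t.2
    simp only [A₂, mem_erase, mem_filter, mem_univ, true_and] at this
    exact ⟨this.2.2, fun h => this.2.1 (ho _ ⟨h, this.2.2⟩)⟩
  have m3 : ∀ t : Z, ¬ I ℓ₁ t ∧ ¬ I ℓ₂ t := fun t => (mem_filter.1 t.2).2
  have m4 : ¬ I ℓ₂ o₁ := fun h => h12 (ho _ ⟨h11, h⟩)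
  have m5 : ¬ I ℓ₁ o₂ := fun h => h22 (ho _ ⟨h, h21⟩)
  refine ⟨A₁, Fin k, Ln, inferInstance, inferInstance, inferInstance, fun ℓ s => I ℓ (e s), ℓ₁, ℓ₂,
    hcard.trans h1, fun s => h2 _, fun ℓ => ?_, fun ℓ ℓ' h => ?_, fun s => ?_, fun s => ?_⟩
  · rw [← h3 ℓ]
    exact card_bijective e e.bijective (by simp)
  · exact (e.existsUnique_congr (p := fun s => I ℓ (e s) ∧ I ℓ' (e s))
      (q := fun s => I ℓ s ∧ I ℓ' s) fun _ => Iff.rfl).2 (h4 ℓ ℓ' h)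
  · change I ℓ₁ (f s) ↔ _
    rcases s with i | ⟨t | t, b⟩
    · fin_cases i <;> simp [f, ho1, h11, m5]
    · cases b <;> simp [f, m1, m2]
    · simp [f, m3]
  · change I ℓ₂ (f s) ↔ _
    rcases s with i | ⟨t | t, b⟩
    · fin_cases i <;> simp [f, ho2, h21, m4]
    · cases b <;> simp [f, m1, m2]
    · simp [f, m3]

end Crest.Agent.R177.FO
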