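import Crest.Agent.R177.DesVec
import Crest.Agent.R177.PlaneOdd

/-!
Row 184: the design over `GaloisField p 4`, `p > 5` (`desOddStmt`).
-/

set_option autoImplicit false
set_option linter.unusedSectionVars false

namespace Crest.Agent.R177.FO

open Finset
open scoped Classical

/-- classical count -/
noncomputable def cnt {A : Type} [Fintype A] (p : A → Prop) : ℕ :=
  ∑ a, @ite ℕ (p a) (Classical.propDecidable _) 1 0

lemma card_eq_cnt {A : Type} [Fintype A] (p : A → Prop) {h : DecidablePred p} :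
    #{x | p x} = cnt p := by
  rw [card_filter, cnt]
  exact sum_congr rfl fun _ _ => by congr

lemma cnt_sum {A B : Type} [Fintype A] [Fintype B] (p : A ⊕ B → Prop) :
    cnt p = cnt (fun a => p (.inl a)) + cnt (fun b => p (.inr b)) := by
  simp only [cnt, Fintype.sum_sum_type]

lemma cnt_prod {A B : Type} [Fintype A] [Fintype B] (p : A × B → Prop) :
    cnt p = ∑ a, cnt (fun b => p (a, b)) := by
  simp only [cnt, Fintype.sum_prod_type]

lemma cnt_unit (q : Prop) {_ : Decidable q} : cnt (fun _ : Unit => q) = if q then 1 else 0 := by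
  by_cases h : q <;> simp [cnt, h]

variable {K : Type} [Field K] [Fintype K]

lemma card_scal (M : ℕ) (μ : Kˣ) (a : Bool) (c : K) :
    cnt (fun x : Kˣ × Bool × Fin M => (μ : K) = x.1 * c ∧ a = x.2.1) = if c = 0 then 0 else M := by
  rw [← card_eq_cnt (h := inferInstance)]
  split_ifs with h
  · simp [h]
  · have : ({x : Kˣ × Bool × Fin M | (μ : K) = x.1 * c ∧ a = x.2.1} : Finset _) =
        {μ * (Units.mk0 c h)⁻¹} ×ˢ {a} ×ˢ univ := by
      ext ⟨x, b, n⟩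
      simp only [mem_filter, mem_univ, true_and, mem_product, mem_singleton, and_true,
        eq_mul_inv_iff_mul_eq, Units.ext_iff, Units.val_mul, Units.val_mk0]
      simp [eq_comm]
    rw [this]
    simp

variable {T₀ T₁ Ln : Type} [Fintype T₀] [Fintype T₁] [Fintype Ln]

/-- indicator vector of a line -/
noncomputable def chi (K : Type) [Field K] (I : Ln → Pt T₀ T₁ → Prop) (ℓ : Ln) (s : Pt T₀ T₁) : K :=
  if I ℓ s then 1 else 0

/-- isotropic vector on a pair -/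
noncomputable def pairv (i : K) (t : T₀ ⊕ T₁) : Pt T₀ T₁ → K
  | .inl _ => 0
  | .inr x => if x.1 = t then (if x.2 then i else 1) else 0

/-- vector on the three special points -/
def triv (T₀ T₁ : Type) (ξ : Fin 3 → K) : Pt T₀ T₁ → K
  | .inl j => ξ j
  | .inr _ => 0

variable (I : Ln → Pt T₀ T₁ → Prop) (ℓ₁ ℓ₂ : Ln) (i : K) (N M : ℕ)

noncomputable def sig (s : Pt T₀ T₁) : K := chi K I ℓ₁ s + i * chi K I ℓ₂ s

noncomputable def vU : (Ln × Kˣ × Bool × Fin N) ⊕ Unit → Pt T₀ T₁ → K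
  | .inl w => fun s => w.2.1 * chi K I w.1 s
  | .inr _ => sig I ℓ₁ ℓ₂ i

def sU (Ln K : Type) [Field K] (N : ℕ) : (Ln × Kˣ × Bool × Fin N) ⊕ Unit → Bool
  | .inl w => w.2.2.1
  | .inr _ => true

def eps : (Ln × Kˣ × Bool × Fin N) ⊕ Unit → K
  | .inl w => w.2.1
  | .inr _ => 1 + i

def xi : Fin 3 → K := ![4, -1 - 3 * i, -1 + 3 * i]

def nu : Fin 3 → K := ![1 + i, 1, i]

abbrev YY (T₀ T₁ K : Type) [Field K] (M : ℕ) : Type :=
  ((T₀ ⊕ T₁) × Kˣ × Bool × Fin M) ⊕ (Kˣ × Bool × Fin M) ⊕ T₀ ⊕ Unit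

noncomputable def vY : YY T₀ T₁ K M → Pt T₀ T₁ → K
  | .inl y => fun s => y.2.1 * pairv i y.1 s
  | .inr (.inl y) => fun s => y.1 * triv T₀ T₁ (xi i) s
  | .inr (.inr (.inl t)) => pairv i (.inl t)
  | .inr (.inr (.inr _)) => triv T₀ T₁ (nu i)

def sY (T₀ T₁ K : Type) [Field K] (M : ℕ) : YY T₀ T₁ K M → Bool
  | .inl y => y.2.2.1
  | .inr (.inl y) => y.2.1
  | .inr (.inr _) => true

variable {I ℓ₁ ℓ₂ i}

lemma count_U {r : ℕ} (h2 : ∀ s, #{ℓ | I ℓ s} = r) (l : Pt T₀ T₁ × Kˣ × Bool) :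
    cnt (fun w => l ∈ lab (vU I ℓ₁ ℓ₂ i N w) (sU Ln K N w)) =
      r * N + if (l.2.1 : K) = sig I ℓ₁ ℓ₂ i l.1 ∧ l.2.2 = true then 1 else 0 := by
  obtain ⟨s, μ, a⟩ := l
  simp only [mem_lab]
  rw [cnt_sum, cnt_prod]
  congr 1
  · simp only [vU, sU, card_scal, ← h2 s]
    simp [chi, sum_ite]
  · exact cnt_unit _

lemma count_Y (hi : i * i = -1) (hξ : ∀ j, xi i j ≠ 0)
    (h5 : ∀ s, I ℓ₁ s ↔ s = .inl 0 ∨ s = .inl 1 ∨ ∃ t, s = .inr (.inl t, false))
    (h6 : ∀ s, I ℓ₂ s ↔ s = .inl 0 ∨ s = .inl 2 ∨ ∃ t, s = .inr (.inl t, true))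
    (l : Pt T₀ T₁ × Kˣ × Bool) :
    cnt (fun y => l ∈ lab (vY i M y) (sY T₀ T₁ K M y)) =
      M + if (l.2.1 : K) = sig I ℓ₁ ℓ₂ i l.1 ∧ l.2.2 = true then 1 else 0 := by
  obtain ⟨s, μ, a⟩ := l
  have hi0 : i ≠ 0 := by
    rintro rfl
    simp at hi
  simp only [mem_lab]
  rw [cnt_sum, cnt_sum (fun b => _ = vY i M (.inr b) s ∧ _),
    cnt_sum (fun b => _ = vY i M (.inr (.inr b)) s ∧ _), cnt_prod, ← add_assoc]
  congr 1
  · simp only [vY, sY, card_scal]
    rcases s with j | ⟨t, b⟩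
    · simp [pairv, triv, hξ]
    · cases b <;> simp [pairv, triv, hi0]
  · simp only [vY, sY, cnt]
    cases a
    · simp
    have hμ := μ.ne_zero
    rcases s with j | ⟨t | t, b⟩
    · have : sig I ℓ₁ ℓ₂ i (.inl j) = nu i j := by
        fin_cases j <;> simp [sig, chi, h5, h6, nu]
      simp [pairv, triv, this, hμ]
    · have : sig I ℓ₁ ℓ₂ i (.inr (.inl t, b)) = if b then i else 1 := by
        cases b <;> simp [sig, chi, h5, h6]
      simp only [pairv, triv, this]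
      rw [sum_eq_single t (fun t' _ ht => by simp [ht.symm, hμ]) (by simp)]
      simp [hμ]
    · have : sig I ℓ₁ ℓ₂ i (.inr (.inr t, b)) = 0 := by
        simp [sig, chi, h5, h6]
      simp [pairv, triv, this, hμ]

lemma count_two (h4 : ∀ ℓ ℓ', ℓ ≠ ℓ' → ∃! s, I ℓ s ∧ I ℓ' s) (l : Pt T₀ T₁ × Kˣ × Bool)
    (s' : Pt T₀ T₁) (hs : s' ≠ l.1) :
    cnt (fun w => l ∈ lab (vU I ℓ₁ ℓ₂ i N w) (sU Ln K N w) ∧
      ∃ l' ∈ lab (vU I ℓ₁ ℓ₂ i N w) (sU Ln K N w), l'.1 = s') ≤ N + 1 := by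
  obtain ⟨s, μ, a⟩ := l
  rw [cnt_sum, ← card_eq_cnt (h := inferInstance), ← card_eq_cnt (h := inferInstance)]
  refine add_le_add ?_ ((card_filter_le _ _).trans (by simp))
  have h1 : #{ℓ | I ℓ s ∧ I ℓ s'} ≤ 1 := by
    refine card_le_one.2 fun ℓ hℓ ℓ' hℓ' => ?_
    by_contra hne
    have a1 := (mem_filter.1 hℓ).2
    have a2 := (mem_filter.1 hℓ').2
    exact hs ((h4 ℓ ℓ' hne).unique ⟨a1.2, a2.2⟩ ⟨a1.1, a2.1⟩)
  refine (card_le_card (t := ({ℓ | I ℓ s ∧ I ℓ s'} : Finset Ln) ×ˢ {μ} ×ˢ {a} ×ˢ univ) ?_).trans ?_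
  · rintro ⟨ℓ, μ', a', n⟩ h
    simp only [mem_filter, mem_univ, true_and, mem_lab, vU, sU] at h
    obtain ⟨⟨a1, a2⟩, ⟨s'', μ'', a''⟩, ⟨a3, -⟩, rfl⟩ := h
    have b1 : I ℓ s := by
      by_contra hb
      simp [chi, hb] at a1
    have b2 : I ℓ s'' := by
      by_contra hb
      simp [chi, hb] at a3
    simp only [chi, b1, if_true, mul_one, Units.val_inj] at a1
    simp [b1, b2, a1, a2]
  · simp only [card_product, card_singleton, card_univ, Fintype.card_fin, one_mul]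
    nlinarith

lemma inner_chi {p : ℕ} [CharP K p] (h3 : ∀ ℓ, #{s | I ℓ s} = p + 1)
    (h4 : ∀ ℓ ℓ', ℓ ≠ ℓ' → ∃! s, I ℓ s ∧ I ℓ' s) (ℓ ℓ' : Ln) :
    ∑ s, chi K I ℓ s * chi K I ℓ' s = 1 := by
  have e : ∑ s, chi K I ℓ s * chi K I ℓ' s = (#{s | I ℓ s ∧ I ℓ' s} : K) := by
    rw [card_filter]
    push_cast
    refine sum_congr rfl fun s _ => ?_
    by_cases h : I ℓ s <;> by_cases h' : I ℓ' s <;> simp [chi, h, h']
  rw [e]
  by_cases h : ℓ = ℓ'
  · subst h
    simp [h3]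
  · obtain ⟨s, hs, hs'⟩ := h4 ℓ ℓ' h
    have : ({s | I ℓ s ∧ I ℓ' s} : Finset _) = {s} := by
      ext x
      simp only [mem_filter, mem_univ, true_and, mem_singleton]
      exact ⟨hs' x, fun h => h ▸ hs⟩
    simp [this]

lemma inner_U {p : ℕ} [CharP K p] (h3 : ∀ ℓ, #{s | I ℓ s} = p + 1)
    (h4 : ∀ ℓ ℓ', ℓ ≠ ℓ' → ∃! s, I ℓ s ∧ I ℓ' s) (w w' : (Ln × Kˣ × Bool × Fin N) ⊕ Unit) :
    ∑ s, vU I ℓ₁ ℓ₂ i N w s * vU I ℓ₁ ℓ₂ i N w' s = eps i N w * eps i N w' := by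
  have h := inner_chi (K := K) h3 h4
  have key : ∀ (a b c d : K) (x y z t : Ln),
      ∑ s, (a * chi K I x s + b * chi K I y s) * (c * chi K I z s + d * chi K I t s) =
        (a + b) * (c + d) := by
    intro a b c d x y z t
    calc _ = a * c * ∑ s, chi K I x s * chi K I z s + a * d * ∑ s, chi K I x s * chi K I t s +
          b * c * ∑ s, chi K I y s * chi K I z s + b * d * ∑ s, chi K I y s * chi K I t s := by
          simp only [mul_sum, ← sum_add_distrib]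
          exact sum_congr rfl fun s _ => by ring
      _ = _ := by simp only [h]; ring
  rcases w with w | w <;> rcases w' with w' | w'
  · simpa [vU, eps] using key w.2.1 0 w'.2.1 0 w.1 w.1 w'.1 w'.1
  · simpa [vU, eps, sig] using key w.2.1 0 1 i w.1 w.1 ℓ₁ ℓ₂
  · simpa [vU, eps, sig] using key 1 i w'.2.1 0 ℓ₁ ℓ₂ w'.1 w'.1
  · simpa [vU, eps, sig] using key 1 i 1 i ℓ₁ ℓ₂ ℓ₁ ℓ₂

lemma inner_Y (hi : i * i = -1) (y y' : YY T₀ T₁ K M) :
    ∑ s, vY i M y s * vY i M y' s =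
      if y = .inr (.inr (.inr ())) ∧ y' = .inr (.inr (.inr ())) then 2 * i else 0 := by
  have pp : ∀ (t t' : T₀ ⊕ T₁) (a b : K), ∑ s, (a * pairv i t s) * (b * pairv i t' s) = 0 := by
    intro t t' a b
    rw [Fintype.sum_sum_type, Fintype.sum_prod_type]
    simp only [pairv, Fintype.sum_bool, mul_zero, sum_const_zero, zero_add]
    refine sum_eq_zero fun x _ => ?_
    split_ifs <;> first | contradiction | (linear_combination (a * b) * hi) | simp
  have pt : ∀ (t : T₀ ⊕ T₁) (ξ : Fin 3 → K) (a b : K),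
      ∑ s, (a * pairv i t s) * (b * triv T₀ T₁ ξ s) = 0 := by
    intro t ξ a b
    refine sum_eq_zero fun s _ => ?_
    rcases s with s | s <;> simp [pairv, triv]
  have tp : ∀ (t : T₀ ⊕ T₁) (ξ : Fin 3 → K) (a b : K),
      ∑ s, (b * triv T₀ T₁ ξ s) * (a * pairv i t s) = 0 := by
    intro t ξ a b
    rw [← pt t ξ a b]
    exact sum_congr rfl fun s _ => mul_comm _ _
  have tt : ∀ (ξ ξ' : Fin 3 → K) (a b : K), ∑ s, (a * triv T₀ T₁ ξ s) * (b * triv T₀ T₁ ξ' s) =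
      a * b * (ξ 0 * ξ' 0 + ξ 1 * ξ' 1 + ξ 2 * ξ' 2) := by
    intro ξ ξ' a b
    simp only [Fintype.sum_sum_type, triv, Fin.sum_univ_three, mul_zero, sum_const_zero]
    ring
  have x1 : xi i 0 * xi i 0 + xi i 1 * xi i 1 + xi i 2 * xi i 2 = 0 := by
    simp only [xi, Matrix.cons_val]
    linear_combination 18 * hi
  have x2 : xi i 0 * nu i 0 + xi i 1 * nu i 1 + xi i 2 * nu i 2 = 0 := by
    simp only [xi, nu, Matrix.cons_val]
    linear_combination 3 * hi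
  have x3 : nu i 0 * xi i 0 + nu i 1 * xi i 1 + nu i 2 * xi i 2 = 0 := by
    simp only [xi, nu, Matrix.cons_val]
    linear_combination 3 * hi
  have x4 : nu i 0 * nu i 0 + nu i 1 * nu i 1 + nu i 2 * nu i 2 = 2 * i := by
    simp only [nu, Matrix.cons_val]
    linear_combination 2 * hi
  rcases y with y | y | y | y <;> rcases y' with y' | y' | y' | y'
  · simpa [vY] using pp y.1 y'.1 y.2.1 y'.2.1
  · simpa [vY] using pt y.1 (xi i) y.2.1 y'.1
  · simpa [vY] using pp y.1 (.inl y') y.2.1 1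
  · simpa [vY] using pt y.1 (nu i) y.2.1 1
  · simpa [vY] using tp y'.1 (xi i) y'.2.1 y.1
  · simpa [vY, x1] using tt (xi i) (xi i) y.1 y'.1
  · simpa [vY] using tp (.inl y') (xi i) 1 y.1
  · simpa [vY, x2] using tt (xi i) (nu i) y.1 1
  · simpa [vY] using pp (.inl y) y'.1 1 y'.2.1
  · simpa [vY] using pt (.inl y) (xi i) 1 y'.1
  · simpa [vY] using pp (.inl y) (.inl y') 1 1
  · simpa [vY] using pt (.inl y) (nu i) 1 1
  · simpa [vY] using tp y'.1 (nu i) y'.2.1 1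
  · simpa [vY, x3] using tt (nu i) (xi i) 1 y'.1
  · simpa [vY] using tp (.inl y') (nu i) 1 1
  · simpa [vY, x4] using tt (nu i) (nu i) 1 1

/-- allowed pairs of labels at the vertices `Y` -/
noncomputable def St (T₀ T₁ : Type) [Fintype T₀] [Fintype T₁] : Finset (Pt T₀ T₁ × Pt T₀ T₁) :=
  (univ.image fun x : (T₀ ⊕ T₁) × Bool => (.inr x, .inr (x.1, !x.2))) ∪
    ((univ : Finset (Fin 3)).offDiag.image fun x => (.inl x.1, .inl x.2))

lemma card_St : #(St T₀ T₁) ≤ Fintype.card (Pt T₀ T₁) + 3 := by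
  refine (card_union_le _ _).trans ((add_le_add card_image_le card_image_le).trans ?_)
  simp [offDiag_card]
  omega

lemma mem_St (y : YY T₀ T₁ K M) {s s' : Pt T₀ T₁} (hne : s ≠ s') (h : vY i M y s ≠ 0)
    (h' : vY i M y s' ≠ 0) : (s, s') ∈ St T₀ T₁ := by
  have hp : ∀ t, pairv i t s ≠ 0 → pairv i t s' ≠ 0 → (s, s') ∈ St T₀ T₁ := by
    intro t a1 a2
    rcases s with s | ⟨u, b⟩
    · simp [pairv] at a1
    rcases s' with s' | ⟨u', b'⟩
    · simp [pairv] at a2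
    have e1 : u = t := by
      by_contra e
      simp [pairv, e] at a1
    have e2 : u' = t := by
      by_contra e
      simp [pairv, e] at a2
    subst e1 e2
    refine mem_union_left _ (mem_image.2 ⟨(u', b), mem_univ _, ?_⟩)
    cases b <;> cases b' <;> simp at hne ⊢
  have ht : ∀ ξ : Fin 3 → K, triv T₀ T₁ ξ s ≠ 0 → triv T₀ T₁ ξ s' ≠ 0 → (s, s') ∈ St T₀ T₁ := by
    intro ξ a1 a2
    rcases s with s | s
    swap
    · simp [triv] at a1
    rcases s' with s' | s'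
    swap
    · simp [triv] at a2
    exact mem_union_right _ (mem_image.2 ⟨(s, s'), by simpa using hne, rfl⟩)
  rcases y with y | y | y | y
  · exact hp _ (right_ne_zero_of_mul h) (right_ne_zero_of_mul h')
  · exact ht _ (right_ne_zero_of_mul h) (right_ne_zero_of_mul h')
  · exact hp _ h h'
  · exact ht _ h h'

end Crest.Agent.R177.FO

namespace Crest.Agent.R177

open Finset FO
open scoped Classical

theorem desOddStmt : DesOddStmt := by
  intro p _ hp
  let K := GaloisField p 4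
  let _ : Fintype K := Fintype.ofFinite K
  have hpp : p.Prime := Fact.out
  have hcard : Fintype.card K = p ^ 4 := by
    rw [← Nat.card_eq_fintype_card]
    exact GaloisField.card p 4 (by norm_num)
  obtain ⟨i, hi⟩ : IsSquare (-1 : K) := by
    rw [FiniteField.isSquare_neg_one_iff, hcard]
    have h : p % 4 = 1 ∨ p % 4 = 3 := by
      have := hpp.eq_two_or_odd
      omega
    rcases h with h | h <;> simp [Nat.pow_mod, h]
  have hi' : i * i = -1 := hi.symm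
  have hn : ∀ n : ℕ, n.Prime → n ≤ 5 → (n : K) ≠ 0 := fun n h1 h2 h3 => by
    have := Nat.le_of_dvd h1.pos ((CharP.cast_eq_zero_iff K p n).1 h3)
    omega
  have h2' : (2 : K) ≠ 0 := by exact_mod_cast hn 2 (by norm_num) (by norm_num)
  have h5' : (5 : K) ≠ 0 := by exact_mod_cast hn 5 (by norm_num) (by norm_num)
  have hi0 : i ≠ 0 := by
    rintro rfl
    simp at hi'
  have hξ : ∀ j, xi i j ≠ 0 := by
    have h10 : (-1 - 3 * i) * (-1 + 3 * i) ≠ 0 := by
      have : (-1 - 3 * i) * (-1 + 3 * i) = 2 * 5 := by linear_combination (-9) * hi'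
      rw [this]
      exact mul_ne_zero h2' h5'
    intro j
    fin_cases j
    · have : xi i 0 = 2 * 2 := by simp [xi]; norm_num
      exact this ▸ mul_ne_zero h2' h2'
    · exact left_ne_zero_of_mul h10
    · exact right_ne_zero_of_mul h10
  obtain ⟨T₀, T₁, Ln, _, _, _, I, ℓ₁, ℓ₂, h1, h2, h3, h4, h5, h6⟩ := exists_plane p
  refine ⟨Pt T₀ T₁, Pt T₀ T₁ × Kˣ × Bool, inferInstance, inferInstance, Prod.fst, p + 1, p + 1,
    p + 1, St T₀ T₁, ?_, by omega, by omega, fun N hN => ?_⟩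
  · have := card_St (T₀ := T₀) (T₁ := T₁)
    rw [h1] at this
    nlinarith
  refine ⟨vdes (vU I ℓ₁ ℓ₂ i N) (sU Ln K N) (vY i ((p + 1) * N)) (sY T₀ T₁ K ((p + 1) * N)),
    Sum.inl (ℓ₁, 1, false, ⟨0, hN⟩), ⟨fun l => ?_, fun l => ?_, fun l => ?_, fun l s hs => ?_,
      fun y l hl l' hl' hne => ?_⟩, ?_⟩
  · rw [card_eq_cnt, card_eq_cnt]
    exact (count_U N h2 l).trans (count_Y _ hi' hξ h5 h6 l).symm
  · rw [card_eq_cnt]
    exact le_of_le_of_eq (Nat.le_add_right _ _) (count_U N h2 l).symm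
  · rw [card_eq_cnt]
    refine le_of_eq_of_le (count_U N h2 l) ?_
    split_ifs <;> omega
  · rw [card_eq_cnt]
    have := count_two (ℓ₁ := ℓ₁) (ℓ₂ := ℓ₂) (i := i) N h4 l s hs
    exact (Nat.mul_le_mul_left (p + 1) this).trans (le_of_eq (by ring))
  · refine mem_St (i := i) _ y (fun h => hne (injOn_lab _ _ hl hl' h)) ?_ ?_
    · rw [← (mem_lab.1 hl).1]
      exact Units.ne_zero _
    · rw [← (mem_lab.1 hl').1]
      exact Units.ne_zero _
  · exact vdes_alg (eps i N) (.inr (.inr (.inr ()))) (2 * i) _ (inner_U N h3 h4)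
      (fun y y' => by convert inner_Y _ hi' y y') rfl (mul_ne_zero h2' hi0) rfl (by simp [eps])

end Crest.Agent.R177
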