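import Crest.Agent.R177.Diag2

/-!
The van Kampen lemma with reduction.
-/

set_option autoImplicit false

namespace Crest.Agent.R177.Diag

open Equiv Finset
open scoped Classical

variable {P : Type} {L : FGraph P}

variable (L) in
def Q (g : L.tri.G) (w : List (Lt L)) (c : Ch L) : Prop :=
  ∃ (X : Type) (_ : Fintype X), Nonempty (PD L g w c X)

theorem Q.rotate_one {g : L.tri.G} {s : Lt L} {w : List (Lt L)} {c : Ch L}
    (h : Q L g (s :: w) c) : Q L (g * val L s) (w ++ [s]) c := by
  obtain ⟨X, _, ⟨D⟩⟩ := h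
  refine ⟨X, _, ⟨{ D with
    o := D.o.rotate 1
    o_nodup := List.nodup_rotate.2 D.o_nodup
    o_lab := by rw [List.map_rotate, D.o_lab]; simp
    o_cyc := by rw [List.map_rotate, D.o_cyc]
    o_live := fun x hx => D.o_live x (List.mem_rotate.1 hx)
    lift_lab := fun x hx => D.lift_lab x fun h => hx (List.mem_rotate.2 h)
    walk := fun x hx => D.walk x fun h => hx (List.mem_rotate.2 h)
    pos_o := ?_
    chain := by simpa only [List.mem_rotate] using D.chain }⟩⟩
  intro y hy
  have hlab := D.o_lab
  rw [← D.o_cyc] at hy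
  rcases ho : D.o with _ | ⟨x, l⟩
  · simp [ho] at hlab
  · simp only [ho, List.map_cons, List.cons.injEq, List.head?_cons, Option.mem_def,
      Option.some.injEq] at hlab hy
    rw [← hy, ← D.pos_φ x (D.o_live x (by simp [ho])), D.pos_o x (by simp [ho]), hlab.1]

theorem Q.rotate {g : L.tri.G} {w₁ w₂ : List (Lt L)} {c : Ch L}
    (h : Q L g (w₁ ++ w₂) c) : Q L (g * valW L w₁) (w₂ ++ w₁) c := by
  induction w₁ generalizing g w₂ with
  | nil => simpa using h
  | cons s w₁ ih =>
      have := Q.rotate_one (w := w₁ ++ w₂) h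
      rw [List.append_assoc] at this
      have := ih this
      rwa [List.append_assoc, mul_assoc, ← valW_cons] at this

theorem Q.fold (hm : MoveStmt) {g : L.tri.G} {s : Lt L} {w : List (Lt L)} {c : Ch L}
    (h : Q L g (s :: fl s :: w) c) : Q L g w c := by
  obtain ⟨X, _, ⟨D⟩⟩ := h
  exact ⟨X, _, D.fold_outer hm⟩

theorem not_eqvGen_sum {X Y : Type} (φ α : Perm X) (φ' α' : Perm Y) (x : X) (y : Y) :
    ¬ Relation.EqvGen (Step (Perm.sumCongr φ φ') (Perm.sumCongr α α')) (.inl x) (.inr y) := by
  have : ∀ a b, Relation.EqvGen (Step (Perm.sumCongr φ φ') (Perm.sumCongr α α')) a b →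
      a.isLeft = b.isLeft := by
    intro a b h
    induction h with
    | rel a b h => rcases h with rfl | rfl <;> cases a <;> rfl
    | refl => rfl
    | symm _ _ _ ih => exact ih.symm
    | trans _ _ _ _ _ ih1 ih2 => exact ih1.trans ih2
  intro h
  simpa using this _ _ h

theorem Q.append (hm : MoveStmt) {g : L.tri.G} {w₁ w₂ : List (Lt L)} {c₁ c₂ : Ch L}
    (h₁ : Q L g w₁ c₁) (h₂ : Q L g w₂ c₂) : Q L g (w₁ ++ w₂) (c₁ + c₂) := by
  obtain ⟨X, _, ⟨D⟩⟩ := h₁
  obtain ⟨Y, _, ⟨E⟩⟩ := h₂
  set Φ := Perm.sumCongr D.φ E.φ with hΦ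
  set A := Perm.sumCongr D.α E.α with hA
  set o : List (X ⊕ Y) := D.o.map .inl ++ E.o.map .inr with ho
  have hP : Planar Φ A := hm.2.2.2.2.1 X Y _ _ _ _ D.planar E.planar
  have hmap : o.map Φ = (D.o.rotate 1).map .inl ++ (E.o.rotate 1).map .inr := by
    rw [← D.o_cyc, ← E.o_cyc, ho]; simp [hΦ, Function.comp_def]
  have ml : ∀ x, Sum.inl x ∈ o ↔ x ∈ D.o := by simp [ho]
  have mr : ∀ y, Sum.inr y ∈ o ↔ y ∈ E.o := by simp [ho]
  obtain ⟨s, s1, s2, s3, s4⟩ : ∃ s : Perm (X ⊕ Y), Planar (s * Φ) A ∧ (∀ z, z ∉ o → s z = z) ∧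
      (∀ z, Sum.elim D.pos E.pos (s z) = Sum.elim D.pos E.pos z) ∧
      o.map (s * Φ) = o.rotate 1 := by
    rcases h1 : D.o with _ | ⟨a, l₁⟩
    · refine ⟨1, by simpa using hP, fun _ _ => rfl, fun _ => rfl, ?_⟩
      rw [one_mul, hmap, ho, h1]; simp [List.map_rotate]
    rcases h2 : E.o with _ | ⟨b, l₂⟩
    · refine ⟨1, by simpa using hP, fun _ _ => rfl, fun _ => rfl, ?_⟩
      rw [one_mul, hmap, ho, h2]; simp [List.map_rotate]
    refine ⟨swap (.inl a) (.inr b), ?_, ?_, ?_, ?_⟩
    · have e1 : Φ⁻¹ (.inl a) = .inl (D.φ⁻¹ a) := by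
        rw [Perm.inv_eq_iff_eq]; simp [hΦ]
      have e2 : Φ⁻¹ (.inr b) = .inr (E.φ⁻¹ b) := by
        rw [Perm.inv_eq_iff_eq]; simp [hΦ]
      rw [swap_mul_eq_mul_swap, e1, e2]
      have := hm.2.2.2.1 (X ⊕ Y) Φ A (.inl (D.φ⁻¹ a)) (.inr (E.φ⁻¹ b)) hP
        (not_eqvGen_sum D.φ D.α E.φ E.α _ _)
      convert this
    · intro z hz
      refine swap_apply_of_ne_of_ne ?_ ?_
      · rintro rfl; exact hz (by simp [ml, h1])
      · rintro rfl; exact hz (by simp [mr, h2])
    · intro z
      have pa := D.pos_o a (by simp [h1])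
      have pb := E.pos_o b (by simp [h2])
      rw [swap_apply_def]
      split_ifs with c1 c2
      · simp [c1, pa, pb]
      · simp [c2, pa, pb]
      · rfl
    · have n1 := D.o_nodup
      have n2 := E.o_nodup
      rw [h1, List.nodup_cons] at n1
      rw [h2, List.nodup_cons] at n2
      rw [Perm.coe_mul, ← List.map_map, hmap, ho, h1, h2]
      simp only [List.rotate_cons_succ, List.rotate_zero, List.map_append, List.map_cons,
        List.map_nil, swap_apply_left, swap_apply_right, List.cons_append, List.append_assoc,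
        List.nil_append, List.map_map]
      congr 1
      · refine List.map_congr_left fun z hz => swap_apply_of_ne_of_ne ?_ (by simp)
        simp only [ne_eq, Sum.inl.injEq]; rintro rfl; exact n1.1 hz
      · congr 2
        refine List.map_congr_left fun z hz => swap_apply_of_ne_of_ne (by simp) ?_
        simp only [ne_eq, Sum.inr.injEq]; rintro rfl; exact n2.1 hz
  refine ⟨X ⊕ Y, inferInstance, ⟨{
    φ := s * Φ, α := A
    inv := by rintro (x | y) <;> simp [hA, D.inv, E.inv]
    planar := s1
    dead := ?_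
    o := o
    o_nodup := by
      rw [ho, List.nodup_append]
      exact ⟨D.o_nodup.map Sum.inl_injective, E.o_nodup.map Sum.inr_injective, by simp⟩
    lab := Sum.elim D.lab E.lab
    o_lab := by
      have := congrArg₂ (· ++ ·) D.o_lab E.o_lab
      simpa [ho, Function.comp_def] using this
    o_cyc := s4
    o_live := by
      rintro (x | y) h
      · simpa [hA] using D.o_live x ((ml x).1 h)
      · simpa [hA] using E.o_live y ((mr y).1 h)
    lab_α := by
      rintro (x | y) h
      · exact D.lab_α x (by simpa [hA] using h)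
      · exact E.lab_α y (by simpa [hA] using h)
    lift := Sum.elim D.lift E.lift
    lift_lab := by
      rintro (x | y) h1 h
      · exact D.lift_lab x (mt (ml x).2 h1) (by simpa [hA] using h)
      · exact E.lift_lab y (mt (mr y).2 h1) (by simpa [hA] using h)
    walk := ?_
    pos := Sum.elim D.pos E.pos
    pos_φ := by
      rintro (x | y) h
      · rw [Perm.mul_apply, s3]; exact D.pos_φ x (by simpa [hA] using h)
      · rw [Perm.mul_apply, s3]; exact E.pos_φ y (by simpa [hA] using h)
    pos_α := by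
      rintro (x | y) h
      · exact D.pos_α x (by simpa [hA] using h)
      · exact E.pos_α y (by simpa [hA] using h)
    pos_o := ?_
    chain := ?_ }⟩⟩
  · rintro (x | y) h
    · have h' : D.α x = x := by simpa [hA] using h
      have : Φ (.inl x) = .inl x := by simp [hΦ, D.dead x h']
      rw [Perm.mul_apply, this, s2 _ fun hx => D.o_live x ((ml x).1 hx) h']
    · have h' : E.α y = y := by simpa [hA] using h
      have : Φ (.inr y) = .inr y := by simp [hΦ, E.dead y h']
      rw [Perm.mul_apply, this, s2 _ fun hx => E.o_live y ((mr y).1 hx) h']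
  · rintro (x | y) h1 h
    · have h1' := mt (ml x).2 h1
      rw [Perm.mul_apply, show Φ (.inl x) = .inl (D.φ x) from rfl,
        s2 _ fun hx => h1' (D.mem_o' ((ml _).1 hx))]
      exact D.walk x h1' (by simpa [hA] using h)
    · have h1' := mt (mr y).2 h1
      rw [Perm.mul_apply, show Φ (.inr y) = .inr (E.φ y) from rfl,
        s2 _ fun hx => h1' (E.mem_o' ((mr _).1 hx))]
      exact E.walk y h1' (by simpa [hA] using h)
  · intro z hz
    rw [ho] at hz
    rcases h1 : D.o with _ | ⟨a, l₁⟩
    · rw [h1] at hz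
      simp only [List.map_nil, List.nil_append, List.head?_map, Option.mem_def,
        Option.map_eq_some_iff] at hz
      obtain ⟨y, hy, rfl⟩ := hz
      exact E.pos_o y hy
    · rw [h1] at hz
      simp only [List.map_cons, List.cons_append, List.head?_cons, Option.mem_def,
        Option.some.injEq] at hz
      subst hz
      exact D.pos_o a (by simp [h1])
  · conv_lhs => rw [D.chain, E.chain]
    rw [sum_filter, sum_filter, sum_filter, Fintype.sum_sum_type]
    simp [ml, mr, hA]

theorem Q.nil (hm : MoveStmt) (g : L.tri.G) : Q L g [] 0 :=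
  ⟨Empty, inferInstance, ⟨{
    φ := 1, α := 1⁻¹, inv := fun x => x.elim, planar := hm.2.2.2.2.2.2.1 _ 1
    dead := fun x => x.elim, o := [], o_nodup := List.nodup_nil, lab := fun x => x.elim
    o_lab := rfl, o_cyc := rfl, o_live := fun x => x.elim, lab_α := fun x => x.elim
    lift := fun x => x.elim, lift_lab := fun x => x.elim, walk := fun x => x.elim
    pos := fun x => x.elim, pos_φ := fun x => x.elim, pos_α := fun x => x.elim
    pos_o := fun x => x.elim, chain := by simp }⟩⟩

/-- every label is the label of some dart only for inner darts; a default dart for outer ones -/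
theorem Q.spike (hm : MoveStmt) (g : L.tri.G) (s : Lt L) (d : L.cone.Dart) :
    Q L g [s, fl s] 0 :=
  ⟨Bool, inferInstance, ⟨{
    φ := swap true false, α := (swap true false)⁻¹
    inv := by decide
    planar := hm.2.2.2.2.2.2.1 _ _
    dead := by decide
    o := [true, false], o_nodup := by decide
    lab := fun b => if b then s else fl s
    o_lab := rfl
    o_cyc := by decide
    o_live := by decide
    lab_α := by rintro (_ | _) _ <;> simp
    lift := fun _ => d
    lift_lab := by rintro (_ | _) h <;> simp at h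
    walk := by rintro (_ | _) h <;> simp at h
    pos := fun b => if b then g else g * val L s
    pos_φ := by rintro (_ | _) _ <;> simp [val_fl]
    pos_α := by rintro (_ | _) _ <;> simp [val_fl]
    pos_o := by simp
    chain := by
      symm
      refine sum_eq_zero fun x hx => ?_
      cases x <;> simp at hx }⟩⟩

theorem Q.pillow (hm : MoveStmt) (g : L.tri.G) (d₀ d₁ d₂ : L.cone.Dart)
    (h₀ : L.cone.head d₀ = L.cone.tail d₂) (h₁ : L.cone.head d₁ = L.cone.tail d₀)
    (h₂ : L.cone.head d₂ = L.cone.tail d₁)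
    (hv : val L (fl (L.cone.label d₀)) * val L (fl (L.cone.label d₁)) *
      val L (fl (L.cone.label d₂)) = 1) :
    Q L g [fl (L.cone.label d₀), fl (L.cone.label d₁), fl (L.cone.label d₂)]
      (term (g * val L (fl (L.cone.label d₀))) d₀ +
        term (g * val L (fl (L.cone.label d₀)) * val L (fl (L.cone.label d₁))) d₁ + term g d₂) := by
  have hv' : g * val L (fl (L.cone.label d₀)) * val L (fl (L.cone.label d₁)) *
      val L (fl (L.cone.label d₂)) = g := by
    rw [mul_assoc g, mul_assoc g, hv, mul_one]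
  have hv'' : g * val L (L.cone.label d₂) =
      g * val L (fl (L.cone.label d₀)) * val L (fl (L.cone.label d₁)) := by
    conv_lhs => rw [← hv']
    rw [val_fl (L.cone.label d₂), inv_mul_cancel_right]
  let d : Fin 3 → L.cone.Dart := ![d₀, d₁, d₂]
  let p : Fin 3 → L.tri.G := ![g, g * val L (fl (L.cone.label d₀)),
    g * val L (fl (L.cone.label d₀)) * val L (fl (L.cone.label d₁))]
  refine ⟨Fin 3 ⊕ Fin 3, inferInstance, ⟨{
    φ := Perm.sumCongr (finRotate 3) (finRotate 3)⁻¹, α := Equiv.sumComm _ _
    inv := by decide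
    planar := hm.2.2.2.2.2.2.2.1 _ _
    dead := by decide
    o := [.inl 0, .inl 1, .inl 2], o_nodup := by decide
    lab := Sum.elim (fun i => fl (L.cone.label (d i))) (fun i => L.cone.label (d i))
    o_lab := rfl
    o_cyc := by decide
    o_live := by rintro (i | i) _ <;> simp
    lab_α := by rintro (i | i) _ <;> simp
    lift := Sum.elim d d
    lift_lab := by
      rintro (i | i) h _
      · fin_cases i <;> simp at h
      · rfl
    walk := by
      rintro (i | i) h _
      · fin_cases i <;> simp at h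
      · fin_cases i
        · exact h₀
        · exact h₁
        · exact h₂
    pos := Sum.elim p (fun i => p (finRotate 3 i))
    pos_φ := by
      rintro (i | i) _
      · fin_cases i
        · rfl
        · rfl
        · exact hv'
      · fin_cases i
        · show g * val L (fl (L.cone.label d₀)) * val L (L.cone.label d₀) = g
          rw [val_fl, inv_mul_cancel_right]
        · show g * val L (fl (L.cone.label d₀)) * val L (fl (L.cone.label d₁)) *
            val L (L.cone.label d₁) = g * val L (fl (L.cone.label d₀))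
          rw [val_fl (L.cone.label d₁), inv_mul_cancel_right]
        · exact hv''
    pos_α := by
      rintro (i | i) _
      · fin_cases i
        · rfl
        · rfl
        · exact hv'
      · fin_cases i
        · show g * val L (fl (L.cone.label d₀)) * val L (L.cone.label d₀) = g
          rw [val_fl, inv_mul_cancel_right]
        · show g * val L (fl (L.cone.label d₀)) * val L (fl (L.cone.label d₁)) *
            val L (L.cone.label d₁) = g * val L (fl (L.cone.label d₀))
          rw [val_fl (L.cone.label d₁), inv_mul_cancel_right]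
        · exact hv''
    pos_o := by simp [p]
    chain := by
      rw [sum_filter, Fintype.sum_sum_type, Fin.sum_univ_three, Fin.sum_univ_three]
      simp [p, d] }⟩⟩

theorem Q.rel_pos (hm : MoveStmt) (g : L.tri.G) (e : L.E) :
    Q L g [(.inr (L.src e), true), (.inl (L.lab e), true), (.inr (L.tgt e), false)]
      (Finsupp.single (g, e) 1) := by
  have := Q.pillow hm g (.inr (L.src e), false) (.inl e, false) (.inr (L.tgt e), true) rfl rfl rfl
    (by
      show val L (.inr (L.src e), true) * val L (.inl (L.lab e), true) *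
        val L (.inr (L.tgt e), false) = 1
      rw [val_true, val_true, val_false, rel_eq, mul_inv_cancel])
  convert this using 1
  · rfl
  show _ = 0 + Finsupp.single (g * val L (.inr (L.src e), true) * val L (.inl (L.lab e), true) *
    _, e) 1 + 0
  rw [val_true, val_true, mul_assoc g, rel_eq, mul_inv_cancel_right, zero_add, add_zero]

theorem Q.rel_neg (hm : MoveStmt) (g : L.tri.G) (e : L.E) :
    Q L g [(.inr (L.tgt e), true), (.inl (L.lab e), false), (.inr (L.src e), false)]
      (-Finsupp.single (g, e) 1) := by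
  have := Q.pillow hm g (.inr (L.tgt e), false) (.inl e, true) (.inr (L.src e), true) rfl rfl rfl
    (by
      show val L (.inr (L.tgt e), true) * val L (.inl (L.lab e), false) *
        val L (.inr (L.src e), false) = 1
      rw [val_true, val_false, val_false, ← rel_eq, mul_inv_cancel_right, mul_inv_cancel])
  convert this using 1
  · rfl
  show _ = 0 + -Finsupp.single (g * val L (.inr (L.tgt e), true) * val L (.inl (L.lab e), false) *
    _, e) 1 + 0
  rw [val_true, val_false, ← rel_eq, mul_assoc g, mul_inv_cancel_right, mul_inv_cancel_right,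
    zero_add, add_zero]

theorem Q.val_eq (hm : MoveStmt) {g : L.tri.G} {w : List (Lt L)} {c : Ch L} (h : Q L g w c) :
    valW L w = 1 := by
  obtain ⟨X, _, ⟨D⟩⟩ := h
  have key : ∀ (l : List X) (a b : X), (∀ x ∈ a :: l, D.α x ≠ x) →
      (a :: l).map D.φ = l ++ [b] → D.pos a * valW L ((a :: l).map D.lab) = D.pos b := by
    intro l
    induction l with
    | nil =>
        intro a b h1 h2
        simp only [List.map_cons, List.map_nil, List.nil_append, List.cons.injEq, and_true] at h2
        rw [← h2, ← D.pos_φ a (h1 a (by simp))]; rfl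
    | cons y l ih =>
        intro a b h1 h2
        rw [List.map_cons, List.cons_append, List.cons.injEq] at h2
        rw [List.map_cons, valW_cons, ← mul_assoc, D.pos_φ a (h1 a (by simp)), h2.1]
        exact ih y b (fun x hx => h1 x (by simp [hx])) h2.2
  rw [← D.o_lab]
  rcases ho : D.o with _ | ⟨a, l⟩
  · simp
  · have := key l a a (fun x hx => D.o_live x (by rwa [ho])) (by simpa [ho] using D.o_cyc)
    simpa using this

theorem Q.step_iff (hm : MoveStmt) (hV : Nonempty L.V) {g : L.tri.G} {w₁ w₂ : List (Lt L)}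
    {c : Ch L} (h : FreeGroup.Red.Step w₁ w₂) : Q L g w₁ c ↔ Q L g w₂ c := by
  rcases h with @⟨l₁, l₂, a, b⟩
  constructor
  · intro h
    have hv := h.val_eq hm
    have h1 := Q.fold hm (s := (a, b)) (w := l₂ ++ l₁) h.rotate
    have h2 := h1.rotate
    have hv' := h2.val_eq hm
    rwa [mul_assoc, ← valW_append, hv', mul_one] at h2
  · intro h
    have hv := h.val_eq hm
    have h1 := (Q.spike hm (g * valW L l₁) (a, b) (.inr hV.some, true)).append hm h.rotate
    rw [← List.append_assoc, zero_add] at h1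
    have h2 := h1.rotate
    have hv' := h2.val_eq hm
    rwa [mul_assoc, ← valW_append, hv', mul_one] at h2

theorem Q.of_mk (hm : MoveStmt) (hV : Nonempty L.V) {g : L.tri.G} {w₁ w₂ : List (Lt L)}
    {c : Ch L} (e : FreeGroup.mk w₁ = FreeGroup.mk w₂) (h : Q L g w₁ c) : Q L g w₂ c := by
  have red : ∀ {a b : List (Lt L)}, FreeGroup.Red a b → (Q L g a c ↔ Q L g b c) := by
    intro a b hab
    induction hab with
    | refl => rfl
    | tail _ h ih => exact ih.trans (Q.step_iff hm hV h)
  obtain ⟨u, h1, h2⟩ := FreeGroup.Red.exact.1 e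
  exact (red h2).2 ((red h1).1 h)

theorem Q.conj (hm : MoveStmt) (hV : Nonempty L.V) {g : L.tri.G} (u : List (Lt L))
    {w : List (Lt L)} {c : Ch L} (h : Q L (g * valW L u) w c) :
    Q L g (u ++ w ++ FreeGroup.invRev u) c := by
  have h0 : Q L (g * valW L u) (FreeGroup.invRev u ++ u) 0 :=
    (Q.nil hm _).of_mk hm hV (by
      rw [← FreeGroup.mul_mk, ← FreeGroup.inv_mk, inv_mul_cancel]; rfl)
  have h1 := h.append hm h0
  rw [← List.append_assoc, add_zero] at h1
  have h2 := h1.rotate
  have hv' := h2.val_eq hm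
  rwa [mul_assoc, ← valW_append, hv', mul_one, ← List.append_assoc] at h2

theorem Q.of_mem (hm : MoveStmt) (hV : Nonempty L.V)
    {p : FreeGroup (P ⊕ L.V) × Multiplicative (Ch L)} (hp : p ∈ L.tri.D) :
    ∃ w, FreeGroup.mk w = p.1 ∧ Q L 1 w (Multiplicative.toAdd p.2) := by
  induction hp using Subgroup.closure_induction'' with
  | mem p hp =>
      obtain ⟨u, e, rfl⟩ := hp
      obtain ⟨u, rfl⟩ : ∃ l, FreeGroup.mk l = u := ⟨u.toWord, FreeGroup.mk_toWord⟩
      have := Q.conj hm hV u (Q.rel_pos hm (1 * valW L u) e)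
      rw [one_mul] at this
      refine ⟨_, ?_, this⟩
      rw [← FreeGroup.mul_mk, ← FreeGroup.mul_mk, ← FreeGroup.inv_mk]
      rfl
  | inv_mem p hp =>
      obtain ⟨u, e, rfl⟩ := hp
      obtain ⟨u, rfl⟩ : ∃ l, FreeGroup.mk l = u := ⟨u.toWord, FreeGroup.mk_toWord⟩
      have := Q.conj hm hV u (Q.rel_neg hm (1 * valW L u) e)
      rw [one_mul] at this
      refine ⟨_, ?_, this⟩
      rw [← FreeGroup.mul_mk, ← FreeGroup.mul_mk, ← FreeGroup.inv_mk]
      show _ = (FreeGroup.mk u * L.tri.rel e * (FreeGroup.mk u)⁻¹)⁻¹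
      rw [mul_inv_rev, mul_inv_rev, inv_inv, ← mul_assoc]
      rfl
  | one => exact ⟨[], rfl, Q.nil hm 1⟩
  | mul p q _ _ ih1 ih2 =>
      obtain ⟨w₁, e₁, h₁⟩ := ih1
      obtain ⟨w₂, e₂, h₂⟩ := ih2
      exact ⟨w₁ ++ w₂, by rw [← FreeGroup.mul_mk, e₁, e₂]; rfl, h₁.append hm h₂⟩

theorem PD.reduce (hm : MoveStmt) {g : L.tri.G} {w : List (Lt L)} {c : Ch L} {X : Type}
    [Fintype X] (D : PD L g w c X) : ∃ D' : PD L g w c X,
      (∀ x, x ∉ D'.o → D'.α x ≠ x → D'.lift (D'.φ x) ≠ L.cone.rev (D'.lift x)) ∧
      ∀ x, x ∉ D'.o → D'.α x ≠ x → D'.α x ∉ D'.o → D'.lift (D'.α x) ≠ L.cone.rev (D'.lift x) := by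
  induction hn : D.nl using Nat.strong_induction_on generalizing D with
  | _ n ih =>
    by_cases h1 : ∃ x, x ∉ D.o ∧ D.α x ≠ x ∧ D.lift (D.φ x) = L.cone.rev (D.lift x)
    · obtain ⟨x, a, b, e⟩ := h1
      obtain ⟨D', h⟩ := D.fold_inner hm a b e
      exact ih _ (hn ▸ h) D' rfl
    by_cases h2 : ∃ x, x ∉ D.o ∧ D.α x ≠ x ∧ D.α x ∉ D.o ∧ D.lift (D.α x) = L.cone.rev (D.lift x)
    · obtain ⟨x, a, b, b', e⟩ := h2
      obtain ⟨D', h⟩ := D.delete hm a b b' e
      exact ih _ (hn ▸ h) D' rfl
    push Not at h1 h2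
    exact ⟨D, h1, h2⟩

theorem mass_eq {ι : Type} (c : ι →₀ ℤ) (S : Finset ι) (h : c.support ⊆ S) :
    Tri.mass c = ∑ i ∈ S, (c i).natAbs :=
  sum_subset h fun i _ hi => by simpa using hi

theorem mass_add_le {ι : Type} (c c' : ι →₀ ℤ) : Tri.mass (c + c') ≤ Tri.mass c + Tri.mass c' := by
  rw [mass_eq (c + c') _ Finsupp.support_add, mass_eq c _ (subset_union_left (s₂ := c'.support)),
    mass_eq c' _ (subset_union_right (s₁ := c.support)), ← sum_add_distrib]
  exact sum_le_sum fun i _ => Int.natAbs_add_le _ _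

theorem mass_sum_le {ι κ : Type} (S : Finset κ) (f : κ → ι →₀ ℤ) :
    Tri.mass (∑ k ∈ S, f k) ≤ ∑ k ∈ S, Tri.mass (f k) := by
  induction S using Finset.induction_on with
  | empty => simp [Tri.mass]
  | insert k S hk ih =>
      rw [sum_insert hk, sum_insert hk]
      exact (mass_add_le _ _).trans (Nat.add_le_add_left ih _)

theorem mass_term (p : L.tri.G) (d : L.cone.Dart) :
    Tri.mass (term p d) ≤ if (L.cone.label d).1.isLeft then 1 else 0 := by
  rcases d with ⟨e | v, _ | _⟩
  · show Tri.mass (Finsupp.single _ 1) ≤ 1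
    rw [mass_eq _ _ Finsupp.support_single_subset]; simp
  · show Tri.mass (-Finsupp.single _ 1) ≤ 1
    rw [← Finsupp.single_neg, mass_eq _ _ Finsupp.support_single_subset]; simp
  · show Tri.mass 0 ≤ 0
    simp [Tri.mass]
  · show Tri.mass 0 ≤ 0
    simp [Tri.mass]

end Crest.Agent.R177.Diag

namespace Crest.Agent.R177

open Equiv Finset Diag
open scoped Classical

theorem diagStmt_of (hm : MoveStmt) : DiagStmt := by
  intro P L hV w c h
  obtain ⟨w', e, hQ⟩ := Q.of_mem hm hV h
  obtain ⟨X, _, ⟨D₀⟩⟩ := hQ.of_mk hm hV e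
  obtain ⟨D, r1, r2⟩ := D₀.reduce hm
  refine ⟨X, inferInstance, { D with
    o_cyc := fun i hi => ?_
    walk := fun x h1 h2 => ⟨D.walk x h1 h2, r1 x h1 h2⟩
    red := r2 }, ?_⟩
  · have := List.getElem_of_eq D.o_cyc (i := i) (by simpa using hi)
    simpa [List.getElem_rotate] using this
  · have hc : c = _ := D.chain
    refine (congrArg Tri.mass hc).trans_le ((mass_sum_le _ _).trans ?_)
    refine (sum_le_sum fun x hx => mass_term _ _).trans (le_of_eq ?_)
    rw [← card_filter, filter_filter]
    congr 1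
    ext x
    simp only [mem_filter, mem_univ, true_and, and_assoc]
    refine and_congr_right fun h1 => and_congr_right fun h2 => ?_
    rw [D.lift_lab x h1 h2]

end Crest.Agent.R177
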