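import Crest.Agent.R177.Cyc

/-!
Euler inequality, counting facts on cycles, and the excluded `K₈` minor.
-/

set_option autoImplicit false

namespace Crest.Agent.R177

open Equiv Relation Finset
open scoped Classical

namespace Euler
open Cyc

variable {X : Type}

theorem cyc_mul_le [Fintype X] (ψ : Perm X) (w : X → ℕ) (c : ℕ)
    (h : ∀ x, c ≤ ∑ y with ψ.SameCycle x y, w y) : c * cyc ψ ≤ ∑ x, w x := by
  let Q := Quot (fun x y => ψ x = y)
  have : Fintype Q := Fintype.ofFinite Q
  rw [← sum_fiberwise univ (Quot.mk _ : X → Q) w, cyc, ncc, Nat.card_eq_fintype_card,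
    ← card_univ, mul_comm, ← smul_eq_mul, ← sum_const]
  refine sum_le_sum ?_
  rintro ⟨x⟩ -
  refine (h x).trans (le_of_eq (sum_congr ?_ fun _ _ => rfl))
  ext y
  simp only [mem_filter, mem_univ, true_and]
  rw [cyc_mk_eq_iff, Perm.sameCycle_comm]

theorem sc1 (ψ : Perm X) (x : X) : ψ.SameCycle x (ψ x) := ⟨1, by simp⟩

theorem six_cyc_le [Fintype X] (ψ : Perm X) :
    6 * cyc ψ ≤ ∑ x, if ψ x = x then 6 else if ψ (ψ x) = x then 3 else 2 := by
  refine cyc_mul_le ψ _ 6 fun x => ?_
  by_cases h1 : ψ x = x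
  · refine le_trans ?_ (sum_le_sum_of_subset (s := {x}) (by simp [Perm.SameCycle.refl]))
    simp [h1]
  have h1' : ψ (ψ x) ≠ ψ x := fun e => h1 (ψ.injective e)
  by_cases h2 : ψ (ψ x) = x
  · refine le_trans ?_ (sum_le_sum_of_subset (s := {x, ψ x})
      (by simp [Perm.SameCycle.refl, insert_subset_iff]))
    rw [sum_pair (Ne.symm h1), if_neg h1, if_pos h2, if_neg h1', if_pos (by rw [h2])]
  · refine le_trans ?_ (sum_le_sum_of_subset (s := {x, ψ x, ψ (ψ x)})
      (by simp [Perm.SameCycle.refl, insert_subset_iff]))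
    rw [sum_insert (by simp [Ne.symm h1, Ne.symm h2]), sum_pair (Ne.symm h1')]
    split_ifs <;> omega

theorem two_cyc_le [Fintype X] (α : Perm X) :
    2 * cyc α ≤ ∑ x, if α x = x then 2 else 1 := by
  refine cyc_mul_le α _ 2 fun x => ?_
  by_cases h1 : α x = x
  · refine le_trans ?_ (sum_le_sum_of_subset (s := {x}) (by simp [Perm.SameCycle.refl]))
    simp [h1]
  · refine le_trans ?_ (sum_le_sum_of_subset (s := {x, α x})
      (by simp [Perm.SameCycle.refl, insert_subset_iff]))
    rw [sum_pair (Ne.symm h1)]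
    split_ifs <;> omega

theorem orb_ge [Fintype X] (φ α : Perm X) (hd : ∀ x, α x = x → φ x = x) :
    #{x | α x = x} + (if ∃ x, α x ≠ x then 1 else 0) ≤ orb φ α := by
  have hc : #{x | α x = x} = Nat.card {x // α x = x} := by
    rw [Nat.card_eq_fintype_card, Fintype.card_subtype]
  split_ifs with h
  · obtain ⟨x₀, hx₀⟩ := h
    have := card_le_ncc (r := Step φ α)
      (fun x => if h : α x = x then some (⟨x, h⟩ : {x // α x = x}) else none) ?_ ?_
    · rwa [Finite.card_option, ← hc] at this
    · rintro (_ | ⟨x, hx⟩)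
      · exact ⟨x₀, dif_neg hx₀⟩
      · exact ⟨x, dif_pos hx⟩
    · rintro x _ (rfl | rfl)
      · by_cases hx : α x = x
        · rw [hd x hx]
        · rw [dif_neg hx, dif_neg fun e => hx (by rwa [φ.injective (hd _ e)] at e)]
      · by_cases hx : α x = x
        · simp only [hx]
        · rw [dif_neg hx, dif_neg fun e => hx (α.injective e)]
  · push Not at h
    rw [hc, add_zero]
    refine card_le_ncc (fun x => ⟨x, h x⟩) (fun x => ⟨x.1, rfl⟩) ?_
    rintro x _ (rfl | rfl)
    · simp [hd x (h x)]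
    · simp [h x]

theorem sameCycle_rtg [Finite X] {σ : Perm X} {r : X → X → Prop} (h : ∀ x, r x (σ x)) {x y : X}
    (hxy : σ.SameCycle x y) : ReflTransGen r x y := by
  obtain ⟨n, -, rfl⟩ := hxy.exists_pow_eq'
  clear hxy
  induction n with
  | zero => exact ReflTransGen.refl
  | succ n ih => rw [pow_succ', Perm.mul_apply]; exact ih.tail (h _)

theorem rtg_imp {r s : X → X → Prop} (h : ∀ a b, r a b → ReflTransGen s a b) {x y : X}
    (hxy : ReflTransGen r x y) : ReflTransGen s x y := by
  induction hxy with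
  | refl => exact ReflTransGen.refl
  | tail _ h2 ih => exact ih.trans (h _ _ h2)

theorem col_of_sameCycle [Finite X] {σ : Perm X} {Y : Type} {col : X → Y}
    (h : ∀ x, col (σ x) = col x) {x y : X} (hxy : σ.SameCycle x y) : col x = col y := by
  obtain ⟨n, -, rfl⟩ := hxy.exists_pow_eq'
  clear hxy
  induction n with
  | zero => rfl
  | succ n ih => rw [pow_succ', Perm.mul_apply, h, ih]

theorem swap_mul_left (α : Perm X) (x : X) : (swap x (α x) * α) x = x := by simp

theorem swap_mul_right {α : Perm X} (h : ∀ x, α (α x) = x) (x : X) :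
    (swap x (α x) * α) (α x) = α x := by simp [h]

theorem swap_mul_other {α : Perm X} (h : ∀ x, α (α x) = x) {x y : X} (h1 : y ≠ x)
    (h2 : y ≠ α x) : (swap x (α x) * α) y = α y := by
  rw [Perm.mul_apply, swap_apply_of_ne_of_ne]
  · intro e; exact h2 (by rw [← e, h])
  · intro e; exact h1 (α.injective e)

theorem swap_mul_invol {α : Perm X} (h : ∀ x, α (α x) = x) (x y : X) :
    (swap x (α x) * α) ((swap x (α x) * α) y) = y := by
  by_cases h1 : y = x
  · rw [h1, swap_mul_left, swap_mul_left]
  by_cases h2 : y = α x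
  · rw [h2, swap_mul_right h, swap_mul_right h]
  rw [swap_mul_other h h1 h2, swap_mul_other h, h]
  · intro e; exact h2 (by rw [← e, h])
  · intro e; exact h1 (α.injective e)

theorem live_lt [Fintype X] {α : Perm X} (h : ∀ x, α (α x) = x) {x : X} (hx : α x ≠ x) :
    #{y | (swap x (α x) * α) y ≠ y} < #{y | α y ≠ y} := by
  refine card_lt_card ⟨fun y hy => ?_, fun H => ?_⟩
  · simp only [mem_filter, mem_univ, true_and] at hy ⊢
    by_cases h1 : y = x
    · rwa [h1]
    by_cases h2 : y = α x
    · rw [h2, h]; exact hx.symm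
    rwa [swap_mul_other h h1 h2] at hy
  · exact (mem_filter.1 (H (mem_filter.2 ⟨mem_univ x, hx⟩))).2 (swap_mul_left α x)

/-- the final configuration: one face per colour, one band per pair of colours -/
theorem final (hM : MoveStmt) (hE : EulerStmt) [Fintype X] (φ α : Perm X)
    (col : X → Option (Fin 8)) (hp : Planar φ α) (hα : ∀ x, α (α x) = x)
    (hc : ∀ x, col (φ x) = col x)
    (hcyc : ∀ x y i, col x = some i → col y = some i → φ.SameCycle x y)
    (hadj : ∀ i j, i ≠ j → ∃ x, col x = some i ∧ col (α x) = some j)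
    (hg : ∀ x, α x ≠ x → (∃ i, col x = some i) ∧ col x ≠ col (α x) ∧
      ∀ y, α y ≠ y → col y = col x → col (α y) = col (α x) → y = x) : False := by
  obtain ⟨ψ, h1, h2, -, h4⟩ := hM.2.2.2.2.2.2.2.2 X φ α {x | α x = x} hp (fun x hx => hx)
  simp only [Set.mem_ofPred_eq] at h2 h4
  have hE' := hE X ψ α h1 hα h2
  choose w hw1 hw2 using hadj
  have hwl : ∀ i j h, α (w i j h) ≠ w i j h := by
    intro i j h e
    have := hw2 i j h
    rw [e, hw1] at this
    exact h (Option.some.inj this)
  have hl : ∀ x, α x ≠ x → α (α x) ≠ α x := fun x hx e => hx (α.injective e)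
  have hψl : ∀ x, α x ≠ x → α (ψ x) ≠ ψ x := fun x hx e =>
    hx (by rwa [ψ.injective (h2 _ e)] at e)
  have hcol : ∀ x, α x ≠ x → col (ψ x) = col x := fun x hx =>
    (col_of_sameCycle hc ((h4 x (ψ x) hx (hψl x hx)).2 (sc1 ψ x))).symm
  have a1 : ∀ x, α x ≠ x → ψ (α x) ≠ x := by
    intro x hx e
    have := hcol _ (hl x hx)
    rw [e] at this
    exact (hg x hx).2.1 this
  have a2 : ∀ x, α x ≠ x → ψ (α (ψ (α x))) ≠ x := by
    intro x hx e
    have y1 := hψl _ (hl x hx)
    have c1 := hcol _ (hl x hx)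
    have c2 := hcol _ (hl _ y1)
    rw [e] at c2
    have e1 : α (ψ (α x)) = x := (hg x hx).2.2 _ (hl _ y1) c2.symm (by rw [hα, c1])
    have e2 : ψ (α x) = α x := by rw [← hα (ψ (α x)), e1]
    obtain ⟨i, hi⟩ := (hg x hx).1
    obtain ⟨j, hj⟩ := (hg _ (hl x hx)).1
    obtain ⟨k, hk1, hk2⟩ := (by decide : ∀ i j : Fin 8, ∃ k : Fin 8, j ≠ k ∧ i ≠ k) i j
    have s1 := (h4 _ _ (hl x hx) (hwl j k hk1)).1 (hcyc _ _ j hj (hw1 j k hk1))
    have s2 : α x = w j k hk1 := s1.eq_of_left e2
    have := hw2 j k hk1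
    rw [← s2, hα, hi] at this
    exact hk2 (Option.some.inj this)
  have b1 : #{x | α x ≠ x ∧ ψ (α x) = x} = 0 := by
    rw [card_eq_zero, filter_eq_empty_iff]
    exact fun x _ h => a1 x h.1 h.2
  have b2 : 56 ≤ #{x | α x ≠ x ∧ ψ (α x) ≠ x ∧ ψ (α (ψ (α x))) ≠ x} := by
    have : Fintype.card {p : Fin 8 × Fin 8 // p.1 ≠ p.2} = 56 := by decide
    rw [← this, ← card_univ]
    refine card_le_card_of_injOn (fun p => w p.1.1 p.1.2 p.2) (fun p _ => ?_) fun p _ q _ h => ?_
    · have := hwl p.1.1 p.1.2 p.2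
      simpa using ⟨this, a1 _ this, a2 _ this⟩
    · have e1 := hw1 p.1.1 p.1.2 p.2
      have e2 := hw2 p.1.1 p.1.2 p.2
      simp only at h
      rw [h, hw1] at e1
      rw [h, hw2] at e2
      exact Subtype.ext (Prod.ext (Option.some.inj e1).symm (Option.some.inj e2).symm)
  have hne : ∀ i : Fin 8, i ≠ i + 1 := by decide
  have b3 : cyc ψ ≤ #{x | α x = x} + 8 := by
    have := ncc_le_of_surj (r := fun _ _ => False) (s := fun x y => ψ x = y)
      (Sum.elim (fun d : {x // α x = x} => d.1) fun i : Fin 8 => w i (i + 1) (hne i))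
      (fun _ _ h => h.elim) ?_
    · refine this.trans ((ncc_le_card _).trans (le_of_eq ?_))
      rw [Nat.card_sum, Nat.card_eq_fintype_card, Fintype.card_subtype]; simp
    · intro y
      by_cases hy : α y = y
      · exact ⟨.inl ⟨y, hy⟩, EqvGen.refl _⟩
      · obtain ⟨i, hi⟩ := (hg y hy).1
        exact ⟨.inr i, eqvGen_iff_sameCycle.2
          ((h4 _ _ (hwl _ _ _) hy).1 (hcyc _ _ i (hw1 _ _ _) hi))⟩
  rw [if_pos ⟨_, hwl 0 1 (by decide)⟩] at hE'
  omega

theorem minor_aux (hM : MoveStmt) (hE : EulerStmt) [Fintype X] (col : X → Option (Fin 8)) (n : ℕ) :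
    ∀ (φ α : Perm X), #{y | α y ≠ y} = n → Planar φ α →
    (∀ x, α (α x) = x) → (∀ x, col (φ x) = col x) →
    (∀ x y i, col x = some i → col y = some i →
      ReflTransGen (fun a b => φ a = b ∨ (α a = b ∧ col a = col b)) x y) →
    (∀ i j, i ≠ j → ∃ x, col x = some i ∧ col (α x) = some j) → False := by
  induction n using Nat.strong_induction_on with
  | _ n ih =>
  intro φ α hn hp hα hc hconn hadj
  by_cases hA : ∃ x, col x = col (α x) ∧ ¬ φ.SameCycle x (α x)
  · obtain ⟨x, hx1, hx2⟩ := hA
    have hx : α x ≠ x := fun e => hx2 (by rw [e])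
    have hs := sameCycle_mul_swap_of_not hx2
    have hsw : ∀ y, (φ * swap x (α x)).SameCycle y (swap x (α x) y) := fun y =>
      eqvGen_iff_sameCycle.1 (swap_rel (eqvGen_iff_sameCycle.2 hs) y)
    refine ih _ (hn ▸ live_lt hα hx) (φ * swap x (α x)) (swap x (α x) * α) rfl
      (hM.2.1 X φ α x (α x) hp (sc1 α x)) (swap_mul_invol hα x) ?_ ?_ ?_
    · intro y
      rw [Perm.mul_apply, hc, swap_apply_def]
      split_ifs with h1 h2
      · rw [h1, hx1]
      · rw [h2, hx1]
      · rfl
    · intro y z i hy hz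
      refine rtg_imp ?_ (hconn y z i hy hz)
      rintro a b (rfl | ⟨rfl, hab⟩)
      · refine sameCycle_rtg (σ := φ * swap x (α x)) (fun _ => Or.inl rfl) ((hsw a).trans ?_)
        exact ⟨1, by simp⟩
      · by_cases h1 : a = x
        · subst h1
          exact sameCycle_rtg (σ := φ * swap a (α a)) (fun _ => Or.inl rfl) hs
        by_cases h2 : a = α x
        · subst h2
          rw [hα]
          exact sameCycle_rtg (σ := φ * swap x (α x)) (fun _ => Or.inl rfl) hs.symm
        exact ReflTransGen.single (Or.inr ⟨swap_mul_other hα h1 h2, hab⟩)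
    · intro i j hij
      obtain ⟨y, h1, h2⟩ := hadj i j hij
      have hy : col y ≠ col (α y) := by rw [h1, h2]; simpa using hij
      refine ⟨y, h1, ?_⟩
      rwa [swap_mul_other hα]
      · rintro rfl; exact hy hx1
      · rintro rfl; rw [hα] at hy; exact hy hx1.symm
  push Not at hA
  have hcyc : ∀ x y i, col x = some i → col y = some i → φ.SameCycle x y := by
    intro x y i hx hy
    have := hconn x y i hx hy
    clear hy
    induction this with
    | refl => exact Perm.SameCycle.refl _ _
    | tail _ h2 ih2 =>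
      rcases h2 with rfl | ⟨rfl, h⟩
      · exact ih2.trans (sc1 φ _)
      · exact ih2.trans (hA _ h)
  by_cases hB : ∃ x, α x ≠ x ∧ (col x = none ∨ col (α x) = none ∨ col x = col (α x) ∨
      ∃ y, y ≠ x ∧ col y = col x ∧ col (α y) = col (α x))
  · obtain ⟨x, hx, hx'⟩ := hB
    refine ih _ (hn ▸ live_lt hα hx) φ (swap x (α x) * α) rfl
      (hM.2.2.1 X φ α x (α x) hp (sc1 α x)) (swap_mul_invol hα x) hc
      (fun y z i hy hz => sameCycle_rtg (σ := φ) (fun _ => Or.inl rfl) (hcyc y z i hy hz)) ?_
    intro i j hij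
    obtain ⟨y, h1, h2⟩ := hadj i j hij
    have hij' : some i ≠ some j := by simpa using hij
    by_cases e1 : y = x
    · subst e1
      rcases hx' with h | h | h | ⟨z, hz1, hz2, hz3⟩
      · simp [h1] at h
      · simp [h2] at h
      · rw [h1, h2] at h; exact absurd h hij'
      · refine ⟨z, hz2.trans h1, ?_⟩
        rw [swap_mul_other hα hz1, hz3, h2]
        rintro rfl
        rw [h1, h2] at hz2; exact hij' hz2.symm
    by_cases e2 : y = α x
    · subst e2
      rw [hα] at h2
      rcases hx' with h | h | h | ⟨z, hz1, hz2, hz3⟩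
      · simp [h2] at h
      · simp [h1] at h
      · rw [h1, h2] at h; exact absurd h.symm hij'
      · refine ⟨α z, hz3.trans h1, ?_⟩
        rw [swap_mul_other hα, hα, hz2, h2]
        · intro e
          rw [e, h1, h2] at hz3; exact hij' hz3.symm
        · intro e; exact hz1 (α.injective e)
    exact ⟨y, h1, by rwa [swap_mul_other hα e1 e2]⟩
  push Not at hB
  refine final hM hE φ α col hp hα hc hcyc hadj fun x hx => ?_
  obtain ⟨b1, -, b3, b4⟩ := hB x hx
  refine ⟨Option.ne_none_iff_exists'.1 b1, b3, fun y _ h1 h2 => ?_⟩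
  by_contra hne
  exact b4 y hne h1 h2

end Euler

open Euler Cyc in
theorem eulerStmt : EulerStmt := by
  intro X _ φ α hp _ hd
  have h1 := six_cyc_le (φ * α)
  have h2 := two_cyc_le α
  have h3 := orb_ge φ α hd
  unfold Planar at hp
  rw [Nat.card_eq_fintype_card, ← card_univ, card_eq_sum_ones] at hp
  have key : (∑ x, if (φ * α) x = x then 6 else if (φ * α) ((φ * α) x) = x then 3 else 2) +
      3 * (∑ x, if α x = x then 2 else 1) +
      #{x | α x ≠ x ∧ φ (α x) ≠ x ∧ φ (α (φ (α x))) ≠ x} =
      6 * (∑ _x : X, 1) + 6 * #{x | α x = x} + 3 * #{x | α x ≠ x ∧ φ (α x) = x} := by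
    simp only [card_filter, mul_sum, ← sum_add_distrib, Perm.mul_apply]
    refine sum_congr rfl fun x _ => ?_
    by_cases e1 : α x = x
    · simp [e1, hd x e1]
    by_cases e2 : φ (α x) = x
    · simp [e1, e2]
    by_cases e3 : φ (α (φ (α x))) = x <;> simp [e1, e2, e3]
  split_ifs at h3 ⊢ <;> omega

open Euler Cyc in
theorem cycStmt : CycStmt := by
  refine ⟨fun X _ φ K hK => ?_, fun X _ φ Z T g h => ?_⟩
  · let q : X → Quot (fun x y => φ x = y) := Quot.mk _
    let r : X → X := fun x => (q x).out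
    have hr : ∀ x, ∃ n : ℕ, (φ ^ n) (r x) = x := by
      intro x
      have : φ.SameCycle (r x) x := cyc_mk_eq_iff.1 (Quot.out_eq _)
      obtain ⟨n, -, hn⟩ := this.exists_pow_eq'
      exact ⟨n, hn⟩
    have hrφ : ∀ x, r (φ x) = r x := fun x => by
      simp only [r, q]; rw [← Quot.sound (r := fun x y => φ x = y) (a := x) rfl]
    let i : X → ℕ := fun x => Nat.find (hr x)
    have hi : ∀ x, (φ ^ i x) (r x) = x := fun x => Nat.find_spec (hr x)
    have hi' : ∀ x n, (φ ^ n) (r x) = x → i x ≤ n := fun x n h => Nat.find_min' (hr x) h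
    have hs : ∀ x, φ x ≠ r x → i (φ x) = i x + 1 := by
      intro x hx
      have h1 : i (φ x) ≤ i x + 1 := hi' _ _ (by rw [hrφ, pow_succ', Perm.mul_apply, hi])
      have h2 := hi (φ x)
      rw [hrφ] at h2
      obtain h0 | ⟨j, hj⟩ : i (φ x) = 0 ∨ ∃ j, i (φ x) = j + 1 := by
        cases i (φ x) <;> simp
      · rw [h0] at h2; exact absurd h2.symm hx
      · rw [hj, pow_succ', Perm.mul_apply] at h2
        have := hi' x j (φ.injective h2)
        omega
    let key : X → ℕ ×ₗ ℕ := fun x => toLex ((Fintype.equivFin X (r x) : ℕ), i x)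
    have hkey : Function.Injective key := by
      intro x y h
      simp only [key, toLex_inj, Prod.mk.injEq] at h
      have h1 : r x = r y := (Fintype.equivFin X).injective (Fin.ext h.1)
      rw [← hi x, ← hi y, h1, h.2]
    let f : X → ℕ := fun x => #{y | key y < key x}
    have hf : ∀ x y, key x < key y → f x < f y := by
      intro x y h
      refine card_lt_card ⟨fun z hz => ?_, fun H => ?_⟩
      · simp only [mem_filter, mem_univ, true_and] at hz ⊢
        exact hz.trans h
      · simpa using H (show x ∈ _ by simpa using h)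
    have hlt : ∀ x, f x < Fintype.card X := fun x =>
      card_lt_card (filter_ssubset.2 ⟨x, mem_univ _, lt_irrefl _⟩)
    have hinj : Function.Injective fun x => (⟨f x, hlt x⟩ : Fin (Fintype.card X)) := by
      intro x y h
      have h' : f x = f y := congrArg Fin.val h
      rcases lt_trichotomy (key x) (key y) with h1 | h1 | h1
      · exact absurd h' (hf _ _ h1).ne
      · exact hkey h1
      · exact absurd h' (hf _ _ h1).ne'
    refine ⟨Equiv.ofBijective _ ((Fintype.bijective_iff_injective_and_card _).2 ⟨hinj, by simp⟩),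
      le_trans ?_ hK⟩
    have : Fintype (Quot fun x y => φ x = y) := Fintype.ofFinite _
    rw [cyc, ncc, Nat.card_eq_fintype_card, ← card_univ (α := Quot _)]
    have hex : ∀ x, f (φ x) ≠ f x + 1 → φ x = r x := by
      intro x hx
      by_contra hne
      apply hx
      have : ({y | key y < key (φ x)} : Finset X) =
          insert x ({y | key y < key x} : Finset X) := by
        ext y
        simp only [mem_filter, mem_univ, true_and, mem_insert, ← hkey.eq_iff]
        simp only [key, Prod.Lex.toLex_lt_toLex, toLex_inj, Prod.mk.injEq, hrφ, hs x hne]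
        omega
      simp only [f]
      rw [this, card_insert_of_notMem (by simp)]
    refine card_le_card_of_injOn q (fun _ _ => mem_univ _) fun x hx y hy hxy => ?_
    have h1 := hex x (by simpa using hx)
    have h2 := hex y (by simpa using hy)
    apply φ.injective
    rw [h1, h2]
    simp only [r, hxy]
  · have := cyc_mul_le φ (fun y => g * (if y ∈ Z then 1 else 0) + (if y ∈ T then 1 else 0)) g ?_
    · simpa [sum_add_distrib, ← mul_sum, mul_comm] using this
    intro x
    rcases h x with ⟨z, hz, hxz⟩ | h1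
    · refine le_trans ?_ (sum_le_sum_of_subset (s := {z}) (by simpa using hxz))
      simp [hz]
    · refine h1.trans ?_
      rw [card_eq_sum_ones]
      refine le_trans ?_ (sum_le_sum_of_subset (s := {y ∈ T | φ.SameCycle x y})
        (fun y hy => by simpa using (mem_filter.1 hy).2))
      exact sum_le_sum fun y hy => by simp [(mem_filter.1 hy).1]

theorem minorStmt_of (h : MoveStmt) : MinorStmt := by
  intro X _ φ α col hp h1 h2 h3 h4
  have := Fintype.ofFinite X
  exact Euler.minor_aux h eulerStmt col _ φ α rfl hp h1 h2 h3 h4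

end Crest.Agent.R177
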