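import Mathlib

/-!
Row 184: the logarithmic determinant of a trace on a star subalgebra of a C⋆-algebra is invariant
under unipotent multiplications.
-/

set_option autoImplicit false
set_option linter.unusedSectionVars false

namespace Crest.Agent.R177.FK

open Polynomial Set

/-- polynomials approximating `log` together with its derivative -/
lemma exists_poly {a b : ℝ} (ha : 0 < a) (hab : a ≤ b) {ε : ℝ} (hε : 0 < ε) :
    ∃ p : ℝ[X], (∀ s ∈ Icc a b, |p.eval s - Real.log s| ≤ ε) ∧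
      ∀ s ∈ Icc a b, |p.derivative.eval s - s⁻¹| ≤ ε := by
  have hsurj : ∀ q : ℝ[X], ∃ p : ℝ[X], p.derivative = q := by
    intro q
    induction q using Polynomial.induction_on' with
    | add p q hp hq =>
      obtain ⟨p', hp'⟩ := hp
      obtain ⟨q', hq'⟩ := hq
      exact ⟨p' + q', by simp [hp', hq']⟩
    | monomial n c =>
      refine ⟨monomial (n + 1) (c / (n + 1)), ?_⟩
      rw [derivative_monomial]
      congr 1
      push_cast
      field_simp
  set η := ε / (1 + (b - a)) with hη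
  have hη0 : 0 < η := div_pos hε (by linarith)
  have hηε : η * (1 + (b - a)) = ε := by rw [hη]; field_simp [show (1 + (b - a)) ≠ 0 by linarith]
  obtain ⟨q, hq⟩ := exists_polynomial_near_of_continuousOn a b (fun s => s⁻¹)
    (continuousOn_inv₀.mono fun s hs => (by
      have := hs.1
      simp only [mem_compl_iff, mem_singleton_iff]
      linarith [ne_of_gt (lt_of_lt_of_le ha this)] : s ∈ ({0}ᶜ : Set ℝ))) η hη0
  obtain ⟨p, hp⟩ := hsurj q
  refine ⟨p + C (Real.log a - p.eval a), fun s hs => ?_, fun s hs => ?_⟩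
  · have hd : ∀ x ∈ Icc a b, HasDerivWithinAt (fun s => p.eval s - Real.log s)
        (q.eval x - x⁻¹) (Icc a b) x := fun x hx => by
      have h1 := p.hasDerivAt x
      rw [hp] at h1
      exact (h1.sub (Real.hasDerivAt_log (ne_of_gt (lt_of_lt_of_le ha hx.1)))).hasDerivWithinAt
    have h2 := (convex_Icc a b).norm_image_sub_le_of_norm_hasDerivWithin_le (C := η) hd
      (fun x hx => (hq x hx).le) (left_mem_Icc.2 hab) hs
    rw [Real.norm_eq_abs, Real.norm_eq_abs, abs_of_nonneg (sub_nonneg.2 hs.1)] at h2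
    have h3 : (p + C (Real.log a - p.eval a)).eval s - Real.log s =
        p.eval s - Real.log s - (p.eval a - Real.log a) := by simp; ring
    rw [h3]
    refine h2.trans ?_
    have := hs.2
    nlinarith
  · have h3 : (p + C (Real.log a - p.eval a)).derivative = q := by simp [hp]
    rw [h3]
    refine (hq s hs).le.trans ?_
    nlinarith

variable {A : Type*} [CStarAlgebra A] [PartialOrder A] [StarOrderedRing A]

/-- a real trace on a star-closed real subalgebra -/
structure Tr (S : Subalgebra ℝ A) (τ : A →L[ℝ] ℝ) : Prop where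
  star_mem : ∀ a ∈ S, star a ∈ S
  comm : ∀ a ∈ S, ∀ b ∈ S, τ (a * b) = τ (b * a)
  star_eq : ∀ a, τ (star a) = τ a

lemma spec_sub {x c : A} (hx : 0 ≤ x) (h1 : x * c = 1) (h2 : c * x = 1) {R : ℝ} (hR : 0 < R)
    (hxR : ‖x‖ ≤ R) (hcR : ‖c‖ ≤ R) : spectrum ℝ x ⊆ Icc R⁻¹ R := by
  intro s hs
  rcases subsingleton_or_nontrivial A with h | h
  · simp [spectrum.of_subsingleton] at hs
  have h0 : 0 ≤ s := spectrum_nonneg_of_nonneg hx hs
  let u : Aˣ := ⟨x, c, h1, h2⟩
  have hs0 : s ≠ 0 := spectrum.ne_zero_of_mem_of_unit (a := u) hs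
  have hpos : 0 < s := lt_of_le_of_ne h0 hs0.symm
  have h3 : ‖s‖ ≤ ‖x‖ := spectrum.norm_le_norm_of_mem hs
  have h4 : ((Units.mk0 s hs0)⁻¹ : ℝˣ).val ∈ spectrum ℝ ((u⁻¹ : Aˣ) : A) :=
    (spectrum.inv_mem_iff (r := Units.mk0 s hs0) (a := u)).1 hs
  have h5 : ‖((Units.mk0 s hs0)⁻¹ : ℝˣ).val‖ ≤ ‖c‖ := spectrum.norm_le_norm_of_mem h4
  simp only [Units.val_inv_eq_inv_val, Units.val_mk0, norm_inv, Real.norm_eq_abs,
    abs_of_pos hpos] at h3 h5
  refine ⟨?_, h3.trans hxR⟩
  rw [inv_le_comm₀ hR hpos]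
  exact h5.trans hcR

lemma norm_aeval_sub_log {x : A} (hx : IsSelfAdjoint x) {a b ε : ℝ} (ha : 0 < a) (hε : 0 ≤ ε)
    (hsp : spectrum ℝ x ⊆ Icc a b) {p : ℝ[X]}
    (hp : ∀ s ∈ Icc a b, |p.eval s - Real.log s| ≤ ε) :
    ‖aeval x p - cfc Real.log x‖ ≤ ε := by
  have hc : ContinuousOn Real.log (spectrum ℝ x) :=
    Real.continuousOn_log.mono fun s hs => ne_of_gt (lt_of_lt_of_le ha (hsp hs).1)
  rw [← cfc_polynomial p x, ← cfc_sub _ _ x (by fun_prop) hc]
  exact norm_cfc_le hε fun s hs => hp s (hsp hs)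

lemma norm_aeval_sub_inv {x c : A} (hx : IsSelfAdjoint x) (h1 : x * c = 1) (h2 : c * x = 1)
    {a b ε : ℝ} (ha : 0 < a) (hε : 0 ≤ ε)
    (hsp : spectrum ℝ x ⊆ Icc a b) {p : ℝ[X]}
    (hp : ∀ s ∈ Icc a b, |p.eval s - s⁻¹| ≤ ε) :
    ‖aeval x p - c‖ ≤ ε := by
  have hc : ContinuousOn (fun s : ℝ => s⁻¹) (spectrum ℝ x) :=
    continuousOn_inv₀.mono fun s hs => ne_of_gt (lt_of_lt_of_le ha (hsp hs).1)
  let u : Aˣ := ⟨x, c, h1, h2⟩
  have h3 : cfc (fun s : ℝ => s⁻¹) x = c := cfc_inv_id (R := ℝ) u hx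
  rw [← cfc_polynomial p x, ← h3, ← cfc_sub _ _ x (by fun_prop) hc]
  exact norm_cfc_le hε fun s hs => hp s (hsp hs)

omit [PartialOrder A] [StarOrderedRing A] in
lemma Tr.hasDerivAt_pow {S : Subalgebra ℝ A} {τ : A →L[ℝ] ℝ} (h : Tr S τ) {x : ℝ → A} {x' : A}
    {t : ℝ} (hx : HasDerivAt x x' t) (h1 : x t ∈ S) (h2 : x' ∈ S) (k : ℕ) :
    ∃ D ∈ S, HasDerivAt (fun s => x s ^ k) D t ∧
      ∀ m : ℕ, τ (x t ^ m * D) = k * τ (x t ^ (m + k - 1) * x') := by
  induction k with
  | zero => exact ⟨0, S.zero_mem, by simpa using hasDerivAt_const t (1 : A), by simp⟩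
  | succ k ih =>
    obtain ⟨D, hD, hd, hτ⟩ := ih
    refine ⟨D * x t + x t ^ k * x', S.add_mem (S.mul_mem hD h1) (S.mul_mem (S.pow_mem h1 k) h2),
      ?_, fun m => ?_⟩
    · have e : (fun s => x s ^ (k + 1)) = (fun s => x s ^ k) * x := by
        funext s
        simp [pow_succ]
      rw [e]
      exact hd.mul hx
    · rw [mul_add, map_add, ← mul_assoc, h.comm _ (S.mul_mem (S.pow_mem h1 m) hD) _ h1,
        ← mul_assoc, ← pow_succ', hτ, ← mul_assoc, ← pow_add]
      have e1 : m + 1 + k - 1 = m + k := by omega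
      have e2 : m + (k + 1) - 1 = m + k := by omega
      rw [e1, e2]
      push_cast
      ring

omit [PartialOrder A] [StarOrderedRing A] in
lemma Tr.hasDerivAt_aeval {S : Subalgebra ℝ A} {τ : A →L[ℝ] ℝ} (h : Tr S τ) {x : ℝ → A} {x' : A}
    {t : ℝ} (hx : HasDerivAt x x' t) (h1 : x t ∈ S) (h2 : x' ∈ S) (p : ℝ[X]) :
    HasDerivAt (fun s => τ (aeval (x s) p)) (τ (aeval (x t) p.derivative * x')) t := by
  induction p using Polynomial.induction_on' with
  | add p q hp hq =>
    have e : (fun s => τ (aeval (x s) (p + q))) =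
        (fun s => τ (aeval (x s) p)) + fun s => τ (aeval (x s) q) := by
      funext s
      simp
    rw [e]
    exact (hp.add hq).congr_deriv (by simp [add_mul])
  | monomial n c =>
    obtain ⟨D, -, hd, hτ⟩ := h.hasDerivAt_pow hx h1 h2 n
    have h3 := (τ.hasFDerivAt.comp_hasDerivAt t hd).const_mul c
    have h4 := hτ 0
    simp only [pow_zero, one_mul, zero_add] at h4
    have h5 : (fun s => τ (aeval (x s) (monomial n c))) = fun s => c * (τ ∘ fun s => x s ^ n) s := by
      funext s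
      simp [aeval_monomial, ← Algebra.smul_def]
    rw [h5]
    refine h3.congr_deriv ?_
    rw [h4, derivative_monomial, aeval_monomial, ← Algebra.smul_def, smul_mul_assoc, map_smul,
      smul_eq_mul, mul_assoc]

/-- `τ log (T⋆ T) = τ log (T T⋆)` -/
lemma Tr.log_swap {S : Subalgebra ℝ A} {τ : A →L[ℝ] ℝ} (h : Tr S τ) {T U : A} (hT : T ∈ S)
    (h1 : T * U = 1) (h2 : U * T = 1) :
    τ (cfc Real.log (star T * T)) = τ (cfc Real.log (T * star T)) := by
  have hpow : ∀ k : ℕ, τ ((star T * T) ^ k) = τ ((T * star T) ^ k) := by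
    intro k
    rcases k with _ | k
    · simp
    · have e1 : (star T * T) ^ (k + 1) = star T * ((T * star T) ^ k * T) := by
        induction k with
        | zero => simp
        | succ k ih => rw [pow_succ, ih, pow_succ]; simp only [mul_assoc]
      rw [e1, h.comm _ (h.star_mem _ hT) _
        (S.mul_mem (S.pow_mem (S.mul_mem hT (h.star_mem _ hT)) k) hT), pow_succ, mul_assoc]
  have hp : ∀ p : ℝ[X], τ (aeval (star T * T) p) = τ (aeval (T * star T) p) := by
    intro p
    induction p using Polynomial.induction_on' with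
    | add p q hp hq => simp [hp, hq]
    | monomial n c => simp [aeval_monomial, ← Algebra.smul_def, hpow]
  set R := 1 + ‖star T * T‖ + ‖T * star T‖ + ‖U * star U‖ + ‖star U * U‖ with hR
  have n1 := norm_nonneg (star T * T)
  have n2 := norm_nonneg (T * star T)
  have n3 := norm_nonneg (U * star U)
  have n4 := norm_nonneg (star U * U)
  have hR0 : 0 < R := by linarith
  have h1' : star U * star T = 1 := by rw [← star_mul, h1, star_one]
  have h2' : star T * star U = 1 := by rw [← star_mul, h2, star_one]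
  have s1 : spectrum ℝ (star T * T) ⊆ Icc R⁻¹ R :=
    spec_sub (c := U * star U) (star_mul_self_nonneg T)
      (by rw [mul_assoc, ← mul_assoc T, h1, one_mul, h2'])
      (by rw [mul_assoc, ← mul_assoc (star U), h1', one_mul, h2]) hR0 (by linarith) (by linarith)
  have s2 : spectrum ℝ (T * star T) ⊆ Icc R⁻¹ R :=
    spec_sub (c := star U * U) (mul_star_self_nonneg T)
      (by rw [mul_assoc, ← mul_assoc (star T), h2', one_mul, h1])
      (by rw [mul_assoc, ← mul_assoc U, h2, one_mul, h1']) hR0 (by linarith) (by linarith)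
  have hRR : R⁻¹ ≤ R := (inv_le_one_of_one_le₀ (by linarith)).trans (by linarith)
  refine eq_of_forall_dist_le fun ε hε => ?_
  set η := ε / (2 * (‖τ‖ + 1)) with hη
  have hτ0 := norm_nonneg τ
  have hη0 : 0 < η := by positivity
  obtain ⟨p, hp1, -⟩ := exists_poly (inv_pos.2 hR0) hRR hη0
  have a1 := norm_aeval_sub_log (IsSelfAdjoint.star_mul_self T) (inv_pos.2 hR0) hη0.le s1 hp1
  have a2 := norm_aeval_sub_log (IsSelfAdjoint.mul_star_self T) (inv_pos.2 hR0) hη0.le s2 hp1
  have b1 := τ.le_of_opNorm_le_of_le le_rfl a1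
  have b2 := τ.le_of_opNorm_le_of_le le_rfl a2
  rw [map_sub, Real.norm_eq_abs] at b1 b2
  rw [hp] at b1
  rw [Real.dist_eq]
  have e : η * (2 * (‖τ‖ + 1)) = ε := by rw [hη]; field_simp
  rw [abs_le] at b1 b2 ⊢
  constructor <;> nlinarith [b1.1, b1.2, b2.1, b2.2]

/-- invariance under a unipotent congruence -/
lemma Tr.log_unip {S : Subalgebra ℝ A} {τ : A →L[ℝ] ℝ} (h : Tr S τ) {x c N : A} (hx : x ∈ S)
    (hc : c ∈ S) (hN : N ∈ S) (hx0 : 0 ≤ x) (h1 : x * c = 1) (h2 : c * x = 1) (hNN : N * N = 0)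
    (hτN : τ N = 0) :
    τ (cfc Real.log (star (1 + N) * x * (1 + N))) = τ (cfc Real.log x) := by
  have hNs : star N * star N = 0 := by rw [← star_mul, hNN, star_zero]
  have hN' := h.star_mem _ hN
  let y : ℝ → A := fun t => 1 + t • N
  let z : ℝ → A := fun t => 1 - t • N
  let ys : ℝ → A := fun t => 1 + t • star N
  let zs : ℝ → A := fun t => 1 - t • star N
  have hys : ∀ t, star (y t) = ys t := fun t => by simp [y, ys]
  have hyz : ∀ t, y t * z t = 1 := fun t => by
    simp [y, z, mul_sub, add_mul, hNN]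
  have hzy : ∀ t, z t * y t = 1 := fun t => by
    simp [y, z, mul_add, sub_mul, hNN]
  have hyzs : ∀ t, ys t * zs t = 1 := fun t => by
    simp [ys, zs, mul_sub, add_mul, hNs]
  have hzys : ∀ t, zs t * ys t = 1 := fun t => by
    simp [ys, zs, mul_add, sub_mul, hNs]
  have my : ∀ t, y t ∈ S := fun t => S.add_mem S.one_mem (S.smul_mem hN t)
  have mz : ∀ t, z t ∈ S := fun t => S.sub_mem S.one_mem (S.smul_mem hN t)
  have mys : ∀ t, ys t ∈ S := fun t => S.add_mem S.one_mem (S.smul_mem hN' t)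
  have mzs : ∀ t, zs t ∈ S := fun t => S.sub_mem S.one_mem (S.smul_mem hN' t)
  let X : ℝ → A := fun t => ys t * x * y t
  let Y : ℝ → A := fun t => z t * c * zs t
  let X' : ℝ → A := fun t => star N * x * y t + ys t * x * N
  have hXY : ∀ t, X t * Y t = 1 := fun t => by
    calc X t * Y t = ys t * (x * ((y t * z t) * c)) * zs t := by simp only [X, Y, mul_assoc]
      _ = 1 := by rw [hyz, one_mul, h1, mul_one, hyzs]
  have hYX : ∀ t, Y t * X t = 1 := fun t => by
    calc Y t * X t = z t * (c * ((zs t * ys t) * x)) * y t := by simp only [X, Y, mul_assoc]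
      _ = 1 := by rw [hzys, one_mul, h2, mul_one, hzy]
  have hX0 : ∀ t, 0 ≤ X t := fun t => by
    have := star_left_conjugate_nonneg hx0 (y t)
    rwa [hys] at this
  have mX : ∀ t, X t ∈ S := fun t => S.mul_mem (S.mul_mem (mys t) hx) (my t)
  have mX' : ∀ t, X' t ∈ S := fun t =>
    S.add_mem (S.mul_mem (S.mul_mem hN' hx) (my t)) (S.mul_mem (S.mul_mem (mys t) hx) hN)
  have hd : ∀ t, HasDerivAt X (X' t) t := fun t => by
    have d1 : HasDerivAt y N t :=
      (((hasDerivAt_id t).smul_const N).const_add 1).congr_deriv (one_smul _ _)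
    have d2 : HasDerivAt ys (star N) t :=
      (((hasDerivAt_id t).smul_const (star N)).const_add 1).congr_deriv (one_smul _ _)
    exact (d2.mul_const x).mul d1
  have hzero : ∀ t, τ (Y t * X' t) = 0 := fun t => by
    have e1 : z t * c * zs t * (star N * x * y t) = (z t * (c * star N * x)) * y t := by
      have : zs t * star N = star N := by simp [zs, sub_mul, hNs]
      calc _ = z t * (c * (zs t * star N) * x) * y t := by simp only [mul_assoc]
        _ = _ := by rw [this]
    have e2 : z t * c * zs t * (ys t * x * N) = N := by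
      have : z t * N = N := by simp [z, sub_mul, hNN]
      calc _ = z t * ((c * ((zs t * ys t) * x)) * N) := by simp only [mul_assoc]
        _ = _ := by rw [hzys, one_mul, h2, one_mul, this]
    have m1 : c * star N * x ∈ S := S.mul_mem (S.mul_mem hc hN') hx
    simp only [Y, X', mul_add, map_add, e1, e2]
    rw [h.comm _ (S.mul_mem (mz t) m1) _ (my t), ← mul_assoc, hyz, one_mul,
      h.comm _ (S.mul_mem hc hN') _ hx, ← mul_assoc, h1, one_mul, h.star_eq, hτN, add_zero]
  have cX : Continuous X := by fun_prop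
  have cY : Continuous Y := by fun_prop
  have cX' : Continuous X' := by fun_prop
  obtain ⟨R₁, hR₁⟩ := (isCompact_Icc (a := (0 : ℝ)) (b := 1)).exists_bound_of_continuousOn
    cX.continuousOn
  obtain ⟨R₂, hR₂⟩ := (isCompact_Icc (a := (0 : ℝ)) (b := 1)).exists_bound_of_continuousOn
    cY.continuousOn
  obtain ⟨R₃, hR₃⟩ := (isCompact_Icc (a := (0 : ℝ)) (b := 1)).exists_bound_of_continuousOn
    cX'.continuousOn
  have r1 : 0 ≤ R₁ := (norm_nonneg _).trans (hR₁ 0 (by simp))
  have r2 : 0 ≤ R₂ := (norm_nonneg _).trans (hR₂ 0 (by simp))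
  have r3 : 0 ≤ R₃ := (norm_nonneg _).trans (hR₃ 0 (by simp))
  set R := 1 + R₁ + R₂ with hR
  have hR0 : 0 < R := by linarith
  have hRR : R⁻¹ ≤ R := (inv_le_one_of_one_le₀ (by linarith)).trans (by linarith)
  have hsp : ∀ t ∈ Icc (0 : ℝ) 1, spectrum ℝ (X t) ⊆ Icc R⁻¹ R := fun t ht =>
    spec_sub (hX0 t) (hXY t) (hYX t) hR0 (by linarith [hR₁ t ht]) (by linarith [hR₂ t ht])
  have e0 : X 0 = x := by simp [X, y, ys]
  have e1 : X 1 = star (1 + N) * x * (1 + N) := by simp [X, y, ys]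
  rw [← e1]
  conv_rhs => rw [← e0]
  refine eq_of_forall_dist_le fun ε hε => ?_
  have hτ0 := norm_nonneg τ
  set η := ε / ((‖τ‖ + 1) * (R₃ + 2)) with hη
  have hη0 : 0 < η := by positivity
  obtain ⟨p, hp1, hp2⟩ := exists_poly (inv_pos.2 hR0) hRR hη0
  have a1 := norm_aeval_sub_log (IsSelfAdjoint.of_nonneg (hX0 1)) (inv_pos.2 hR0) hη0.le
    (hsp 1 (by simp)) hp1
  have a2 := norm_aeval_sub_log (IsSelfAdjoint.of_nonneg (hX0 0)) (inv_pos.2 hR0) hη0.le
    (hsp 0 (by simp)) hp1
  have b1 := τ.le_of_opNorm_le_of_le le_rfl a1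
  have b2 := τ.le_of_opNorm_le_of_le le_rfl a2
  rw [map_sub, Real.norm_eq_abs] at b1 b2
  have b3 := (convex_Icc (0 : ℝ) 1).norm_image_sub_le_of_norm_hasDerivWithin_le
    (f := fun s => τ (aeval (X s) p)) (f' := fun t => τ (aeval (X t) p.derivative * X' t))
    (C := ‖τ‖ * (η * R₃))
    (fun t _ => (h.hasDerivAt_aeval (hd t) (mX t) (mX' t) p).hasDerivWithinAt)
    (fun t ht => by
      have a3 := norm_aeval_sub_inv (IsSelfAdjoint.of_nonneg (hX0 t)) (hXY t) (hYX t)
        (inv_pos.2 hR0) hη0.le (hsp t ht) hp2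
      have e : τ (aeval (X t) p.derivative * X' t) =
          τ ((aeval (X t) p.derivative - Y t) * X' t) := by
        rw [sub_mul, map_sub, hzero, sub_zero]
      rw [e]
      refine τ.le_of_opNorm_le_of_le le_rfl ((norm_mul_le _ _).trans ?_)
      exact mul_le_mul a3 (hR₃ t ht) (norm_nonneg _) hη0.le)
    (left_mem_Icc.2 zero_le_one) (right_mem_Icc.2 zero_le_one)
  simp only [sub_zero, norm_one, mul_one, Real.norm_eq_abs] at b3
  rw [Real.dist_eq]
  have e : η * ((‖τ‖ + 1) * (R₃ + 2)) = ε := by rw [hη]; field_simp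
  have e' : ‖τ‖ * η + ‖τ‖ * η + ‖τ‖ * (η * R₃) ≤ ε := by
    rw [← e]
    nlinarith [mul_nonneg hη0.le r3]
  rw [abs_le] at b1 b2 b3 ⊢
  constructor <;> linarith [b1.1, b1.2, b2.1, b2.2, b3.1, b3.2]

/-- right multiplication -/
lemma Tr.log_mul_right {S : Subalgebra ℝ A} {τ : A →L[ℝ] ℝ} (h : Tr S τ) {T U N : A} (hT : T ∈ S)
    (hU : U ∈ S) (hN : N ∈ S) (h1 : T * U = 1) (h2 : U * T = 1) (hNN : N * N = 0)
    (hτN : τ N = 0) :
    τ (cfc Real.log (star (T * (1 + N)) * (T * (1 + N)))) = τ (cfc Real.log (star T * T)) := by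
  have h1' : star U * star T = 1 := by rw [← star_mul, h1, star_one]
  have h2' : star T * star U = 1 := by rw [← star_mul, h2, star_one]
  rw [← h.log_unip (c := U * star U) (S.mul_mem (h.star_mem _ hT) hT)
    (S.mul_mem hU (h.star_mem _ hU)) hN (star_mul_self_nonneg T)
    (by rw [mul_assoc, ← mul_assoc T, h1, one_mul, h2'])
    (by rw [mul_assoc, ← mul_assoc (star U), h1', one_mul, h2]) hNN hτN]
  simp only [star_mul, mul_assoc]

/-- left multiplication -/
lemma Tr.log_mul_left {S : Subalgebra ℝ A} {τ : A →L[ℝ] ℝ} (h : Tr S τ) {T U N : A} (hT : T ∈ S)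
    (hU : U ∈ S) (hN : N ∈ S) (h1 : T * U = 1) (h2 : U * T = 1) (hNN : N * N = 0)
    (hτN : τ N = 0) :
    τ (cfc Real.log (star ((1 + N) * T) * ((1 + N) * T))) = τ (cfc Real.log (star T * T)) := by
  have h1' : star U * star T = 1 := by rw [← star_mul, h1, star_one]
  have h2' : star T * star U = 1 := by rw [← star_mul, h2, star_one]
  have hNs : star N * star N = 0 := by rw [← star_mul, hNN, star_zero]
  have a1 : (1 + N) * (1 - N) = 1 := by simp [mul_sub, add_mul, hNN]
  have a2 : (1 - N) * (1 + N) = 1 := by simp [mul_add, sub_mul, hNN]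
  rw [h.log_swap (U := U * (1 - N)) (S.mul_mem (S.add_mem S.one_mem hN) hT)
    (by rw [mul_assoc, ← mul_assoc T, h1, one_mul, a1])
    (by rw [mul_assoc, ← mul_assoc (1 - N), a2, one_mul, h2]), h.log_swap hT h1 h2]
  have := h.log_mul_right (h.star_mem _ hT) (h.star_mem _ hU) (h.star_mem _ hN) h2' h1' hNs
    (by rw [h.star_eq, hτN])
  simpa only [star_mul, star_star, star_add, star_one] using this

lemma log_le {x c : A} (hx : 0 ≤ x) (h1 : x * c = 1) (h2 : c * x = 1) :
    cfc Real.log x ≤ x - 1 := by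
  have hpos : ∀ s ∈ spectrum ℝ x, 0 < s := fun s hs =>
    lt_of_le_of_ne (spectrum_nonneg_of_nonneg hx hs)
      (spectrum.ne_zero_of_mem_of_unit (a := ⟨x, c, h1, h2⟩) hs).symm
  have hsa : IsSelfAdjoint x := IsSelfAdjoint.of_nonneg hx
  have e : cfc (fun s : ℝ => s - 1) x = x - 1 := by
    rw [cfc_sub _ _ x, cfc_id' ℝ x, cfc_const_one ℝ x]
  rw [← e]
  exact cfc_mono (fun s hs => Real.log_le_sub_one_of_pos (hpos s hs))
    (Real.continuousOn_log.mono fun s hs => ne_of_gt (hpos s hs))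

end Crest.Agent.R177.FK
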