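import Crest.Agent.R177.Defs
import Crest.Agent.R177.FK1

/-!
Row 184: the Fuglede–Kadison determinant is invariant under elementary moves (`fkStmt`).
-/

set_option autoImplicit false
set_option linter.unusedSectionVars false

namespace Crest.Agent.R177.FK

open scoped Classical InnerProductSpace

section Basis
variable {I H : Type} [NormedAddCommGroup H] [InnerProductSpace ℂ H] (b : HilbertBasis I ℂ H)

lemma exists_iso {v : I → H} (hv : Orthonormal ℂ v) [CompleteSpace H] :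
    ∃ T : H →L[ℂ] H, ∀ j, T (b j) = v j := by
  refine ⟨hv.orthogonalFamily.linearIsometry.toContinuousLinearMap ∘L
    b.repr.toContinuousLinearEquiv.toContinuousLinearMap, fun j => ?_⟩
  change hv.orthogonalFamily.linearIsometry (b.repr (b j)) = _
  rw [b.repr_self, OrthogonalFamily.linearIsometry_apply_single]
  simp

lemma ext_vec {x y : H} (h : ∀ j, ⟪b j, x⟫_ℂ = ⟪b j, y⟫_ℂ) : x = y := by
  apply b.repr.injective
  ext j
  rw [b.repr_apply_apply, b.repr_apply_apply, h]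

lemma ext_basis {S T : H →L[ℂ] H} (h : ∀ j k, ⟪b j, S (b k)⟫_ℂ = ⟪b j, T (b k)⟫_ℂ) : S = T := by
  refine ContinuousLinearMap.ext_on (s := Set.range b)
    (Submodule.dense_iff_topologicalClosure_eq_top.mpr b.dense_span) ?_
  rintro _ ⟨k, rfl⟩
  exact ext_vec b fun j => h j k

lemma inner_b (j k : I) : ⟪b j, b k⟫_ℂ = if j = k then 1 else 0 :=
  orthonormal_iff_ite.mp b.orthonormal j k

end Basis

variable {G ι H : Type} [Group G] [Fintype ι] [NormedAddCommGroup H] [InnerProductSpace ℂ H]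
  [CompleteSpace H] (b : HilbertBasis (ι × G) ℂ H)

lemma exists_E (i j : ι) (m : G) : ∃ E : H →L[ℂ] H, ∀ j' g,
    E (b (j', g)) = if j' = j then b (i, m * g) else 0 := by
  obtain ⟨U, hU⟩ := exists_iso b (v := fun x : ι × G => b (Equiv.swap i j x.1, m * x.2))
    (b.orthonormal.comp (fun x : ι × G => (Equiv.swap i j x.1, m * x.2)) (by
      rintro ⟨a, g⟩ ⟨a', g'⟩ h
      simpa using h))
  obtain ⟨D, hD⟩ := exists_iso b (v := fun x : ι × G => if x.1 = j then -b x else b x)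
    (b.orthonormal.orthonormal_of_forall_eq_or_eq_neg fun x => by split_ifs <;> simp)
  refine ⟨(1 / 2 : ℂ) • (U - U * D), fun j' g => ?_⟩
  simp only [smul_apply, sub_apply,
    mul_apply_eq_comp, hD]
  split_ifs with h
  · subst h
    rw [map_neg, hU, sub_neg_eq_add, ← two_smul ℂ, smul_smul]
    simp
  · simp

/-- `T` is the operator of the matrix `X` -/
def Rep (X : Matrix ι ι (MonoidAlgebra ℝ G)) (T : H →L[ℂ] H) : Prop :=
  ∀ i j g h, ⟪b (i, h), T (b (j, g))⟫_ℂ = ((X i j).coeff (h * g⁻¹) : ℂ)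

variable {b}

lemma Rep.unique {X : Matrix ι ι (MonoidAlgebra ℝ G)} {S T : H →L[ℂ] H} (hS : Rep b X S)
    (hT : Rep b X T) : S = T :=
  ext_basis b fun ⟨i, h⟩ ⟨j, g⟩ => by rw [hS, hT]

lemma inner_col (X : Matrix ι ι (MonoidAlgebra ℝ G)) (i j : ι) (g h : G) :
    ⟪b (i, h), ∑ k, ∑ m ∈ (X k j).coeff.support, ((X k j).coeff m : ℂ) • b (k, m * g)⟫_ℂ =
      ((X i j).coeff (h * g⁻¹) : ℂ) := by
  simp only [inner_sum, inner_smul_right, inner_b]
  rw [Finset.sum_eq_single i (fun k _ hk => by simp [hk.symm]) (by simp),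
    Finset.sum_eq_single (h * g⁻¹) (fun m _ hm => ?_) (fun hm => ?_)]
  · simp
  · rw [if_neg, mul_zero]
    intro h1
    simp only [Prod.mk.injEq, true_and] at h1
    exact hm (by simp [h1])
  · rw [Finsupp.notMem_support_iff.1 hm]
    simp

lemma Rep.col {X : Matrix ι ι (MonoidAlgebra ℝ G)} {T : H →L[ℂ] H} (hT : Rep b X T) (j : ι)
    (g : G) :
    T (b (j, g)) = ∑ k, ∑ m ∈ (X k j).coeff.support, ((X k j).coeff m : ℂ) • b (k, m * g) :=
  ext_vec b fun ⟨i, h⟩ => by rw [hT, inner_col]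

variable (b) in
lemma exists_rep (X : Matrix ι ι (MonoidAlgebra ℝ G)) : ∃ T, Rep b X T := by
  choose E hE using exists_E b
  refine ⟨∑ l, ∑ k, ∑ m ∈ (X k l).coeff.support, ((X k l).coeff m : ℂ) • E k l m,
    fun i j g h => ?_⟩
  rw [← inner_col (b := b)]
  congr 1
  simp only [sum_apply, smul_apply, hE]
  rw [Finset.sum_eq_single j (fun l _ hl => by simp [hl.symm]) (by simp)]
  simp

variable (b) in
lemma rep_one : Rep b (1 : Matrix ι ι (MonoidAlgebra ℝ G)) 1 := by
  intro i j g h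
  rw [one_apply_eq_self, inner_b, Matrix.one_apply]
  by_cases hij : i = j
  · subst hij
    by_cases hg : h = g
    · subst hg
      simp
    · have : ¬ (1 : G) = h * g⁻¹ := fun h1 => hg (mul_inv_eq_one.1 h1.symm)
      simp [hg, MonoidAlgebra.one_def, Finsupp.single_apply, this]
  · simp [hij]

variable (b) in
lemma rep_zero : Rep b (0 : Matrix ι ι (MonoidAlgebra ℝ G)) 0 := by
  intro i j g h
  simp

lemma Rep.add {X Y : Matrix ι ι (MonoidAlgebra ℝ G)} {S T : H →L[ℂ] H} (hS : Rep b X S)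
    (hT : Rep b Y T) : Rep b (X + Y) (S + T) := by
  intro i j g h
  rw [add_apply, inner_add_right, hS, hT]
  simp

lemma Rep.smul {X : Matrix ι ι (MonoidAlgebra ℝ G)} {S : H →L[ℂ] H} (hS : Rep b X S) (c : ℝ) :
    Rep b (c • X) (c • S) := by
  intro i j g h
  rw [smul_apply, ← Complex.coe_smul, inner_smul_right, hS]
  simp

lemma Rep.mul {X Y : Matrix ι ι (MonoidAlgebra ℝ G)} {S T : H →L[ℂ] H} (hS : Rep b X S)
    (hT : Rep b Y T) : Rep b (X * Y) (S * T) := by
  intro i j g h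
  rw [mul_apply_eq_comp, hT.col]
  simp only [map_sum, map_smul, inner_sum, inner_smul_right, hS _ _ _ _, Matrix.mul_apply,
    MonoidAlgebra.coeff_sum, Finsupp.finsetSum_apply, MonoidAlgebra.coeff_mul_apply_right,
    Finsupp.sum]
  push_cast
  refine Finset.sum_congr rfl fun k _ => Finset.sum_congr rfl fun m _ => ?_
  rw [mul_comm, mul_inv_rev, mul_assoc]

/-- the adjoint matrix -/
noncomputable def adj (X : Matrix ι ι (MonoidAlgebra ℝ G)) : Matrix ι ι (MonoidAlgebra ℝ G) :=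
  fun i j => .ofCoeff (Finsupp.equivMapDomain (Equiv.inv G) (X j i).coeff)

lemma adj_coeff (X : Matrix ι ι (MonoidAlgebra ℝ G)) (i j : ι) (g : G) :
    (adj X i j).coeff g = (X j i).coeff g⁻¹ := by
  simp [adj]

lemma Rep.star {X : Matrix ι ι (MonoidAlgebra ℝ G)} {S : H →L[ℂ] H} (hS : Rep b X S) :
    Rep b (adj X) (star S) := by
  intro i j g h
  rw [ContinuousLinearMap.star_eq_adjoint, ContinuousLinearMap.adjoint_inner_right,
    ← inner_conj_symm, hS, adj_coeff]
  simp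

variable (b)

/-- operators of real group ring matrices -/
def Alg : Subalgebra ℝ (H →L[ℂ] H) where
  carrier := {T | ∃ X, Rep b X T}
  mul_mem' := fun ⟨_, h1⟩ ⟨_, h2⟩ => ⟨_, h1.mul h2⟩
  add_mem' := fun ⟨_, h1⟩ ⟨_, h2⟩ => ⟨_, h1.add h2⟩
  algebraMap_mem' c := ⟨_, by rw [Algebra.algebraMap_eq_smul_one]; exact (rep_one b).smul c⟩

/-- the trace -/
noncomputable def tr : (H →L[ℂ] H) →L[ℝ] ℝ :=
  ∑ i : ι, Complex.reCLM ∘L
    ((innerSL ℂ (b (i, 1))) ∘L (ContinuousLinearMap.apply ℂ H (b (i, 1)))).restrictScalars ℝ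

lemma tr_apply (T : H →L[ℂ] H) : tr b T = ∑ i, (⟪b (i, 1), T (b (i, 1))⟫_ℂ).re := by
  simp [tr, sum_apply]

variable {b}

lemma Rep.tr_eq {X : Matrix ι ι (MonoidAlgebra ℝ G)} {S : H →L[ℂ] H} (hS : Rep b X S) :
    tr b S = ∑ i, (X i i).coeff 1 := by
  rw [tr_apply]
  refine Finset.sum_congr rfl fun i _ => ?_
  rw [hS]
  simp

lemma coeff_one_comm (x y : MonoidAlgebra ℝ G) : (x * y).coeff 1 = (y * x).coeff 1 := by
  rw [MonoidAlgebra.coeff_mul_apply_left, MonoidAlgebra.coeff_mul_apply_right]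
  simp [mul_comm]

variable (b)

lemma isTr : Tr (Alg b) (tr b) where
  star_mem := fun _ ⟨_, h⟩ => ⟨_, h.star⟩
  comm := fun S ⟨X, hS⟩ T ⟨Y, hT⟩ => by
    rw [(hS.mul hT).tr_eq, (hT.mul hS).tr_eq]
    simp only [Matrix.mul_apply, MonoidAlgebra.coeff_sum, Finsupp.finsetSum_apply]
    rw [Finset.sum_comm]
    exact Finset.sum_congr rfl fun i _ => Finset.sum_congr rfl fun j _ => coeff_one_comm _ _
  star_eq := fun S => by
    rw [tr_apply, tr_apply]
    refine Finset.sum_congr rfl fun i _ => ?_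
    rw [ContinuousLinearMap.star_eq_adjoint, ContinuousLinearMap.adjoint_inner_right,
      ← inner_conj_symm, Complex.conj_re]

lemma tr_nonneg {S : H →L[ℂ] H} (hS : 0 ≤ S) : 0 ≤ tr b S := by
  rw [tr_apply]
  exact Finset.sum_nonneg fun i _ =>
    ((ContinuousLinearMap.nonneg_iff_isPositive S).1 hS).re_inner_nonneg_right _

/-- scalar extension to the reals -/
noncomputable def ext : Matrix ι ι (MonoidAlgebra ℚ G) →+* Matrix ι ι (MonoidAlgebra ℝ G) :=
  (MonoidAlgebra.mapRingHom G (Rat.castHom ℝ)).mapMatrix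

lemma ext_coeff (X : Matrix ι ι (MonoidAlgebra ℚ G)) (i j : ι) (g : G) :
    (ext X i j).coeff g = ((X i j).coeff g : ℝ) := by
  simp [ext]

variable {b}

lemma exists_inv {X : Matrix ι ι (MonoidAlgebra ℚ G)} (hX : IsUnit X) {T : H →L[ℂ] H}
    (hT : Rep b (ext X) T) : ∃ U ∈ Alg b, T * U = 1 ∧ U * T = 1 := by
  obtain ⟨u, rfl⟩ := hX
  obtain ⟨U, hU⟩ := exists_rep b (ext (u⁻¹ : (Matrix ι ι (MonoidAlgebra ℚ G))ˣ).val)
  refine ⟨U, ⟨_, hU⟩, ?_, ?_⟩
  · have := hT.mul hU
    rw [← map_mul, Units.mul_inv, map_one] at this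
    exact this.unique (rep_one b)
  · have := hU.mul hT
    rw [← map_mul, Units.inv_mul, map_one] at this
    exact this.unique (rep_one b)

lemma elem_step {X Y : Matrix ι ι (MonoidAlgebra ℚ G)} (h : Elem X Y) (hX : IsUnit X) :
    IsUnit Y ∧ ∀ S T : H →L[ℂ] H, Rep b (ext X) S → Rep b (ext Y) T →
      tr b (cfc Real.log (star T * T)) = tr b (cfc Real.log (star S * S)) := by
  obtain ⟨N, hNN, hN0, hY⟩ := h
  have hu : IsUnit (1 + N) :=
    ⟨⟨1 + N, 1 - N, by simp [mul_sub, add_mul, hNN], by simp [mul_add, sub_mul, hNN]⟩, rfl⟩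
  obtain ⟨M, hM⟩ := exists_rep b (ext N)
  have hMM : M * M = 0 := by
    have := hM.mul hM
    rw [← map_mul, hNN, map_zero] at this
    exact this.unique (rep_zero b)
  have hτ : tr b M = 0 := by
    rw [hM.tr_eq]
    simp [ext_coeff, hN0]
  have h1 : Rep b (ext (1 + N)) (1 + M) := by
    rw [map_add, map_one]
    exact (rep_one b).add hM
  rcases hY with rfl | rfl
  · refine ⟨hu.mul hX, fun S T hS hT => ?_⟩
    obtain ⟨U, hU, h2, h3⟩ := exists_inv hX hS
    rw [map_mul] at hT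
    rw [hT.unique (h1.mul hS)]
    exact (isTr b).log_mul_left ⟨_, hS⟩ hU ⟨_, hM⟩ h2 h3 hMM hτ
  · refine ⟨hX.mul hu, fun S T hS hT => ?_⟩
    obtain ⟨U, hU, h2, h3⟩ := exists_inv hX hS
    rw [map_mul] at hT
    rw [hT.unique (hS.mul h1)]
    exact (isTr b).log_mul_right ⟨_, hS⟩ hU ⟨_, hM⟩ h2 h3 hMM hτ

lemma elem_chain {X Y : Matrix ι ι (MonoidAlgebra ℚ G)} (h : Relation.ReflTransGen Elem X Y)
    (hX : IsUnit X) :
    IsUnit Y ∧ ∀ S T : H →L[ℂ] H, Rep b (ext X) S → Rep b (ext Y) T →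
      tr b (cfc Real.log (star T * T)) = tr b (cfc Real.log (star S * S)) := by
  induction h with
  | refl => exact ⟨hX, fun S T hS hT => by rw [hS.unique hT]⟩
  | tail _ h2 ih =>
    obtain ⟨h3, h4⟩ := ih
    obtain ⟨h5, h6⟩ := elem_step (b := b) h2 h3
    refine ⟨h5, fun S T hS hT => ?_⟩
    obtain ⟨U, hU⟩ := exists_rep b (ext _)
    rw [h6 U T hU hT, h4 S U hS hU]

lemma log_neg {X : Matrix ι ι (MonoidAlgebra ℚ G)} (hX : IsUnit X)
    (hs : ∑ i, ∑ j, ∑ g ∈ (X i j).coeff.support, (X i j).coeff g ^ 2 < (Fintype.card ι : ℚ))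
    {S : H →L[ℂ] H} (hS : Rep b (ext X) S) : tr b (cfc Real.log (star S * S)) < 0 := by
  obtain ⟨U, -, h1, h2⟩ := exists_inv hX hS
  have h1' : star U * star S = 1 := by rw [← star_mul, h1, star_one]
  have h2' : star S * star U = 1 := by rw [← star_mul, h2, star_one]
  have h3 := log_le (c := U * star U) (star_mul_self_nonneg S)
    (by rw [mul_assoc, ← mul_assoc S, h1, one_mul, h2'])
    (by rw [mul_assoc, ← mul_assoc (star U), h1', one_mul, h2])
  have h4 := tr_nonneg b (sub_nonneg.2 h3)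
  rw [map_sub, map_sub, (hS.star.mul hS).tr_eq, (rep_one b).tr_eq] at h4
  have h5 : ∑ i, ((adj (ext X) * ext X) i i).coeff 1 =
      ((∑ i, ∑ j, ∑ g ∈ (X i j).coeff.support, (X i j).coeff g ^ 2 : ℚ) : ℝ) := by
    simp only [Matrix.mul_apply, MonoidAlgebra.coeff_sum, Finsupp.finsetSum_apply,
      MonoidAlgebra.coeff_mul_apply_right, Finsupp.sum, adj_coeff, ext_coeff]
    push_cast
    rw [Finset.sum_comm]
    refine Finset.sum_congr rfl fun i _ => Finset.sum_congr rfl fun j _ => ?_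
    have : (ext X i j).coeff.support = (X i j).coeff.support := by
      ext g
      simp [ext_coeff]
    rw [this]
    exact Finset.sum_congr rfl fun g _ => by simp [sq]
  have h6 : ∑ i : ι, ((1 : Matrix ι ι (MonoidAlgebra ℝ G)) i i).coeff 1 = Fintype.card ι := by
    simp
  have h7 : ((∑ i, ∑ j, ∑ g ∈ (X i j).coeff.support, (X i j).coeff g ^ 2 : ℚ) : ℝ) <
      (Fintype.card ι : ℝ) := by exact_mod_cast hs
  rw [h5, h6] at h4
  linarith

end Crest.Agent.R177.FK

namespace Crest.Agent.R177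

open scoped Classical InnerProductSpace
open FK

theorem fkStmt : FKStmt := by
  intro G _ hG ⟨ι, _, _, A, X, hX, hc, hs⟩
  let H := lp (fun _ : ι × G => ℂ) 2
  let b : HilbertBasis (ι × G) ℂ H := default
  let e : Fin (Fintype.card ι) ≃ ι := (Fintype.equivFin ι).symm
  let f : Fin (Fintype.card ι) × G ≃ ι × G := e.prodCongr (Equiv.refl G)
  let b' : HilbertBasis (Fin (Fintype.card ι) × G) ℂ H :=
    HilbertBasis.mk (b.orthonormal.comp f f.injective) (by
      rw [f.surjective.range_comp, b.dense_span])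
  have hb' : ∀ i g, b' (i, g) = b (e i, g) := fun i g => by
    simp only [b', HilbertBasis.coe_mk]
    rfl
  obtain ⟨S, hS⟩ := exists_rep b (ext X)
  obtain ⟨T, hT⟩ := exists_rep b (ext (A.map (MonoidAlgebra.mapRingHom G (Int.castRingHom ℚ))))
  obtain ⟨h1, h2⟩ := elem_chain (b := b) hc hX
  have h3 := log_neg hX hs hS
  rw [← h2 S T hS hT, tr_apply] at h3
  refine ⟨G, inferInstance, Fintype.card ι, A.submatrix e e, H, inferInstance, inferInstance,
    inferInstance, b', T, hG, Fintype.card_pos, ?_, ?_, ?_⟩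
  · have := h1.map (Matrix.reindexRingEquiv (MonoidAlgebra ℚ G) e.symm)
    convert this using 1
    rfl
  · intro i j g h
    rw [hb', hb', hT, ext_coeff]
    simp
  · unfold Crest.AlgebraR.GroupRingDet.logDet Crest.AlgebraR.GroupRingDet.opTrace
    simp only [hb']
    rw [← e.sum_comp] at h3
    exact mul_neg_of_pos_of_neg (by norm_num) h3

end Crest.Agent.R177
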