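import Crest.Agent.R177.Global2

/-! Local to global, part 3: the global inequality, `Fill` and `Alone`. -/

set_option autoImplicit false

namespace Crest.Agent.R177

open Equiv Finset
open scoped Classical

namespace Glob

theorem sum_fiber_le {X Q : Type} [DecidableEq Q] (s : Finset X) (f : X → Q) (t : Finset Q) :
    ∑ k ∈ t, #{x ∈ s | f x = k} ≤ #s := by
  rw [sum_card_fiberwise_eq_card_filter]
  exact card_filter_le _ _

theorem arith {C g T w σ N c c0 R DR br b3 fx : ℕ}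
    (h1 : 16 * T ≤ 16 * (C + 1) * DR + 16 * C * w + 16 * C * g * σ + g * N)
    (h2 : g * N ≤ g * c0 + T) (h3 : DR ≤ 2 * (16 * (C + 1) * g) * R)
    (h4 : 1000 * (C + 1) * (16 * (C + 1)) * R ≤ N + br) (h5 : br ≤ 2 * c + b3 + fx)
    (h6 : g * c ≤ g * c0 + T) :
    16000 * T ≤ 32 * (3 * T + 3 * (g * c0) + g * b3 + g * fx) + 16000 * (C * w) +
      16000 * (C * g * σ) + 1000 * (g * c0 + T) := by
  have a1 : 1000 * (16 * (C + 1) * DR) ≤ 32 * (g * (N + br)) := by
    calc 1000 * (16 * (C + 1) * DR) ≤ 1000 * (16 * (C + 1) * (2 * (16 * (C + 1) * g) * R)) := by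
          gcongr
      _ = 32 * (g * (1000 * (C + 1) * (16 * (C + 1)) * R)) := by ring
      _ ≤ _ := by gcongr
  have a2 : g * br ≤ g * (2 * c + b3 + fx) := Nat.mul_le_mul_left g h5
  nlinarith

variable {P : Type} {L : FGraph P} {w : List ((P ⊕ L.V) × Bool)} {X : Type} [Fintype X]
  (D : L.RDiag w X)

theorem exists_seg (hM : MoveStmt) (hS : SegStmt) (m : ℕ) (hm : 1 ≤ m) :
    ∃ (ψ β : Perm X) (Cu : Finset X), Planar ψ β ∧ (∀ x, β (β x) = x) ∧
      (∀ x ∈ SS D, β x ∈ SS D) ∧ (∀ x ∈ SS D, D.α x ∉ D.o → β x = D.α x) ∧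
      (∀ x, ψ x ∈ SS D ↔ x ∈ SS D) ∧ (∀ x ∈ SS D, x ∉ Cu → ψ x = D.φ x) ∧ C0 D ⊆ Cu ∧
      m * #(Cu \ C0 D) ≤ #(SS D) ∧ (∀ x, #{y | ψ.SameCycle x y} ≤ 2 * m) ∧
      (∀ x ∈ Cu \ C0 D, m ≤ #{y | ψ.SameCycle x y}) ∧
      (#(SS D) ≤ 2 * m → Cu = C0 D ∧
        ∀ x ∈ SS D, ∀ y ∈ SS D, D.φ.SameCycle x y → ψ.SameCycle x y) := by
  obtain ⟨β, hP, hβ⟩ := delete_bands hM D.φ D.α D.inv D.planar D.o.toFinset
  simp only [List.mem_toFinset] at hβ
  have hβ2 : ∀ x, β (β x) = x := by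
    intro x
    by_cases h : x ∈ D.o ∨ D.α x ∈ D.o
    · have : β x = x := by rw [hβ, if_pos h]
      rw [this, this]
    · rw [hβ x, if_neg h, hβ, D.inv, if_neg (by tauto)]
  have hβ3 : ∀ x ∈ ({x | x ∉ SS D} : Set X), β x = x := by
    intro x hx
    rw [hβ]
    split_ifs with h
    · rfl
    by_contra h1
    rcases hl : D.lab x with ⟨p | v, b⟩
    · exact hx ((mem_SS D).2 ⟨by tauto, h1, by rw [hl]; rfl⟩)
    · exact h (Or.inr (α_mem_o_of_cone D (by tauto) h1 hl))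
  obtain ⟨φ₁, hP1, f1, f2, f3⟩ := hM.2.2.2.2.2.2.2.2 X D.φ β _ hP hβ3
  simp only [Set.mem_ofPred_eq, not_not] at f1 f2 f3
  obtain ⟨ψ, Cu, hP2, g1, g2, -, g4, g5, g6, g7, g8⟩ :=
    hS X φ₁ β (SS D) (C0 D) m hm hP1 f1 (filter_subset _ _)
  refine ⟨ψ, β, Cu, hP2, hβ2, fun x hx => ?_, fun x hx h => ?_, fun x => ?_, fun x hx h => ?_,
    g2, g5, g6, g7, fun h => ?_⟩
  · rw [hβ]
    split_ifs with h
    · exact hx
    · exact α_mem_SS D hx (by tauto)
  · rw [hβ, if_neg]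
    have := ((mem_SS D).1 hx).1
    tauto
  · by_cases hx : x ∈ SS D
    · refine iff_of_true ?_ hx
      by_contra h
      have := ψ.injective (g1 _ h)
      rw [this] at h
      exact h hx
    · rw [g1 x hx]
  · rw [g4 x h, f2 x hx]
    by_contra h1
    exact h (g2 ((mem_C0 D).2 ⟨hx, h1⟩))
  · obtain ⟨rfl, h2⟩ := g8 h
    exact ⟨h2, fun x hx y hy => (f3 x y hx hy).1⟩

theorem core (hM : MoveStmt) (hMin : MinorStmt) (hS : SegStmt) {C K g : ℕ} {γ : L.V}
    (hK : ∀ (V : Type) [Fintype V] (G : SimpleGraph V), ¬ HasKMinor G 8 →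
      ∃ (S : Finset V) (part : V → ℕ), 1000 * (C + 1) * (16 * (C + 1)) * #S ≤ Fintype.card V ∧
        (∀ a b, a ∉ S → b ∉ S → G.Adj a b → part a = part b) ∧
        ∀ k, #{a | a ∉ S ∧ part a = k} ≤ K)
    (hg1 : 1 ≤ g) (hg : L.Girth g)
    (hL : L.Local γ C K (1000 * (C + 1) * (16 * (C + 1)) * K) (2 * (16 * (C + 1)) * K) 16 g) :
    ∃ σ : ℕ, 16 * (C + 1) * g * σ ≤ 16 * (C + 1) * g * #(C0 D) + #(SS D) ∧
      (#(SS D) ≤ 2 * (16 * (C + 1) * g) → #(C0 D) ≤ 1 →
        (∀ z ∈ C0 D, ∃ x ∈ SS D, D.φ.SameCycle z x ∧ L.cone.tail (D.lift x) = some γ) → σ = 0) ∧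
      16000 * #(SS D) ≤ 32 * (3 * #(SS D) + 3 * (g * #(C0 D)) + g * #(B3 D) + g * #(Fix D)) +
        16000 * (C * w.length) + 16000 * (C * g * σ) + 1000 * (g * #(C0 D) + #(SS D)) := by
  set l := 16 * (C + 1) with hl
  set μ := 1000 * (C + 1) * l with hμ
  have hlg : g ≤ l * g := Nat.le_mul_of_pos_left g (by omega)
  obtain ⟨ψ, β, Cu, hP, b1, b2, b3, p1, p2, c1, c2, c3, c4, c5⟩ :=
    exists_seg D hM hS (l * g) (by omega)
  have hcyc : ∀ x ∈ SS D, ({y | ψ.SameCycle x y} : Finset X) = {y ∈ SS D | cell ψ y = cell ψ x} := by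
    intro x hx
    ext y
    simp only [mem_filter, mem_univ, true_and, cell_eq_iff]
    exact ⟨fun h => ⟨mem_of_sameCycle (fun x => (p1 x).2) hx h, h.symm⟩, fun h => h.2.symm⟩
  have hN : g * #((SS D).image (cell ψ)) ≤ g * #(C0 D) + #(SS D) := by
    refine mul_card_image_le _ _ _ _ fun x hx => ?_
    by_cases h : ∃ z ∈ Cu, ψ.SameCycle x z
    · obtain ⟨z, hz, hxz⟩ := h
      by_cases h0 : z ∈ C0 D
      · exact Or.inl ⟨z, h0, (cell_eq_iff _ _ _).2 hxz.symm⟩
      · right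
        have h1 := c4 z (mem_sdiff.2 ⟨hz, h0⟩)
        rw [hcyc z (mem_of_sameCycle (fun x => (p1 x).2) hx hxz),
          ← (cell_eq_iff _ _ _).2 hxz] at h1
        exact hlg.trans h1
    · right
      push Not at h
      have h1 := girth_le D hg ψ x fun y hy => by
        have h2 := mem_of_sameCycle (fun x => (p1 x).2) hx hy
        exact ⟨h2, p2 y h2 fun h3 => h y h3 hy⟩
      refine h1.trans (card_le_card fun y hy => ?_)
      obtain ⟨h2, h3⟩ := mem_filter.1 hy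
      exact mem_filter.2 ⟨h2, (cell_eq_iff _ _ _).2 h3.symm⟩
  obtain ⟨Sep, part, s1, s2, s3⟩ := sep_cells hMin hK ψ β hP b1 (SS D) b2
  set Hv := {q ∈ (SS D).image (cell ψ) | μ < #{x ∈ Br D Cu | cell ψ x = q}} with hHv
  have hH : μ * #Hv ≤ #(Br D Cu) := by
    refine le_trans ?_ (sum_fiber_le (Br D Cu) (cell ψ) Hv)
    rw [mul_comm, ← smul_eq_mul, ← sum_const]
    exact sum_le_sum fun q hq => (mem_filter.1 hq).2.le
  set R := Sep ∪ Hv with hR
  have hR1 : μ * #R ≤ #((SS D).image (cell ψ)) + #(Br D Cu) :=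
    (Nat.mul_le_mul_left μ (card_union_le _ _)).trans (by rw [mul_add]; omega)
  have hfib : ∀ (Y : Finset X), Y ⊆ SS D → ∀ q, #{y ∈ Y | cell ψ y = q} ≤ 2 * (l * g) := by
    intro Y hY q
    rcases ({y ∈ Y | cell ψ y = q} : Finset X).eq_empty_or_nonempty with h | ⟨x, hx⟩
    · rw [h]; simp
    · obtain ⟨h1, rfl⟩ := mem_filter.1 hx
      refine le_trans (card_le_card ?_) (c3 x)
      rw [hcyc x (hY h1)]
      exact filter_subset_filter _ hY
  set DR := {x ∈ SS D | cell ψ x ∈ R} with hDR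
  have hDR1 : #DR ≤ 2 * (l * g) * #R :=
    card_le_mul_image (cell ψ) DR R _ (fun x hx => (mem_filter.1 hx).2)
      fun q _ => hfib _ (filter_subset _ _) q
  set G := {x ∈ SS D | cell ψ x ∉ R} with hG
  have hGS : G ⊆ SS D := filter_subset _ _
  have hsplit : #DR + #G = #(SS D) := card_filter_add_card_filter_not _
  let κ : X → ℕ := fun x => part (cell ψ x)
  let Y : ℕ → Finset X := fun k => {x ∈ G | κ x = k}
  have mY : ∀ k x, x ∈ Y k ↔ x ∈ SS D ∧ cell ψ x ∉ R ∧ part (cell ψ x) = k := fun k x => by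
    simp only [Y, hG, κ, mem_filter, and_assoc]
  have hYS : ∀ k, Y k ⊆ SS D := fun k x hx => ((mY k x).1 hx).1
  have hYi : ∀ k x, ψ x ∈ Y k ↔ x ∈ Y k := fun k x => by rw [mY, mY, p1, cell_apply]
  have hYK : ∀ k, #((Y k).image (cell ψ)) ≤ K := by
    intro k
    refine le_trans (card_le_card fun q hq => ?_) (s3 k)
    obtain ⟨x, hx, rfl⟩ := mem_image.1 hq
    obtain ⟨a1, a2, a3⟩ := (mY k x).1 hx
    exact mem_filter.2 ⟨mem_image_of_mem _ a1, fun h => a2 (mem_union_left _ h), a3⟩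
  have hloc : ∀ k, 16 * #(Y k) ≤ 16 * C * #{x ∈ Y k | D.α x ∉ Y k} +
      16 * C * g * (#{x ∈ Y k | x ∈ Cu} -
        if ∃ x ∈ Y k, L.cone.tail (D.lift x) = some γ then 1 else 0) + g := by
    intro k
    refine local_group D hL ψ Cu p2 (Y k) (hYS k) (hYi k) (hYK k) ?_ ?_
    · refine (card_le_mul_image (cell ψ) (Y k) _ _ (fun x hx => mem_image_of_mem _ hx)
        fun q _ => hfib _ (hYS k) q).trans ?_
      calc 2 * (l * g) * #((Y k).image (cell ψ)) ≤ 2 * (l * g) * K :=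
            Nat.mul_le_mul_left _ (hYK k)
        _ = _ := by ring
    · refine (card_le_mul_image (cell ψ) _ ((Y k).image (cell ψ)) μ
        (fun x hx => mem_image_of_mem _ (mem_filter.1 hx).1) fun q hq => ?_).trans
        (Nat.mul_le_mul_left _ (hYK k))
      obtain ⟨x, hx, rfl⟩ := mem_image.1 hq
      obtain ⟨a1, a2, -⟩ := (mY k x).1 hx
      have a3 : #{y ∈ Br D Cu | cell ψ y = cell ψ x} ≤ μ := by
        by_contra h
        exact a2 (mem_union_right _ (mem_filter.2 ⟨mem_image_of_mem _ a1, not_le.1 h⟩))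
      refine le_trans (card_le_card fun y hy => ?_) a3
      simp only [mem_filter] at hy ⊢
      exact ⟨hy.1.2, hy.2⟩
  set Ks := G.image κ with hKs
  have hKs1 : #Ks ≤ #((SS D).image (cell ψ)) := by
    refine le_trans (card_le_card (t := ((SS D).image (cell ψ)).image part) fun k hk => ?_)
      Finset.card_image_le
    obtain ⟨x, hx, rfl⟩ := mem_image.1 hk
    exact mem_image_of_mem _ (mem_image_of_mem _ (hGS hx))
  have hsum1 : #G = ∑ k ∈ Ks, #(Y k) := card_eq_sum_card_image κ G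
  have hsum2 : ∑ k ∈ Ks, #{x ∈ Y k | D.α x ∉ Y k} ≤ w.length + #DR := by
    have a1 : #{x ∈ G | D.α x ∈ D.o} ≤ w.length :=
      card_le_of_α D _ fun x hx => (mem_filter.1 hx).2
    have a2 : #{x ∈ G | D.α x ∈ DR} ≤ #DR :=
      card_le_card_of_injOn D.α (fun x hx => (mem_filter.1 hx).2) D.α.injective.injOn
    have a3 := card_union_le {x ∈ G | D.α x ∈ D.o} {x ∈ G | D.α x ∈ DR}
    refine le_trans (le_trans (sum_le_sum fun k _ => card_le_card fun x hx => ?_)
      (sum_fiber_le ({x ∈ G | D.α x ∈ D.o} ∪ {x ∈ G | D.α x ∈ DR}) κ Ks)) (by omega)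
    obtain ⟨x1, x2⟩ := mem_filter.1 hx
    obtain ⟨x3, x4⟩ := mem_filter.1 x1
    refine mem_filter.2 ⟨?_, x4⟩
    by_cases h : D.α x ∈ D.o
    · exact mem_union_left _ (mem_filter.2 ⟨x3, h⟩)
    refine mem_union_right _ (mem_filter.2 ⟨x3, mem_filter.2 ⟨α_mem_SS D (hGS x3) h, ?_⟩⟩)
    by_contra h1
    refine x2 ((mY k _).2 ⟨α_mem_SS D (hGS x3) h, h1, ?_⟩)
    have := s2 x (hGS x3) (fun h => (mem_filter.1 x3).2 (mem_union_left _ h))
      (by rw [b3 x (hGS x3) h]; exact fun h => h1 (mem_union_left _ h))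
    rw [b3 x (hGS x3) h] at this
    rw [← this]
    exact x4
  have hCu : #Cu ≤ #(C0 D) + #(Cu \ C0 D) := by
    have := card_sdiff_add_card_eq_card c1
    omega
  have hCu2 : l * g * #Cu ≤ l * g * #(C0 D) + #(SS D) :=
    (Nat.mul_le_mul_left _ hCu).trans (by rw [mul_add]; omega)
  refine ⟨∑ k ∈ Ks, (#{x ∈ Y k | x ∈ Cu} -
    if ∃ x ∈ Y k, L.cone.tail (D.lift x) = some γ then 1 else 0), ?_, ?_, ?_⟩
  · refine le_trans (Nat.mul_le_mul_left _ ?_) hCu2
    refine le_trans (sum_le_sum fun k _ => (Nat.sub_le _ _).trans (card_le_card fun x hx => ?_))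
      (sum_fiber_le Cu κ Ks)
    obtain ⟨x1, x2⟩ := mem_filter.1 hx
    exact mem_filter.2 ⟨x2, (mem_filter.1 x1).2⟩
  · intro h1 h2 h3
    obtain ⟨e1, e2⟩ := c5 h1
    refine sum_eq_zero fun k _ => ?_
    rcases ({x ∈ Y k | x ∈ Cu} : Finset X).eq_empty_or_nonempty with h | ⟨z, hz⟩
    · rw [h]; simp
    obtain ⟨z1, z2⟩ := mem_filter.1 hz
    rw [e1] at z2
    obtain ⟨x, x1, x2, x3⟩ := h3 z z2
    rw [if_pos ⟨x, mem_of_sameCycle (fun x => (hYi k x).2) z1 (e2 z (hYS k z1) x x1 x2), x3⟩]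
    have : #{x ∈ Y k | x ∈ Cu} ≤ #(C0 D) :=
      card_le_card fun x hx => e1 ▸ (mem_filter.1 hx).2
    omega
  · refine arith ?_ hN hDR1 hR1 (card_Br_le D Cu) ?_
    · have a1 := sum_le_sum fun k (_ : k ∈ Ks) => hloc k
      rw [sum_add_distrib, sum_add_distrib, ← mul_sum, ← mul_sum, ← mul_sum, ← hsum1, sum_const,
        smul_eq_mul] at a1
      have a2 := Nat.mul_le_mul_left (16 * C) hsum2
      have a3 := Nat.mul_le_mul_left g hKs1
      nlinarith
    · have a1 : l * (g * #Cu) ≤ l * (g * #(C0 D) + #(SS D)) := by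
        have : #(SS D) ≤ l * #(SS D) := Nat.le_mul_of_pos_left _ (by omega)
        nlinarith
      exact Nat.le_of_mul_le_mul_left a1 (by omega)

theorem fill_bound {C g σ : ℕ} (hE : EulerStmt) (hC : CycStmt) (hg : L.Girth g)
    (h1 : 16 * (C + 1) * g * σ ≤ 16 * (C + 1) * g * #(C0 D) + #(SS D))
    (h2 : 16000 * #(SS D) ≤ 32 * (3 * #(SS D) + 3 * (g * #(C0 D)) + g * #(B3 D) + g * #(Fix D)) +
        16000 * (C * w.length) + 16000 * (C * g * σ) + 1000 * (g * #(C0 D) + #(SS D))) :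
    #(SS D) ≤ (2 * (C + 1) * g + 2 * C) * w.length := by
  have a1 := B3_le D hE hC hg
  have a2 := Nat.mul_le_mul_left g (card_FF_le D)
  have a3 := Nat.mul_le_mul_left g (card_Fix_le D)
  have a4 := Nat.mul_le_mul_left g ((card_C0_le D).trans (card_FF_le D))
  have a5 := Nat.mul_le_mul_left g (min_le_right 1 w.length)
  have a6 := Nat.mul_le_mul_left C a4
  nlinarith [Nat.zero_le (g * σ), Nat.zero_le (C * (g * w.length))]

theorem alone_facts {v γ : L.V} (hne : v ≠ γ) {X : Type} [Fintype X]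
    (D : L.RDiag [(Sum.inr v, true), (Sum.inr γ, false)] X) :
    #(FF D) ≤ 1 ∧ Fix D = ∅ ∧ (B3 D).Nonempty ∧
      ∀ z ∈ C0 D, ∃ x ∈ SS D, D.φ.SameCycle z x ∧ L.cone.tail (D.lift x) = some γ := by
  obtain ⟨o0, o1, ho, l0, l1⟩ : ∃ a b, D.o = [a, b] ∧ D.lab a = (Sum.inr v, true) ∧
      D.lab b = (Sum.inr γ, false) := by
    have h := D.o_lab
    rcases hD : D.o with _ | ⟨a, _ | ⟨b, _ | ⟨c, r⟩⟩⟩ <;> rw [hD] at h <;> simp at h
    exact ⟨a, b, rfl, h.1, h.2⟩
  have m : ∀ x, x ∈ D.o ↔ x = o0 ∨ x = o1 := fun x => by simp [ho]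
  have p0 : D.φ o0 = o1 := by simpa [ho] using D.o_cyc 0 (by simp [ho])
  have p1 : D.φ o1 = o0 := by simpa [ho] using D.o_cyc 1 (by simp [ho])
  have v0 := D.o_live o0 ((m _).2 (Or.inl rfl))
  have v1 := D.o_live o1 ((m _).2 (Or.inr rfl))
  have k0 : D.lab (D.α o0) = (Sum.inr v, false) := by rw [D.lab_α _ v0, l0]; rfl
  have k1 : D.lab (D.α o1) = (Sum.inr γ, true) := by rw [D.lab_α _ v1, l1]; rfl
  have n0 : D.α o0 ∉ D.o := by
    rw [m]
    rintro (h | h)
    · exact v0 h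
    · rw [h, l1] at k0
      exact hne (by simpa using k0.symm)
  have n1 : D.α o1 ∉ D.o := by
    rw [m]
    rintro (h | h)
    · rw [h, l0] at k1
      exact hne (by simpa using k1)
    · exact v1 h
  have cone : ∀ x, x ∉ D.o → D.α x ≠ x → ∀ u b, D.lab x = (Sum.inr u, b) →
      x = if b then D.α o1 else D.α o0 := by
    intro x h0 h u b hl
    rcases (m _).1 (α_mem_o_of_cone D h0 h hl) with e | e
    · have e' : x = D.α o0 := by rw [← e, D.inv]
      rw [e', k0] at hl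
      obtain ⟨-, rfl⟩ := Prod.mk.inj hl
      simpa using e'
    · have e' : x = D.α o1 := by rw [← e, D.inv]
      rw [e', k1] at hl
      obtain ⟨-, rfl⟩ := Prod.mk.inj hl
      simpa using e'
  have f0 : D.lift (D.α o0) = (Sum.inr v, false) :=
    label_inr L ((D.lift_lab _ n0 (α_live D v0)).trans k0)
  have f1 : D.lift (D.α o1) = (Sum.inr γ, true) :=
    label_inr L ((D.lift_lab _ n1 (α_live D v1)).trans k1)
  have q1 : D.φ (D.α o0) = D.α o1 := by
    have h := (D.walk _ n0 (α_live D v0)).1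
    rw [f0] at h
    obtain ⟨u, hu⟩ := tail_none L h.symm
    have a1 := φ_notMem_o D n0
    have a2 := φ_live D (α_live D v0)
    rw [D.lift_lab _ a1 a2] at hu
    simpa using cone _ a1 a2 u true hu
  have t1 : L.cone.tail (D.lift (D.φ (D.α o1))) = some γ := by
    have h := (D.walk _ n1 (α_live D v1)).1
    rw [f1] at h
    exact h.symm
  have q2 : D.φ (D.α o1) ∈ SS D := by
    have a1 := φ_notMem_o D n1
    have a2 := φ_live D (α_live D v1)
    rcases hl : D.lab (D.φ (D.α o1)) with ⟨p | u, b⟩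
    · exact (mem_SS D).2 ⟨a1, a2, by rw [hl]; rfl⟩
    have h := cone _ a1 a2 u b hl
    rw [h] at t1
    cases b
    · simp only [Bool.false_eq_true, if_false, f0] at t1
      exact absurd (Option.some.inj t1) hne
    · simp only [if_true, f1] at t1
      exact absurd t1 (by simp [FGraph.tail, FGraph.cone])
  have hF : ∀ x ∈ FF D, x = D.α o0 := by
    intro x hx
    obtain ⟨h0, h, u, hu⟩ := (mem_FF D).1 hx
    simpa using cone x h0 h u false hu
  refine ⟨card_le_one.2 fun a ha b hb => (hF a ha).trans (hF b hb).symm, ?_, ⟨D.α o0, ?_⟩,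
    fun z hz => ⟨_, q2, ?_, t1⟩⟩
  · refine eq_empty_of_forall_notMem fun x hx => ?_
    simp only [Fix, mem_filter, mem_univ, true_and] at hx
    have h1 := α_mem_o_of_fix D hx.1 hx.2
    have h2 : x ∈ D.o := hx.2 ▸ φ_mem_o D h1
    rcases (m _).1 h2 with rfl | rfl
    · exact n0 h1
    · exact n1 h1
  · simp only [B3, mem_filter, mem_univ, true_and, D.inv, p0]
    refine ⟨v0.symm, fun h => n0 ((m _).2 (Or.inr h.symm)), fun h => ?_⟩
    rw [h] at q2
    have := ((mem_SS D).1 q2).2.2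
    rw [k0] at this
    simp at this
  · rw [← q1, ← hF _ (φ_mem_FF D hz)]
    simp only [Perm.sameCycle_apply_right]
    exact Perm.SameCycle.refl _ _

end Glob

theorem globalStmt_of (hM : MoveStmt) (hE : EulerStmt) (hMin : MinorStmt) (hS : SegStmt)
    (hC : CycStmt) (hSep : SepStmt) (hD : DiagStmt) : GlobalStmt := by
  intro C
  obtain ⟨K, hK⟩ := hSep 8 (1000 * (C + 1) * (16 * (C + 1)))
  refine ⟨K, 1000 * (C + 1) * (16 * (C + 1)) * K, 2 * (16 * (C + 1)) * K, 16, 100 * (C + 1),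
    fun g hg0 P L γ hg hL => ⟨⟨2 * (C + 1) * g + 2 * C, fun w c hc => ?_⟩, fun v hv => ?_⟩⟩
  · obtain ⟨X, _, D, h⟩ := hD P L ⟨γ⟩ w c hc
    obtain ⟨σ, h1, -, h2⟩ := Glob.core D hM hMin hS hK (by omega) hg hL
    exact h.trans (Glob.fill_bound D hE hC hg h1 h2)
  · by_contra hne
    have hπ : L.tri.π (FreeGroup.mk [(Sum.inr v, true), (Sum.inr γ, false)]) = 1 := by
      have : FreeGroup.mk [(Sum.inr v, true), (Sum.inr γ, false)] =
          FreeGroup.of (Sum.inr v : P ⊕ L.V) * (FreeGroup.of (Sum.inr γ))⁻¹ := rfl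
      rw [this, map_mul, map_inv, mul_inv_eq_one]
      exact hv
    obtain ⟨c, hc⟩ := Glob.mem_D_of_π _ _ hπ
    obtain ⟨X, _, D, -⟩ := hD P L ⟨γ⟩ _ c hc
    obtain ⟨σ, h1, h2, h3⟩ := Glob.core D hM hMin hS hK (by omega) hg hL
    obtain ⟨a1, a2, a3, a4⟩ := Glob.alone_facts hne D
    have a5 := (Glob.card_C0_le D).trans a1
    rcases lt_or_ge #(Glob.SS D) g with hT | hT
    · have b1 := Glob.cyc_le D hC hg
      have b2 := Glob.euler D hE
      obtain ⟨x, hx⟩ := a3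
      have b3 : 0 < #(Glob.B3 D) := card_pos.2 ⟨x, hx⟩
      rw [a2, if_pos ⟨x, (mem_filter.1 hx).2.1⟩, card_empty] at b2
      have b4 : g * cyc D.φ < g * (#{x | D.α x = x} + 3) := by
        have : g * (#{x | D.α x = x} + min 1 2 + #(Glob.FF D)) ≤ g * (#{x | D.α x = x} + 2) :=
          Nat.mul_le_mul_left _ (by omega)
        have b6 := b1.trans (Nat.add_le_add_right this _)
        rw [mul_add] at b6 ⊢
        omega
      have b5 := Nat.lt_of_mul_lt_mul_left b4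
      omega
    · have b1 := Glob.B3_le D hE hC hg
      rw [a2, card_empty] at b1 h3
      simp only [List.length_cons, List.length_nil] at b1 h3
      have b2 := Nat.mul_le_mul_left g a1
      have b3 := Nat.mul_le_mul_left g a5
      have b4 : 16 * (C + 1) * g * σ ≤ 2 * #(Glob.SS D) := by
        rcases le_or_gt #(Glob.SS D) (2 * (16 * (C + 1) * g)) with h | h
        · rw [h2 h a5 a4]; simp
        · have := Nat.mul_le_mul_left (16 * (C + 1) * g) a5
          omega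
      have b5 : min 1 (0 + 1 + 1) = 1 := rfl
      rw [b5] at b1
      nlinarith [Nat.zero_le (g * σ)]

end Crest.Agent.R177
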