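import Crest.Agent.R177.TopDefs

/-!
Homotopy lemmas: filling a square, homotopy extension for the square and its boundary, and the
vanishing of the obstruction in `π₂`.
-/

set_option autoImplicit false

namespace Crest.Agent.R177

open unitInterval
open scoped Classical _root_.Topology

namespace Htp

section Trans
variable {Z : Type} [TopologicalSpace Z] {x y w : Z}

theorem trans_lo (p : Path x y) (r : Path y w) (s : I) : (p.trans r) (lo s) = p s := by
  rw [Path.trans_apply]
  have h : ((lo s : I) : ℝ) ≤ 1 / 2 := by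
    show (s : ℝ) / 2 ≤ 1 / 2
    linarith [s.2.2]
  rw [dif_pos h]
  congr 1
  ext
  show 2 * ((s : ℝ) / 2) = s
  ring

theorem trans_hi (p : Path x y) (r : Path y w) (s : I) : (p.trans r) (hi s) = r s := by
  rw [Path.trans_apply]
  split_ifs with h
  · have h' : (1 + (s : ℝ)) / 2 ≤ 1 / 2 := h
    have hs : s = 0 := by
      ext
      show (s : ℝ) = 0
      linarith [s.2.1]
    subst hs
    rw [r.source]
    refine Eq.trans ?_ p.target
    congr 1
    ext
    show 2 * ((1 + (0 : ℝ)) / 2) = 1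
    ring
  · congr 1
    ext
    show 2 * ((1 + (s : ℝ)) / 2) - 1 = s
    ring

theorem lo_or_hi (u : I) : (∃ s, u = lo s) ∨ (∃ s, u = hi s) := by
  by_cases h : (u : ℝ) ≤ 1 / 2
  · left
    refine ⟨⟨2 * u, by constructor <;> linarith [u.2.1]⟩, ?_⟩
    ext
    show (u : ℝ) = 2 * u / 2
    ring
  · right
    refine ⟨⟨2 * u - 1, by constructor <;> linarith [u.2.2]⟩, ?_⟩
    ext
    show (u : ℝ) = (1 + (2 * u - 1)) / 2
    ring

end Trans

/-! ### the square -/

/-- the midpoint `(s + t) / 2` -/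
noncomputable def mid (z : I × I) : I :=
  ⟨(z.1 + z.2) / 2, by constructor <;> linarith [z.1.2.1, z.1.2.2, z.2.2.1, z.2.2.2]⟩

theorem continuous_mid : Continuous mid := by
  unfold mid
  fun_prop

/-- the transversal coordinate -/
noncomputable def eta (z : I × I) : I :=
  Set.projIcc 0 1 zero_le_one
    ((z.2 : ℝ) * (1 - z.1) / ((z.2 : ℝ) * (1 - z.1) + (z.1 : ℝ) * (1 - z.2)))

theorem continuousAt_eta (z : I × I) (h0 : z ≠ (0, 0)) (h1 : z ≠ (1, 1)) :
    ContinuousAt eta z := by
  unfold eta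
  refine continuous_projIcc.continuousAt.comp ?_
  refine ContinuousAt.div (by fun_prop) (by fun_prop) ?_
  obtain ⟨⟨s, hs0, hs1⟩, ⟨t, ht0, ht1⟩⟩ := z
  intro h
  have h : t * (1 - s) + s * (1 - t) = 0 := h
  have a1 : 0 ≤ t * (1 - s) := mul_nonneg ht0 (by linarith)
  have a2 : 0 ≤ s * (1 - t) := mul_nonneg hs0 (by linarith)
  have b1 : t * (1 - s) = 0 := by linarith
  have b2 : s * (1 - t) = 0 := by linarith
  rcases mul_eq_zero.1 b1 with c1 | c1 <;> rcases mul_eq_zero.1 b2 with c2 | c2
  · apply h0; subst c1; subst c2; rfl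
  · linarith
  · linarith
  · apply h1
    have e1 : s = 1 := by linarith
    have e2 : t = 1 := by linarith
    subst e1; subst e2; rfl

theorem continuousAt_of_const {Z Y : Type} [TopologicalSpace Z] [TopologicalSpace Y]
    (H : I × I → Z) (hH : Continuous H) (η σ' : Y → I) (y : Y) (hσ : ContinuousAt σ' y) (x : Z)
    (hx : ∀ e, H (e, σ' y) = x) : ContinuousAt (fun z => H (η z, σ' z)) y := by
  intro U hU
  have hU' : U ∈ 𝓝 x := by simpa [hx] using hU
  have key : ∀ᶠ s in 𝓝 (σ' y), ∀ e ∈ (Set.univ : Set I), H (e, s) ∈ U := by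
    refine isCompact_univ.eventually_forall_of_forall_eventually (P := fun s e => H (e, s) ∈ U) ?_
    intro e _
    have hc : ContinuousAt (fun z : I × I => H (z.2, z.1)) (σ' y, e) :=
      (hH.comp continuous_swap).continuousAt
    apply hc
    simpa [hx] using hU'
  exact (hσ.eventually key).mono fun z hz => hz _ (Set.mem_univ _)

theorem square {Z : Type} [TopologicalSpace Z] {x y x' y' : Z} (p : Path x y) (l : Path x x')
    (r : Path y y') (q : Path x' y') (h : (p.trans r).Homotopic (l.trans q)) :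
    ∃ F : C(I × I, Z), (∀ s, F (s, 0) = p s) ∧ (∀ s, F (s, 1) = q s) ∧
      (∀ t, F (0, t) = l t) ∧ (∀ t, F (1, t) = r t) := by
  obtain ⟨H⟩ := h
  have m00 : mid (0, 0) = 0 := by ext; simp [mid]
  have m11 : mid (1, 1) = 1 := by ext; simp [mid]
  have hc : Continuous fun z => H (eta z, mid z) := by
    rw [continuous_iff_continuousAt]
    intro z
    by_cases h0 : z = (0, 0)
    · subst h0
      exact continuousAt_of_const H H.continuous eta mid _ continuous_mid.continuousAt x
        (fun e => by rw [m00]; exact H.source e)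
    by_cases h1 : z = (1, 1)
    · subst h1
      exact continuousAt_of_const H H.continuous eta mid _ continuous_mid.continuousAt y'
        (fun e => by rw [m11]; exact H.target e)
    exact H.continuous.continuousAt.comp
      ((continuousAt_eta z h0 h1).prodMk continuous_mid.continuousAt)
  refine ⟨⟨_, hc⟩, ?_, ?_, ?_, ?_⟩
  · intro s
    have e1 : eta (s, 0) = 0 := by simp [eta]
    have e2 : mid (s, 0) = lo s := by ext; simp [mid, lo]
    show H (eta (s, 0), mid (s, 0)) = _
    rw [e1, e2, H.apply_zero]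
    exact trans_lo p r s
  · intro s
    show H (eta (s, 1), mid (s, 1)) = _
    by_cases hs : s = 1
    · subst hs
      rw [m11, H.target, q.target]
    have hs' : (1 : ℝ) - s ≠ 0 := by
      intro h; apply hs; ext; show (s : ℝ) = 1; linarith
    have e1 : eta (s, 1) = 1 := by simp [eta, hs']
    have e2 : mid (s, 1) = hi s := by ext; simp [mid, hi, add_comm]
    rw [e1, e2, H.apply_one]
    exact trans_hi l q s
  · intro t
    show H (eta (0, t), mid (0, t)) = _
    by_cases ht : t = 0
    · subst ht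
      rw [m00, H.source, l.source]
    have ht' : (t : ℝ) ≠ 0 := by
      intro h; apply ht; ext; exact h
    have e1 : eta (0, t) = 1 := by simp [eta, ht']
    have e2 : mid (0, t) = lo t := by ext; simp [mid, lo]
    rw [e1, e2, H.apply_one]
    exact trans_lo l q t
  · intro t
    have e1 : eta (1, t) = 0 := by simp [eta]
    have e2 : mid (1, t) = hi t := by ext; simp [mid, hi]
    show H (eta (1, t), mid (1, t)) = _
    rw [e1, e2, H.apply_zero]
    exact trans_hi p r t

/-! ### homotopy extension -/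

/-- the scale -/
noncomputable def mu (w : (I × I) × I) : ℝ :=
  max (max |2 * (w.1.1 : ℝ) - 1| |2 * (w.1.2 : ℝ) - 1|) (1 - (w.2 : ℝ) / 2)

theorem mu_pos (w : (I × I) × I) : 0 < mu w :=
  lt_of_lt_of_le (by linarith [w.2.2.2]) (le_max_right _ _)

theorem continuous_mu : Continuous mu := by
  unfold mu
  fun_prop

/-- the retraction of the cube onto the bottom and the sides -/
noncomputable def retr (w : (I × I) × I) : (I × I) × I :=
  ((Set.projIcc 0 1 zero_le_one (((2 * (w.1.1 : ℝ) - 1) / mu w + 1) / 2),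
    Set.projIcc 0 1 zero_le_one (((2 * (w.1.2 : ℝ) - 1) / mu w + 1) / 2)),
    Set.projIcc 0 1 zero_le_one (2 - (2 - (w.2 : ℝ)) / mu w))

theorem continuous_retr : Continuous retr := by
  unfold retr
  have h := continuous_mu
  refine Continuous.prodMk (Continuous.prodMk ?_ ?_) ?_
  · refine continuous_projIcc.comp ?_
    exact ((Continuous.div (by fun_prop) h fun w => (mu_pos w).ne').add continuous_const).div_const _
  · refine continuous_projIcc.comp ?_
    exact ((Continuous.div (by fun_prop) h fun w => (mu_pos w).ne').add continuous_const).div_const _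
  · refine continuous_projIcc.comp ?_
    exact continuous_const.sub (Continuous.div (by fun_prop) h fun w => (mu_pos w).ne')

theorem retr_of_mu (w : (I × I) × I) (h : mu w = 1) : retr w = w := by
  unfold retr
  rw [h]
  refine Prod.ext (Prod.ext ?_ ?_) ?_
  · show Set.projIcc 0 1 zero_le_one _ = w.1.1
    rw [show ((2 * (w.1.1 : ℝ) - 1) / 1 + 1) / 2 = w.1.1 by ring, Set.projIcc_val]
  · show Set.projIcc 0 1 zero_le_one _ = w.1.2
    rw [show ((2 * (w.1.2 : ℝ) - 1) / 1 + 1) / 2 = w.1.2 by ring, Set.projIcc_val]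
  · show Set.projIcc 0 1 zero_le_one _ = w.2
    rw [show 2 - (2 - (w.2 : ℝ)) / 1 = w.2 by ring, Set.projIcc_val]

theorem abs_le_one' (s : I) : |2 * (s : ℝ) - 1| ≤ 1 :=
  abs_le.2 ⟨by linarith [s.2.1], by linarith [s.2.2]⟩

theorem mu_le_one (w : (I × I) × I) : mu w ≤ 1 :=
  max_le (max_le (abs_le_one' _) (abs_le_one' _)) (by linarith [w.2.2.1])

theorem mu_zero (z : I × I) : mu (z, 0) = 1 := by
  refine le_antisymm (mu_le_one _) (le_trans ?_ (le_max_right _ _))
  simp

theorem mu_bd (z : I × I) (hz : z ∈ Bd) (t : I) : mu (z, t) = 1 := by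
  refine le_antisymm (mu_le_one _) (le_trans ?_ (le_max_left _ _))
  rcases hz with h | h | h | h
  · refine le_trans ?_ (le_max_left _ _); simp [h]
  · refine le_trans ?_ (le_max_left _ _); simp [h]; norm_num
  · refine le_trans ?_ (le_max_right _ _); simp [h]
  · refine le_trans ?_ (le_max_right _ _); simp [h]; norm_num

theorem proj_sign (a m : ℝ) (hm : 0 < m) (h : m = |a|) :
    Set.projIcc (0 : ℝ) 1 zero_le_one ((a / m + 1) / 2) = 0 ∨
      Set.projIcc (0 : ℝ) 1 zero_le_one ((a / m + 1) / 2) = 1 := by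
  rcases le_total 0 a with ha | ha
  · right
    rw [abs_of_nonneg ha] at h
    subst h
    rw [div_self hm.ne']
    norm_num
  · left
    rw [abs_of_nonpos ha] at h
    have : a = -m := by linarith
    subst this
    rw [neg_div, div_self hm.ne']
    norm_num

theorem retr_mem (w : (I × I) × I) : (retr w).2 = 0 ∨ (retr w).1 ∈ Bd := by
  have hp := mu_pos w
  rcases max_choice (max |2 * (w.1.1 : ℝ) - 1| |2 * (w.1.2 : ℝ) - 1|) (1 - (w.2 : ℝ) / 2) with
    h | h
  · right
    rcases max_choice |2 * (w.1.1 : ℝ) - 1| |2 * (w.1.2 : ℝ) - 1| with h' | h'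
    · rcases proj_sign _ _ hp (h.trans h') with e | e
      · exact Or.inl e
      · exact Or.inr (Or.inl e)
    · rcases proj_sign _ _ hp (h.trans h') with e | e
      · exact Or.inr (Or.inr (Or.inl e))
      · exact Or.inr (Or.inr (Or.inr e))
  · left
    have h' : mu w = 1 - (w.2 : ℝ) / 2 := h
    show Set.projIcc 0 1 zero_le_one (2 - (2 - (w.2 : ℝ)) / mu w) = 0
    have : (2 - (w.2 : ℝ)) / mu w = 2 := by
      rw [div_eq_iff hp.ne', h']; ring
    rw [this]
    norm_num

theorem isClosed_Bd : IsClosed Bd := by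
  have : Bd = ({z | z.1 = 0} ∪ ({z | z.1 = 1} ∪ ({z | z.2 = 0} ∪ {z | z.2 = 1}))) := rfl
  rw [this]
  exact (isClosed_eq continuous_fst continuous_const).union
    ((isClosed_eq continuous_fst continuous_const).union
      ((isClosed_eq continuous_snd continuous_const).union
        (isClosed_eq continuous_snd continuous_const)))

theorem hep {Z : Type} [TopologicalSpace Z] (f : C(I × I, Z)) (h : C(Bd × I, Z))
    (h0 : ∀ z : Bd, h (z, 0) = f z.1) :
    ∃ H : C((I × I) × I, Z), (∀ z, H (z, 0) = f z) ∧ ∀ (z : Bd) (t : I), H (z.1, t) = h (z, t) := by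
  let g : (I × I) × I → Z := fun w => if hz : w.1 ∈ Bd then h (⟨w.1, hz⟩, w.2) else f w.1
  have g0 : ∀ z, g (z, 0) = f z := by
    intro z
    simp only [g]
    split_ifs with hz
    · exact h0 ⟨z, hz⟩
    · rfl
  have g1 : ∀ (z : Bd) (t : I), g (z.1, t) = h (z, t) := by
    intro z t
    simp only [g]
    rw [dif_pos z.2]
  have c0 : ContinuousOn g {w | w.2 = 0} := by
    refine ContinuousOn.congr (f := fun w => f w.1) (by fun_prop) ?_
    rintro ⟨z, t⟩ ht
    have ht : t = 0 := ht
    subst ht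
    exact g0 z
  have c1 : ContinuousOn g {w | w.1 ∈ Bd} := by
    rw [continuousOn_iff_continuous_domRestrict]
    have : Set.domRestrict {w : (I × I) × I | w.1 ∈ Bd} g =
        fun w => h (⟨w.1.1, w.2⟩, w.1.2) := by
      funext w
      exact g1 ⟨w.1.1, w.2⟩ w.1.2
    rw [this]
    refine h.continuous.comp (Continuous.prodMk (Continuous.subtype_mk ?_ _) ?_)
    · exact continuous_fst.comp continuous_subtype_val
    · exact continuous_snd.comp continuous_subtype_val
  have c : ContinuousOn g ({w | w.2 = 0} ∪ {w | w.1 ∈ Bd}) :=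
    c0.union_of_isClosed c1 (isClosed_eq continuous_snd continuous_const)
      (isClosed_Bd.preimage continuous_fst)
  refine ⟨⟨g ∘ retr, c.comp_continuous continuous_retr retr_mem⟩, ?_, ?_⟩
  · intro z
    show g (retr (z, 0)) = _
    rw [retr_of_mu _ (mu_zero z), g0]
  · intro z t
    show g (retr (z.1, t)) = _
    rw [retr_of_mu _ (mu_bd z.1 z.2 t), g1]

/-! ### H-spaces -/

section HSp
variable {Ω : Type} [TopologicalSpace Ω] (m : C(Ω × Ω, Ω))

/-- pointwise product of two paths -/
def mulP {x x' y y' u u' : Ω} (p : Path x x') (q : Path y y') (h : m (x, y) = u)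
    (h' : m (x', y') = u') : Path u u' where
  toFun t := m (p t, q t)
  continuous_toFun := by fun_prop
  source' := by simpa using h
  target' := by simpa using h'

theorem mulP_trans {x x' x'' y y' y'' u u' u'' : Ω} (p : Path x x') (p' : Path x' x'')
    (q : Path y y') (q' : Path y' y'') (h : m (x, y) = u) (h' : m (x', y') = u')
    (h'' : m (x'', y'') = u'') :
    mulP m (p.trans p') (q.trans q') h h'' = (mulP m p q h h').trans (mulP m p' q' h' h'') := by
  ext t
  rcases lo_or_hi t with ⟨s, rfl⟩ | ⟨s, rfl⟩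
  · rw [trans_lo]
    show m ((p.trans p') (lo s), (q.trans q') (lo s)) = m (p s, q s)
    rw [trans_lo, trans_lo]
  · rw [trans_hi]
    show m ((p.trans p') (hi s), (q.trans q') (hi s)) = m (p' s, q' s)
    rw [trans_hi, trans_hi]

theorem mulP_congr {x x' y y' u u' : Ω} {p p' : Path x x'} {q q' : Path y y'}
    (hp : p.Homotopic p') (hq : q.Homotopic q') (h : m (x, y) = u) (h' : m (x', y') = u') :
    (mulP m p q h h').Homotopic (mulP m p' q' h h') := by
  obtain ⟨F⟩ := hp
  obtain ⟨G⟩ := hq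
  refine ⟨⟨⟨⟨fun z => m (F z, G z), by fun_prop⟩, ?_, ?_⟩, ?_⟩⟩
  · intro s
    show m (F (0, s), G (0, s)) = m (p s, q s)
    rw [F.apply_zero, G.apply_zero]; rfl
  · intro s
    show m (F (1, s), G (1, s)) = m (p' s, q' s)
    rw [F.apply_one, G.apply_one]; rfl
  · intro t s hs
    show m (F (t, s), G (t, s)) = m (p s, q s)
    rw [F.eq_fst t hs, G.eq_fst t hs]; rfl

/-- pointwise product of two path classes -/
def mulQ {x x' y y' u u' : Ω} (p : Path.Homotopic.Quotient x x')
    (q : Path.Homotopic.Quotient y y') (h : m (x, y) = u) (h' : m (x', y') = u') :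
    Path.Homotopic.Quotient u u' :=
  Quotient.map₂ (sa := Path.Homotopic.setoid x x') (sb := Path.Homotopic.setoid y y')
    (sc := Path.Homotopic.setoid u u') (fun p q => mulP m p q h h')
    (fun _ _ hp _ _ hq => mulP_congr m hp hq h h') p q

open Path.Homotopic.Quotient in
theorem mulQ_mk {x x' y y' u u' : Ω} (p : Path x x') (q : Path y y') (h : m (x, y) = u)
    (h' : m (x', y') = u') : mulQ m (mk p) (mk q) h h' = mk (mulP m p q h h') := rfl

open Path.Homotopic.Quotient in
theorem mulQ_trans {x x' x'' y y' y'' u u' u'' : Ω} (p : Path.Homotopic.Quotient x x')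
    (p' : Path.Homotopic.Quotient x' x'')
    (q : Path.Homotopic.Quotient y y') (q' : Path.Homotopic.Quotient y' y'') (h : m (x, y) = u)
    (h' : m (x', y') = u') (h'' : m (x'', y'') = u'') :
    mulQ m (p.trans p') (q.trans q') h h'' = (mulQ m p q h h').trans (mulQ m p' q' h' h'') := by
  induction p with | mk p =>
  induction p' with | mk p' =>
  induction q with | mk q =>
  induction q' with | mk q' =>
  rw [← mk_trans, ← mk_trans, mulQ_mk, mulQ_mk, mulQ_mk, ← mk_trans, mulP_trans]

/-- the multiplication has a two-sided homotopy unit -/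
structure Unital (e : Ω) : Prop where
  ee : m (e, e) = e
  left : ∃ L : C(I × Ω, Ω), (∀ x, L (0, x) = m (e, x)) ∧ (∀ x, L (1, x) = x) ∧ ∀ t, L (t, e) = e
  right : ∃ L : C(I × Ω, Ω), (∀ x, L (0, x) = m (x, e)) ∧ (∀ x, L (1, x) = x) ∧ ∀ t, L (t, e) = e

variable {m} {e : Ω}

open Path.Homotopic.Quotient in
theorem Unital.refl_mul (U : Unital m e) (k : Path.Homotopic.Quotient e e) :
    mulQ m (refl e) k U.ee U.ee = k := by
  induction k with | mk k =>
  rw [← mk_refl, mulQ_mk, eq]
  obtain ⟨L, L0, L1, Le⟩ := U.left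
  refine ⟨⟨⟨⟨fun z => L (z.1, k z.2), by fun_prop⟩, ?_, ?_⟩, ?_⟩⟩
  · intro s; exact L0 _
  · intro s; exact L1 _
  · intro t s hs
    show L (t, k s) = m (e, k s)
    rcases hs with rfl | rfl
    · rw [k.source, Le, U.ee]
    · rw [k.target, Le, U.ee]

open Path.Homotopic.Quotient in
theorem Unital.mul_refl (U : Unital m e) (k : Path.Homotopic.Quotient e e) :
    mulQ m k (refl e) U.ee U.ee = k := by
  induction k with | mk k =>
  rw [← mk_refl, mulQ_mk, eq]
  obtain ⟨L, L0, L1, Le⟩ := U.right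
  refine ⟨⟨⟨⟨fun z => L (z.1, k z.2), by fun_prop⟩, ?_, ?_⟩, ?_⟩⟩
  · intro s; exact L0 _
  · intro s; exact L1 _
  · intro t s hs
    show L (t, k s) = m (k s, e)
    rcases hs with rfl | rfl
    · rw [k.source, Le, U.ee]
    · rw [k.target, Le, U.ee]

open Path.Homotopic.Quotient in
theorem Unital.mul_eq (U : Unital m e) (k k' : Path.Homotopic.Quotient e e) :
    mulQ m k k' U.ee U.ee = k.trans k' := by
  conv_lhs => rw [← trans_refl k, ← refl_trans k']
  rw [mulQ_trans m _ _ _ _ U.ee U.ee U.ee, U.mul_refl, U.refl_mul]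

open Path.Homotopic.Quotient in
theorem Unital.mul_eq' (U : Unital m e) (k k' : Path.Homotopic.Quotient e e) :
    mulQ m k k' U.ee U.ee = k'.trans k := by
  conv_lhs => rw [← refl_trans k, ← trans_refl k']
  rw [mulQ_trans m _ _ _ _ U.ee U.ee U.ee, U.mul_refl, U.refl_mul]

/-- loop classes, as an additive group -/
def Pi1 (_U : Unital m e) : Type := Path.Homotopic.Quotient e e

noncomputable instance (U : Unital m e) : Add (Pi1 U) := ⟨Path.Homotopic.Quotient.trans⟩
instance (U : Unital m e) : Zero (Pi1 U) := ⟨Path.Homotopic.Quotient.refl e⟩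
instance (U : Unital m e) : Neg (Pi1 U) := ⟨Path.Homotopic.Quotient.symm⟩

open Path.Homotopic.Quotient in
noncomputable instance (U : Unital m e) : AddCommGroup (Pi1 U) where
  add_assoc := trans_assoc
  zero_add := refl_trans
  add_zero := trans_refl
  nsmul := nsmulRec
  zsmul := zsmulRec
  neg_add_cancel := symm_trans
  add_comm k k' := (U.mul_eq k k').symm.trans (U.mul_eq' k k')

open Path.Homotopic.Quotient in
theorem solve (U : Unital m e) {ι κ : Type} (a b c : κ → ι) (ℓ : ι → Ω)
    (W : ∀ i, Path (ℓ i) e) (Θ : ∀ ρ, Path (m (ℓ (a ρ), ℓ (b ρ))) (ℓ (c ρ)))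
    (hs : ∀ (K : Type) [AddCommGroup K] (ω : κ → K), ∃ k : ι → K,
      ∀ ρ, k (a ρ) + k (b ρ) - k (c ρ) = ω ρ) :
    ∃ V : ∀ i, Path (ℓ i) e, ∀ ρ, ((Θ ρ).trans (V (c ρ))).Homotopic
      ((mulP m (V (a ρ)) (V (b ρ)) rfl U.ee).trans (Path.refl e)) := by
  let ω : κ → Pi1 U := fun ρ =>
    (symm (mulQ m (mk (W (a ρ))) (mk (W (b ρ))) rfl U.ee)).trans
      ((mk (Θ ρ)).trans (mk (W (c ρ))))
  obtain ⟨k, hk⟩ := hs (Pi1 U) ω
  have hk' : ∀ i, ∃ j : Path e e, mk j = k i := fun i => mk_surjective (k i)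
  choose j hj using hk'
  refine ⟨fun i => (W i).trans (j i), fun ρ => ?_⟩
  rw [← eq, mk_trans, mk_trans, mk_trans, mk_refl, trans_refl, ← mulQ_mk, mk_trans, mk_trans,
    mulQ_trans m _ _ _ _ rfl U.ee U.ee, U.mul_eq, hj, hj, hj]
  have h1 : k (a ρ) + k (b ρ) = ω ρ + k (c ρ) := by rw [← hk ρ]; abel
  have h2 : trans (k (a ρ)) (k (b ρ)) = trans (ω ρ) (k (c ρ)) := h1
  rw [h2]
  simp only [ω]
  rw [← trans_assoc, ← trans_assoc, ← trans_assoc, trans_symm, refl_trans, trans_assoc]

end HSp

theorem unital_loop {Z : Type} [TopologicalSpace Z] (z₀ : Z) :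
    Unital (Ω := Path z₀ z₀) ⟨fun ρ => ρ.1.trans ρ.2, Path.continuous_trans⟩ (Path.refl z₀) where
  ee := Path.refl_trans_refl
  left := ⟨⟨fun p => Path.delayReflLeft p.1 p.2, Path.continuous_delayReflLeft⟩,
    Path.delayReflLeft_zero, Path.delayReflLeft_one, fun t => by ext s; rfl⟩
  right := ⟨⟨fun p => Path.delayReflRight p.1 p.2, Path.continuous_delayReflRight⟩,
    Path.delayReflRight_zero, Path.delayReflRight_one, fun t => by ext s; rfl⟩

/-- a square with constant vertical sides as a path of loops -/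
def curryP {Z : Type} [TopologicalSpace Z] {z₀ : Z} (G : C(I × I, Z)) (h0 : ∀ β, G (0, β) = z₀)
    (h1 : ∀ β, G (1, β) = z₀) (u v : Path z₀ z₀) (hu : ∀ s, G (s, 0) = u s)
    (hv : ∀ s, G (s, 1) = v s) : Path u v where
  toFun β := ⟨⟨fun s => G (s, β), by fun_prop⟩, h0 β, h1 β⟩
  continuous_toFun := Path.continuous_uncurry_iff.1 (by
    show Continuous fun z : I × I => G (z.2, z.1)
    fun_prop)
  source' := by ext s; exact hu s
  target' := by ext s; exact hv s

theorem continuous_ev {Z Y : Type} [TopologicalSpace Z] [TopologicalSpace Y] {z₀ : Z}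
    (g : Y → Path z₀ z₀) (hg : Continuous g) : Continuous fun z : Y × I => g z.1 z.2 :=
  Path.continuous_uncurry_iff.2 hg

end Htp

open Htp

theorem squareStmt : SquareStmt := fun _ _ _ _ _ _ p l r q h => square p l r q h

theorem hepStmt : HepStmt := fun _ _ f h h0 => hep f h h0

theorem solveStmt : SolveStmt := by
  intro Z _ z₀ ι κ a b c ℓ Θ hℓ hlo hhi hc h0 h1 hs
  have U := unital_loop z₀
  let W : ∀ i, Path (ℓ i) (Path.refl z₀) := fun i =>
    curryP ⟨fun z => (hℓ i).some (z.2, z.1), by fun_prop⟩ (fun β => (hℓ i).some.source β)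
      (fun β => (hℓ i).some.target β) _ _ (fun s => (hℓ i).some.apply_zero s)
      (fun s => (hℓ i).some.apply_one s)
  let Θ' : ∀ ρ, Path ((ℓ (a ρ)).trans (ℓ (b ρ))) (ℓ (c ρ)) := fun ρ =>
    curryP (Θ ρ) (h0 ρ) (h1 ρ) _ _ (fun u => by
      rcases lo_or_hi u with ⟨s, rfl⟩ | ⟨s, rfl⟩
      · rw [trans_lo, hlo]
      · rw [trans_hi, hhi]) (hc ρ)
  obtain ⟨V, hV⟩ := solve U a b c ℓ W Θ' hs
  choose G G0 G1 Gl Gr using fun ρ => square _ _ _ _ (hV ρ)
  refine ⟨fun i => ⟨fun z => V i z.2 z.1,
      (continuous_ev (V i) (V i).continuous).comp continuous_swap⟩,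
    fun ρ => ⟨fun w => G ρ (w.1.2, w.2) w.1.1,
      (continuous_ev (G ρ) (G ρ).continuous).comp
        (f := fun w : (I × I) × I => ((w.1.2, w.2), w.1.1)) (by fun_prop)⟩,
    ?_, ?_, ?_, ?_, ?_, ?_, ?_, ?_, ?_, ?_, ?_⟩
  · intro i s
    show V i 0 s = _
    rw [(V i).source]
  · intro i s
    show V i 1 s = _
    rw [(V i).target]; rfl
  · intro i t
    exact (V i t).source
  · intro i t
    exact (V i t).target
  · intro ρ z
    show G ρ (z.2, 0) z.1 = _
    rw [G0]; rfl
  · intro ρ z
    show G ρ (z.2, 1) z.1 = _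
    rw [G1]; rfl
  · intro ρ β t
    exact (G ρ (β, t)).source
  · intro ρ β t
    exact (G ρ (β, t)).target
  · intro ρ s t
    show G ρ (0, t) (lo s) = V (a ρ) t s
    rw [Gl]
    exact trans_lo (V (a ρ) t) (V (b ρ) t) s
  · intro ρ s t
    show G ρ (0, t) (hi s) = V (b ρ) t s
    rw [Gl]
    exact trans_hi (V (a ρ) t) (V (b ρ) t) s
  · intro ρ s t
    show G ρ (1, t) s = V (c ρ) t s
    rw [Gr]

end Crest.Agent.R177
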