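import Crest.Agent.R177.Defs

/-!
A homological linear isoperimetric inequality implies the four-point condition.
-/

set_option autoImplicit false

namespace Crest.Agent.R177

open Crest.GroupTheory

namespace Hyp

variable {G : Type} [Group G]

/-- the word metric with values in `ℕ` -/
noncomputable def D (S : Finset G) (x y : G) : ℕ := wordLength (S : Set G) (x⁻¹ * y)

/-- all entries are generators or inverses of generators -/
def Steps (S : Finset G) (l : List G) : Prop := ∀ x ∈ l, x ∈ S ∨ x⁻¹ ∈ S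

variable {S : Finset G}

theorem D_le {x y : G} {l : List G} (hl : Steps S l) (h : x * l.prod = y) : D S x y ≤ l.length :=
  Nat.sInf_le ⟨l, rfl, hl, by rw [← h]; simp⟩

theorem exists_list (hS : Subgroup.closure (S : Set G) = ⊤) (x y : G) :
    ∃ l : List G, l.length = D S x y ∧ Steps S l ∧ x * l.prod = y := by
  have h1 : x⁻¹ * y ∈ (Subgroup.closure (S : Set G)).toSubmonoid := by
    rw [hS]; exact Subgroup.mem_top _
  rw [Subgroup.closure_toSubmonoid] at h1
  obtain ⟨l, hl, hp⟩ := Submonoid.exists_list_of_mem_closure h1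
  have hne : {n : ℕ | ∃ l : List G, l.length = n ∧ (∀ x ∈ l, x ∈ (S : Set G) ∨ x⁻¹ ∈ (S : Set G)) ∧
      l.prod = x⁻¹ * y}.Nonempty := ⟨l.length, l, rfl, fun a ha => by simpa using hl a ha, hp⟩
  obtain ⟨l', h1, h2, h3⟩ := Nat.sInf_mem hne
  exact ⟨l', h1, h2, by rw [h3]; simp⟩

theorem D_self (x : G) : D S x x = 0 := by
  have := D_le (S := S) (x := x) (y := x) (l := []) (fun _ h => by simp at h) (by simp)
  simpa using this

theorem D_step (x s : G) (hs : s ∈ S ∨ s⁻¹ ∈ S) : D S x (x * s) ≤ 1 := by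
  have := D_le (S := S) (x := x) (y := x * s) (l := [s]) (fun a h => by
    rw [List.mem_singleton] at h; rw [h]; exact hs) (by simp)
  simpa using this

theorem D_tri (hS : Subgroup.closure (S : Set G) = ⊤) (x y z : G) :
    D S x z ≤ D S x y + D S y z := by
  obtain ⟨l, h1, h2, h3⟩ := exists_list hS x y
  obtain ⟨l', h1', h2', h3'⟩ := exists_list hS y z
  have := D_le (S := S) (x := x) (y := z) (l := l ++ l') (fun a h => by
    rcases List.mem_append.1 h with h | h
    · exact h2 a h
    · exact h2' a h) (by rw [List.prod_append, ← mul_assoc, h3, h3'])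
  rwa [List.length_append, h1, h1'] at this

theorem D_symm (hS : Subgroup.closure (S : Set G) = ⊤) (x y : G) : D S x y = D S y x := by
  have key : ∀ x y : G, D S x y ≤ D S y x := by
    intro x y
    obtain ⟨l, h1, h2, h3⟩ := exists_list hS y x
    have := D_le (S := S) (x := x) (y := y) (l := (l.map fun a => a⁻¹).reverse) (fun a h => by
      rw [List.mem_reverse, List.mem_map] at h
      obtain ⟨b, hb, rfl⟩ := h
      rw [inv_inv]
      exact (h2 b hb).symm) (by rw [← List.prod_inv_reverse, ← h3]; simp)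
    simpa [h1] using this
  exact le_antisymm (key x y) (key y x)

theorem exists_step (hS : Subgroup.closure (S : Set G) = ⊤) {x y : G} (h : D S x y = 1) :
    ∃ s, (s ∈ S ∨ s⁻¹ ∈ S) ∧ x * s = y := by
  obtain ⟨l, h1, h2, h3⟩ := exists_list hS x y
  rw [h, List.length_eq_one_iff] at h1
  obtain ⟨s, rfl⟩ := h1
  exact ⟨s, h2 s (by simp), by simpa using h3⟩

/-- geodesics -/
def Geo (S : Finset G) (γ : ℕ → G) (n : ℕ) : Prop :=
  ∀ i j, i ≤ j → j ≤ n → D S (γ i) (γ j) + i = j

theorem exists_geo (hS : Subgroup.closure (S : Set G) = ⊤) (x y : G) :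
    ∃ γ : ℕ → G, Geo S γ (D S x y) ∧ γ 0 = x ∧ γ (D S x y) = y := by
  obtain ⟨l, h1, h2, h3⟩ := exists_list hS x y
  let γ : ℕ → G := fun i => x * (l.take i).prod
  have h0 : γ 0 = x := by simp [γ]
  have hn : γ (D S x y) = y := by simp [γ, ← h1, h3]
  have hs : ∀ i, D S (γ i) (γ (i + 1)) ≤ 1 := by
    intro i
    by_cases hi : i < l.length
    · have : γ (i + 1) = γ i * l[i] := by
        simp only [γ, List.prod_take_succ _ _ hi, mul_assoc]
      rw [this]
      exact D_step _ _ (h2 _ (List.getElem_mem hi))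
    · have : γ (i + 1) = γ i := by
        simp only [γ]
        rw [List.take_of_length_le (by omega), List.take_of_length_le (by omega)]
      rw [this, D_self]; omega
  have hle : ∀ k i, D S (γ i) (γ (i + k)) ≤ k := by
    intro k
    induction k with
    | zero => intro i; simp [D_self]
    | succ k ih =>
      intro i
      have := D_tri hS (γ i) (γ (i + k)) (γ (i + k + 1))
      have := hs (i + k)
      have := ih i
      rw [← add_assoc]; omega
  refine ⟨γ, fun i j hij hj => ?_, h0, hn⟩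
  have a1 := hle i 0
  have a2 := hle (j - i) i
  have a3 := hle (D S x y - j) j
  rw [zero_add, h0] at a1
  rw [show i + (j - i) = j by omega] at a2
  rw [show j + (D S x y - j) = D S x y by omega, hn] at a3
  have a4 := D_tri hS x (γ i) y
  have a5 := D_tri hS (γ i) (γ j) y
  omega

theorem area_append (f h : G → ℤ) (g : G) (l l' : List G) :
    area f h g (l ++ l') = area f h g l + area f h (g * l.prod) l' := by
  induction l generalizing g with
  | nil => simp [area]
  | cons x l ih => simp [area, ih, mul_assoc, add_assoc]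

/-- a path from `u` to `v` of length at most `L` and area at least `A` -/
def Cn (S : Finset G) (f h : G → ℤ) (u v : G) (L : ℕ) (A : ℤ) : Prop :=
  ∃ l : List G, Steps S l ∧ u * l.prod = v ∧ l.length ≤ L ∧ A ≤ area f h u l

section cn
variable {f h : G → ℤ}

theorem Cn.refl (u : G) : Cn S f h u u 0 0 :=
  ⟨[], fun _ h => by simp at h, by simp, by simp, by simp [area]⟩

theorem Cn.mono {u v : G} {L L' : ℕ} {A : ℤ} (H : Cn S f h u v L A) (hL : L ≤ L') :
    Cn S f h u v L' A := by
  obtain ⟨l, h1, h2, h3, h4⟩ := H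
  exact ⟨l, h1, h2, h3.trans hL, h4⟩

theorem Cn.trans {u v w : G} {L L' : ℕ} {A A' : ℤ} (H : Cn S f h u v L A)
    (H' : Cn S f h v w L' A') : Cn S f h u w (L + L') (A + A') := by
  obtain ⟨l, h1, h2, h3, h4⟩ := H
  obtain ⟨l', h1', h2', h3', h4'⟩ := H'
  refine ⟨l ++ l', fun a h => ?_, by rw [List.prod_append, ← mul_assoc, h2, h2'],
    by rw [List.length_append]; omega, by rw [area_append, h2]; omega⟩
  rcases List.mem_append.1 h with h | h
  · exact h1 a h
  · exact h1' a h

theorem Cn.edge (hS : Subgroup.closure (S : Set G) = ⊤) {u v : G} (huv : D S u v = 1) {A : ℤ}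
    (hA : A ≤ (f u + f v) * (h v - h u)) : Cn S f h u v 1 A := by
  obtain ⟨s, hs, rfl⟩ := exists_step hS huv
  exact ⟨[s], fun a h => by rw [List.mem_singleton] at h; rw [h]; exact hs, by simp, by simp,
    by simpa [area] using hA⟩

theorem Cn.iso {C : ℕ} (hI : Iso S C) (hf : Lip S f) (hh : Lip S h) {u : G} {L : ℕ} {A : ℤ}
    (H : Cn S f h u u L A) : A ≤ C * L := by
  obtain ⟨l, h1, h2, h3, h4⟩ := H
  have := hI l h1 (by simpa using h2) u f h hf hh
  have h5 : (C : ℤ) * l.length ≤ C * L :=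
    mul_le_mul_of_nonneg_left (by exact_mod_cast h3) (by positivity)
  exact h4.trans ((le_abs_self _).trans (this.trans h5))

/-- connections without area in both directions -/
def Conn (S : Finset G) (f h : G → ℤ) (u v : G) (L : ℕ) : Prop :=
  Cn S f h u v L 0 ∧ Cn S f h v u L 0

theorem Conn.refl (u : G) : Conn S f h u u 0 := ⟨Cn.refl u, Cn.refl u⟩

theorem Conn.symm {u v : G} {L : ℕ} (H : Conn S f h u v L) : Conn S f h v u L := ⟨H.2, H.1⟩

theorem Conn.mono {u v : G} {L L' : ℕ} (H : Conn S f h u v L) (hL : L ≤ L') :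
    Conn S f h u v L' := ⟨H.1.mono hL, H.2.mono hL⟩

theorem Conn.trans {u v w : G} {L L' : ℕ} (H : Conn S f h u v L) (H' : Conn S f h v w L') :
    Conn S f h u w (L + L') :=
  ⟨by simpa using H.1.trans H'.1, by simpa [add_comm] using H'.2.trans H.2⟩

theorem Conn.geo (hS : Subgroup.closure (S : Set G) = ⊤) {γ : ℕ → G} {n : ℕ} (hγ : Geo S γ n)
    (h0 : ∀ i ≤ n, f (γ i) = 0) {i j : ℕ} (hi : i ≤ n) (hj : j ≤ n) :
    Conn S f h (γ i) (γ j) (D S (γ i) (γ j)) := by
  have key : ∀ k i, i + k ≤ n → Conn S f h (γ i) (γ (i + k)) k := by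
    intro k
    induction k with
    | zero => intro i _; exact Conn.refl _
    | succ k ih =>
      intro i hi
      refine (ih i (by omega)).trans ?_
      have e := hγ (i + k) (i + (k + 1)) (by omega) hi
      have e1 : D S (γ (i + k)) (γ (i + (k + 1))) = 1 := by omega
      refine ⟨Cn.edge hS e1 ?_, Cn.edge hS (by rw [D_symm hS]; exact e1) ?_⟩ <;>
        simp [h0 _ hi, h0 (i + k) (by omega)]
  rcases le_total i j with hij | hij
  · have := key (j - i) i (by omega)
    rw [show i + (j - i) = j by omega] at this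
    exact this.mono (by have := hγ i j hij hj; omega)
  · have := key (i - j) j (by omega)
    rw [show j + (i - j) = i by omega] at this
    exact this.symm.mono (by have := hγ j i hij hi; rw [D_symm hS]; omega)

end cn

/-- the tent function at `p` -/
noncomputable def tent (S : Finset G) (p : G) (r : ℕ) (g : G) : ℤ := max 0 ((r : ℤ) - D S p g)

theorem lip_D (hS : Subgroup.closure (S : Set G) = ⊤) (p : G) :
    Lip S (fun g => (D S p g : ℤ)) := by
  intro g s hs
  have h1 := D_step g s (Or.inl hs)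
  have h2 := D_tri hS p g (g * s)
  have h3 := D_tri hS p (g * s) g
  rw [D_symm hS (g * s) g] at h3
  simp only
  rw [abs_le]; constructor <;> omega

theorem lip_tent (hS : Subgroup.closure (S : Set G) = ⊤) (p : G) (r : ℕ) :
    Lip S (tent S p r) := by
  intro g s hs
  have := lip_D hS p g s hs
  simp only [tent] at this ⊢
  rw [abs_le] at this ⊢
  constructor <;> omega

theorem tent_eq_zero {p g : G} {r : ℕ} (h : r ≤ D S p g) : tent S p r g = 0 := by
  simp only [tent]; omega

theorem Conn.far (hS : Subgroup.closure (S : Set G) = ⊤) {h : G → ℤ} {p u v : G} {r : ℕ}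
    (H : r + D S u v ≤ D S p u) : Conn S (tent S p r) h u v (D S u v) := by
  obtain ⟨γ, hγ, h0, h1⟩ := exists_geo hS u v
  have := Conn.geo (f := tent S p r) (h := h) hS hγ (fun i hi => tent_eq_zero (by
    have a1 := hγ 0 i (by omega) hi
    have a2 := D_tri hS p (γ i) u
    rw [h0] at a1
    rw [D_symm hS (γ i) u] at a2
    omega)) (i := 0) (j := D S u v) (by omega) le_rfl
  rwa [h0, h1] at this

theorem loop_bound (hS : Subgroup.closure (S : Set G) = ⊤) {C : ℕ} (hI : Iso S C) {α : ℕ → G}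
    {n t r i j L : ℕ} (hα : Geo S α n) (hi : i ≤ t) (hj : t + r ≤ j) (hjn : j ≤ n)
    (H : Conn S (tent S (α t) r) (fun g => (D S (α 0) g : ℤ)) (α i) (α j) L) :
    r * r ≤ C * (j - i + L) := by
  set f := tent S (α t) r with hf
  set h : G → ℤ := fun g => (D S (α 0) g : ℤ) with hh
  have hv : ∀ k ≤ n, h (α k) = k := by
    intro k hk
    have := hα 0 k (by omega) hk
    simp only [hh]; omega
  have hone : ∀ k, k + 1 ≤ n → D S (α k) (α (k + 1)) = 1 := by
    intro k hk
    have := hα k (k + 1) (by omega) hk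
    omega
  have k1 : ∀ k a, a + k ≤ n → Cn S f h (α a) (α (a + k)) k 0 := by
    intro k
    induction k with
    | zero => intro a _; exact Cn.refl _
    | succ k ih =>
      intro a ha
      have := (ih a (by omega)).trans (Cn.edge (f := f) (h := h) hS (hone (a + k) ha) (A := 0) (by
        rw [hv (a + k + 1) (by omega), hv (a + k) (by omega)]
        simp only [hf, tent]
        push_cast
        rw [add_sub_cancel_left, mul_one]
        omega))
      simpa [add_assoc] using this
  have k2 : ∀ k ≤ r, Cn S f h (α t) (α (t + k)) k (k * (2 * r - k)) := by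
    intro k
    induction k with
    | zero => intro _; simpa using Cn.refl _
    | succ k ih =>
      intro hk
      have e1 := hα t (t + k) (by omega) (by omega)
      have e2 := hα t (t + k + 1) (by omega) (by omega)
      have := (ih (by omega)).trans (Cn.edge (f := f) (h := h) hS (hone (t + k) (by omega))
        (A := 2 * r - 2 * k - 1) (by
        rw [hv _ (by omega : t + k + 1 ≤ n), hv (t + k) (by omega)]
        simp only [hf, tent]
        push_cast
        rw [add_sub_cancel_left, mul_one]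
        omega))
      have e : ((k + 1 : ℕ) : ℤ) * (2 * r - (k + 1 : ℕ))
          = k * (2 * r - k) + (2 * r - 2 * k - 1) := by push_cast; ring
      rw [e]
      exact this
  have a1 := k1 (t - i) i (by omega)
  have a2 := k2 r le_rfl
  have a3 := k1 (j - (t + r)) (t + r) (by omega)
  rw [show i + (t - i) = t by omega] at a1
  rw [show t + r + (j - (t + r)) = j by omega] at a3
  have := (((a1.trans a2).trans a3).trans H.2).iso hI (lip_tent hS _ _) (lip_D hS _)
  rw [show t - i + r + (j - (t + r)) + L = j - i + L by omega] at this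
  have e : (0 : ℤ) + r * (2 * r - r) + 0 + 0 = ((r * r : ℕ) : ℤ) := by push_cast; ring
  rw [e] at this
  exact_mod_cast this

theorem core (hS : Subgroup.closure (S : Set G) = ⊤) {C : ℕ} (hI : Iso S C) {α β γ : ℕ → G}
    {n1 n2 n3 t r : ℕ} (hα : Geo S α n1) (hβ : Geo S β n2) (hγ : Geo S γ n3)
    (hx : α 0 = β 0) (hy : α n1 = γ 0) (hz : β n2 = γ n3) (ht : t ≤ n1)
    (hB : ∀ s ≤ n2, r ≤ D S (α t) (β s)) (hC : ∀ s ≤ n3, r ≤ D S (α t) (γ s))
    (hA' : ∀ i ≤ n1, (∃ s ≤ n2, D S (α i) (β s) ≤ r) ∨ ∃ s ≤ n3, D S (α i) (γ s) ≤ r)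
    (hB' : ∀ s ≤ n2, (∃ i ≤ n1, D S (β s) (α i) ≤ r) ∨ ∃ k ≤ n3, D S (β s) (γ k) ≤ r) :
    r ≤ 60 * C := by
  set f := tent S (α t) r with hf
  set h : G → ℤ := fun g => (D S (α 0) g : ℤ) with hh
  have tri := D_tri hS
  have sym := D_symm hS
  have cB : ∀ {s s'}, s ≤ n2 → s' ≤ n2 → Conn S f h (β s) (β s') (D S (β s) (β s')) :=
    fun hs hs' => Conn.geo hS hβ (fun i hi => tent_eq_zero (hB i hi)) hs hs'
  have cC : ∀ {s s'}, s ≤ n3 → s' ≤ n3 → Conn S f h (γ s) (γ s') (D S (γ s) (γ s')) :=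
    fun hs hs' => Conn.geo hS hγ (fun i hi => tent_eq_zero (hC i hi)) hs hs'
  have far : ∀ {u v}, r + D S u v ≤ D S (α t) u → Conn S f h u v (D S u v) :=
    fun H => Conn.far hS H
  have dα : ∀ i ≤ n1, D S (α 0) (α i) = i := fun i hi => by
    have := hα 0 i (by omega) hi; omega
  have dβ : ∀ i ≤ n2, D S (α 0) (β i) = i := fun i hi => by
    have := hβ 0 i (by omega) hi; rw [hx]; omega
  have htr : t + r ≤ n1 := by
    have a1 := hC 0 (by omega)
    have a2 := hα t n1 ht le_rfl
    rw [← hy] at a1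
    omega
  let Done : Prop := ∃ i j, i ≤ t ∧ t + r ≤ j ∧ j ≤ n1 ∧ j ≤ i + 12 * r ∧
    Conn S f h (α i) (α j) (48 * r)
  have left : Done ∨ ∃ i k, i ≤ t ∧ t ≤ i + 2 * r ∧ k ≤ n3 ∧ Conn S f h (α i) (γ k) (12 * r) ∧
      D S (α t) (γ k) ≤ 12 * r := by
    obtain ⟨i, hi1, hi2, hi3⟩ : ∃ i, i ≤ t ∧ t ≤ i + 2 * r ∧
        ((∃ s ≤ n2, D S (α i) (β s) ≤ r ∧ Conn S f h (α i) (β s) r) ∨
          ∃ s ≤ n3, D S (α i) (γ s) ≤ r ∧ Conn S f h (α i) (γ s) r) := by
      by_cases h2 : t < 2 * r
      · refine ⟨0, by omega, by omega, Or.inl ⟨0, by omega, ?_, ?_⟩⟩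
        · rw [hx, D_self]; omega
        · rw [hx]; exact (Conn.refl _).mono (by omega)
      · have e := hα (t - 2 * r) t (by omega) ht
        rw [sym] at e
        refine ⟨t - 2 * r, by omega, by omega, ?_⟩
        rcases hA' (t - 2 * r) (by omega) with ⟨s, hs, hd⟩ | ⟨s, hs, hd⟩
        · exact Or.inl ⟨s, hs, hd, (far (by omega)).mono hd⟩
        · exact Or.inr ⟨s, hs, hd, (far (by omega)).mono hd⟩
    have e := hα i t hi1 ht
    rw [sym] at e
    rcases hi3 with ⟨s, hs, hd, hc⟩ | ⟨s, hs, hd, hc⟩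
    · have b1 := tri (α t) (α i) (β s)
      by_cases h2 : n2 ≤ s + 8 * r
      · have b2 := hβ s n2 hs le_rfl
        have b3 := tri (α t) (β s) (β n2)
        refine Or.inr ⟨i, n3, hi1, hi2, le_rfl, ?_, ?_⟩
        · rw [← hz]; exact (hc.trans (cB hs le_rfl)).mono (by omega)
        · rw [← hz]; omega
      · have b2 := hβ s (s + 8 * r) (by omega) (by omega)
        have b3 := tri (α t) (β s) (β (s + 8 * r))
        have b4 := tri (β s) (α t) (β (s + 8 * r))
        rw [sym (β s) (α t)] at b4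
        have hc2 := hc.trans (cB hs (by omega : s + 8 * r ≤ n2))
        rcases hB' (s + 8 * r) (by omega) with ⟨j, hj, hd'⟩ | ⟨k, hk, hd'⟩
        · have b5 := tri (α 0) (α j) (β (s + 8 * r))
          have b6 := tri (α 0) (β (s + 8 * r)) (α j)
          have b7 := tri (α 0) (β s) (α i)
          have b8 := tri (α 0) (α i) (β s)
          rw [sym (α j)] at b5
          rw [sym (β s)] at b7
          rw [dα j hj, dβ _ (by omega)] at b5 b6
          rw [dα i (by omega), dβ _ hs] at b7 b8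
          exact Or.inl ⟨i, j, hi1, by omega, hj, by omega,
            (hc2.trans (far (by omega))).mono (by omega)⟩
        · have b5 := tri (α t) (β (s + 8 * r)) (γ k)
          exact Or.inr ⟨i, k, hi1, hi2, hk, (hc2.trans (far (by omega))).mono (by omega),
            by omega⟩
    · have b1 := tri (α t) (α i) (γ s)
      exact Or.inr ⟨i, s, hi1, hi2, hs, hc.mono (by omega), by omega⟩
  have right : Done ∨ ∃ j k, t + r ≤ j ∧ j ≤ n1 ∧ j ≤ t + 2 * r ∧ k ≤ n3 ∧
      Conn S f h (α j) (γ k) (12 * r) ∧ D S (α t) (γ k) ≤ 12 * r := by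
    by_cases h1 : n1 < t + 2 * r
    · have e := hα t n1 ht le_rfl
      refine Or.inr ⟨n1, 0, htr, le_rfl, by omega, by omega, ?_, ?_⟩
      · rw [hy]; exact (Conn.refl _).mono (by omega)
      · rw [← hy]; omega
    have e := hα t (t + 2 * r) (by omega) (by omega)
    rcases hA' (t + 2 * r) (by omega) with ⟨s, hs, hd⟩ | ⟨s, hs, hd⟩
    · have hc : Conn S f h (α (t + 2 * r)) (β s) r := (far (by omega)).mono hd
      have b1 := tri (α t) (α (t + 2 * r)) (β s)
      have b7 := tri (α 0) (β s) (α (t + 2 * r))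
      have b8 := tri (α 0) (α (t + 2 * r)) (β s)
      rw [sym (β s)] at b7
      rw [dα _ (by omega), dβ _ hs] at b7 b8
      by_cases h2 : s ≤ 8 * r
      · have b2 := hβ 0 s (by omega) hs
        rw [sym] at b2
        refine Or.inl ⟨0, t + 2 * r, by omega, by omega, by omega, by omega, ?_⟩
        rw [hx]
        exact (hc.trans (cB hs (by omega))).symm.mono (by omega)
      · have b2 := hβ (s - 8 * r) s (by omega) hs
        rw [sym] at b2
        have b3 := tri (α t) (β s) (β (s - 8 * r))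
        have b4 := tri (β s) (α t) (β (s - 8 * r))
        rw [sym (β s) (α t)] at b4
        have hc2 := hc.trans (cB hs (by omega : s - 8 * r ≤ n2))
        rcases hB' (s - 8 * r) (by omega) with ⟨i, hi, hd'⟩ | ⟨k, hk, hd'⟩
        · have b5 := tri (α 0) (α i) (β (s - 8 * r))
          have b6 := tri (α 0) (β (s - 8 * r)) (α i)
          rw [sym (α i)] at b5
          rw [dα i hi, dβ _ (by omega)] at b5 b6
          exact Or.inl ⟨i, t + 2 * r, by omega, by omega, by omega, by omega,
            (hc2.trans (far (by omega))).symm.mono (by omega)⟩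
        · have b5 := tri (α t) (β (s - 8 * r)) (γ k)
          exact Or.inr ⟨t + 2 * r, k, by omega, by omega, le_rfl, hk,
            (hc2.trans (far (by omega))).mono (by omega), by omega⟩
    · have b1 := tri (α t) (α (t + 2 * r)) (γ s)
      exact Or.inr ⟨t + 2 * r, s, by omega, by omega, le_rfl, hs,
        (far (by omega)).mono (by omega), by omega⟩
  have done : Done := by
    rcases left with H | ⟨i, k, hi1, hi2, hk, hc, hd⟩
    · exact H
    rcases right with H | ⟨j, k', hj1, hj2, hj3, hk', hc', hd'⟩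
    · exact H
    have b1 := tri (γ k) (α t) (γ k')
    rw [sym (γ k) (α t)] at b1
    exact ⟨i, j, hi1, hj1, hj2, by omega,
      ((hc.trans (cC hk hk')).trans hc'.symm).mono (by omega)⟩
  obtain ⟨i, j, hi, hj, hjn, hij, hc⟩ := done
  have := loop_bound hS hI hα hi hj hjn hc
  have h2 : C * (j - i + 48 * r) ≤ C * (60 * r) := Nat.mul_le_mul_left _ (by omega)
  rcases Nat.eq_zero_or_pos r with h0 | h0
  · omega
  · refine Nat.le_of_mul_le_mul_right ?_ h0
    calc r * r ≤ C * (60 * r) := this.trans h2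
      _ = 60 * C * r := by ring

/-- `A` is the vertex set of a geodesic from `x` to `y` -/
def Seg (S : Finset G) (x y : G) (A : Set G) : Prop :=
  ∃ γ n, Geo S γ n ∧ γ 0 = x ∧ γ n = y ∧ ∀ u, u ∈ A ↔ ∃ i ≤ n, γ i = u

theorem exists_seg (hS : Subgroup.closure (S : Set G) = ⊤) (x y : G) : ∃ A, Seg S x y A := by
  obtain ⟨γ, h1, h2, h3⟩ := exists_geo hS x y
  exact ⟨{u | ∃ i ≤ D S x y, γ i = u}, γ, _, h1, h2, h3, fun u => Iff.rfl⟩

theorem Seg.symm (hS : Subgroup.closure (S : Set G) = ⊤) {x y : G} {A : Set G}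
    (H : Seg S x y A) : Seg S y x A := by
  obtain ⟨γ, n, h1, h2, h3, h4⟩ := H
  refine ⟨fun i => γ (n - i), n, fun i j hij hj => ?_, by simpa, by simpa, fun u => ?_⟩
  · have := h1 (n - j) (n - i) (by omega) (by omega)
    simp only
    rw [D_symm hS]; omega
  · rw [h4]
    constructor
    · rintro ⟨i, hi, rfl⟩
      exact ⟨n - i, by omega, by simp only; rw [show n - (n - i) = i by omega]⟩
    · rintro ⟨i, hi, rfl⟩
      exact ⟨n - i, by omega, rfl⟩

theorem Seg.left {x y : G} {A : Set G} (H : Seg S x y A) : x ∈ A := by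
  obtain ⟨γ, n, -, h2, -, h4⟩ := H
  exact (h4 x).2 ⟨0, by omega, h2⟩

theorem Seg.add {x y : G} {A : Set G} (H : Seg S x y A) {u : G} (hu : u ∈ A) :
    D S x u + D S u y = D S x y := by
  obtain ⟨γ, n, h1, rfl, rfl, h4⟩ := H
  obtain ⟨i, hi, rfl⟩ := (h4 u).1 hu
  have a1 := h1 0 i (by omega) hi
  have a2 := h1 i n hi le_rfl
  have a3 := h1 0 n (by omega) le_rfl
  omega

/-- every point of `A` is close to `B ∪ B'` -/
def Close (S : Finset G) (r : ℕ) (A B B' : Set G) : Prop :=
  ∀ u ∈ A, ∃ v, (v ∈ B ∨ v ∈ B') ∧ D S u v ≤ r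

theorem Close.swap {r : ℕ} {A B B' : Set G} (H : Close S r A B B') : Close S r A B' B :=
  fun u hu => let ⟨v, hv, hd⟩ := H u hu; ⟨v, hv.symm, hd⟩

theorem core' (hS : Subgroup.closure (S : Set G) = ⊤) {C : ℕ} (hI : Iso S C) {x y z : G}
    {A B B' : Set G} (hA : Seg S x y A) (hB : Seg S x z B) (hB' : Seg S y z B') {r : ℕ}
    (hn : ¬ Close S r A B B') (h1 : Close S (r + 1) A B B') (h2 : Close S (r + 1) B A B') :
    r + 1 ≤ 60 * C := by
  obtain ⟨α, n1, hα, a0, a1, mA⟩ := hA
  obtain ⟨β, n2, hβ, b0, b1, mB⟩ := hB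
  obtain ⟨γ, n3, hγ, c0, c1, mC⟩ := hB'
  simp only [Close, not_forall, not_exists, not_and, not_le] at hn
  obtain ⟨p, hp, hfar⟩ := hn
  obtain ⟨t, ht, rfl⟩ := (mA p).1 hp
  refine core hS hI hα hβ hγ (a0.trans b0.symm) (a1.trans c0.symm) (b1.trans c1.symm) ht
    (fun s hs => hfar _ (Or.inl ((mB _).2 ⟨s, hs, rfl⟩)))
    (fun s hs => hfar _ (Or.inr ((mC _).2 ⟨s, hs, rfl⟩))) (fun i hi => ?_) (fun s hs => ?_)
  · obtain ⟨v, hv | hv, hd⟩ := h1 _ ((mA _).2 ⟨i, hi, rfl⟩)
    · obtain ⟨s, hs, rfl⟩ := (mB v).1 hv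
      exact Or.inl ⟨s, hs, hd⟩
    · obtain ⟨s, hs, rfl⟩ := (mC v).1 hv
      exact Or.inr ⟨s, hs, hd⟩
  · obtain ⟨v, hv | hv, hd⟩ := h2 _ ((mB _).2 ⟨s, hs, rfl⟩)
    · obtain ⟨i, hi, rfl⟩ := (mA v).1 hv
      exact Or.inl ⟨i, hi, hd⟩
    · obtain ⟨i, hi, rfl⟩ := (mC v).1 hv
      exact Or.inr ⟨i, hi, hd⟩

theorem slim (hS : Subgroup.closure (S : Set G) = ⊤) {C : ℕ} (hI : Iso S C) {x y z : G}
    {A B B' : Set G} (hA : Seg S x y A) (hB : Seg S x z B) (hB' : Seg S y z B') :
    Close S (60 * C) A B B' := by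
  classical
  let P : ℕ → Prop := fun r => Close S r A B B' ∧ Close S r B A B' ∧ Close S r B' A B
  have hex : ∃ r, P r := by
    refine ⟨D S x y + D S x z + D S y z, fun u hu => ⟨x, Or.inl hB.left, ?_⟩,
      fun u hu => ⟨x, Or.inl hA.left, ?_⟩, fun u hu => ⟨y, Or.inl (hA.symm hS).left, ?_⟩⟩
    · have := hA.add hu; rw [D_symm hS]; omega
    · have := hB.add hu; rw [D_symm hS]; omega
    · have := hB'.add hu; rw [D_symm hS]; omega
  have hP := Nat.find_spec hex
  have hle : Nat.find hex ≤ 60 * C := by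
    rcases Nat.eq_zero_or_pos (Nat.find hex) with h0 | h0
    · omega
    obtain ⟨r, hr⟩ : ∃ r, Nat.find hex = r + 1 := ⟨Nat.find hex - 1, by omega⟩
    have hn : ¬ P r := Nat.find_min hex (by omega)
    rw [hr] at hP ⊢
    by_cases c1 : Close S r A B B'
    · by_cases c2 : Close S r B A B'
      · have c3 : ¬ Close S r B' A B := fun c3 => hn ⟨c1, c2, c3⟩
        exact core' hS hI hB' (hA.symm hS) (hB.symm hS) c3 hP.2.2 hP.1.swap
      · exact core' hS hI hB hA (hB'.symm hS) c2 hP.2.1 hP.1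
    · exact core' hS hI hA hB hB' c1 hP.1 hP.2.1
  intro u hu
  obtain ⟨v, hv, hd⟩ := hP.1 u hu
  exact ⟨v, hv, hd.trans hle⟩

theorem exists_near (hS : Subgroup.closure (S : Set G) = ⊤) {C : ℕ} (hI : Iso S C) (w : G)
    {x z : G} {A : Set G} (hA : Seg S x z A) :
    ∃ m ∈ A, D S x z + 2 * D S m w ≤ D S x w + D S z w + 4 * (60 * C) + 2 := by
  classical
  obtain ⟨B, hB⟩ := exists_seg hS x w
  obtain ⟨B', hB'⟩ := exists_seg hS z w
  have hs := slim hS hI hA hB hB'
  obtain ⟨m, hm, ⟨u, hu, hdu⟩, v, hv, hdv⟩ : ∃ m ∈ A, (∃ u ∈ B, D S m u ≤ 60 * C) ∧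
      ∃ v ∈ B', D S m v ≤ 60 * C + 1 := by
    obtain ⟨α, n, hα, a0, a1, mA⟩ := hA
    let Q : ℕ → Prop := fun i => ∃ u ∈ B, D S (α i) u ≤ 60 * C
    have hQ0 : Q 0 := ⟨x, hB.left, by rw [a0, D_self]; omega⟩
    have hi : Nat.findGreatest Q n ≤ n := Nat.findGreatest_le n
    have hQ : Q (Nat.findGreatest Q n) := Nat.findGreatest_spec (Nat.zero_le n) hQ0
    set i := Nat.findGreatest Q n with hidef
    refine ⟨α i, (mA _).2 ⟨i, hi, rfl⟩, hQ, ?_⟩
    rcases hi.eq_or_lt with h | h
    · exact ⟨z, hB'.left, by rw [h, a1, D_self]; omega⟩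
    · have hn : ¬ Q (i + 1) := Nat.findGreatest_is_greatest (by omega) (by omega : i + 1 ≤ n)
      obtain ⟨v, hv | hv, hd⟩ := hs _ ((mA _).2 ⟨i + 1, h, rfl⟩)
      · exact absurd ⟨v, hv, hd⟩ hn
      · have a2 := hα i (i + 1) (by omega) h
        have a3 := D_tri hS (α i) (α (i + 1)) v
        exact ⟨v, hv, by omega⟩
  refine ⟨m, hm, ?_⟩
  have a1 := hA.add hm
  have a2 := hB.add hu
  have a3 := hB'.add hv
  have a4 := D_tri hS x u m
  have a5 := D_tri hS m u w
  have a6 := D_tri hS z v m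
  have a7 := D_tri hS m v w
  rw [D_symm hS u m] at a4
  rw [D_symm hS v m, D_symm hS z m] at a6
  omega

theorem four (hS : Subgroup.closure (S : Set G) = ⊤) {C : ℕ} (hI : Iso S C) (w x y z : G) :
    D S x w + D S y w + D S x z ≤ D S x w + D S z w + D S x y + (6 * (60 * C) + 2) ∨
      D S y w + D S z w + D S x z ≤ D S x w + D S z w + D S y z + (6 * (60 * C) + 2) := by
  obtain ⟨A, hA⟩ := exists_seg hS x z
  obtain ⟨B, hB⟩ := exists_seg hS x y
  obtain ⟨B', hB'⟩ := exists_seg hS z y
  obtain ⟨m, hm, hd⟩ := exists_near hS hI w hA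
  obtain ⟨u, hu | hu, hdu⟩ := slim hS hI hA hB hB' m hm
  · left
    have a1 := hB.add hu
    have a2 := D_tri hS x u w
    have a3 := D_tri hS y u w
    have a4 := D_tri hS u m w
    rw [D_symm hS y u] at a3
    rw [D_symm hS u m] at a4
    omega
  · right
    have a1 := hB'.add hu
    have a2 := D_tri hS z u w
    have a3 := D_tri hS y u w
    have a4 := D_tri hS u m w
    rw [D_symm hS y u] at a3
    rw [D_symm hS u m] at a4
    rw [D_symm hS y z]
    omega

end Hyp

open Hyp in
theorem hypStmt : HypStmt := by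
  intro G _ S C hS hI
  refine ⟨S, hS, 3 * (60 * C) + 1, by positivity, fun w x y z => ?_⟩
  have e : ∀ a b : G, wordDist (S : Set G) a b = (D S a b : ℝ) := fun _ _ => rfl
  simp only [gromovProduct, e]
  rcases four hS hI w x y z with h | h
  · have h' : (D S x w : ℝ) + D S y w + D S x z
        ≤ D S x w + D S z w + D S x y + (6 * (60 * C) + 2) := by exact_mod_cast h
    have := min_le_left (((D S x w : ℝ) + D S y w - D S x y) / 2)
      (((D S y w : ℝ) + D S z w - D S y z) / 2)
    linarith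
  · have h' : (D S y w : ℝ) + D S z w + D S x z
        ≤ D S x w + D S z w + D S y z + (6 * (60 * C) + 2) := by exact_mod_cast h
    have := min_le_right (((D S x w : ℝ) + D S y w - D S x y) / 2)
      (((D S y w : ℝ) + D S z w - D S y z) / 2)
    linarith

end Crest.Agent.R177
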