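import Crest.Agent.R177.LSum

/-! The number of patterns, and the pattern of a configuration of paths. -/

set_option autoImplicit false

namespace Crest.Agent.R177.LL

open Finset
open scoped Classical

def Pat.Norm (π : Pat) : Prop :=
  ∀ i, π.T ≤ i → π.φ i = 0 ∧ π.α i = 0 ∧ π.ρ i = 0 ∧ π.kd i = false ∧ π.ct i = false ∧
    π.pn i = false

abbrev Cd : Type := ℕ × ℕ × ℕ × ℕ × Bool × Bool × Bool

def enc (n₀ : ℕ) (π : Pat) (i : ℕ) : Cd :=
  if i < n₀ + 1 then (π.T, π.φ i, π.α i, π.ρ i, π.kd i, π.ct i, π.pn i)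
  else (0, 0, 0, 0, false, false, false)

def stepCd (i : ℕ) (x y : Cd) : Cd :=
  if i < x.1 then
    (x.1, i + 1, if x.2.2.1 = i - 1 then i else x.2.2.1 - 1, 2 * x.2.2.2.1 - y.2.2.2.1,
      !x.2.2.2.2.1, false, false)
  else (x.1, 0, 0, 0, false, false, false)

/-- patterns of bounded complexity -/
def Tame (n₀ J G : ℕ) (π : Pat) : Prop :=
  π.Norm ∧ π.T ≤ n₀ ∧ (∀ r, π.cls r ≤ J) ∧ π.ng ≤ G

theorem card_shift (s : Finset ℕ) (T : ℕ) : #{i ∈ range T | 1 ≤ i ∧ i - 1 ∈ s} ≤ #s := by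
  refine card_le_card_of_injOn (fun i => i - 1) (fun i hi => (mem_filter.1 (mem_coe.1 hi)).2.2) ?_
  intro i hi j hj h
  have := (mem_filter.1 (mem_coe.1 hi)).2.1
  have := (mem_filter.1 (mem_coe.1 hj)).2.1
  simp only at h
  omega

theorem card_pat (n₀ J G : ℕ) (F : Finset Pat)
    (h : ∀ π ∈ F, Tame n₀ J G π ∧
      ∃ (P : Type) (L : FGraph P) (γ : L.V) (d : ℕ → L.Dart), Real π L γ d) :
    #F ≤ ((n₀ + 1) * (8 * (n₀ + 1) ^ 4) + 1) ^ (2 + 3 * G + J) := by
  have hinj : Set.InjOn (enc n₀) F := by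
    intro π hπ π' hπ' e
    obtain ⟨⟨h1, h2, -⟩, -⟩ := h π hπ
    obtain ⟨⟨h1', h2', -⟩, -⟩ := h π' hπ'
    have e0 : π.T = π'.T := by
      have := congrFun e 0
      simp only [enc, Nat.zero_lt_succ, if_true, Prod.mk.injEq] at this
      exact this.1
    have e1 : ∀ i, π.φ i = π'.φ i ∧ π.α i = π'.α i ∧ π.ρ i = π'.ρ i ∧ π.kd i = π'.kd i ∧
        π.ct i = π'.ct i ∧ π.pn i = π'.pn i := by
      intro i
      by_cases hi : i < n₀ + 1
      · have := congrFun e i
        simp only [enc, hi, if_true, Prod.mk.injEq] at this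
        exact this.2
      · obtain ⟨a1, a2, a3, a4, a5, a6⟩ := h1 i (by omega)
        obtain ⟨b1, b2, b3, b4, b5, b6⟩ := h1' i (by omega)
        rw [a1, a2, a3, a4, a5, a6, b1, b2, b3, b4, b5, b6]
        simp
    obtain ⟨T, φ, α, ρ, kd, ct, pn⟩ := π
    obtain ⟨T', φ', α', ρ', kd', ct', pn'⟩ := π'
    simp only at e0 e1
    simp only [Pat.mk.injEq]
    exact ⟨e0, funext fun i => (e1 i).1, funext fun i => (e1 i).2.1, funext fun i => (e1 i).2.2.1,
      funext fun i => (e1 i).2.2.2.1, funext fun i => (e1 i).2.2.2.2.1,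
      funext fun i => (e1 i).2.2.2.2.2⟩
  rw [← card_image_of_injOn hinj]
  let box : Finset Cd := range (n₀ + 1) ×ˢ range (n₀ + 1) ×ˢ range (n₀ + 1) ×ˢ range (n₀ + 1) ×ˢ
    (univ : Finset (Bool × Bool × Bool))
  have hbox : #box = 8 * (n₀ + 1) ^ 4 := by
    simp only [box, card_product, card_range, card_univ, Fintype.card_prod, Fintype.card_bool]
    ring
  rw [← hbox]
  have key := card_tame box (n₀ + 1) (2 + 3 * G + J) (0, 0, 0, 0, false, false, false) stepCd
    (F.image (enc n₀)) ?_ ?_ ?_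
  · convert key
  · intro f hf i hi
    obtain ⟨π, -, rfl⟩ := mem_image.1 hf
    simp [enc, show ¬ i < n₀ + 1 by omega]
  · intro f hf i hi
    obtain ⟨π, hπ, rfl⟩ := mem_image.1 hf
    obtain ⟨⟨h1, h2, -⟩, P, L, γ, d, R⟩ := h π hπ
    simp only [enc, hi, if_true, box, mem_product, mem_range, mem_univ, and_true]
    by_cases hT : i < π.T
    · have := R.φ_lt i hT
      have := R.α_lt i hT
      have := R.ρ_lt hT
      omega
    · obtain ⟨a1, a2, a3, -⟩ := h1 i (by omega)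
      omega
  · intro f hf
    obtain ⟨π, hπ, rfl⟩ := mem_image.1 hf
    obtain ⟨⟨h1, h2, h3, h4⟩, P, L, γ, d, R⟩ := h π hπ
    let NG : Finset ℕ := {i ∈ range π.T | ¬ π.good i}
    have k1 : #NG ≤ G := h4
    have k2 : #{i ∈ range π.T | 1 ≤ i ∧ i - 1 ∈ NG} ≤ #NG := card_shift _ _
    have k3 : #{i ∈ range π.T | π.pn i = true} ≤ J := R.np_le h3
    have k4 : #{i ∈ range π.T | π.α i ∈ NG} ≤ #NG := by
      refine card_le_card_of_injOn π.α (fun i hi => (mem_filter.1 (mem_coe.1 hi)).2) ?_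
      intro i hi j hj e
      have := congrArg π.α e
      rwa [R.α_inv _ (mem_range.1 (mem_filter.1 (mem_coe.1 hi)).1),
        R.α_inv _ (mem_range.1 (mem_filter.1 (mem_coe.1 hj)).1)] at this
    refine le_trans (card_le_card (t := range 2 ∪ NG ∪ {i ∈ range π.T | 1 ≤ i ∧ i - 1 ∈ NG} ∪
      {i ∈ range π.T | π.pn i = true} ∪ {i ∈ range π.T | π.α i ∈ NG}) ?_) ?_
    · intro i hi
      obtain ⟨hi1, hi2⟩ := mem_filter.1 hi
      have hi1 := mem_range.1 hi1
      by_contra hn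
      simp only [mem_union, not_or, mem_filter, mem_range, NG, not_and, not_not] at hn
      obtain ⟨⟨⟨⟨n1, n2⟩, n3⟩, n4⟩, n5⟩ := hn
      rcases hi2 with hi2 | hi2
      · exact n1 hi2
      apply hi2
      simp only [enc, hi1, show i - 1 < n₀ + 1 by omega, show i - 2 < n₀ + 1 by omega, if_true,
        stepCd]
      by_cases hT : i < π.T
      · rw [if_pos hT]
        have g1 := n2 hT
        have g2 := n3 hT (by omega) (by omega)
        have g3 := n5 hT (R.α_lt i hT)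
        have g4 := R.good_kd g1
        obtain ⟨-, -, a3, a4, -, a6, -, -, a9⟩ := g1
        obtain ⟨-, -, -, -, -, -, b7, b8, -⟩ := g2
        rw [show i - 1 - 1 = i - 2 by omega, show i - 1 + 1 = i by omega] at b8
        have c1 : π.ρ (i - 2) ∈ ({π.ρ (i - 1) - 1, π.ρ (i - 1) + 1} : Finset ℕ) := by
          rw [← b8]; simp
        have c2 : π.ρ i ∈ ({π.ρ (i - 1) - 1, π.ρ (i - 1) + 1} : Finset ℕ) := by
          rw [← b8]; simp
        have c3 : π.ρ (i - 1) - 1 ∈ ({π.ρ (i - 2), π.ρ i} : Finset ℕ) := by rw [b8]; simp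
        have c4 : π.ρ (i - 1) + 1 ∈ ({π.ρ (i - 2), π.ρ i} : Finset ℕ) := by rw [b8]; simp
        simp only [mem_insert, mem_singleton] at c1 c2 c3 c4
        simp only [Prod.mk.injEq]
        refine ⟨trivial, a4, ?_, by omega, by rw [g4]; simp, a6, by simpa using n4 hT⟩
        have g5 := g3.2.2.2.1
        unfold Pat.Par at a9
        rw [a3] at a9
        split_ifs with hc <;> omega
      · rw [if_neg hT]
        obtain ⟨a1, a2, a3, a4, a5, a6⟩ := h1 i (by omega)
        rw [a1, a2, a3, a4, a5, a6]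
    · have u1 := card_union_le (range 2 ∪ NG ∪ {i ∈ range π.T | 1 ≤ i ∧ i - 1 ∈ NG} ∪
        {i ∈ range π.T | π.pn i = true}) {i ∈ range π.T | π.α i ∈ NG}
      have u2 := card_union_le (range 2 ∪ NG ∪ {i ∈ range π.T | 1 ≤ i ∧ i - 1 ∈ NG})
        {i ∈ range π.T | π.pn i = true}
      have u3 := card_union_le (range 2 ∪ NG) {i ∈ range π.T | 1 ≤ i ∧ i - 1 ∈ NG}
      have u4 := card_union_le (range 2) NG
      rw [card_range] at u4
      omega

/-- the pattern of a configuration -/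
theorem transfer (hC : CycStmt) {P : Type} (L : FGraph P) (γ : L.V)
    (bip : ∀ e e', L.src e ≠ L.tgt e') (gir : L.Girth 3) (K B n₀ J : ℕ)
    (hJ : ∀ (T : ℕ) (d : ℕ → L.Dart) (W : Finset ℕ), T ≤ n₀ → #W ≤ K + B →
      (∀ i, i + 1 < T → i ∉ W → L.Nx (d i) (d (i + 1))) →
      (∀ i, #{j ∈ range T | L.tail (d j) = L.tail (d i)} ≤ J) ∧
      #{i ∈ range T | ¬ (1 ≤ i ∧ i + 1 < T ∧ 1 ≤ rep (fun j => L.tail (d j)) i ∧
        ({rep (fun j => L.tail (d j)) (i - 1), rep (fun j => L.tail (d j)) (i + 1)} : Finset ℕ) =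
          {rep (fun j => L.tail (d j)) i - 1, rep (fun j => L.tail (d j)) i + 1})} ≤ J)
    (X : Type) [Fintype X] [Nonempty X] (c : L.Cfg X) (h1 : cyc c.φ ≤ K)
    (h2 : Fintype.card X ≤ n₀) (h3 : #{x | ¬ c.Par x} ≤ B) (h4 : #c.cut ≤ B) :
    ∃ (π : Pat) (d : ℕ → L.Dart), Real π L γ d ∧ Tame n₀ J (J + 2 * K + 3 * B) π ∧
      π.T = Fintype.card X ∧ π.nb = #{x | c.α x = x} ∧ π.nk = #c.cut ∧
      (if ∃ x, L.tail (c.lift x) = γ then 1 else 0) ≤ π.np := by
  set T := Fintype.card X with hT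
  obtain ⟨e, he⟩ := hC.1 X c.φ K h1
  obtain ⟨x, ix, p1, p2, p3, p4⟩ : ∃ (x : ℕ → X) (ix : X → ℕ), (∀ a, ix a < T) ∧
      (∀ a, x (ix a) = a) ∧ (∀ i, i < T → ix (x i) = i) ∧ #{a | ix (c.φ a) ≠ ix a + 1} ≤ K := by
    refine ⟨fun i => if h : i < T then e.symm ⟨i, h⟩ else Classical.arbitrary X,
      fun a => e a, fun a => (e a).2, fun a => ?_, fun i hi => ?_, he⟩
    · have : (e a : ℕ) < T := (e a).2
      simp [this]
    · simp [hi]
  have cnt : ∀ (p : X → Prop) (q : ℕ → Prop) [DecidablePred p] [DecidablePred q],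
      (∀ i, i < T → (q i ↔ p (x i))) → #{i ∈ range T | q i} = #{a | p a} := by
    intro p q _ _ hpq
    refine card_nbij' x ix ?_ ?_ ?_ ?_
    · intro i hi
      obtain ⟨k1, k2⟩ := mem_filter.1 (mem_coe.1 hi)
      exact mem_coe.2 (mem_filter.2 ⟨mem_univ _, (hpq i (mem_range.1 k1)).1 k2⟩)
    · intro a ha
      refine mem_coe.2 (mem_filter.2 ⟨mem_range.2 (p1 a), (hpq _ (p1 a)).2 ?_⟩)
      rw [p2]; exact (mem_filter.1 (mem_coe.1 ha)).2
    · intro i hi
      exact p3 i (mem_range.1 (mem_filter.1 (mem_coe.1 hi)).1)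
    · intro a _; exact p2 a
  have ixinj : ∀ a b, ix a = ix b ↔ a = b :=
    fun a b => ⟨fun h => by rw [← p2 a, h, p2], fun h => by rw [h]⟩
  have ixeq : ∀ a i, i < T → (ix a = i ↔ a = x i) :=
    fun a i hi => ⟨fun h => by rw [← h, p2], fun h => by rw [h, p3 i hi]⟩
  let d : ℕ → L.Dart := fun i => c.lift (x i)
  let π : Pat :=
    { T := T
      φ := fun i => if i < T then ix (c.φ (x i)) else 0
      α := fun i => if i < T then ix (c.α (x i)) else 0
      ρ := fun i => if i < T then rep (fun j => L.tail (d j)) i else 0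
      kd := fun i => if i < T then (d i).2 else false
      ct := fun i => decide (i < T ∧ x i ∈ c.cut)
      pn := fun i => decide (i < T ∧ L.tail (d i) = γ) }
  have eφ : ∀ i, i < T → π.φ i = ix (c.φ (x i)) := fun i hi => if_pos hi
  have eα : ∀ i, i < T → π.α i = ix (c.α (x i)) := fun i hi => if_pos hi
  have eρ : ∀ i, i < T → π.ρ i = rep (fun j => L.tail (d j)) i := fun i hi => if_pos hi
  have ect : ∀ i, i < T → (π.ct i = true ↔ x i ∈ c.cut) := fun i hi => by simp [π, hi]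
  have R : Real π L γ d :=
    { bip := bip
      gir := gir
      φ_lt := fun i hi => by rw [eφ i hi]; exact p1 _
      φ_inj := fun i j hi hj h => by
        rw [eφ i hi, eφ j hj, ixinj] at h
        rw [← p3 i hi, c.φ.injective h, p3 j hj]
      α_lt := fun i hi => by rw [eα i hi]; exact p1 _
      α_inv := fun i hi => by rw [eα i hi, eα _ (p1 _), p2, c.inv, p3 i hi]
      kd := fun i hi => if_pos hi
      ρ := eρ
      pn := fun i hi => by
        have hi' : i < T := hi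
        simp [π, hi']
      walk := fun i hi h => by
        rw [eφ i hi]
        simp only [d, p2]
        exact c.walk _ fun hx => by rw [(ect i hi).2 hx] at h; simp at h
      pair := fun i hi h => by
        rw [eα i hi] at h ⊢
        simp only [d, p2]
        exact c.pair _ fun hx => h (by rw [hx, p3 i hi]) }
  let W : Finset ℕ := {i ∈ range T | π.φ i ≠ i + 1} ∪ {i ∈ range T | π.ct i = true}
  have enk : #{i ∈ range T | π.ct i = true} = #c.cut := by
    rw [cnt (fun a => a ∈ c.cut) _ ect]; congr 1; ext a; simp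
  have hW : #W ≤ K + B := by
    have k1 := cnt (fun a => ix (c.φ a) ≠ ix a + 1) (fun i => π.φ i ≠ i + 1)
      fun i hi => by rw [eφ i hi, p3 i hi]
    have := card_union_le {i ∈ range T | π.φ i ≠ i + 1} {i ∈ range T | π.ct i = true}
    simp only [W]
    omega
  have hW' : ∀ i, i < T → i ∉ W → π.φ i = i + 1 ∧ π.ct i = false := by
    intro i hi h
    simp only [W, mem_union, mem_filter, mem_range, hi, true_and, not_or, not_not] at h
    exact ⟨h.1, by simpa using h.2⟩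
  obtain ⟨q1, q2⟩ := hJ T d W h2 hW fun i hi h => by
    obtain ⟨k1, k2⟩ := hW' i (by omega) h
    have := R.walk i (show i < T by omega) k2
    rwa [k1] at this
  refine ⟨π, d, R, ⟨?_, h2, ?_, ?_⟩, rfl, ?_, enk, ?_⟩
  · intro i hi
    have hi' : ¬ i < T := not_lt.2 hi
    simp [π, hi']
  · intro r
    unfold Pat.cls
    rcases ({i ∈ range π.T | π.ρ i = r} : Finset ℕ).eq_empty_or_nonempty with h | ⟨i, hi⟩
    · rw [h]; simp
    · refine le_trans (card_le_card fun k hk => ?_) (q1 i)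
      obtain ⟨k1, k2⟩ := mem_filter.1 hi
      obtain ⟨k3, k4⟩ := mem_filter.1 hk
      exact mem_filter.2 ⟨k3, (R.ρ_eq_iff (mem_range.1 k3) (mem_range.1 k1)).1 (k4.trans k2.symm)⟩
  · let NP : Finset ℕ := {i ∈ range T | ¬ π.Par i}
    have k1 : #NP ≤ B := by
      refine le_trans (le_of_eq (cnt (fun a => ¬ c.Par a) _ fun i hi => ?_)) h3
      unfold Pat.Par FGraph.Cfg.Par
      simp only [ne_eq, eφ i hi, eα i hi, eα _ (p1 _), eφ _ (p1 _), p2, ixinj, ixeq _ i hi]
    have k2 := card_shift W T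
    have k3 := card_shift NP T
    set RB : Finset ℕ := {i ∈ range T | ¬ (1 ≤ i ∧ i + 1 < T ∧ 1 ≤ rep (fun j => L.tail (d j)) i ∧
        ({rep (fun j => L.tail (d j)) (i - 1), rep (fun j => L.tail (d j)) (i + 1)} : Finset ℕ) =
          {rep (fun j => L.tail (d j)) i - 1, rep (fun j => L.tail (d j)) i + 1})} with hRB
    refine le_trans (card_le_card (t := RB ∪ W ∪ {i ∈ range T | 1 ≤ i ∧ i - 1 ∈ W} ∪
      {i ∈ range T | 1 ≤ i ∧ i - 1 ∈ NP}) ?_) ?_
    · intro i hi
      obtain ⟨hi1, hi2⟩ := mem_filter.1 hi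
      have hi3 : i < T := mem_range.1 hi1
      by_contra hn
      apply hi2
      simp only [mem_union, not_or] at hn
      obtain ⟨⟨⟨n1, n2⟩, n3⟩, n4⟩ := hn
      rw [hRB, mem_filter, not_and, not_not] at n1
      obtain ⟨a1, a2, a3, a4⟩ := n1 hi1
      obtain ⟨b1, b2⟩ := hW' i hi3 n2
      obtain ⟨b3, b4⟩ := hW' (i - 1) (by omega) fun h => n3 (mem_filter.2 ⟨hi1, a1, h⟩)
      refine ⟨a1, a2, by omega, b1, b4, b2, by rwa [eρ i hi3], ?_, ?_⟩
      · rwa [eρ i hi3, eρ _ a2, eρ (i - 1) (by omega)]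
      · by_contra hp
        exact n4 (mem_filter.2 ⟨hi1, a1, mem_filter.2 ⟨mem_range.2 (by omega), hp⟩⟩)
    · have u1 := card_union_le (RB ∪ W ∪ {i ∈ range T | 1 ≤ i ∧ i - 1 ∈ W})
        {i ∈ range T | 1 ≤ i ∧ i - 1 ∈ NP}
      have u2 := card_union_le (RB ∪ W) {i ∈ range T | 1 ≤ i ∧ i - 1 ∈ W}
      have u3 := card_union_le RB W
      omega
  · exact cnt (fun a => c.α a = a) _ fun i hi => by rw [eα i hi, ixeq _ i hi]
  · split_ifs with h
    · obtain ⟨a, ha⟩ := h
      refine card_pos.2 ⟨ix a, mem_filter.2 ⟨mem_range.2 (p1 a), (R.pn _ (p1 a)).2 ?_⟩⟩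
      simp only [d, p2]; exact ha
    · exact Nat.zero_le _

end Crest.Agent.R177.LL
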