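import Crest.Agent.R177.LFib
import Crest.Agent.R177.LTame

/-! The first moment argument. -/

set_option autoImplicit false

namespace Crest.Agent.R177

open Finset
open scoped Classical

namespace LL

theorem numeric (a a' ρ ν θ κ : ℝ) (T E U L V k b pin np c₁ m C g : ℕ)
    (h0 : 0 ≤ a) (h1 : a ≤ a') (h2 : a' - a ≤ κ / 2) (hκ : κ = ρ / 2 - ν / 4) (hκ' : 0 < κ)
    (hν : 0 ≤ ν) (hρ : 0 ≤ ρ) (e1 : E + k = T) (e2 : V + np ≤ T) (e3 : pin ≤ np)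
    (e4 : T ≤ 2 * U + c₁) (e5 : 4 * L ≤ T + 2 * b + c₁)
    (h : E * a + U * ρ ≤ θ + L * ν + V * a')
    (c1 : ν ≤ C * κ) (c2 : 2 * a' ≤ C * g * κ)
    (c3 : 2 * m * (θ + c₁ * (ρ / 2 + ν / 4)) ≤ g * κ) :
    m * T ≤ m * C * b + m * C * g * (k - pin) + g := by
  obtain ⟨s, hs⟩ : ∃ s, s = k - pin := ⟨_, rfl⟩
  rw [← hs]
  have f1 : (V : ℝ) ≤ E + s := by exact_mod_cast (by omega : V ≤ E + s)
  have f2 : (E : ℝ) ≤ T := by exact_mod_cast (by omega : E ≤ T)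
  have f4 : (T : ℝ) ≤ 2 * U + c₁ := by exact_mod_cast e4
  have f5 : (4 * L : ℝ) ≤ T + 2 * b + c₁ := by exact_mod_cast e5
  have hE : (0 : ℝ) ≤ E := Nat.cast_nonneg _
  have hb : (0 : ℝ) ≤ b := Nat.cast_nonneg _
  have hs' : (0 : ℝ) ≤ s := Nat.cast_nonneg _
  have hm : (0 : ℝ) ≤ m := Nat.cast_nonneg _
  have g1 : V * a' ≤ (E + s) * a' := mul_le_mul_of_nonneg_right f1 (h0.trans h1)
  have g2 : E * (a' - a) ≤ T * (κ / 2) := mul_le_mul f2 h2 (by linarith) (hE.trans f2)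
  have g3 : T * ρ ≤ (2 * U + c₁) * ρ := mul_le_mul_of_nonneg_right f4 hρ
  have g4 : (4 * L) * ν ≤ (T + 2 * b + c₁) * ν := mul_le_mul_of_nonneg_right f5 hν
  have g5 : T * κ ≤ b * ν + s * (2 * a') + 2 * (θ + c₁ * (ρ / 2 + ν / 4)) := by
    have : T * κ = T * ρ / 2 - T * ν / 4 := by rw [hκ]; ring
    nlinarith
  have g6 : b * ν ≤ b * (C * κ) := mul_le_mul_of_nonneg_left c1 hb
  have g7 : s * (2 * a') ≤ s * (C * g * κ) := mul_le_mul_of_nonneg_left c2 hs'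
  have g8 : m * (T * κ) ≤ m * (b * (C * κ) + s * (C * g * κ) +
      2 * (θ + c₁ * (ρ / 2 + ν / 4))) := mul_le_mul_of_nonneg_left (by linarith) hm
  have g9 : ((m * T : ℝ)) * κ ≤ (m * C * b + m * C * g * s + g) * κ := by nlinarith
  exact_mod_cast le_of_mul_le_mul_right g9 hκ'

theorem exists_large (α β κ : ℝ) (hκ : 0 < κ) (g₀ : ℕ) :
    ∃ g : ℕ, g₀ ≤ g ∧ α + β * Real.log g ≤ g * κ := by
  have h1 : ∀ᶠ x : ℝ in Filter.atTop, ‖Real.log x‖ ≤ (κ / 2 / (|β| + 1)) * ‖id x‖ :=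
    Real.isLittleO_log_id_atTop.bound (by positivity)
  have h2 : ∀ᶠ x : ℝ in Filter.atTop, 2 * α / κ ≤ x := Filter.eventually_ge_atTop _
  obtain ⟨g, ⟨k1, k2⟩, k3⟩ := (((tendsto_natCast_atTop_atTop (R := ℝ)).eventually
    (h1.and h2)).and (Filter.eventually_ge_atTop g₀)).exists
  refine ⟨g, k3, ?_⟩
  have hg : (0 : ℝ) ≤ g := Nat.cast_nonneg _
  simp only [id, Real.norm_eq_abs, abs_of_nonneg hg] at k1
  rw [div_le_iff₀ hκ] at k2
  have k4 : β * Real.log g ≤ (|β| + 1) * |Real.log g| := by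
    refine (le_abs_self _).trans ?_
    rw [abs_mul]
    nlinarith [abs_nonneg (Real.log g)]
  have k5 : (|β| + 1) * |Real.log g| ≤ (|β| + 1) * (κ / 2 / (|β| + 1) * g) :=
    mul_le_mul_of_nonneg_left k1 (by positivity)
  have k6 : (|β| + 1) * (κ / 2 / (|β| + 1) * g) = g * κ / 2 := by
    field_simp
  linarith

theorem exists_base (p c d Q : ℕ) : ∃ Y : ℕ, 1 ≤ Y ∧ ∀ g M : ℕ, 1 ≤ g → M ≤ g →
    d * ((4 * (p + 1) ^ (g + 2) + M * g) + Q * ((4 * (p + 1) ^ (g + 2) + M * g) + c) + 1) + c ≤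
      Y ^ g := by
  refine ⟨((d * (Q + 1) + 1) * (c + 6)) * (p + 4) ^ 3, Nat.pos_of_ne_zero (by positivity),
    fun g M hg hM => ?_⟩
  obtain ⟨A, hA⟩ : ∃ A, A = 4 * (p + 1) ^ (g + 2) + M * g := ⟨_, rfl⟩
  rw [← hA]
  have h1 : M * g ≤ (p + 4) ^ (g + 2) := by
    have k1 : g ≤ 2 ^ g := Nat.lt_two_pow_self.le
    calc M * g ≤ 2 ^ g * 2 ^ g := Nat.mul_le_mul (hM.trans k1) k1
      _ = 4 ^ g := (mul_pow 2 2 g).symm
      _ ≤ (p + 4) ^ g := Nat.pow_le_pow_left (by omega) _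
      _ ≤ _ := Nat.pow_le_pow_right (by omega) (by omega)
  have h2 : (p + 1) ^ (g + 2) ≤ (p + 4) ^ (g + 2) := Nat.pow_le_pow_left (by omega) _
  have h3 : 1 ≤ (p + 4) ^ (g + 2) := Nat.one_le_pow _ _ (by omega)
  have h4 : A + c + 1 ≤ (c + 6) * (p + 4) ^ (g + 2) := by nlinarith
  have h5 : (p + 4) ^ (g + 2) ≤ ((p + 4) ^ 3) ^ g := by
    rw [← pow_mul]; exact Nat.pow_le_pow_right (by omega) (by omega)
  have h6 : (d * (Q + 1) + 1) * (c + 6) ≤ ((d * (Q + 1) + 1) * (c + 6)) ^ g :=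
    Nat.le_self_pow (by omega) _
  calc d * (A + Q * (A + c) + 1) + c ≤ (d * (Q + 1) + 1) * (A + c + 1) := by nlinarith
    _ ≤ (d * (Q + 1) + 1) * ((c + 6) * (p + 4) ^ (g + 2)) := Nat.mul_le_mul_left _ h4
    _ = ((d * (Q + 1) + 1) * (c + 6)) * (p + 4) ^ (g + 2) := by ring
    _ ≤ _ := by rw [mul_pow]; exact Nat.mul_le_mul h6 h5

theorem theta_lt (n G : ℕ) :
    ((n + 1) * (8 * (n + 1) ^ 4) + 1) ^ G < (9 * (n + 1) ^ 5) ^ (G + 1) := by
  have h1 : 1 ≤ (n + 1) ^ 5 := Nat.one_le_pow _ _ (by omega)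
  have h2 : (n + 1) * (8 * (n + 1) ^ 4) + 1 ≤ 9 * (n + 1) ^ 5 := by
    have : (n + 1) * (8 * (n + 1) ^ 4) = 8 * (n + 1) ^ 5 := by ring
    omega
  exact lt_of_le_of_lt (Nat.pow_le_pow_left h2 _) (Nat.pow_lt_pow_right (by omega) (by omega))

theorem prod_levels (π : Pat) (J x r y Θ s p w N₁ I : ℕ) (hs : s ≤ N₁) (hw : 1 ≤ w)
    (h1 : #π.irrP ≤ I) (h2 : #π.irrO ≤ 2 * I)
    (h : ∀ j ∈ Icc 1 J, x ^ #(π.Ej j) * r ^ π.uj j ≤
      Θ * ((s ^ #(π.Ld j) * p ^ #π.irrO) * (y ^ π.vj j * w ^ #π.irrP))) :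
    x ^ (∑ j ∈ Icc 1 J, #(π.Ej j)) * r ^ (∑ j ∈ Icc 1 J, π.uj j) ≤
      (Θ * ((p + 1) ^ (2 * I) * w ^ I)) ^ J * N₁ ^ (∑ j ∈ Icc 1 J, #(π.Ld j)) *
        y ^ (∑ j ∈ Icc 1 J, π.vj j) := by
  have e : (Θ * ((p + 1) ^ (2 * I) * w ^ I)) ^ J =
      ∏ _j ∈ Icc 1 J, (Θ * ((p + 1) ^ (2 * I) * w ^ I)) := by simp
  rw [e, ← prod_pow_eq_pow_sum, ← prod_pow_eq_pow_sum, ← prod_pow_eq_pow_sum,
    ← prod_pow_eq_pow_sum, ← prod_mul_distrib, ← prod_mul_distrib, ← prod_mul_distrib]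
  refine prod_le_prod' fun j hj => (h j hj).trans ?_
  have k1 : s ^ #(π.Ld j) ≤ N₁ ^ #(π.Ld j) := Nat.pow_le_pow_left hs _
  have k2 : p ^ #π.irrO ≤ (p + 1) ^ (2 * I) :=
    (Nat.pow_le_pow_left (by omega) _).trans (Nat.pow_le_pow_right (by omega) h2)
  have k3 : w ^ #π.irrP ≤ w ^ I := Nat.pow_le_pow_right hw h1
  calc Θ * ((s ^ #(π.Ld j) * p ^ #π.irrO) * (y ^ π.vj j * w ^ #π.irrP))
      ≤ Θ * ((N₁ ^ #(π.Ld j) * (p + 1) ^ (2 * I)) * (y ^ π.vj j * w ^ I)) := by gcongr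
    _ = _ := by ring

end LL

open LL in
theorem localStmt_of (hS : SwitchStmt) (hR : RepStmt) (hC : CycStmt) : LocalStmt := by
  intro P Λ _ _ pr r c d St hSt hr hd
  obtain ⟨N₁, hN1, hN2, hN3⟩ : ∃ N₁ : ℕ, #St ≤ N₁ ∧ 1 ≤ N₁ ∧ N₁ < r ^ 2 :=
    ⟨max #St 1, le_max_left _ _, le_max_right _ _, max_lt hSt (by nlinarith)⟩
  obtain ⟨κ, hκ⟩ : ∃ κ : ℝ, κ = Real.log r / 2 - Real.log N₁ / 4 := ⟨_, rfl⟩
  have hν : 0 ≤ Real.log N₁ := Real.log_natCast_nonneg _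
  have hρ : 0 ≤ Real.log r := Real.log_natCast_nonneg _
  have hκ' : 0 < κ := by
    have : Real.log N₁ < Real.log ((r : ℝ) ^ 2) :=
      Real.log_lt_log (by exact_mod_cast hN2) (by exact_mod_cast hN3)
    rw [Real.log_pow] at this
    push_cast at this
    linarith
  obtain ⟨Q, hQ⟩ := exists_nat_ge (2 / κ)
  rw [div_le_iff₀ hκ'] at hQ
  obtain ⟨Y, hY1, hY⟩ := exists_base (Fintype.card P) c d Q
  obtain ⟨C, hC'⟩ := exists_nat_ge ((Real.log N₁ + 2 * Real.log Y) / κ)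
  rw [div_le_iff₀ hκ'] at hC'
  have hlY : 0 ≤ Real.log Y := Real.log_natCast_nonneg _
  refine ⟨C, fun K B M m g₀ => ?_⟩
  obtain ⟨J, hJ⟩ := hR (K + B) M
  obtain ⟨G, hG⟩ : ∃ G, G = J + 2 * K + 3 * B := ⟨_, rfl⟩
  obtain ⟨W, hW⟩ : ∃ W, W = (Fintype.card P + 1) ^ (2 * (J * G)) *
    (2 * Fintype.card Λ + 1) ^ (J * G) := ⟨_, rfl⟩
  have hW0 : 0 < W := by rw [hW]; positivity
  obtain ⟨g, hg, hg'⟩ := exists_large
    (2 * m * (J * (((2 + 3 * G + J + 1 : ℕ) : ℝ) * (Real.log 9 + 5 * Real.log (M + 1)) +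
      Real.log W) + ((2 * (J * G) + 2 * J : ℕ) : ℝ) * (Real.log r / 2 + Real.log N₁ / 4)))
    (2 * m * (J * (((2 + 3 * G + J + 1 : ℕ) : ℝ) * 5))) κ hκ' (g₀ + 8 + M)
  obtain ⟨A, hA⟩ : ∃ A, A = 4 * (Fintype.card P + 1) ^ (g + 2) + M * g := ⟨_, rfl⟩
  refine ⟨g, A + Q * (A + c) + 1, by omega, by omega, fun D γ hD => ?_⟩
  obtain ⟨n, hn⟩ : ∃ n, n = d * (A + Q * (A + c) + 1) := ⟨_, rfl⟩
  have hnY : n + c ≤ Y ^ g := by rw [hn, hA]; exact hY g M (by omega) (by omega)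
  have hn' : A + Q * (A + c) + 1 ≤ n := by rw [hn]; nlinarith
  rw [← hn] at hD
  obtain ⟨Θ, hΘ⟩ : ∃ Θ, Θ = (9 * (M * g + 1) ^ 5) ^ (2 + 3 * G + J + 1) := ⟨_, rfl⟩
  have hΘ0 : 0 < Θ := by rw [hΘ]; positivity
  obtain ⟨⟨β₀, hβ₀⟩, hsw⟩ := hS P Λ pr D n g hD.bal hD.lo (by omega)
  by_contra hcon
  push Not at hcon
  have key : ∀ β : D.Conf, ∃ (π : Pat) (dd : ℕ → D.E × Bool) (j : ℕ), (D.graph β).Girth g →
      Real π (D.graph β) (Sum.inl γ) dd ∧ Tame (M * g) J G π ∧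
      Θ * ((#St ^ #(π.Ld j) * Fintype.card P ^ #π.irrO) *
        ((n + c) ^ π.vj j * (2 * Fintype.card Λ + 1) ^ #π.irrP)) <
        (n - A) ^ #(π.Ej j) * r ^ π.uj j := by
    have aux : ∀ β : D.Conf, (D.graph β).Girth g → ∃ (π : Pat) (dd : ℕ → D.E × Bool) (j : ℕ),
        Real π (D.graph β) (Sum.inl γ) dd ∧ Tame (M * g) J G π ∧
        Θ * ((#St ^ #(π.Ld j) * Fintype.card P ^ #π.irrO) *
          ((n + c) ^ π.vj j * (2 * Fintype.card Λ + 1) ^ #π.irrP)) <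
          (n - A) ^ #(π.Ej j) * r ^ π.uj j := by
      intro β hβ
      have h1 := hcon β hβ
      unfold FGraph.Local at h1
      push Not at h1
      obtain ⟨X, _, cf, k1, k2, k3, k4, k5⟩ := h1
      haveI : Nonempty X := by
        rw [← Fintype.card_pos_iff]
        by_contra h0
        rw [show Fintype.card X = 0 by omega] at k5
        omega
      obtain ⟨π, dd, R, hT, t1, t2, t3, t4⟩ := transfer hC (D.graph β) (Sum.inl γ)
        (fun e e' h => Sum.inl_ne_inr h) (fun n d h1 h2 => le_trans (by omega) (hβ n d h1 h2))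
        K B (M * g) J (hJ g (by omega) P _ hβ) X cf k1 k2 k3 k4
      rw [← hG] at hT
      by_contra hne
      push Not at hne
      obtain ⟨s1, s2, s3, s4⟩ := R.sums hT.2.2.1 hT.2.2.2
      have s5 := prod_levels π J (n - A) r (n + c) Θ #St (Fintype.card P)
        (2 * Fintype.card Λ + 1) N₁ (J * G) hN1 (by omega) s3 s4 fun j _ => hne π dd j R hT
      rw [← hW] at s5
      have p1 : (0 : ℝ) < ((n - A : ℕ) : ℝ) := by exact_mod_cast (by omega : 0 < n - A)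
      have p2 : (0 : ℝ) < (r : ℝ) := by exact_mod_cast (by omega : 0 < r)
      have p3 : (0 : ℝ) < ((n + c : ℕ) : ℝ) := by exact_mod_cast (by omega : 0 < n + c)
      have p4 : (0 : ℝ) < (N₁ : ℝ) := by exact_mod_cast (by omega : 0 < N₁)
      have p5 : (0 : ℝ) < (Θ : ℝ) := by exact_mod_cast hΘ0
      have p6 : (0 : ℝ) < (W : ℝ) := by exact_mod_cast hW0
      have s6 : ((n - A : ℕ) : ℝ) ^ (∑ j ∈ Icc 1 J, #(π.Ej j)) * (r : ℝ) ^ (∑ j ∈ Icc 1 J, π.uj j) ≤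
          ((Θ : ℝ) * W) ^ J * (N₁ : ℝ) ^ (∑ j ∈ Icc 1 J, #(π.Ld j)) *
            ((n + c : ℕ) : ℝ) ^ (∑ j ∈ Icc 1 J, π.vj j) := by exact_mod_cast s5
      have s7 := Real.log_le_log (by positivity) s6
      rw [Real.log_mul (by positivity) (by positivity), Real.log_mul (by positivity) (by positivity),
        Real.log_mul (by positivity) (by positivity), Real.log_pow, Real.log_pow, Real.log_pow,
        Real.log_pow, Real.log_pow] at s7
      have s8 := numeric _ _ _ _ _ κ π.T _ _ _ _ π.nk π.nb _ π.np _ m C g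
        (Real.log_natCast_nonneg (n - A))
        (Real.log_le_log p1 (by exact_mod_cast (by omega : n - A ≤ n + c))) ?_ hκ hκ' hν hρ
        (R.sum_Ej hT.2.2.1) (R.sum_vj hT.2.2.1) t4 s1 s2 s7 (by linarith) ?_ ?_
      · rw [t1, t2, t3] at s8
        exact absurd s8 (not_le.2 k5)
      · rw [← Real.log_div p3.ne' p1.ne']
        refine (Real.log_le_sub_one_of_pos (by positivity)).trans ?_
        rw [sub_le_iff_le_add, div_le_iff₀ p1]
        have q1 : ((n + c : ℕ) : ℝ) = ((n - A : ℕ) : ℝ) + ((A + c : ℕ) : ℝ) := by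
          exact_mod_cast (by omega : n + c = n - A + (A + c))
        have q2 : (Q : ℝ) * ((A + c : ℕ) : ℝ) ≤ ((n - A : ℕ) : ℝ) := by
          exact_mod_cast (by omega : Q * (A + c) ≤ n - A)
        have q3 : (0 : ℝ) ≤ ((A + c : ℕ) : ℝ) := Nat.cast_nonneg _
        rw [q1]
        nlinarith [mul_le_mul_of_nonneg_right hQ q3, mul_le_mul_of_nonneg_right q2 hκ'.le]
      · have q1 : Real.log ((n + c : ℕ) : ℝ) ≤ Real.log ((Y : ℝ) ^ g) :=
          Real.log_le_log p3 (by exact_mod_cast hnY)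
        rw [Real.log_pow] at q1
        have q2 : (0 : ℝ) ≤ g := Nat.cast_nonneg _
        nlinarith [mul_le_mul_of_nonneg_left hC' q2, mul_nonneg q2 hν]
      · refine le_trans ?_ hg'
        have q0 : (1 : ℝ) ≤ g := by exact_mod_cast (by omega : 1 ≤ g)
        have qM : (0 : ℝ) ≤ M := Nat.cast_nonneg _
        have q1 : Real.log ((M : ℝ) * g + 1) ≤ Real.log (M + 1) + Real.log g := by
          rw [← Real.log_mul (by positivity) (by positivity)]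
          exact Real.log_le_log (by positivity) (by nlinarith)
        have q2 : Real.log Θ = ((2 + 3 * G + J + 1 : ℕ) : ℝ) *
            (Real.log 9 + 5 * Real.log ((M : ℝ) * g + 1)) := by
          rw [hΘ, Nat.cast_pow, Real.log_pow]
          push_cast
          rw [Real.log_mul (by positivity) (by positivity), Real.log_pow]
          norm_num
        have q3 : Real.log Θ ≤ ((2 + 3 * G + J + 1 : ℕ) : ℝ) *
            (Real.log 9 + 5 * (Real.log (M + 1) + Real.log g)) := by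
          rw [q2]; gcongr
        rw [Real.log_mul p5.ne' p6.ne']
        have q4 : (0 : ℝ) ≤ 2 * m * J := by positivity
        nlinarith [mul_le_mul_of_nonneg_left q3 q4]
    obtain ⟨π₀, d₀, j₀, -⟩ := aux β₀ hβ₀
    intro β
    by_cases hβ : (D.graph β).Girth g
    · obtain ⟨π, dd, j, h⟩ := aux β hβ
      exact ⟨π, dd, j, fun _ => h⟩
    · exact ⟨π₀, d₀, j₀, fun h => absurd h hβ⟩
  choose pt dd jj key using key
  haveI : Fintype D.Conf := Fintype.ofFinite _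
  let Ω : Finset D.Conf := {β | (D.graph β).Girth g}
  have eΩ : Nat.card {β : D.Conf // (D.graph β).Girth g} = #Ω := by
    rw [Nat.card_eq_fintype_card, Fintype.card_subtype]
  have hΩ : 0 < #Ω := card_pos.2 ⟨β₀, mem_filter.2 ⟨mem_univ _, hβ₀⟩⟩
  have h1 : #(Ω.image pt) < Θ := by
    rw [hΘ]
    refine lt_of_le_of_lt (card_pat (M * g) J G _ fun π hπ => ?_) (theta_lt _ _)
    obtain ⟨β, hβ, rfl⟩ := mem_image.1 hπ
    obtain ⟨k1, k2, -⟩ := key β (mem_filter.1 hβ).2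
    exact ⟨k2, _, _, _, _, k1⟩
  have h2 := fib_mul Ω pt Θ #Ω fun β hβ => by
    obtain ⟨-, k2, k3⟩ := key β (mem_filter.1 hβ).2
    have k4 := fibre (γ := γ) (π := pt β) hD (by omega) g A (M * g) (jj β) k2.2.1
      (fun S t h => hsw S t A (by omega)) {x ∈ Ω | pt x = pt β} dd fun x hx => by
        obtain ⟨a1, a2⟩ := mem_filter.1 hx
        have a3 := (mem_filter.1 a1).2
        exact ⟨a3, a2 ▸ (key x a3).1⟩
    rw [eΩ] at k4
    refine Nat.le_of_mul_le_mul_right ?_ (lt_of_le_of_lt (Nat.zero_le _) k3)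
    calc #{x ∈ Ω | pt x = pt β} * Θ * ((n - A) ^ #((pt β).Ej (jj β)) * r ^ (pt β).uj (jj β))
        = Θ * (#{x ∈ Ω | pt x = pt β} *
          ((n - A) ^ #((pt β).Ej (jj β)) * r ^ (pt β).uj (jj β))) := by ring
      _ ≤ _ := Nat.mul_le_mul_left _ k4
      _ = #Ω * (Θ * ((#St ^ #((pt β).Ld (jj β)) * Fintype.card P ^ #(pt β).irrO) *
          ((n + c) ^ (pt β).vj (jj β) * (2 * Fintype.card Λ + 1) ^ #(pt β).irrP))) := by ring
      _ ≤ _ := Nat.mul_le_mul_left _ k3.le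
  nlinarith

end Crest.Agent.R177
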