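import Crest.Agent.R177.Cyc

/-!
Elementary moves keep planarity.
-/

set_option autoImplicit false

namespace Crest.Agent.R177

open Equiv Relation
open scoped Classical

namespace Move
open Cyc

variable {X : Type} [Finite X] {φ α φ' α' : Perm X} {a b : X}

omit [Finite X] in
theorem ais (f : Perm X) (x : X) : f (f⁻¹ x) = x := by simp

omit [Finite X] in
theorem stepL (φ α : Perm X) (x : X) : EqvGen (Step φ α) x (φ x) := EqvGen.rel _ _ (Or.inl rfl)

omit [Finite X] in
theorem stepR (φ α : Perm X) (x : X) : EqvGen (Step φ α) x (α x) := EqvGen.rel _ _ (Or.inr rfl)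

theorem eqv_of_left {x y : X} (h : φ.SameCycle x y) : EqvGen (Step φ α) x y :=
  eqvGen_of_sameCycle (stepL φ α) h

theorem eqv_of_right {x y : X} (h : α.SameCycle x y) : EqvGen (Step φ α) x y :=
  eqvGen_of_sameCycle (stepR φ α) h

theorem eqv_of_mul {x y : X} (h : (φ * α).SameCycle x y) : EqvGen (Step φ α) x y :=
  eqvGen_of_sameCycle (fun x => (stepR φ α x).trans _ _ _ (stepL φ α (α x))) h

theorem ncc_add_eq (h1 : ∀ x, EqvGen (add (Step φ' α') a b) x (φ x))
    (h2 : ∀ x, EqvGen (add (Step φ' α') a b) x (α x))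
    (h3 : ∀ x, EqvGen (Step φ α) x (φ' x)) (h4 : ∀ x, EqvGen (Step φ α) x (α' x))
    (h5 : EqvGen (Step φ α) a b) : ncc (add (Step φ' α') a b) = orb φ α := by
  refine ncc_congr ?_ ?_
  · rintro x y ((rfl | rfl) | ⟨rfl, rfl⟩)
    exacts [h3 x, h4 x, h5]
  · rintro x y (rfl | rfl)
    exacts [h1 x, h2 x]

theorem orb_cases (h : ncc (add (Step φ' α') a b) = orb φ α) :
    orb φ' α' = orb φ α ∨ (orb φ' α' = orb φ α + 1 ∧ ¬ EqvGen (Step φ' α') a b) := by
  by_cases h1 : EqvGen (Step φ' α') a b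
  · exact Or.inl ((ncc_add_of_eqv h1).symm.trans h)
  · exact Or.inr ⟨by rw [← h]; exact (ncc_add_of_not h1).symm, h1⟩

omit [Finite X] in
theorem mul_swap_mul (φ α : Perm X) (a b : X) :
    φ * swap a b * α = φ * α * swap (α⁻¹ a) (α⁻¹ b) := by
  rw [mul_assoc, swap_mul_eq, mul_assoc]

theorem move1 (hp : Planar φ α) (h : φ.SameCycle a b) : Planar (φ * swap a b) α := by
  rcases eq_or_ne a b with rfl | hab
  · rwa [swap_self, ← Perm.one_def, mul_one]
  have e := eqv_of_left (α := α) h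
  have h1 := cyc_mul_swap_of_sameCycle hab h
  have h2 := orb_cases (ncc_add_eq (φ' := φ * swap a b) (α' := α)
    (fun x => (swap_rel (add_pair _ a b) x).trans _ _ _ (add_left (Or.inl (by simp))))
    (fun x => add_left (Or.inr rfl))
    (fun x => (swap_rel e x).trans _ _ _ (stepL φ α _)) (stepR φ α) e)
  unfold Planar at hp ⊢
  rcases h2 with h2 | ⟨h2, h3⟩
  · have := cyc_le_mul_swap (φ * α) (α⁻¹ a) (α⁻¹ b)
    rw [mul_swap_mul]; omega
  · rcases cyc_mul_swap (σ := φ * α) (a := α⁻¹ a) (b := α⁻¹ b) (by simpa using hab) with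
      ⟨-, -, h4⟩ | ⟨-, h4, -⟩
    · rw [mul_swap_mul]; omega
    · rw [← mul_swap_mul] at h4
      have e1 := stepR (φ * swap a b) α (α⁻¹ a)
      have e2 := stepR (φ * swap a b) α (α⁻¹ b)
      simp only [ais] at e1 e2
      exact absurd ((e1.symm _ _).trans _ _ _ ((eqv_of_mul h4).trans _ _ _ e2)) h3

theorem move2 (hp : Planar φ α) (h : α.SameCycle a b) :
    Planar (φ * swap a b) (swap a b * α) := by
  rcases eq_or_ne a b with rfl | hab
  · rwa [swap_self, ← Perm.one_def, mul_one, one_mul]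
  have e := eqv_of_right (φ := φ) h
  have h1 := cyc_swap_mul_of_sameCycle hab h
  have h0 : φ * swap a b * (swap a b * α) = φ * α := by
    rw [mul_assoc, swap_mul_self_mul]
  have h2 := orb_cases (ncc_add_eq (φ' := φ * swap a b) (α' := swap a b * α)
    (fun x => (swap_rel (add_pair _ a b) x).trans _ _ _ (add_left (Or.inl (by simp))))
    (fun x => (add_left (r := Step (φ * swap a b) (swap a b * α)) (Or.inr rfl)).trans _ _ _ (by
      simpa using swap_rel (add_pair (Step (φ * swap a b) (swap a b * α)) a b) (swap a b (α x))))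
    (fun x => (swap_rel e x).trans _ _ _ (stepL φ α _))
    (fun x => (stepR φ α x).trans _ _ _ (swap_rel e _)) e)
  unfold Planar at hp ⊢
  rw [h0]
  rcases h2 with h2 | ⟨h2, h3⟩
  · have := cyc_le_mul_swap φ a b
    omega
  · rcases cyc_mul_swap (σ := φ) hab with ⟨-, -, h4⟩ | ⟨-, h4, -⟩
    · omega
    · exact absurd (eqv_of_left h4) h3

theorem move3 (hp : Planar φ α) (h : α.SameCycle a b) : Planar φ (swap a b * α) := by
  rcases eq_or_ne a b with rfl | hab
  · rwa [swap_self, ← Perm.one_def, one_mul]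
  have e := eqv_of_right (φ := φ) h
  have h1 := cyc_swap_mul_of_sameCycle hab h
  have h0 : φ * (swap a b * α) = φ * α * swap (α⁻¹ a) (α⁻¹ b) := by
    rw [← mul_assoc, mul_swap_mul]
  have h2 := orb_cases (ncc_add_eq (φ' := φ) (α' := swap a b * α)
    (fun x => add_left (Or.inl rfl))
    (fun x => (add_left (r := Step φ (swap a b * α)) (Or.inr rfl)).trans _ _ _ (by
      simpa using swap_rel (add_pair (Step φ (swap a b * α)) a b) (swap a b (α x))))
    (stepL φ α) (fun x => (stepR φ α x).trans _ _ _ (swap_rel e _)) e)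
  unfold Planar at hp ⊢
  rcases h2 with h2 | ⟨h2, h3⟩
  · have := cyc_le_mul_swap (φ * α) (α⁻¹ a) (α⁻¹ b)
    rw [h0]; omega
  · rcases cyc_mul_swap (σ := φ * α) (a := α⁻¹ a) (b := α⁻¹ b) (by simpa using hab) with
      ⟨-, -, h4⟩ | ⟨-, h4, -⟩
    · rw [h0]; omega
    · rw [← h0] at h4
      have e1 := stepR φ (swap a b * α) (α⁻¹ a)
      have e2 := stepR φ (swap a b * α) (α⁻¹ b)
      simp only [Perm.mul_apply, ais, swap_apply_left, swap_apply_right] at e1 e2
      exact absurd (((e1.symm _ _).trans _ _ _ ((eqv_of_mul h4).trans _ _ _ e2)).symm _ _) h3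

theorem move4 (hp : Planar φ α) (h : ¬ EqvGen (Step φ α) a b) : Planar (φ * swap a b) α := by
  have hn : ¬ φ.SameCycle a b := fun h' => h (eqv_of_left h')
  have h1 := cyc_mul_swap_of_not hn
  have e := eqv_of_left (α := α) (sameCycle_mul_swap_of_not hn)
  have h2 := ncc_add_eq (φ' := φ) (α' := α) (φ := φ * swap a b) (α := α)
    (fun x => (swap_rel (add_pair _ a b) x).trans _ _ _ (add_left (Or.inl rfl)))
    (fun x => add_left (Or.inr rfl))
    (fun x => (swap_rel e x).trans _ _ _ (by simpa using stepL (φ * swap a b) α (swap a b x)))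
    (stepR _ α) e
  have h3 : ncc (add (Step φ α) a b) + 1 = orb φ α := ncc_add_of_not h
  have h4 := cyc_le_mul_swap (φ * α) (α⁻¹ a) (α⁻¹ b)
  unfold Planar at hp ⊢
  rw [mul_swap_mul]
  omega

theorem pillow (σ : Perm X) : Planar (Perm.sumCongr σ σ⁻¹) (Equiv.sumComm X X) := by
  have h1 : Nat.card X ≤ cyc (Equiv.sumComm X X) :=
    card_le_ncc (Sum.elim id id) (fun x => ⟨.inl x, rfl⟩) (by rintro (x | x) _ rfl <;> rfl)
  have h2 : Nat.card X ≤ cyc (Perm.sumCongr σ σ⁻¹ * (Equiv.sumComm X X : Perm (X ⊕ X))) :=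
    card_le_ncc (Sum.elim id σ) (fun x => ⟨.inl x, rfl⟩) (by rintro (x | x) _ rfl <;> simp)
  have h3 : orb (Perm.sumCongr σ σ⁻¹) (Equiv.sumComm X X) ≤ cyc σ := by
    refine ncc_le_of_surj Sum.inl ?_ ?_
    · rintro x _ rfl; exact EqvGen.rel _ _ (Or.inl rfl)
    · rintro (x | x)
      · exact ⟨x, EqvGen.refl _⟩
      · exact ⟨x, EqvGen.rel _ _ (Or.inr rfl)⟩
  unfold Planar
  rw [cyc_sumCongr, cyc_inv, Nat.card_sum]
  omega

theorem sameCycle_remove {z x y : X} (hx : x ≠ z) (hy : y ≠ z) (h : φ.SameCycle x y) :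
    (φ * swap (φ⁻¹ z) z).SameCycle x y := by
  by_cases hw : φ⁻¹ z = z
  · rwa [hw, swap_self, ← Perm.one_def, mul_one]
  let g : X → X := fun u => if u = z then φ⁻¹ z else u
  have key : ∀ u, (φ * swap (φ⁻¹ z) z).SameCycle (g u) (g (φ u)) := by
    intro u
    by_cases h1 : u = z
    · subst h1
      have : φ u ≠ u := fun e => hw (by rw [Perm.inv_eq_iff_eq, e])
      simp only [g, if_true, if_neg this]
      exact ⟨1, by simp⟩
    by_cases h2 : u = φ⁻¹ z
    · subst h2
      simp only [g, if_neg h1, ais, if_true]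
      exact Perm.SameCycle.refl _ _
    · have : φ u ≠ z := fun e => h2 (by rw [← e]; simp)
      simp only [g, if_neg h1, if_neg this]
      exact ⟨1, by rw [zpow_one, Perm.mul_apply, swap_apply_of_ne_of_ne h2 h1]⟩
  have := eqvGen_imp (s := fun x y => (φ * swap (φ⁻¹ z) z) x = y) g
    (by rintro u _ rfl; exact eqvGen_iff_sameCycle.2 (key u)) (eqvGen_iff_sameCycle.2 h)
  simp only [g, if_neg hx, if_neg hy] at this
  exact eqvGen_iff_sameCycle.1 this

theorem prune (hp : Planar φ α) (Z : Set X) :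
    ∃ φ' : Perm X, Planar φ' α ∧ (∀ x ∈ Z, φ' x = x) ∧
      (∀ x, x ∉ Z → φ x ∉ Z → φ' x = φ x) ∧
      (∀ x y, x ∉ Z → y ∉ Z → (φ.SameCycle x y ↔ φ'.SameCycle x y)) := by
  induction Z, Set.toFinite Z using Set.Finite.induction_on with
  | empty => exact ⟨φ, hp, by simp, by simp, by simp⟩
  | @insert z Z hz _ ih =>
    obtain ⟨ψ, h1, h2, h3, h4⟩ := ih
    have hc : ψ.SameCycle (ψ⁻¹ z) z := ⟨1, by simp⟩
    refine ⟨ψ * swap (ψ⁻¹ z) z, move1 h1 hc, ?_, ?_, ?_⟩
    · rintro x (rfl | hx)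
      · simp
      · have e1 : x ≠ z := fun e => hz (e ▸ hx)
        have e2 : x ≠ ψ⁻¹ z := fun e => e1 (by rw [← h2 x hx, e]; simp)
        rw [Perm.mul_apply, swap_apply_of_ne_of_ne e2 e1, h2 x hx]
    · intro x hx hφx
      simp only [Set.mem_insert_iff, not_or] at hx hφx
      have e := h3 x hx.2 hφx.2
      have e2 : x ≠ ψ⁻¹ z := fun e' => hφx.1 (by rw [← e, e']; simp)
      rw [Perm.mul_apply, swap_apply_of_ne_of_ne e2 hx.1, e]
    · intro x y hx hy
      simp only [Set.mem_insert_iff, not_or] at hx hy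
      rw [h4 x y hx.2 hy.2]
      exact ⟨sameCycle_remove hx.1 hy.1, sameCycle_of_mul_swap hc⟩

end Move

open Move Cyc in
theorem moveStmt : MoveStmt := by
  refine ⟨fun X _ φ α a b => move1, fun X _ φ α a b => move2, fun X _ φ α a b => move3,
    fun X _ φ α a b => move4, ?_, ?_, ?_, fun X _ σ => pillow σ,
    fun X _ φ α Z hp _ => prune hp Z⟩
  · intro X Y _ _ φ α φ' α' h h'
    unfold Planar at h h' ⊢
    rw [Perm.sumCongr_mul, cyc_sumCongr, cyc_sumCongr, cyc_sumCongr, orb_sumCongr, Nat.card_sum]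
    omega
  · intro X Y _ e φ α h
    unfold Planar at h ⊢
    rwa [← permCongr_mul, cyc_permCongr, cyc_permCongr, cyc_permCongr, orb_permCongr,
      ← Nat.card_congr e]
  · intro X _ σ
    have h1 := orb_le_left σ σ⁻¹
    unfold Planar
    rw [mul_inv_cancel, cyc_one, cyc_inv]
    omega

end Crest.Agent.R177
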