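import Crest.Agent.R177.Defs

/-!
Overlap patterns of boundedly many short paths in a graph of large girth.
-/

set_option autoImplicit false

namespace Crest.Agent.R177

open Finset
open scoped Classical

namespace Rp

variable {P : Type} {L : FGraph P}

theorem tail_rev (a : L.Dart) : L.tail (L.rev a) = L.head a := by
  obtain ⟨e, b⟩ := a; cases b <;> rfl

theorem head_rev (a : L.Dart) : L.head (L.rev a) = L.tail a := by
  obtain ⟨e, b⟩ := a; cases b <;> rfl

theorem rev_rev (a : L.Dart) : L.rev (L.rev a) = a := by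
  obtain ⟨e, b⟩ := a; cases b <;> rfl

theorem rev_inj {a b : L.Dart} (h : L.rev a = L.rev b) : a = b := by
  rw [← rev_rev a, h, rev_rev]

/-- a reduced path with `n` darts `p` and vertices `x` -/
structure RP (L : FGraph P) (n : ℕ) (p : ℕ → L.Dart) (x : ℕ → L.V) : Prop where
  tl : ∀ k < n, L.tail (p k) = x k
  hd : ∀ k < n, L.head (p k) = x (k + 1)
  red : ∀ k, k + 1 < n → p (k + 1) ≠ L.rev (p k)

theorem RP.closed {g n : ℕ} (hg : L.Girth g) {p : ℕ → L.Dart} {x : ℕ → L.V} (H : RP L n p x)
    (hn : 0 < n) (hx : x n = x 0) : g ≤ n := by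
  obtain ⟨n, rfl⟩ : ∃ m, n = m + 1 := ⟨n - 1, by omega⟩
  refine hg n p (fun i hi => ⟨?_, H.red i (by omega)⟩) ?_
  · rw [H.hd i (by omega), H.tl (i + 1) (by omega)]
  · rw [H.hd n (by omega), H.tl 0 (by omega), hx]

theorem RP.mono {n m : ℕ} {p : ℕ → L.Dart} {x : ℕ → L.V} (H : RP L n p x) (h : m ≤ n) :
    RP L m p x :=
  ⟨fun k hk => H.tl k (by omega), fun k hk => H.hd k (by omega), fun k hk => H.red k (by omega)⟩

theorem RP.reverse {n : ℕ} {p : ℕ → L.Dart} {x : ℕ → L.V} (H : RP L n p x) :
    RP L n (fun k => L.rev (p (n - 1 - k))) (fun k => x (n - k)) := by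
  refine ⟨fun k hk => ?_, fun k hk => ?_, fun k hk h => ?_⟩
  · rw [tail_rev, H.hd _ (by omega), show n - 1 - k + 1 = n - k by omega]
  · rw [head_rev, H.tl _ (by omega), show n - 1 - k = n - (k + 1) by omega]
  · refine H.red (n - 1 - (k + 1)) (by omega) ?_
    rw [rev_rev] at h
    rw [h, show n - 1 - (k + 1) + 1 = n - 1 - k by omega]

theorem RP.append {n m : ℕ} {p q : ℕ → L.Dart} {x y : ℕ → L.V} (H : RP L (n + 1) p x)
    (H' : RP L m q y) (h : x (n + 1) = y 0) (hj : q 0 ≠ L.rev (p n)) :
    RP L (n + 1 + m) (fun k => if k < n + 1 then p k else q (k - (n + 1)))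
      (fun k => if k < n + 1 then x k else y (k - (n + 1))) := by
  refine ⟨fun k hk => ?_, fun k hk => ?_, fun k hk => ?_⟩
  · split_ifs with h1
    · exact H.tl k h1
    · exact H'.tl _ (by omega)
  · split_ifs with h1 h2 h2
    · exact H.hd k h1
    · rw [H.hd k h1, show k + 1 - (n + 1) = 0 by omega, ← h, show k = n by omega]
    · omega
    · rw [H'.hd _ (by omega), show k - (n + 1) + 1 = k + 1 - (n + 1) by omega]
  · split_ifs with h1 h2 h2
    · exact H.red k h1
    · omega
    · rw [show k + 1 - (n + 1) = 0 by omega, show k = n by omega]; exact hj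
    · rw [show k + 1 - (n + 1) = k - (n + 1) + 1 by omega]
      exact H'.red _ (by omega)

theorem RP.unique {g : ℕ} (hg : L.Girth g) : ∀ (n m : ℕ) {p q : ℕ → L.Dart} {x y : ℕ → L.V},
    RP L n p x → RP L m q y → x 0 = y 0 → x n = y m → n + m < g →
    n = m ∧ ∀ k ≤ n, x k = y k := by
  intro n
  induction n with
  | zero =>
    intro m p q x y _ H' h0 h1 hl
    rcases Nat.eq_zero_or_pos m with rfl | hm
    · exact ⟨rfl, fun k hk => by rw [Nat.le_zero.1 hk]; exact h0⟩
    · have := H'.closed hg hm (h1.symm.trans h0); omega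
  | succ n ih =>
    intro m p q x y H H' h0 h1 hl
    cases m with
    | zero => have := H.closed hg (by omega) (h1.trans h0.symm); omega
    | succ m =>
      by_cases he : p n = q m
      · have h2 : x n = y m := by rw [← H.tl n (by omega), he, H'.tl m (by omega)]
        obtain ⟨rfl, h3⟩ := ih m (H.mono (by omega)) (H'.mono (by omega)) h0 h2 (by omega)
        refine ⟨rfl, fun k hk => ?_⟩
        rcases hk.eq_or_lt with rfl | hk
        · exact h1
        · exact h3 k (by omega)
      · have := (H.append H'.reverse (by simpa using h1) (fun h => he (by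
          simpa using (rev_inj h).symm))).closed hg (by omega) (by
            rw [if_neg (by omega), if_pos (by omega), h0]
            congr 1; omega)
        omega

/-- block number -/
noncomputable def blk (W : Finset ℕ) (g i : ℕ) : ℕ := #(W.filter (· < i)) + i / (g / 2)

theorem blk_mono (W : Finset ℕ) (g : ℕ) {i j : ℕ} (h : i ≤ j) : blk W g i ≤ blk W g j := by
  unfold blk
  have h1 : #(W.filter (· < i)) ≤ #(W.filter (· < j)) :=
    card_le_card fun k hk => by rw [mem_filter] at hk ⊢; exact ⟨hk.1, by omega⟩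
  have h2 : i / (g / 2) ≤ j / (g / 2) := Nat.div_le_div_right h
  omega

theorem blk_same {W : Finset ℕ} {g i j : ℕ} (hg : 8 ≤ g) (h : i ≤ j)
    (he : blk W g i = blk W g j) : j - i < g / 2 ∧ ∀ k, i ≤ k → k < j → k ∉ W := by
  unfold blk at he
  have hs : W.filter (· < i) ⊆ W.filter (· < j) :=
    fun k hk => by rw [mem_filter] at hk ⊢; exact ⟨hk.1, by omega⟩
  have h1 : #(W.filter (· < i)) ≤ #(W.filter (· < j)) := card_le_card hs
  have h2 : i / (g / 2) ≤ j / (g / 2) := Nat.div_le_div_right h
  constructor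
  · have h3 : i / (g / 2) = j / (g / 2) := by omega
    have h4 := Nat.div_add_mod i (g / 2)
    have h5 := Nat.div_add_mod j (g / 2)
    have h6 := Nat.mod_lt j (show 0 < g / 2 by omega)
    rw [h3] at h4
    omega
  · intro k hk1 hk2 hk
    have := eq_of_subset_of_card_le hs (by omega)
    have h7 : k ∈ W.filter (· < j) := mem_filter.2 ⟨hk, hk2⟩
    rw [← this, mem_filter] at h7
    omega

theorem blk_lt {W : Finset ℕ} {g i B M T : ℕ} (hg : 8 ≤ g) (hT : T ≤ M * g) (hW : #W ≤ B)
    (hi : i < T) : blk W g i < B + 3 * M + 1 := by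
  unfold blk
  have h1 : #(W.filter (· < i)) ≤ #W := card_filter_le _ _
  have h2 : i / (g / 2) ≤ 3 * M := by
    apply Nat.div_le_of_le_mul
    have : M * g ≤ M * (3 * (g / 2)) := Nat.mul_le_mul_left _ (by omega)
    calc i ≤ M * (3 * (g / 2)) := by omega
      _ = g / 2 * (3 * M) := by ring
  omega

theorem rep_spec {V : Type} (z : ℕ → V) (i : ℕ) : z (rep z i) = z i :=
  Nat.sInf_mem (s := {j | z j = z i}) ⟨i, rfl⟩

theorem rep_le {V : Type} (z : ℕ → V) {i l : ℕ} (h : z l = z i) : rep z i ≤ l := Nat.sInf_le h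

section main
variable {g T : ℕ} {d : ℕ → L.Dart} {W : Finset ℕ}

theorem seg_fwd (hg : 8 ≤ g) (hd : ∀ i, i + 1 < T → i ∉ W → L.Nx (d i) (d (i + 1))) {i j : ℕ}
    (h : i ≤ j) (hj : j < T) (he : blk W g i = blk W g j) :
    RP L (j - i) (fun k => d (i + k)) (fun k => L.tail (d (i + k))) := by
  obtain ⟨-, h2⟩ := blk_same hg h he
  refine ⟨fun k _ => rfl, fun k hk => ?_, fun k hk => ?_⟩
  · exact (hd (i + k) (by omega) (h2 _ (by omega) (by omega))).1
  · exact (hd (i + k) (by omega) (h2 _ (by omega) (by omega))).2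

theorem seg (hg : 8 ≤ g) (hd : ∀ i, i + 1 < T → i ∉ W → L.Nx (d i) (d (i + 1))) {i j : ℕ}
    (hi : i < T) (hj : j < T) (he : blk W g i = blk W g j) :
    ∃ n p x, RP L n p x ∧ n < g / 2 ∧ (i + n = j ∨ j + n = i) ∧ x 0 = L.tail (d i) ∧
      x n = L.tail (d j) ∧ ∀ k ≤ n, ∃ l, blk W g l = blk W g i ∧ x k = L.tail (d l) := by
  rcases le_total i j with h | h
  · refine ⟨j - i, _, _, seg_fwd hg hd h hj he, (blk_same hg h he).1, by omega, rfl, ?_,
      fun k hk => ⟨i + k, ?_, rfl⟩⟩
    · rw [show i + (j - i) = j by omega]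
    · exact le_antisymm (he ▸ blk_mono W g (by omega)) (blk_mono W g (by omega))
  · refine ⟨i - j, _, _, (seg_fwd hg hd h hi he.symm).reverse, (blk_same hg h he.symm).1,
      by omega, ?_, ?_, fun k hk => ⟨j + (i - j - k), ?_, rfl⟩⟩
    · rw [show j + (i - j - 0) = i by omega]
    · simp
    · exact le_antisymm (blk_mono W g (by omega)) (he ▸ blk_mono W g (by omega))

theorem inj_blk (hg : 8 ≤ g) (hL : L.Girth g)
    (hd : ∀ i, i + 1 < T → i ∉ W → L.Nx (d i) (d (i + 1))) {i j : ℕ}
    (hi : i < T) (hj : j < T) (he : blk W g i = blk W g j) (hz : L.tail (d i) = L.tail (d j)) :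
    i = j := by
  obtain ⟨n, p, x, H, hn, hij, h0, h1, -⟩ := seg hg hd hi hj he
  rcases Nat.eq_zero_or_pos n with rfl | hn0
  · omega
  · have := H.closed hL hn0 (by rw [h0, h1, hz]); omega

theorem convex (hg : 8 ≤ g) (hL : L.Girth g)
    (hd : ∀ i, i + 1 < T → i ∉ W → L.Nx (d i) (d (i + 1))) {a b k j j' : ℕ}
    (hak : a ≤ k) (hkb : k ≤ b) (hb : b < T) (he : blk W g a = blk W g b) (hj : j < T)
    (hj' : j' < T) (he' : blk W g j = blk W g j') (hz : L.tail (d j) = L.tail (d a))
    (hz' : L.tail (d j') = L.tail (d b)) :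
    (j + (b - a) = j' ∨ j' + (b - a) = j) ∧
      ∃ l, blk W g l = blk W g j ∧ L.tail (d l) = L.tail (d k) := by
  obtain ⟨n, p, x, H, hn, hij, h0, h1, h2⟩ := seg hg hd hj hj' he'
  have H' := seg_fwd hg hd (hak.trans hkb) hb he
  have hl := (blk_same hg (hak.trans hkb) he).1
  obtain ⟨rfl, h3⟩ := RP.unique hL _ _ H' H (by rw [h0, hz]; rfl)
    (by rw [h1, hz', show a + (b - a) = b by omega]) (by omega)
  refine ⟨hij, ?_⟩
  obtain ⟨l, hl1, hl2⟩ := h2 (k - a) (by omega)
  refine ⟨l, hl1, ?_⟩
  rw [← hl2, ← h3 _ (by omega), show a + (k - a) = k by omega]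

end main

end Rp

open Rp in
theorem repStmt : RepStmt := by
  intro B M
  set nb := B + 3 * M + 1 with hnb
  refine ⟨2 + 2 * (nb + 2 * (nb * nb)), fun g hg P L hL T d W hT hW hd => ?_⟩
  have hlt : ∀ i < T, blk W g i < nb := fun i hi => blk_lt hg hT hW hi
  constructor
  · intro i
    have : #{j ∈ range T | L.tail (d j) = L.tail (d i)} ≤ #(range nb) := by
      refine card_le_card_of_injOn (blk W g) (fun j hj => ?_) (fun j hj j' hj' h => ?_)
      · simp only [coe_filter, mem_range, Set.mem_ofPred_eq] at hj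
        simpa using hlt j hj.1
      · simp only [coe_filter, mem_range, Set.mem_ofPred_eq] at hj hj'
        exact inj_blk hg hL hd hj.1 hj'.1 h (hj.2.trans hj'.2.symm)
    rw [card_range] at this
    omega
  set z : ℕ → L.V := fun j => L.tail (d j) with hz
  have hr : ∀ i < T, rep z i < T := fun i hi => (rep_le z rfl).trans_lt hi
  let q : ℕ → ℕ := fun i => blk W g (rep z i)
  let E1 := (range T).filter fun i => i + 1 < T ∧ blk W g i ≠ blk W g (i + 1)
  let E2 := (range T).filter fun i => i + 1 < T ∧ blk W g i = blk W g (i + 1) ∧ q i < q (i + 1)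
  let E3 := (range T).filter fun i => i + 1 < T ∧ blk W g i = blk W g (i + 1) ∧ q (i + 1) < q i
  have c1 : #E1 ≤ nb := by
    rw [← card_range nb]
    refine card_le_card_of_injOn (blk W g) (fun j hj => ?_) ?_
    · simp only [E1, coe_filter, mem_range, Set.mem_ofPred_eq] at hj
      simpa using hlt j hj.1
    · have key : ∀ j ∈ E1, ∀ j', j < j' → blk W g j ≠ blk W g j' := by
        intro j hj j' hjj h
        have h1 := (mem_filter.1 hj).2.2
        have h2 := blk_mono W g (show j ≤ j + 1 by omega)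
        have h3 := blk_mono W g (show j + 1 ≤ j' by omega)
        omega
      intro j hj j' hj' h
      rcases lt_trichotomy j j' with h1 | h1 | h1
      · exact absurd h (key j hj j' h1)
      · exact h1
      · exact absurd h.symm (key j' hj' j h1)
  have c2 : #E2 ≤ nb * nb := by
    rw [← card_range nb, ← card_product]
    refine card_le_card_of_injOn (fun i => (blk W g i, q i)) (fun j hj => ?_) ?_
    · simp only [E2, coe_filter, mem_range, Set.mem_ofPred_eq] at hj
      simpa using ⟨hlt j hj.1, hlt _ (hr j hj.1)⟩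
    · have key : ∀ j ∈ E2, ∀ j' ∈ E2, j < j' → (blk W g j, q j) ≠ (blk W g j', q j') := by
        intro j hj j' hj' hjj h
        obtain ⟨h1, h2⟩ := Prod.ext_iff.1 h
        simp only [E2, mem_filter, mem_range] at hj hj' h1 h2
        obtain ⟨-, l, hl1, hl2⟩ := convex (k := j + 1) hg hL hd (by omega) (by omega) hj'.1 h1
          (hr j hj.1) (hr j' hj'.1) h2 (rep_spec z j) (rep_spec z j')
        have h3 : q (j + 1) ≤ blk W g l := blk_mono W g (rep_le z hl2)
        have h4 : blk W g l = q j := hl1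
        omega
      intro j hj j' hj' h
      rcases lt_trichotomy j j' with h1 | h1 | h1
      · exact absurd h (key j hj j' hj' h1)
      · exact h1
      · exact absurd h.symm (key j' hj' j hj h1)
  have c3 : #E3 ≤ nb * nb := by
    rw [← card_range nb, ← card_product]
    refine card_le_card_of_injOn (fun i => (blk W g i, q (i + 1))) (fun j hj => ?_) ?_
    · simp only [E3, coe_filter, mem_range, Set.mem_ofPred_eq] at hj
      simpa using ⟨hlt j hj.1, hlt _ (hr _ hj.2.1)⟩
    · have key : ∀ j ∈ E3, ∀ j' ∈ E3, j < j' →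
          (blk W g j, q (j + 1)) ≠ (blk W g j', q (j' + 1)) := by
        intro j hj j' hj' hjj h
        obtain ⟨h1, h2⟩ := Prod.ext_iff.1 h
        simp only [E3, mem_filter, mem_range] at hj hj' h1 h2
        obtain ⟨-, l, hl1, hl2⟩ := convex (a := j + 1) (b := j' + 1) (k := j') hg hL hd
          (by omega) (by omega) hj'.2.1 (by omega)
          (hr _ hj.2.1) (hr _ hj'.2.1) h2 (rep_spec z _) (rep_spec z _)
        have h3 : q j' ≤ blk W g l := blk_mono W g (rep_le z hl2)
        have h4 : blk W g l = q (j + 1) := hl1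
        omega
      intro j hj j' hj' h
      rcases lt_trichotomy j j' with h1 | h1 | h1
      · exact absurd h (key j hj j' hj' h1)
      · exact h1
      · exact absurd h.symm (key j' hj' j hj h1)
  let E := E1 ∪ E2 ∪ E3
  have cE : #E ≤ nb + 2 * (nb * nb) := by
    have a1 := card_union_le (E1 ∪ E2) E3
    have a2 := card_union_le E1 E2
    simp only [E]
    omega
  have good : ∀ i, i + 1 < T → i ∉ E → blk W g i = blk W g (i + 1) ∧
      (rep z i + 1 = rep z (i + 1) ∨ rep z (i + 1) + 1 = rep z i) := by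
    intro i hi hE
    simp only [E, E1, E2, E3, mem_union, mem_filter, mem_range] at hE
    have h1 : blk W g i = blk W g (i + 1) := by
      by_contra h; exact hE (Or.inl (Or.inl ⟨by omega, hi, h⟩))
    have h2 : q i = q (i + 1) := by
      rcases lt_trichotomy (q i) (q (i + 1)) with h | h | h
      · exact absurd (Or.inl (Or.inr ⟨by omega, hi, h1, h⟩)) hE
      · exact h
      · exact absurd (Or.inr ⟨by omega, hi, h1, h⟩) hE
    have := (convex (a := i) (b := i + 1) (k := i) hg hL hd le_rfl (by omega) hi h1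
      (hr _ (by omega)) (hr _ hi) h2 (rep_spec z _) (rep_spec z _)).1
    rw [show i + 1 - i = 1 by omega] at this
    exact ⟨h1, this⟩
  refine le_trans (card_le_card (t := {0, T - 1} ∪ (E ∪ E.image (· + 1))) fun i hi => ?_) ?_
  · rw [mem_filter, mem_range] at hi
    by_contra hc
    simp only [mem_union, mem_insert, mem_singleton, mem_image, not_or, not_exists,
      not_and] at hc
    obtain ⟨⟨h0, h1⟩, h2, h3⟩ := hc
    obtain ⟨k, rfl⟩ : ∃ k, i = k + 1 := ⟨i - 1, by omega⟩
    have h4 : k + 1 + 1 < T := by omega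
    obtain ⟨g1, g2⟩ := good k hi.1 (fun h => h3 k h rfl)
    obtain ⟨g3, g4⟩ := good (k + 1) h4 (by simpa [E, not_or] using h2)
    have hne : rep z k ≠ rep z (k + 1 + 1) := by
      intro h
      have e : z k = z (k + 1 + 1) := by rw [← rep_spec z k, h, rep_spec z]
      have := inj_blk hg hL hd (by omega) h4 (g1.trans g3) e
      omega
    refine hi.2 ⟨by omega, h4, by omega, ?_⟩
    rw [Nat.add_sub_cancel]
    ext a
    simp only [mem_insert, mem_singleton]
    omega
  · have a1 := card_union_le ({0, T - 1} : Finset ℕ) (E ∪ E.image (· + 1))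
    have a2 := card_union_le E (E.image (· + 1))
    have a3 : #(E.image (· + 1)) ≤ #E := card_image_le
    have a4 : #({0, T - 1} : Finset ℕ) ≤ 2 := card_le_two
    omega

end Crest.Agent.R177
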