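import Crest.Agent.R177.Cyc

/-!
Cutting long faces into segments: `segStmt_of`.
-/

set_option autoImplicit false

namespace Crest.Agent.R177.Seg

open Equiv Finset
open scoped Classical

variable {X : Type} [Fintype X]

/-- length of the cycle through `x` -/
noncomputable def cl (σ : Perm X) (x : X) : ℕ := #{y | σ.SameCycle x y}

theorem cl_congr {σ : Perm X} {x y : X} (h : σ.SameCycle x y) : cl σ x = cl σ y := by
  unfold cl
  congr 1
  ext w
  simp only [mem_filter, mem_univ, true_and]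
  exact ⟨fun h' => h.symm.trans h', fun h' => h.trans h'⟩

theorem cl_le_of_pow {σ : Perm X} {z : X} {k : ℕ} (hk : 0 < k) (h : (σ ^ k) z = z) :
    cl σ z ≤ k := by
  have hsub : ({y | σ.SameCycle z y} : Finset X) ⊆ (range k).image fun i => (σ ^ i) z := by
    intro y hy
    simp only [mem_filter, mem_univ, true_and] at hy
    obtain ⟨n, -, rfl⟩ := hy.exists_pow_eq'
    refine mem_image.2 ⟨n % k, mem_range.2 (Nat.mod_lt _ hk), ?_⟩
    have h1 : ∀ q : ℕ, (σ ^ (k * q)) z = z := by
      intro q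
      induction q with
      | zero => simp
      | succ q ih => rw [Nat.mul_succ, pow_add, Perm.mul_apply, h, ih]
    conv_rhs => rw [← Nat.mod_add_div n k, pow_add, Perm.mul_apply, h1]
  exact (card_le_card hsub).trans (card_image_le.trans (card_range k).le)

theorem pow_ne {σ : Perm X} {z : X} {i j : ℕ} (hij : i < j) (hj : j < cl σ z + i) :
    (σ ^ i) z ≠ (σ ^ j) z := by
  intro e
  have h1 : (σ ^ (j - i)) z = z := by
    apply (σ ^ i).injective
    rw [← Perm.mul_apply, ← pow_add, Nat.add_sub_cancel' hij.le, e]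
  have := cl_le_of_pow (by omega) h1
  omega

theorem split_or {σ : Perm X} {z y u : X} (h : σ.SameCycle z u) :
    (σ * swap z y).SameCycle z u ∨ (σ * swap z y).SameCycle y u := by
  obtain ⟨n, -, rfl⟩ := h.exists_pow_eq'
  induction n with
  | zero => exact Or.inl (Perm.SameCycle.refl _ _)
  | succ n ih =>
    have ih' := ih ⟨n, by simp⟩
    rw [pow_succ', Perm.mul_apply]
    by_cases h1 : (σ ^ n) z = z
    · rw [h1]; exact Or.inr ⟨1, by simp⟩
    by_cases h2 : (σ ^ n) z = y
    · rw [h2]; exact Or.inl ⟨1, by simp⟩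
    have h3 : (σ * swap z y).SameCycle ((σ ^ n) z) (σ ((σ ^ n) z)) :=
      ⟨1, by rw [zpow_one, Perm.mul_apply, swap_apply_of_ne_of_ne h1 h2]⟩
    exact ih'.imp (fun h => h.trans h3) (fun h => h.trans h3)

theorem split_other {σ : Perm X} {z y u v : X} (hzy : σ.SameCycle z y) (hu : ¬ σ.SameCycle z u)
    (h : σ.SameCycle u v) : (σ * swap z y).SameCycle u v := by
  obtain ⟨n, -, rfl⟩ := h.exists_pow_eq'
  induction n with
  | zero => exact Perm.SameCycle.refl _ _
  | succ n ih =>
    have hn : σ.SameCycle u ((σ ^ n) u) := ⟨n, by simp⟩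
    refine (ih hn).trans ⟨1, ?_⟩
    have h1 : (σ ^ n) u ≠ z := fun e => hu (e ▸ hn).symm
    have h2 : (σ ^ n) u ≠ y := fun e => hu (hzy.trans (e ▸ hn).symm)
    rw [zpow_one, Perm.mul_apply, swap_apply_of_ne_of_ne h1 h2, pow_succ', Perm.mul_apply]

theorem split_pow {σ : Perm X} {z : X} {m : ℕ} (hm : m < cl σ z) (i : ℕ) (hi : i < m) :
    ((σ * swap z ((σ ^ m) z)) ^ (i + 1)) ((σ ^ m) z) = (σ ^ (i + 1)) z := by
  induction i with
  | zero => simp
  | succ i ih =>
    have h1 : (σ ^ (i + 1)) z ≠ z := by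
      have := pow_ne (σ := σ) (z := z) (i := 0) (j := i + 1) (by omega) (by omega)
      simpa using this.symm
    have h2 : (σ ^ (i + 1)) z ≠ (σ ^ m) z := pow_ne (by omega) (by omega)
    rw [pow_succ' _ (i + 1), Perm.mul_apply, ih (by omega), Perm.mul_apply,
      swap_apply_of_ne_of_ne h1 h2, pow_succ' _ (i + 1), Perm.mul_apply]

theorem cl_split_short {σ : Perm X} {z : X} {m : ℕ} (h1 : 1 ≤ m) (hm : m < cl σ z) :
    cl (σ * swap z ((σ ^ m) z)) ((σ ^ m) z) = m := by
  apply le_antisymm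
  · apply cl_le_of_pow h1
    have := split_pow hm (m - 1) (by omega)
    rwa [Nat.sub_add_cancel h1] at this
  · have hsub : (range m).image (fun i => (σ ^ (i + 1)) z) ⊆
        ({y | (σ * swap z ((σ ^ m) z)).SameCycle ((σ ^ m) z) y} : Finset X) := by
      intro y hy
      obtain ⟨i, hi, rfl⟩ := mem_image.1 hy
      simp only [mem_filter, mem_univ, true_and]
      exact ⟨(i + 1 : ℕ), by rw [zpow_natCast, split_pow hm i (mem_range.1 hi)]⟩
    have hinj : Set.InjOn (fun i => (σ ^ (i + 1)) z) (range m : Finset ℕ) := by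
      intro i hi j hj e
      have hi' := mem_range.1 (mem_coe.1 hi)
      have hj' := mem_range.1 (mem_coe.1 hj)
      rcases lt_trichotomy i j with h | h | h
      · exact absurd e (pow_ne (by omega) (by omega))
      · exact h
      · exact absurd e.symm (pow_ne (by omega) (by omega))
    have := card_le_card hsub
    rwa [card_image_of_injOn hinj, card_range] at this

theorem cl_split_add (σ : Perm X) (z y : X) :
    cl σ z ≤ cl (σ * swap z y) z + cl (σ * swap z y) y := by
  unfold cl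
  refine le_trans (card_le_card ?_) (card_union_le _ _)
  intro u hu
  simp only [mem_filter, mem_univ, true_and, mem_union] at hu ⊢
  exact split_or hu

omit [Fintype X] in
theorem mem_of_sameCycle {σ : Perm X} {S : Finset X} (hS : ∀ x, x ∉ S → σ x = x) {x y : X}
    (hx : x ∈ S) (h : σ.SameCycle x y) : y ∈ S := by
  by_contra hy
  exact hy (h.eq_of_right (hS y hy) ▸ hx)

theorem cl_le_one {σ : Perm X} {x : X} (h : σ x = x) : cl σ x ≤ 1 :=
  cl_le_of_pow one_pos (by simpa using h)

/-- the invariant of the cutting process -/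
structure Inv (φ α : Perm X) (S C₀ : Finset X) (m : ℕ) (σ : Perm X) (C : Finset X) : Prop where
  planar : Planar σ α
  fix : ∀ x, x ∉ S → σ x = x
  sub₀ : C₀ ⊆ C
  sub : C ⊆ S
  eq : ∀ x, x ∉ C → σ x = φ x
  uniq : ∀ x ∈ C \ C₀, ∀ y ∈ C \ C₀, σ.SameCycle x y → x = y
  long : ∀ x ∈ C \ C₀, m ≤ cl σ x

theorem step (hmv : MoveStmt) {φ α : Perm X} {S C₀ : Finset X} {m : ℕ} (h1 : 1 ≤ m)
    {σ : Perm X} {C : Finset X} (h : Inv φ α S C₀ m σ C) {x : X} (hx : 2 * m < cl σ x) :
    ∃ (τ : Perm X) (C' : Finset X), Inv φ α S C₀ m τ C' ∧ cyc τ = cyc σ + 1 := by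
  obtain ⟨z, hz, hzu⟩ : ∃ z, 2 * m < cl σ z ∧ ∀ w ∈ C \ C₀, σ.SameCycle z w → w = z := by
    by_cases hex : ∃ z ∈ C \ C₀, σ.SameCycle x z
    · obtain ⟨z, hzC, hxz⟩ := hex
      exact ⟨z, cl_congr hxz ▸ hx, fun w hw hzw => (h.uniq z hzC w hw hzw).symm⟩
    · exact ⟨x, hx, fun w hw hxw => absurd ⟨w, hw, hxw⟩ hex⟩
  set y := (σ ^ m) z with hy
  have hzy : σ.SameCycle z y := ⟨m, by simp [hy]⟩
  have hne : z ≠ y := by
    have := pow_ne (σ := σ) (z := z) (i := 0) (j := m) (by omega) (by omega)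
    simpa using this
  have hzS : z ∈ S := by
    by_contra hzS
    have := cl_le_one (h.fix z hzS)
    omega
  have hyS : y ∈ S := mem_of_sameCycle h.fix hzS hzy
  have hshort : cl (σ * swap z y) y = m := cl_split_short h1 (by omega)
  have hlong : m ≤ cl (σ * swap z y) z := by
    have := cl_split_add σ z y
    omega
  have hnot : ¬ (σ * swap z y).SameCycle z y := Cyc.not_sameCycle_mul_swap hne hzy
  have hon : ∀ u ∈ insert y (insert z C) \ C₀, σ.SameCycle z u → u = y ∨ u = z := by
    intro u hu hzu'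
    simp only [mem_sdiff, mem_insert] at hu
    rcases hu with ⟨rfl | rfl | hu, hu'⟩
    · exact Or.inl rfl
    · exact Or.inr rfl
    · exact Or.inr (hzu u (mem_sdiff.2 ⟨hu, hu'⟩) hzu')
  have hoff : ∀ u ∈ insert y (insert z C) \ C₀, ¬ σ.SameCycle z u → u ∈ C \ C₀ := by
    intro u hu hzu'
    simp only [mem_sdiff, mem_insert] at hu
    rcases hu with ⟨rfl | rfl | hu, hu'⟩
    · exact absurd hzy hzu'
    · exact absurd (Perm.SameCycle.refl _ _) hzu'
    · exact mem_sdiff.2 ⟨hu, hu'⟩
  refine ⟨σ * swap z y, insert y (insert z C), ⟨hmv.1 X σ α z y h.planar hzy, ?_, ?_, ?_, ?_, ?_,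
    ?_⟩, Cyc.cyc_mul_swap_of_sameCycle hne hzy⟩
  · intro u hu
    have e1 : u ≠ z := fun e => hu (e ▸ hzS)
    have e2 : u ≠ y := fun e => hu (e ▸ hyS)
    rw [Perm.mul_apply, swap_apply_of_ne_of_ne e1 e2, h.fix u hu]
  · exact h.sub₀.trans ((subset_insert _ _).trans (subset_insert _ _))
  · exact insert_subset hyS (insert_subset hzS h.sub)
  · intro u hu
    simp only [mem_insert, not_or] at hu
    rw [Perm.mul_apply, swap_apply_of_ne_of_ne hu.2.1 hu.1, h.eq u hu.2.2]
  · intro u hu v hv huv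
    have huv' : σ.SameCycle u v := Cyc.sameCycle_of_mul_swap hzy huv
    by_cases hzu' : σ.SameCycle z u
    · rcases hon u hu hzu' with e1 | e1 <;> rcases hon v hv (hzu'.trans huv') with e2 | e2
      · rw [e1, e2]
      · rw [e1, e2] at huv; exact absurd huv.symm hnot
      · rw [e1, e2] at huv; exact absurd huv hnot
      · rw [e1, e2]
    · exact h.uniq u (hoff u hu hzu') v (hoff v hv fun hv' => hzu' (hv'.trans huv'.symm)) huv'
  · intro u hu
    by_cases hzu' : σ.SameCycle z u
    · rcases hon u hu hzu' with e1 | e1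
      · rw [e1]; exact hshort.ge
      · rw [e1]; exact hlong
    · refine (h.long u (hoff u hu hzu')).trans (card_le_card ?_)
      intro v hv
      simp only [mem_filter, mem_univ, true_and] at hv ⊢
      exact split_other hzy hzu' hv

theorem finish (hmv : MoveStmt) {φ α : Perm X} {S C₀ : Finset X} {m : ℕ} (h1 : 1 ≤ m) (n : ℕ) :
    ∀ (σ : Perm X) (C : Finset X), Inv φ α S C₀ m σ C → Nat.card X ≤ cyc σ + n →
      ∃ (τ : Perm X) (C' : Finset X), Inv φ α S C₀ m τ C' ∧ ∀ x, cl τ x ≤ 2 * m := by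
  induction n with
  | zero =>
    intro σ C h hn
    by_cases hall : ∀ x, cl σ x ≤ 2 * m
    · exact ⟨σ, C, h, hall⟩
    · push Not at hall
      obtain ⟨x, hx⟩ := hall
      obtain ⟨τ, C', -, hc⟩ := step hmv h1 h hx
      have := Cyc.cyc_le_card τ
      omega
  | succ n ih =>
    intro σ C h hn
    by_cases hall : ∀ x, cl σ x ≤ 2 * m
    · exact ⟨σ, C, h, hall⟩
    · push Not at hall
      obtain ⟨x, hx⟩ := hall
      obtain ⟨τ, C', h', hc⟩ := step hmv h1 h hx
      exact ih τ C' h' (by omega)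

theorem count {φ α : Perm X} {S C₀ : Finset X} {m : ℕ} {σ : Perm X} {C : Finset X}
    (h : Inv φ α S C₀ m σ C) : m * #(C \ C₀) ≤ #S := by
  have hsub : (C \ C₀).biUnion (fun x => ({y | σ.SameCycle x y} : Finset X)) ⊆ S := by
    intro y hy
    obtain ⟨x, hx, hxy⟩ := mem_biUnion.1 hy
    simp only [mem_filter, mem_univ, true_and] at hxy
    exact mem_of_sameCycle h.fix (h.sub (mem_sdiff.1 hx).1) hxy
  have hdisj : ((C \ C₀ : Finset X) : Set X).PairwiseDisjoint
      (fun x => ({y | σ.SameCycle x y} : Finset X)) := by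
    intro x hx y hy hxy
    refine disjoint_left.2 fun w hw hw' => hxy ?_
    simp only [mem_filter, mem_univ, true_and] at hw hw'
    exact h.uniq x hx y hy (hw.trans hw'.symm)
  have h1 := card_le_card hsub
  rw [card_biUnion hdisj] at h1
  refine le_trans ?_ h1
  rw [mul_comm, ← smul_eq_mul]
  exact card_nsmul_le_sum _ _ _ h.long

end Crest.Agent.R177.Seg

namespace Crest.Agent.R177

open Equiv Finset
open scoped Classical

theorem segStmt_of (h : MoveStmt) : SegStmt := by
  intro X _ φ α S C₀ m h1 hp hS hC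
  by_cases hs : #S ≤ 2 * m
  · refine ⟨φ, C₀, hp, hS, Subset.rfl, hC, fun _ _ => rfl, by simp, ?_, by simp,
      fun _ => ⟨rfl, rfl⟩⟩
    intro x
    by_cases hx : x ∈ S
    · refine le_trans (card_le_card ?_) hs
      intro y hy
      simp only [mem_filter, mem_univ, true_and] at hy
      exact Seg.mem_of_sameCycle hS hx hy
    · exact (Seg.cl_le_one (hS x hx)).trans (by omega)
  · have h0 : Seg.Inv φ α S C₀ m φ C₀ :=
      ⟨hp, hS, Subset.rfl, hC, fun _ _ => rfl, by simp, by simp⟩
    obtain ⟨τ, C, hI, hall⟩ := Seg.finish h h1 (Nat.card X) φ C₀ h0 (by omega)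
    exact ⟨τ, C, hI.planar, hI.fix, hI.sub₀, hI.sub, hI.eq, Seg.count hI, hall, hI.long,
      fun hs' => absurd hs' hs⟩

end Crest.Agent.R177
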