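import Crest.Agent.R177.Sep1

/-! Graphs without a `K_h` minor are hyperfinite. -/

set_option autoImplicit false

namespace Crest.Agent.R177.Sep

open Finset Relation
open scoped Classical

lemma pow_five (j : ℕ) : 2 ^ j * (j + 13) ^ 5 ≤ 13 ^ 5 * 3 ^ j := by
  induction j with
  | zero => simp
  | succ j ih =>
    have h : 2 * (j + 1 + 13) ^ 5 ≤ 3 * (j + 13) ^ 5 :=
      Nat.le.intro (k := 38231 + 44255 * j + 11030 * j ^ 2 + 1150 * j ^ 3 + 55 * j ^ 4 + j ^ 5)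
        (by ring)
    calc 2 ^ (j + 1) * (j + 1 + 13) ^ 5 = 2 ^ j * (2 * (j + 1 + 13) ^ 5) := by ring
      _ ≤ 2 ^ j * (3 * (j + 13) ^ 5) := Nat.mul_le_mul_left _ h
      _ = 3 * (2 ^ j * (j + 13) ^ 5) := by ring
      _ ≤ 3 * (13 ^ 5 * 3 ^ j) := Nat.mul_le_mul_left _ ih
      _ = _ := by ring

lemma numerics (h M : ℕ) : ∃ t : ℕ, ∀ j ℓ : ℕ, ℓ = 2 * M * (j + 1) * (j + 2) →
    2 ^ j * (ℓ * (h * (h * (4 * (ℓ * (t + j + 2)) + 2) + 1))) ≤ 3 ^ j * 2 ^ t := by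
  obtain ⟨c, hc⟩ : ∃ c, c = 2 * M * (h * (h * (4 * (2 * M) + 2) + 1)) * 13 ^ 5 := ⟨_, rfl⟩
  obtain ⟨t, ht⟩ : ∃ t, t = 2 * c + 1 := ⟨_, rfl⟩
  refine ⟨t, fun j ℓ hℓ => ?_⟩
  have h0 := pow_five j
  obtain ⟨x, hx⟩ : ∃ x, x = j + 13 := ⟨_, rfl⟩
  rw [← hx] at h0
  have hx0 : 0 < x := by omega
  have h1 : ℓ ≤ 2 * M * x ^ 2 := by
    rw [hℓ, mul_assoc (2 * M), sq]
    exact Nat.mul_le_mul_left _ (Nat.mul_le_mul (by omega) (by omega))
  have h2 : t + j + 2 ≤ (t + 1) * x := by nlinarith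
  have h3 : 1 ≤ x ^ 2 * ((t + 1) * x) := Nat.one_le_iff_ne_zero.2 (by positivity)
  have h4 : h * (4 * (ℓ * (t + j + 2)) + 2) + 1 ≤
      (h * (4 * (2 * M) + 2) + 1) * (x ^ 2 * ((t + 1) * x)) := by
    have a1 := Nat.mul_le_mul h1 h2
    have a2 : 4 * (ℓ * (t + j + 2)) + 2 ≤ (4 * (2 * M) + 2) * (x ^ 2 * ((t + 1) * x)) := by
      nlinarith
    have a3 := Nat.mul_le_mul_left h a2
    nlinarith
  have h5 : c * (t + 1) ≤ 2 ^ t := by
    have a1 : c + 1 ≤ 2 ^ c := Nat.lt_two_pow_self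
    calc c * (t + 1) = 2 * (c * (c + 1)) := by rw [ht]; ring
      _ ≤ 2 * (2 ^ c * 2 ^ c) := Nat.mul_le_mul_left _ (Nat.mul_le_mul (by omega) a1)
      _ = 2 ^ t := by rw [ht]; ring
  calc _ ≤ 2 ^ j * (2 * M * x ^ 2 * (h * ((h * (4 * (2 * M) + 2) + 1) * (x ^ 2 * ((t + 1) * x))))) :=
        Nat.mul_le_mul_left _ (Nat.mul_le_mul h1 (Nat.mul_le_mul_left _ h4))
    _ = 2 * M * (h * (h * (4 * (2 * M) + 2) + 1)) * (t + 1) * (2 ^ j * x ^ 5) := by ring
    _ ≤ 2 * M * (h * (h * (4 * (2 * M) + 2) + 1)) * (t + 1) * (13 ^ 5 * 3 ^ j) :=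
        Nat.mul_le_mul_left _ h0
    _ = 3 ^ j * (c * (t + 1)) := by rw [hc]; ring
    _ ≤ _ := Nat.mul_le_mul_left _ h5

lemma growth {ℓ : ℕ} (hℓ : 0 < ℓ) {n s : ℕ} (hn : n < 2 ^ s) :
    ℓ ^ (ℓ * s) * n < (ℓ + 1) ^ (ℓ * s) := by
  have h1 : ℓ ^ ℓ * 2 ≤ (ℓ + 1) ^ ℓ := by
    obtain ⟨k, rfl⟩ := Nat.exists_eq_succ_of_ne_zero hℓ.ne'
    have := pow_add_mul_le_add_pow (a := k + 1) (b := 1) (Nat.zero_le _) (Nat.zero_le _) (k + 1)
    simp only [Nat.cast_id, Nat.add_sub_cancel, mul_one] at this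
    refine le_trans (le_of_eq ?_) this
    simp only [Nat.succ_eq_add_one]
    ring
  calc ℓ ^ (ℓ * s) * n < ℓ ^ (ℓ * s) * 2 ^ s := Nat.mul_lt_mul_of_pos_left hn (by positivity)
    _ = (ℓ ^ ℓ * 2) ^ s := by rw [mul_pow, ← pow_mul]
    _ ≤ ((ℓ + 1) ^ ℓ) ^ s := Nat.pow_le_pow_left h1 _
    _ = _ := by rw [← pow_mul]

variable {V : Type} {G : SimpleGraph V}

lemma recursion {h M t : ℕ} (hM : 0 < M) (hG : ¬ HasKMinor G h)
    (ht : ∀ j ℓ : ℕ, ℓ = 2 * M * (j + 1) * (j + 2) →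
      2 ^ j * (ℓ * (h * (h * (4 * (ℓ * (t + j + 2)) + 2) + 1))) ≤ 3 ^ j * 2 ^ t) (j : ℕ) :
    ∀ W : Finset V, 2 ^ j * #W ≤ 3 ^ j * 2 ^ t → ∃ (S : Finset V) (part : V → ℕ),
      M * (j + 1) * #S ≤ j * #W ∧
      (∀ a ∈ W, ∀ b ∈ W, a ∉ S → b ∉ S → G.Adj a b → part a = part b) ∧
      ∀ k, #{a ∈ W | a ∉ S ∧ part a = k} ≤ 2 ^ t := by
  induction j with
  | zero =>
    intro W hW
    refine ⟨∅, fun _ => 0, by simp, fun _ _ _ _ _ _ _ => rfl, fun k => ?_⟩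
    exact (card_filter_le _ _).trans (by simpa using hW)
  | succ j ih =>
    intro W hW
    by_cases hs : 2 ^ j * #W ≤ 3 ^ j * 2 ^ t
    · obtain ⟨S, part, h1, h2, h3⟩ := ih W hs
      refine ⟨S, part, ?_, h2, h3⟩
      refine Nat.le_of_mul_le_mul_left ?_ (Nat.succ_pos j)
      calc (j + 1) * (M * (j + 1 + 1) * #S) = (j + 2) * (M * (j + 1) * #S) := by ring
        _ ≤ (j + 2) * (j * #W) := Nat.mul_le_mul_left _ h1
        _ ≤ (j + 1) * ((j + 1) * #W) := by nlinarith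
    · set ℓ := 2 * M * (j + 1) * (j + 2) with hℓ
      have hn : #W < 2 ^ (t + j + 2) := by
        have a1 : 3 ^ (j + 1) ≤ 4 ^ (j + 1) := Nat.pow_le_pow_left (by norm_num) _
        have a2 : 2 ^ (j + 1) * #W ≤ 2 ^ (j + 1) * 2 ^ (t + j + 1) :=
          calc _ ≤ _ := hW
            _ ≤ 4 ^ (j + 1) * 2 ^ t := Nat.mul_le_mul_right _ a1
            _ = _ := by rw [show (4 : ℕ) = 2 * 2 from rfl, mul_pow]; ring
        have a3 := Nat.le_of_mul_le_mul_left a2 (by positivity)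
        exact lt_of_le_of_lt a3 (Nat.pow_lt_pow_right (by norm_num) (by omega))
      obtain ⟨Z, R, T, d, hZ, hR, cov, na, bZ, bR, bT⟩ :=
        exists_sep hG W (growth (ℓ := ℓ) (by positivity) hn)
      have hsc : ∀ Y : Finset V, 3 * #Y ≤ 2 * #W → 2 ^ j * #Y ≤ 3 ^ j * 2 ^ t := by
        intro Y hY
        refine Nat.le_of_mul_le_mul_left ?_ (by norm_num : 0 < 3)
        calc 3 * (2 ^ j * #Y) = 2 ^ j * (3 * #Y) := by ring
          _ ≤ 2 ^ j * (2 * #W) := Nat.mul_le_mul_left _ hY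
          _ = 2 ^ (j + 1) * #W := by ring
          _ ≤ _ := hW
          _ = _ := by ring
      obtain ⟨S₁, p₁, a1, a2, a3⟩ := ih Z (hsc Z bZ)
      obtain ⟨S₂, p₂, b1, b2, b3⟩ := ih R (hsc R bR)
      have hT : M * (j + 1) * (j + 2) * #T ≤ #W := by
        have c1 := Nat.le_of_mul_le_mul_left ((ht j ℓ hℓ).trans (not_le.1 hs).le) (by positivity)
        have c2 : ℓ * #T = 2 * (M * (j + 1) * (j + 2) * #T) := by rw [hℓ]; ring
        omega
      have hZR : #Z + #R ≤ #W := by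
        rw [← card_union_of_disjoint d]; exact card_le_card (union_subset hZ hR)
      refine ⟨S₁ ∪ S₂ ∪ T, fun a => if a ∈ Z then 2 * p₁ a else 2 * p₂ a + 1, ?_, ?_, ?_⟩
      · have c1 : #(S₁ ∪ S₂ ∪ T) ≤ #S₁ + #S₂ + #T :=
          (card_union_le _ _).trans (Nat.add_le_add_right (card_union_le _ _) _)
        refine Nat.le_of_mul_le_mul_left ?_ (Nat.succ_pos j)
        calc (j + 1) * (M * (j + 1 + 1) * #(S₁ ∪ S₂ ∪ T))
            ≤ (j + 1) * (M * (j + 1 + 1) * (#S₁ + #S₂ + #T)) := by gcongr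
          _ = (j + 2) * (M * (j + 1) * #S₁ + M * (j + 1) * #S₂) + M * (j + 1) * (j + 2) * #T := by
              ring
          _ ≤ (j + 2) * (j * #Z + j * #R) + #W := by gcongr
          _ = (j + 2) * j * (#Z + #R) + #W := by ring
          _ ≤ (j + 2) * j * #W + #W := by gcongr
          _ = (j + 1) * ((j + 1) * #W) := by ring
      · intro a ha b hb ha' hb' hadj
        simp only [mem_union, not_or] at ha' hb'
        rcases cov a ha ha'.2 with e | e <;> rcases cov b hb hb'.2 with e' | e'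
        · simp only [e, e', if_true, a2 a e b e' ha'.1.1 hb'.1.1 hadj]
        · exact absurd hadj (na a e b e')
        · exact absurd hadj.symm (na b e' a e)
        · simp only [disjoint_right.1 d e, disjoint_right.1 d e', if_false,
            b2 a e b e' ha'.1.2 hb'.1.2 hadj]
      · intro k
        by_cases hk : k % 2 = 0
        · refine le_trans (card_le_card fun a ha => ?_) (a3 (k / 2))
          simp only [mem_filter, mem_union, not_or] at ha ⊢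
          by_cases e : a ∈ Z
          · rw [if_pos e] at ha
            exact ⟨e, ha.2.1.1.1, by omega⟩
          · rw [if_neg e] at ha
            omega
        · refine le_trans (card_le_card fun a ha => ?_) (b3 (k / 2))
          simp only [mem_filter, mem_union, not_or] at ha ⊢
          by_cases e : a ∈ Z
          · rw [if_pos e] at ha
            omega
          · rw [if_neg e] at ha
            exact ⟨(cov a ha.1 ha.2.1.2).resolve_left e, ha.2.1.1.2, by omega⟩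

end Crest.Agent.R177.Sep

namespace Crest.Agent.R177

open Finset
open scoped Classical

theorem sepStmt : SepStmt := by
  intro h m
  obtain ⟨t, ht⟩ := Sep.numerics h (m + 1)
  refine ⟨2 ^ t, fun V _ G hG => ?_⟩
  obtain ⟨j, hj⟩ : ∃ j, 2 ^ j * #(univ : Finset V) ≤ 3 ^ j * 2 ^ t := by
    set n := #(univ : Finset V)
    refine ⟨13 ^ 5 * n, ?_⟩
    have h1 := Sep.pow_five (13 ^ 5 * n)
    have h2 : 13 ^ 5 * n ≤ (13 ^ 5 * n + 13) ^ 5 :=
      (Nat.le_add_right _ _).trans (Nat.le_self_pow (by norm_num) _)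
    have h3 : 13 ^ 5 * (2 ^ (13 ^ 5 * n) * n) ≤ 13 ^ 5 * 3 ^ (13 ^ 5 * n) :=
      calc _ = 2 ^ (13 ^ 5 * n) * (13 ^ 5 * n) := mul_left_comm _ _ _
        _ ≤ _ := Nat.mul_le_mul_left _ h2
        _ ≤ _ := h1
    exact (Nat.le_of_mul_le_mul_left h3 (by positivity)).trans
      (Nat.le_mul_of_pos_right _ (by positivity))
  obtain ⟨S, part, h1, h2, h3⟩ := Sep.recursion (Nat.succ_pos m) hG ht j univ hj
  refine ⟨S, part, ?_, fun a b => h2 a (mem_univ _) b (mem_univ _), h3⟩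
  rw [card_univ] at h1
  refine Nat.le_of_mul_le_mul_left ?_ (Nat.succ_pos j)
  calc (j + 1) * (m * #S) ≤ (j + 1) * ((m + 1) * #S) := by gcongr; omega
    _ = (m + 1) * (j + 1) * #S := by ring
    _ ≤ j * Fintype.card V := h1
    _ ≤ (j + 1) * Fintype.card V := by gcongr; omega

end Crest.Agent.R177
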