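import Crest.Agent.R177.Defs

/-!
# Switching: graphs of large girth exist and contain given edges with small probability
-/

set_option autoImplicit false

namespace Crest.Agent.R177

open Equiv Finset
open scoped Classical

namespace Sw

variable {P Λ : Type} {pr : Λ → P} {D : Des pr}

/-- tail of a dart -/
def tl (β : D.E → D.Y) (d : D.E × Bool) : D.U ⊕ D.Y :=
  if d.2 then Sum.inl d.1.1.1 else Sum.inr (β d.1)

/-- head of a dart -/
def hd (β : D.E → D.Y) (d : D.E × Bool) : D.U ⊕ D.Y :=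
  if d.2 then Sum.inr (β d.1) else Sum.inl d.1.1.1

/-- reduced closed path with `n + 1` darts -/
def RC (β : D.E → D.Y) (n : ℕ) (d : ℕ → D.E × Bool) : Prop :=
  (∀ i, i < n → hd β (d i) = tl β (d (i + 1)) ∧ d (i + 1) ≠ ((d i).1, !(d i).2)) ∧
    hd β (d n) = tl β (d 0)

/-- girth -/
def Gi (β : D.E → D.Y) (g : ℕ) : Prop := ∀ n d, RC β n d → g ≤ n + 1

theorem girth_iff (β : D.Conf) (g : ℕ) : (D.graph β).Girth g ↔ Gi β.1 g :=
  ⟨fun h n d hd => h n d hd.1 hd.2, fun h n d h1 h2 => h n d ⟨h1, h2⟩⟩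

/-- adjacency -/
def Adj (β : D.E → D.Y) (x y : D.U ⊕ D.Y) : Prop := ∃ d, tl β d = x ∧ hd β d = y

theorem Adj.symm {β : D.E → D.Y} {x y : D.U ⊕ D.Y} (h : Adj β x y) : Adj β y x := by
  obtain ⟨⟨e, b⟩, rfl, rfl⟩ := h
  exact ⟨(e, !b), by cases b <;> rfl, by cases b <;> rfl⟩

theorem tl_congr {β β' : D.E → D.Y} {d : D.E × Bool} (h : β' d.1 = β d.1) : tl β' d = tl β d := by
  simp [tl, h]

theorem hd_congr {β β' : D.E → D.Y} {d : D.E × Bool} (h : β' d.1 = β d.1) : hd β' d = hd β d := by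
  simp [hd, h]

/-- within distance `m` of the set `N` -/
def Close (β : D.E → D.Y) (N : Set (D.U ⊕ D.Y)) : ℕ → D.U ⊕ D.Y → Prop
  | 0 => fun x => x ∈ N
  | m + 1 => fun x => Close β N m x ∨ ∃ x', Close β N m x' ∧ Adj β x' x

theorem Close.mono {β : D.E → D.Y} {N : Set (D.U ⊕ D.Y)} {m m' : ℕ} {x : D.U ⊕ D.Y}
    (h : Close β N m x) (hm : m ≤ m') : Close β N m' x := by
  induction hm with
  | refl => exact h
  | step _ ih => exact Or.inl ih

theorem Close.fwd {β : D.E → D.Y} {N : Set (D.U ⊕ D.Y)} {m i : ℕ} {z : ℕ → D.U ⊕ D.Y}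
    (h : Close β N m (z i)) : ∀ r, (∀ k, i ≤ k → k < i + r → Adj β (z k) (z (k + 1))) →
      Close β N (m + r) (z (i + r)) := by
  intro r
  induction r with
  | zero => intro _; exact h
  | succ r ih =>
    intro hr
    exact Or.inr ⟨_, ih fun k h1 h2 => hr k h1 (by omega), hr (i + r) (by omega) (by omega)⟩

theorem Close.bwd {β : D.E → D.Y} {N : Set (D.U ⊕ D.Y)} {z : ℕ → D.U ⊕ D.Y} :
    ∀ (r m i : ℕ), Close β N m (z (i + r)) →
      (∀ k, i ≤ k → k < i + r → Adj β (z k) (z (k + 1))) → Close β N (m + r) (z i) := by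
  intro r
  induction r with
  | zero => intro m i h _; exact h
  | succ r ih =>
    intro m i h hr
    have h1 : Close β N (m + 1) (z (i + r)) :=
      Or.inr ⟨_, h, (hr (i + r) (by omega) (by omega)).symm⟩
    have := ih (m + 1) i h1 fun k h1 h2 => hr k h1 (by omega)
    rwa [show m + 1 + r = m + (r + 1) by ring] at this

/-- the ends of `e` -/
def ends (β : D.E → D.Y) (e : D.E) : Set (D.U ⊕ D.Y) := {Sum.inl e.1.1, Sum.inr (β e)}

/-- `e'` is far from `e` -/
def Far (β : D.E → D.Y) (g : ℕ) (e e' : D.E) : Prop :=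
  ∀ x ∈ ends β e', ¬ Close β (ends β e) g x

theorem rc_of_avoid {β : D.E → D.Y} {e e' : D.E} {n : ℕ} {d : ℕ → D.E × Bool}
    (h : RC (β ∘ swap e e') n d) (ha : ∀ i, i ≤ n → (d i).1 ≠ e ∧ (d i).1 ≠ e') : RC β n d := by
  have h1 : ∀ i, i ≤ n → (β ∘ swap e e') (d i).1 = β (d i).1 := fun i hi => by
    simp [swap_apply_of_ne_of_ne (ha i hi).1 (ha i hi).2]
  refine ⟨fun i hi => ⟨?_, (h.1 i hi).2⟩, ?_⟩
  · rw [← hd_congr (h1 i hi.le), ← tl_congr (h1 (i + 1) hi)]
    exact (h.1 i hi).1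
  · rw [← hd_congr (h1 n le_rfl), ← tl_congr (h1 0 (Nat.zero_le _))]
    exact h.2

theorem avoid {β : D.E → D.Y} {g γ : ℕ} {e e' : D.E} (hG : Gi β γ) (hF : Far β g e e')
    {n : ℕ} {d : ℕ → D.E × Bool} (h : RC (β ∘ swap e e') n d) (hn : n + 1 ≤ γ) (hg : n ≤ g) :
    ∀ i, i ≤ n → (d i).1 ≠ e ∧ (d i).1 ≠ e' := by
  set β' := β ∘ swap e e' with hβ'
  have hb1 : β' e = β e' := by simp [hβ']
  have hb2 : β' e' = β e := by simp [hβ']
  have hF' : ∀ x ∈ ends β e', ∀ m, m ≤ g → ¬ Close β (ends β e) m x :=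
    fun x hx m hm hc => hF x hx (hc.mono hm)
  have hdis : ∀ x ∈ ends β e', x ∉ ends β e := fun x hx hc => hF' x hx 0 (Nat.zero_le _) hc
  have hw : e'.1.1 ≠ e.1.1 := fun h0 => hdis (Sum.inl e'.1.1) (by simp [ends]) (by simp [ends, h0])
  have hy : β e' ≠ β e := fun h0 => hdis (Sum.inr (β e')) (by simp [ends]) (by simp [ends, h0])
  set z : ℕ → D.U ⊕ D.Y := fun k => if k ≤ n then tl β' (d k) else tl β' (d 0) with hz
  have hz1 : ∀ k, k ≤ n → z k = tl β' (d k) := fun k hk => by simp [hz, hk]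
  have hz2 : ∀ k, k ≤ n → z (k + 1) = hd β' (d k) := by
    intro k hk
    rcases hk.lt_or_eq with hk | rfl
    · rw [hz1 _ hk, (h.1 k hk).1]
    · simp [hz, h.2]
  have hz0 : z (n + 1) = z 0 := by simp [hz]
  let New : ℕ → Prop := fun k => (d k).1 = e ∨ (d k).1 = e'
  have hold : ∀ k, ¬ New k → β' (d k).1 = β (d k).1 := fun k hk => by
    simp only [New, not_or] at hk
    simp [hβ', swap_apply_of_ne_of_ne hk.1 hk.2]
  have hadj : ∀ k, k ≤ n → ¬ New k → Adj β (z k) (z (k + 1)) := fun k hk hN =>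
    ⟨d k, by rw [hz1 k hk, tl_congr (hold k hN)], by rw [hz2 k hk, hd_congr (hold k hN)]⟩
  have hnew : ∀ k, k ≤ n → New k →
      (d k = (e, true) ∧ z k = Sum.inl e.1.1 ∧ z (k + 1) = Sum.inr (β e')) ∨
      (d k = (e, false) ∧ z k = Sum.inr (β e') ∧ z (k + 1) = Sum.inl e.1.1) ∨
      (d k = (e', true) ∧ z k = Sum.inl e'.1.1 ∧ z (k + 1) = Sum.inr (β e)) ∨
      (d k = (e', false) ∧ z k = Sum.inr (β e) ∧ z (k + 1) = Sum.inl e'.1.1) := by
    intro k hk hN
    rw [hz1 k hk, hz2 k hk]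
    simp only [New] at hN
    generalize d k = p at hN
    obtain ⟨f, b⟩ := p
    simp only at hN
    rcases hN with rfl | rfl <;> cases b <;> simp [tl, hd, hb1, hb2]
  have hside : ∀ k, k ≤ n → New k →
      (z k ∈ ends β e ∧ z (k + 1) ∈ ends β e') ∨ (z k ∈ ends β e' ∧ z (k + 1) ∈ ends β e) := by
    intro k hk hN
    rcases hnew k hk hN with h1 | h1 | h1 | h1 <;> rw [h1.2.1, h1.2.2] <;> simp [ends]
  by_contra hcon
  have hex : ∃ i, i ≤ n ∧ New i := by
    push Not at hcon
    obtain ⟨i, hi, h1⟩ := hcon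
    refine ⟨i, hi, ?_⟩
    by_cases h2 : (d i).1 = e
    · exact Or.inl h2
    · exact Or.inr (h1 h2)
  obtain ⟨i, hin, hiN, hmin⟩ : ∃ i, i ≤ n ∧ New i ∧ ∀ k, k < i → ¬ New k :=
    ⟨Nat.find hex, (Nat.find_spec hex).1, (Nat.find_spec hex).2, fun k hk hN =>
      Nat.find_min hex hk ⟨hk.le.trans (Nat.find_spec hex).1, hN⟩⟩
  by_cases hex2 : ∃ r, i + 1 + r ≤ n ∧ New (i + 1 + r)
  · obtain ⟨r, hjn, hjN, hmin2⟩ : ∃ r, i + 1 + r ≤ n ∧ New (i + 1 + r) ∧
        ∀ k, k < r → ¬ New (i + 1 + k) :=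
      ⟨Nat.find hex2, (Nat.find_spec hex2).1, (Nat.find_spec hex2).2, fun k hk hN =>
        Nat.find_min hex2 hk ⟨by have := (Nat.find_spec hex2).1; omega, hN⟩⟩
    have hseg : ∀ k, i + 1 ≤ k → k < i + 1 + r → Adj β (z k) (z (k + 1)) := by
      intro k h1 h2
      obtain ⟨k', rfl⟩ := Nat.exists_eq_add_of_le h1
      exact hadj _ (by omega) (hmin2 k' (by omega))
    have hAB : ¬ (z (i + 1) ∈ ends β e ∧ z (i + 1 + r) ∈ ends β e') := by
      rintro ⟨h1, h2⟩
      have := Close.fwd (m := 0) (z := z) (i := i + 1) h1 r hseg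
      exact hF' _ h2 _ (by omega) this
    have hBA : ¬ (z (i + 1) ∈ ends β e' ∧ z (i + 1 + r) ∈ ends β e) := by
      rintro ⟨h1, h2⟩
      have := Close.bwd (z := z) r 0 (i + 1) h2 hseg
      exact hF' _ h1 _ (by omega) this
    have hred : ∀ k, k + 1 < r → hd β (d (i + 1 + k)) = tl β (d (i + 1 + (k + 1))) ∧
        d (i + 1 + (k + 1)) ≠ ((d (i + 1 + k)).1, !(d (i + 1 + k)).2) := by
      intro k hk
      have := h.1 (i + 1 + k) (by omega)
      rw [hd_congr (hold _ (hmin2 k (by omega))),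
        show i + 1 + k + 1 = i + 1 + (k + 1) by ring, tl_congr (hold _ (hmin2 (k + 1) hk))] at this
      exact this
    have hfst : 0 < r → tl β (d (i + 1)) = z (i + 1) := fun h0 => by
      rw [hz1 _ (by omega), tl_congr (hold _ (hmin2 0 h0))]
    have hlst : 0 < r → hd β (d (i + 1 + (r - 1))) = z (i + 1 + r) := fun h0 => by
      rw [← hd_congr (hold _ (hmin2 (r - 1) (by omega))), ← hz2 _ (by omega)]
      congr 1
      omega
    by_cases hab : z (i + 1) = z (i + 1 + r)
    · rcases Nat.eq_zero_or_pos r with h0 | h0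
      · have h1 := (h.1 i (by omega)).2
        rw [h0] at hjN hjn
        rcases hnew i hin hiN with h2 | h2 | h2 | h2 <;>
        rcases hnew (i + 1) (by omega) hjN with h3 | h3 | h3 | h3 <;>
        first
          | exact h1 (by rw [h2.1, h3.1]; rfl)
          | (have := h2.2.2.symm.trans h3.2.1; simp [hw, hy, hw.symm, hy.symm] at this)
      · have : RC β (r - 1) (fun k => d (i + 1 + k)) :=
          ⟨fun k hk => hred k (by omega), by rw [hlst h0, ← hab, ← hfst h0]⟩
        have := hG _ _ this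
        omega
    · have h0 : 0 < r := by
        rcases Nat.eq_zero_or_pos r with h0 | h0
        · rw [h0] at hab; exact absurd rfl hab
        · exact h0
      obtain ⟨f, hf1, hf2, hf3⟩ : ∃ f : D.E × Bool, (f.1 = e ∨ f.1 = e') ∧
          tl β f = z (i + 1 + r) ∧ hd β f = z (i + 1) := by
        have s1 := hside i hin hiN
        have s2 := hside _ hjn hjN
        have s3 : (z (i + 1) ∈ ends β e ∧ z (i + 1 + r) ∈ ends β e) ∨
            (z (i + 1) ∈ ends β e' ∧ z (i + 1 + r) ∈ ends β e') := by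
          rcases s1 with ⟨-, a1⟩ | ⟨-, a1⟩ <;> rcases s2 with ⟨a2, -⟩ | ⟨a2, -⟩
          · exact absurd ⟨a1, a2⟩ hBA
          · exact Or.inr ⟨a1, a2⟩
          · exact Or.inl ⟨a1, a2⟩
          · exact absurd ⟨a1, a2⟩ hAB
        rcases s3 with ⟨a1, a2⟩ | ⟨a1, a2⟩
        · simp only [ends, Set.mem_insert_iff, Set.mem_singleton_iff] at a1 a2
          rcases a1 with a1 | a1 <;> rcases a2 with a2 | a2
          · exact absurd (a1.trans a2.symm) hab
          · exact ⟨(e, false), Or.inl rfl, by rw [a2]; rfl, by rw [a1]; rfl⟩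
          · exact ⟨(e, true), Or.inl rfl, by rw [a2]; rfl, by rw [a1]; rfl⟩
          · exact absurd (a1.trans a2.symm) hab
        · simp only [ends, Set.mem_insert_iff, Set.mem_singleton_iff] at a1 a2
          rcases a1 with a1 | a1 <;> rcases a2 with a2 | a2
          · exact absurd (a1.trans a2.symm) hab
          · exact ⟨(e', false), Or.inr rfl, by rw [a2]; rfl, by rw [a1]; rfl⟩
          · exact ⟨(e', true), Or.inr rfl, by rw [a2]; rfl, by rw [a1]; rfl⟩
          · exact absurd (a1.trans a2.symm) hab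
      have : RC β r (fun k => if k < r then d (i + 1 + k) else f) := by
        refine ⟨fun k hk => ?_, ?_⟩
        · by_cases hk' : k + 1 < r
          · simp only [hk, hk', if_true]
            exact hred k hk'
          · simp only [hk, hk', if_true, if_false]
            have e1 : k = r - 1 := by omega
            refine ⟨by rw [e1, hlst h0, hf2], fun e2 => hmin2 k hk ?_⟩
            rw [e2] at hf1
            exact hf1
        · simp only [lt_irrefl, if_false, h0, if_true]
          rw [hf3, add_zero, hfst h0]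
      have := hG _ _ this
      omega
  · push Not at hex2
    have hA : ∀ k, 0 ≤ k → k < 0 + i → Adj β (z k) (z (k + 1)) := fun k _ h2 =>
      hadj k (by omega) (hmin k (by omega))
    have hB : ∀ k, i + 1 ≤ k → k < i + 1 + (n - i) → Adj β (z k) (z (k + 1)) := by
      intro k h1 h2
      obtain ⟨k', rfl⟩ := Nat.exists_eq_add_of_le h1
      exact hadj _ (by omega) (hex2 k' (by omega))
    have e1 : i + 1 + (n - i) = n + 1 := by omega
    rcases hside i hin hiN with ⟨h1, h2⟩ | ⟨h1, h2⟩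
    · have c1 := Close.bwd (z := z) i 0 0 (by rw [zero_add]; exact h1) hA
      have c2 := Close.bwd (z := z) (n - i) _ (i + 1) (by rw [e1, hz0]; exact c1) hB
      exact hF' _ h2 _ (by omega) c2
    · have c1 := Close.fwd (m := 0) (z := z) (i := i + 1) h2 (n - i) hB
      rw [e1, hz0] at c1
      have c2 := Close.fwd (z := z) (i := 0) c1 i hA
      rw [zero_add i] at c2
      exact hF' _ h1 _ (by omega) c2

theorem gi_swap {β : D.E → D.Y} {g γ : ℕ} {e e' : D.E} (hG : Gi β γ) (hF : Far β g e e')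
    (hγ : γ ≤ g) : Gi (β ∘ swap e e') γ := by
  intro n d h
  by_contra hlt
  exact hlt (hG n d (rc_of_avoid h (avoid hG hF h (by omega) (by omega))))

theorem isConf_swap {β : D.E → D.Y} (hβ : D.IsConf β) {e e' : D.E} (hc : e'.1.2 = e.1.2) :
    D.IsConf (β ∘ swap e e') := by
  have hcol : ∀ f : D.E, (swap e e' f).1.2 = f.1.2 := by
    intro f
    by_cases h1 : f = e
    · subst h1; simp [hc]
    · by_cases h2 : f = e'
      · subst h2; simp [hc]
      · rw [swap_apply_of_ne_of_ne h1 h2]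
  refine ⟨fun f => ?_, fun f f' h1 h2 => ?_, fun y l hl => ?_⟩
  · have := hβ.1 (swap e e' f)
    rwa [hcol] at this
  · exact (swap e e').injective (hβ.2.1 _ _ h1 (by rw [hcol, hcol, h2]))
  · obtain ⟨f, hf1, hf2⟩ := hβ.2.2 y l hl
    exact ⟨swap e e' f, by simpa using hf1, by rw [hcol, hf2]⟩

section count
variable [Fintype P] [Fintype Λ]

theorem card_close {β : D.E → D.Y} (hβ : D.IsConf β) (e : D.E) (m : ℕ) :
    #{x | Close β (ends β e) m x} ≤ 2 * (Fintype.card P + 1) ^ m := by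
  induction m with
  | zero =>
    have : ({x | Close β (ends β e) 0 x} : Finset (D.U ⊕ D.Y))
        ⊆ {Sum.inl e.1.1, Sum.inr (β e)} := by
      intro x hx
      simpa [Close, ends] using hx
    exact (card_le_card this).trans (by simp)
  | succ m ih =>
    have h1 : ({x | Close β (ends β e) (m + 1) x} : Finset (D.U ⊕ D.Y)) ⊆
        ({x | Close β (ends β e) m x} : Finset _) ∪
          ({d | Close β (ends β e) m (tl β d)} : Finset (D.E × Bool)).image (hd β) := by
      intro x hx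
      simp only [mem_filter, mem_univ, true_and, mem_union, mem_image] at hx ⊢
      rcases hx with hx | ⟨x', hx', d, rfl, rfl⟩
      · exact Or.inl hx
      · exact Or.inr ⟨d, hx', rfl⟩
    have h2 : #({d | Close β (ends β e) m (tl β d)} : Finset (D.E × Bool)) ≤
        #(({x | Close β (ends β e) m x} : Finset (D.U ⊕ D.Y)) ×ˢ (univ : Finset P)) := by
      apply card_le_card_of_injOn (fun d => (tl β d, pr d.1.1.2))
      · intro d hd
        simpa using hd
      · rintro ⟨f, b⟩ - ⟨f', b'⟩ - hh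
        simp only [Prod.mk.injEq] at hh ⊢
        obtain ⟨h3, h4⟩ := hh
        cases b <;> cases b' <;> simp [tl] at h3 ⊢
        · exact (D.graph ⟨β, hβ⟩).inj_tgt f f' (congrArg Sum.inr h3) h4
        · exact (D.graph ⟨β, hβ⟩).inj_src f f' (congrArg Sum.inl h3) h4
    rw [card_product, card_univ] at h2
    calc _ ≤ _ := card_le_card h1
      _ ≤ _ := card_union_le _ _
      _ ≤ #{x | Close β (ends β e) m x} + #{x | Close β (ends β e) m x} * Fintype.card P :=
          Nat.add_le_add_left (card_image_le.trans h2) _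
      _ = #{x | Close β (ends β e) m x} * (Fintype.card P + 1) := by ring
      _ ≤ 2 * (Fintype.card P + 1) ^ m * (Fintype.card P + 1) := Nat.mul_le_mul_right _ ih
      _ = _ := by ring

theorem card_far {β : D.E → D.Y} (hβ : D.IsConf β) (e : D.E) (g n : ℕ)
    (hn : n ≤ #{w | e.1.2 ∈ D.SU w}) :
    n ≤ #{e' : D.E | e'.1.2 = e.1.2 ∧ Far β g e e'} + 4 * (Fintype.card P + 1) ^ (g + 2) := by
  have h1 : #{w | e.1.2 ∈ D.SU w} ≤ #{e' : D.E | e'.1.2 = e.1.2} := by
    have : ({w | e.1.2 ∈ D.SU w} : Finset D.U) ⊆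
        ({e' : D.E | e'.1.2 = e.1.2} : Finset D.E).image fun e' => e'.1.1 := by
      intro w hw
      simp only [mem_filter, mem_univ, true_and, mem_image] at hw ⊢
      exact ⟨⟨(w, e.1.2), hw⟩, rfl, rfl⟩
    exact (card_le_card this).trans card_image_le
  have h2 : #{e' : D.E | e'.1.2 = e.1.2 ∧ Close β (ends β e) g (Sum.inl e'.1.1)} ≤
      #{x | Close β (ends β e) g x} := by
    apply card_le_card_of_injOn (fun e' => Sum.inl e'.1.1)
    · intro f hf
      simp only [coe_filter, mem_univ, true_and, Set.mem_ofPred_eq] at hf ⊢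
      exact hf.2
    · intro f hf f' hf' hh
      simp only [coe_filter, mem_univ, true_and, Set.mem_ofPred_eq, Sum.inl.injEq] at hf hf' hh
      exact Subtype.ext (Prod.ext hh (hf.1.trans hf'.1.symm))
  have h3 : #{e' : D.E | e'.1.2 = e.1.2 ∧ Close β (ends β e) g (Sum.inr (β e'))} ≤
      #{x | Close β (ends β e) g x} := by
    apply card_le_card_of_injOn (fun e' => Sum.inr (β e'))
    · intro f hf
      simp only [coe_filter, mem_univ, true_and, Set.mem_ofPred_eq] at hf ⊢
      exact hf.2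
    · intro f hf f' hf' hh
      simp only [coe_filter, mem_univ, true_and, Set.mem_ofPred_eq, Sum.inr.injEq] at hf hf' hh
      exact hβ.2.1 f f' hh (hf.1.trans hf'.1.symm)
  have h4 : ({e' : D.E | e'.1.2 = e.1.2} : Finset D.E) ⊆
      ({e' : D.E | e'.1.2 = e.1.2 ∧ Far β g e e'} : Finset D.E) ∪
      (({e' : D.E | e'.1.2 = e.1.2 ∧ Close β (ends β e) g (Sum.inl e'.1.1)} : Finset D.E) ∪
        ({e' : D.E | e'.1.2 = e.1.2 ∧ Close β (ends β e) g (Sum.inr (β e'))} : Finset D.E)) := by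
    intro f hf
    simp only [mem_filter, mem_univ, true_and, mem_union] at hf ⊢
    by_cases h5 : Far β g e f
    · exact Or.inl ⟨hf, h5⟩
    · right
      simp only [Far, ends, Set.mem_insert_iff, Set.mem_singleton_iff, forall_eq_or_imp, forall_eq,
        not_and_or, not_not] at h5
      rcases h5 with h5 | h5
      · exact Or.inl ⟨hf, h5⟩
      · exact Or.inr ⟨hf, h5⟩
  have h5 := (card_le_card h4).trans ((card_union_le _ _).trans
    (Nat.add_le_add_left (card_union_le _ _) _))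
  have h6 := card_close hβ e g
  have h7 : (Fintype.card P + 1) ^ g ≤ (Fintype.card P + 1) ^ (g + 2) :=
    Nat.pow_le_pow_right (by omega) (by omega)
  omega

omit [Fintype P] [Fintype Λ] in
theorem conf_nonempty (hbal : ∀ l, #{w | l ∈ D.SU w} = #{y | l ∈ D.SY y}) :
    ∃ β, D.IsConf β := by
  have hf : ∀ l, Nonempty ({w // l ∈ D.SU w} ≃ {y // l ∈ D.SY y}) := fun l =>
    ⟨Fintype.equivOfCardEq (by rw [Fintype.card_subtype, Fintype.card_subtype]; exact hbal l)⟩
  let f := fun l => Classical.choice (hf l)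
  refine ⟨fun e => (f e.1.2 ⟨e.1.1, e.2⟩).1, fun e => (f e.1.2 ⟨e.1.1, e.2⟩).2, ?_, ?_⟩
  · rintro ⟨⟨w, l⟩, h⟩ ⟨⟨w', l'⟩, h'⟩ h1 h2
    simp only at h2
    subst h2
    have := (f l).injective (Subtype.ext h1)
    simp only [Subtype.mk.injEq] at this
    subst this
    rfl
  · intro y l hl
    refine ⟨⟨(((f l).symm ⟨y, hl⟩).1, l), ((f l).symm ⟨y, hl⟩).2⟩, ?_, rfl⟩
    simp

theorem exists_gi {n g : ℕ} (hbal : ∀ l, #{w | l ∈ D.SU w} = #{y | l ∈ D.SY y})
    (hlo : ∀ l, n ≤ #{w | l ∈ D.SU w}) (hn : 4 * (Fintype.card P + 1) ^ (g + 2) < n) :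
    ∀ γ, γ ≤ g → ∃ β, D.IsConf β ∧ Gi β γ := by
  intro γ
  induction γ with
  | zero =>
    intro _
    obtain ⟨β, hβ⟩ := conf_nonempty hbal
    exact ⟨β, hβ, fun _ _ _ => Nat.zero_le _⟩
  | succ γ ih =>
    intro hγ
    let Bad : (D.E → D.Y) → Finset D.E := fun β =>
      {e | ∃ m d, m + 1 ≤ γ ∧ RC β m d ∧ ∃ i, i ≤ m ∧ (d i).1 = e}
    have key : ∀ k, ∀ β, D.IsConf β → Gi β γ → #(Bad β) = k → ∃ β, D.IsConf β ∧ Gi β (γ + 1) := by
      intro k
      induction k using Nat.strong_induction_on with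
      | _ k ihk =>
        intro β hβ hG hk
        by_cases hB : Gi β (γ + 1)
        · exact ⟨β, hβ, hB⟩
        · simp only [Gi, not_forall] at hB
          obtain ⟨m, d, hd, hm⟩ := hB
          have he : (d 0).1 ∈ Bad β := by
            simp only [Bad, mem_filter, mem_univ, true_and]
            exact ⟨m, d, by omega, hd, 0, Nat.zero_le _, rfl⟩
          set e := (d 0).1
          have hc := card_far hβ e g n (hlo _)
          obtain ⟨e', he'⟩ : ({e' : D.E | e'.1.2 = e.1.2 ∧ Far β g e e'} : Finset D.E).Nonempty :=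
            card_pos.1 (by omega)
          simp only [mem_filter, mem_univ, true_and] at he'
          refine ihk _ ?_ (β ∘ swap e e') (isConf_swap hβ he'.1) (gi_swap hG he'.2 (by omega)) rfl
          rw [← hk]
          refine lt_of_le_of_lt (card_le_card ?_) (card_erase_lt_of_mem he)
          intro f hf
          simp only [Bad, mem_filter, mem_univ, true_and, mem_erase] at hf ⊢
          obtain ⟨m', d', h1, h2, i, hi, rfl⟩ := hf
          have ha := avoid hG he'.2 h2 h1 (by omega)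
          exact ⟨(ha i hi).1, m', d', h1, rc_of_avoid h2 ha, i, hi, rfl⟩
    obtain ⟨β, hβ, hG⟩ := ih (by omega)
    exact key _ β hβ hG rfl

/-- configurations of girth `g` with prescribed values on `S` -/
noncomputable def GS (g : ℕ) (t : D.E → D.Y) (S : Finset D.E) : Finset (D.E → D.Y) :=
  {β | D.IsConf β ∧ Gi β g ∧ ∀ e ∈ S, β e = t e}

theorem step {n g A : ℕ} (hlo : ∀ l, n ≤ #{w | l ∈ D.SU w}) (t : D.E → D.Y) (S : Finset D.E)
    (e : D.E) (he : e ∉ S) (hA : 4 * (Fintype.card P + 1) ^ (g + 2) + #S ≤ A) :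
    #(GS g t (insert e S)) * (n - A) ≤ #(GS g t S) := by
  rw [← mul_one #(GS g t S)]
  apply card_mul_le_card_mul (fun β β' => ∃ e' : D.E, e'.1.2 = e.1.2 ∧ β' = β ∘ swap e e')
  · intro β hβ
    simp only [GS, mem_filter, mem_univ, true_and] at hβ
    obtain ⟨h1, h2, h3⟩ := hβ
    have hc := card_far h1 e g n (hlo _)
    have h4 : #(({e' : D.E | e'.1.2 = e.1.2 ∧ Far β g e e'} : Finset D.E) \ S) ≤
        #((GS g t S).bipartiteAbove
          (fun β β' => ∃ e' : D.E, e'.1.2 = e.1.2 ∧ β' = β ∘ swap e e') β) := by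
      apply card_le_card_of_injOn (fun e' => β ∘ swap e e')
      · intro e' he'
        simp only [coe_sdiff, coe_filter, mem_univ, true_and, Set.mem_sdiff, Set.mem_ofPred_eq,
          mem_coe] at he'
        simp only [mem_coe, mem_bipartiteAbove, GS, mem_filter, mem_univ, true_and]
        refine ⟨⟨isConf_swap h1 he'.1.1, gi_swap h2 he'.1.2 le_rfl, fun f hf => ?_⟩,
          e', he'.1.1, rfl⟩
        have a1 : f ≠ e := fun h => he (h ▸ hf)
        have a2 : f ≠ e' := fun h => he'.2 (h ▸ hf)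
        simp only [Function.comp, swap_apply_of_ne_of_ne a1 a2]
        exact h3 f (mem_insert_of_mem hf)
      · intro f hf f' hf' hh
        simp only [coe_sdiff, coe_filter, mem_univ, true_and, Set.mem_sdiff,
          Set.mem_ofPred_eq] at hf hf'
        have := congrFun hh e
        simp only [Function.comp, swap_apply_left] at this
        exact h1.2.1 f f' this (hf.1.1.trans hf'.1.1.symm)
    have h5 := le_card_sdiff S ({e' : D.E | e'.1.2 = e.1.2 ∧ Far β g e e'} : Finset D.E)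
    omega
  · intro β' hβ'
    simp only [GS, mem_filter, mem_univ, true_and] at hβ'
    rw [card_le_one]
    intro β1 h1 β2 h2
    simp only [mem_bipartiteBelow, GS, mem_filter, mem_univ, true_and] at h1 h2
    obtain ⟨⟨-, -, a1⟩, e1, c1, d1⟩ := h1
    obtain ⟨⟨-, -, a2⟩, e2, c2, d2⟩ := h2
    have b1 : β' e1 = t e := by
      rw [d1]; simp only [Function.comp, swap_apply_right]; exact a1 e (mem_insert_self _ _)
    have b2 : β' e2 = t e := by
      rw [d2]; simp only [Function.comp, swap_apply_right]; exact a2 e (mem_insert_self _ _)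
    have := hβ'.1.2.1 e1 e2 (b1.trans b2.symm) (c1.trans c2.symm)
    subst this
    funext f
    have := congrFun (d1.symm.trans d2) (swap e e1 f)
    simpa using this

theorem count {n g A : ℕ} (hlo : ∀ l, n ≤ #{w | l ∈ D.SU w}) (t : D.E → D.Y) (S : Finset D.E) :
    4 * (Fintype.card P + 1) ^ (g + 2) + #S ≤ A →
      #(GS g t S) * (n - A) ^ #S ≤ #(GS g t ∅) := by
  induction S using Finset.induction_on with
  | empty => intro _; simp
  | insert e S he ih =>
    intro hA
    rw [card_insert_of_notMem he] at hA ⊢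
    calc #(GS g t (insert e S)) * (n - A) ^ (#S + 1)
        = (#(GS g t (insert e S)) * (n - A)) * (n - A) ^ #S := by ring
      _ ≤ #(GS g t S) * (n - A) ^ #S := Nat.mul_le_mul_right _ (step hlo t S e he (by omega))
      _ ≤ _ := ih (by omega)

omit [Fintype P] in
theorem card_GS (g : ℕ) (t : D.E → D.Y) (S : Finset D.E) :
    Nat.card {β : D.Conf // (D.graph β).Girth g ∧ ∀ e ∈ S, β.1 e = t e} = #(GS g t S) := by
  rw [← Nat.card_eq_finsetCard (GS g t S)]
  refine Nat.card_congr ⟨fun β => ⟨β.1.1, ?_⟩, fun β => ⟨⟨β.1, ?_⟩, ?_⟩, fun _ => rfl, fun _ => rfl⟩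
  · simp only [GS, mem_filter, mem_univ, true_and]
    exact ⟨β.1.2, (girth_iff _ _).1 β.2.1, β.2.2⟩
  · exact (mem_filter.1 β.2).2.1
  · exact ⟨(girth_iff _ _).2 (mem_filter.1 β.2).2.2.1, (mem_filter.1 β.2).2.2.2⟩

end count

end Sw

open Sw in
theorem switchStmt : SwitchStmt := by
  intro P Λ _ _ pr D n g hbal hlo hn
  refine ⟨?_, fun S t A hA => ?_⟩
  · obtain ⟨β, hβ, hG⟩ := exists_gi hbal hlo hn g le_rfl
    exact ⟨⟨β, hβ⟩, (girth_iff _ _).2 hG⟩
  · rw [card_GS]
    refine (count hlo t S hA).trans (le_of_eq ?_)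
    rw [← card_GS]
    simp

end Crest.Agent.R177
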