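import Mathlib
import Crest.Agent.R177.Defs

/-!
Ring-theoretic core of the wreath product construction: an odd multiple of a self-adjoint
idempotent that reduces mod 2 into the ideal of a zero divisor gives a small matrix.
-/

set_option autoImplicit false

namespace Crest.Agent.R177.Wr

open Matrix MonoidAlgebra

variable {G : Type} [Group G]

theorem elem_left {ι : Type} [Fintype ι] [inst : DecidableEq ι]
    (X N : Matrix ι ι (MonoidAlgebra ℚ G)) (h1 : N * N = 0) (h2 : ∀ i, N i i = 0) :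
    Elem X ((1 + N) * X) := by
  obtain rfl : inst = fun a b => Classical.propDecidable (a = b) := Subsingleton.elim _ _
  exact ⟨N, h1, h2, Or.inl rfl⟩

theorem elem_right {ι : Type} [Fintype ι] [inst : DecidableEq ι]
    (X N : Matrix ι ι (MonoidAlgebra ℚ G)) (h1 : N * N = 0) (h2 : ∀ i, N i i = 0) :
    Elem X (X * (1 + N)) := by
  obtain rfl : inst = fun a b => Classical.propDecidable (a = b) := Subsingleton.elim _ _
  exact ⟨N, h1, h2, Or.inr rfl⟩

/-- squared `ℓ²` norm -/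
noncomputable def nsq (x : MonoidAlgebra ℚ G) : ℚ := ∑ g ∈ x.coeff.support, x.coeff g ^ 2

theorem smallMat_of {ι : Type} [Fintype ι] [inst : DecidableEq ι] [Nonempty ι]
    (A : Matrix ι ι (MonoidAlgebra ℤ G)) (X : Matrix ι ι (MonoidAlgebra ℚ G)) (hX : IsUnit X)
    (h : Relation.ReflTransGen Elem X (A.map (MonoidAlgebra.mapRingHom G (Int.castRingHom ℚ))))
    (hn : ∑ i, ∑ j, nsq (X i j) < (Fintype.card ι : ℚ)) : SmallMat G := by
  obtain rfl : inst = fun a b => Classical.propDecidable (a = b) := Subsingleton.elim _ _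
  exact ⟨ι, inferInstance, inferInstance, A, X, hX, h, hn⟩

section Blocks

variable {κ : Type} [Fintype κ] [DecidableEq κ]

omit [Fintype κ] in
theorem up_eq (B : Matrix κ κ (MonoidAlgebra ℚ G)) :
    fromBlocks 1 B 0 1 = 1 + fromBlocks (0 : Matrix κ κ (MonoidAlgebra ℚ G)) B 0
      (0 : Matrix κ κ (MonoidAlgebra ℚ G)) := by
  rw [← fromBlocks_one, fromBlocks_add]; simp

omit [Fintype κ] in
theorem lo_eq (B : Matrix κ κ (MonoidAlgebra ℚ G)) :
    fromBlocks 1 0 B 1 = 1 + fromBlocks (0 : Matrix κ κ (MonoidAlgebra ℚ G)) 0 B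
      (0 : Matrix κ κ (MonoidAlgebra ℚ G)) := by
  rw [← fromBlocks_one, fromBlocks_add]; simp

theorem up_left (X : Matrix (κ ⊕ κ) (κ ⊕ κ) (MonoidAlgebra ℚ G)) (B : Matrix κ κ _) :
    Elem X (fromBlocks 1 B 0 1 * X) := by
  rw [up_eq]
  exact elem_left _ _ (by simp [fromBlocks_multiply]) (by rintro (i | i) <;> simp)

theorem lo_left (X : Matrix (κ ⊕ κ) (κ ⊕ κ) (MonoidAlgebra ℚ G)) (B : Matrix κ κ _) :
    Elem X (fromBlocks 1 0 B 1 * X) := by
  rw [lo_eq]
  exact elem_left _ _ (by simp [fromBlocks_multiply]) (by rintro (i | i) <;> simp)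

theorem up_right (X : Matrix (κ ⊕ κ) (κ ⊕ κ) (MonoidAlgebra ℚ G)) (B : Matrix κ κ _) :
    Elem X (X * fromBlocks 1 B 0 1) := by
  rw [up_eq]
  exact elem_right _ _ (by simp [fromBlocks_multiply]) (by rintro (i | i) <;> simp)

theorem lo_right (X : Matrix (κ ⊕ κ) (κ ⊕ κ) (MonoidAlgebra ℚ G)) (B : Matrix κ κ _) :
    Elem X (X * fromBlocks 1 0 B 1) := by
  rw [lo_eq]
  exact elem_right _ _ (by simp [fromBlocks_multiply]) (by rintro (i | i) <;> simp)

theorem chain (M : ℚ) (hM : M ≠ 0) (U Y W W' Z' : Matrix κ κ (MonoidAlgebra ℚ G))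
    (h1 : W * U = M • W') (h2 : W * Y = 1 - M • Z') :
    Relation.ReflTransGen Elem (fromBlocks (M⁻¹ • U) 0 0 1) (fromBlocks U Y (-W') Z') := by
  have e : fromBlocks U Y (-W') Z' =
      fromBlocks 1 0 (-(M⁻¹ • W)) 1 * (fromBlocks 1 (M • Y) 0 1 *
        (fromBlocks (M⁻¹ • U) 0 0 1 * fromBlocks 1 (M • 1) 0 1 * fromBlocks 1 0 (-(M⁻¹ • 1)) 1 *
          fromBlocks 1 (M • 1) 0 1 * fromBlocks 1 (-1) 0 1 * fromBlocks 1 0 1 1 *
          fromBlocks 1 (-1) 0 1)) := by
    simp [fromBlocks_multiply, smul_smul, hM, h1, h2, smul_sub]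
  rw [e]
  refine Relation.ReflTransGen.tail ?_ (lo_left _ _)
  refine Relation.ReflTransGen.tail ?_ (up_left _ _)
  refine Relation.ReflTransGen.tail ?_ (up_right _ _)
  refine Relation.ReflTransGen.tail ?_ (lo_right _ _)
  refine Relation.ReflTransGen.tail ?_ (up_right _ _)
  refine Relation.ReflTransGen.tail ?_ (up_right _ _)
  refine Relation.ReflTransGen.tail ?_ (lo_right _ _)
  exact Relation.ReflTransGen.single (up_right _ _)

end Blocks

theorem nsq_zero : nsq (0 : MonoidAlgebra ℚ G) = 0 := by simp [nsq]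

theorem nsq_eq {x : MonoidAlgebra ℚ G} (hx : ∀ g, x.coeff g⁻¹ = x.coeff g) :
    nsq x = (x * x).coeff 1 := by
  rw [coeff_mul_apply_left, nsq, Finsupp.sum]
  refine Finset.sum_congr rfl fun g _ => ?_
  rw [mul_one, hx, sq]

theorem one_sym (g : G) :
    (1 : MonoidAlgebra ℚ G).coeff g⁻¹ = (1 : MonoidAlgebra ℚ G).coeff g := by
  classical
  simp only [one_def, coeff_single, Finsupp.single_apply, eq_comm (a := (1 : G)), inv_eq_one]

theorem nsq_one : nsq (1 : MonoidAlgebra ℚ G) = 1 := by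
  rw [nsq_eq one_sym, mul_one, coeff_one_one]

theorem nsq_pos {x : MonoidAlgebra ℚ G} (hx : x ≠ 0) : 0 < nsq x := by
  refine Finset.sum_pos (fun g hg => ?_) ?_
  · have := Finsupp.mem_support_iff.1 hg
    positivity
  · rw [Finsupp.support_nonempty_iff]
    simpa using hx

theorem nsq_lt {P : MonoidAlgebra ℚ G} (hP : P * P = P) (hs : ∀ g, P.coeff g⁻¹ = P.coeff g)
    (h0 : P ≠ 0) {θ : ℚ} (h1 : 0 < θ) (h2 : θ < 2) : nsq (1 - θ • P) < 1 := by
  have h3 : 0 < P.coeff 1 := by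
    have := nsq_pos h0
    rwa [nsq_eq hs, hP] at this
  rw [nsq_eq]
  · have : (1 - θ • P) * (1 - θ • P) = 1 - (θ * (2 - θ)) • P := by
      simp only [mul_sub, sub_mul, one_mul, mul_one, smul_mul_assoc, mul_smul_comm, hP]
      module
    rw [this, coeff_sub, coeff_smul, Finsupp.sub_apply, coeff_one_one, Finsupp.smul_apply,
      smul_eq_mul]
    have : 0 < θ * (2 - θ) * P.coeff 1 := by
      have : 0 < 2 - θ := by linarith
      positivity
    linarith
  · intro g
    simp only [coeff_sub, coeff_smul, Finsupp.sub_apply, Finsupp.smul_apply, one_sym, hs]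

/-- reduction mod two -/
noncomputable abbrev red (G : Type) [Group G] : MonoidAlgebra ℤ G →+* MonoidAlgebra (ZMod 2) G :=
  MonoidAlgebra.mapRingHom G (Int.castRingHom (ZMod 2))

theorem red_surj : Function.Surjective (red G) :=
  MonoidAlgebra.map_surjective _ (ZMod.ringHom_surjective (Int.castRingHom (ZMod 2)))

theorem red_ker {x : MonoidAlgebra ℤ G} (h : red G x = 0) : ∃ z, x = (2 : ℤ) • z := by
  refine ⟨MonoidAlgebra.ofCoeff (x.coeff.mapRange (fun a => a / 2) (by simp)), ?_⟩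
  ext g
  have h1 : ((x.coeff g : ℤ) : ZMod 2) = 0 := by
    have := congrArg (fun y => y.coeff g) h
    simpa using this
  have h2 := (ZMod.intCast_zmod_eq_zero_iff_dvd _ 2).1 h1
  simp only [coeff_smul, Finsupp.smul_apply, Finsupp.mapRange_apply, smul_eq_mul]
  exact (Int.mul_ediv_cancel' h2).symm

theorem core (m : ℕ) (hm : Odd m) (E : MonoidAlgebra ℤ G) (hE : E * E = (m : ℤ) • E)
    (hs : ∀ g, E.coeff g⁻¹ = E.coeff g) (h0 : E ≠ 0) (a b c d : MonoidAlgebra (ZMod 2) G)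
    (hab : a * b = 1) (hac : a * c = 0) (hdb : d * b = 0) (hdc : d * c = red G E) :
    SmallMat G := by
  have hm0 : 0 < m := hm.pos
  have hco : Nat.Coprime 2 m := Nat.coprime_two_left.2 hm
  set h := Nat.totient m with hh
  have hh0 : 0 < h := Nat.totient_pos.2 hm0
  obtain ⟨t, ht⟩ : ∃ t : ℕ, 2 ^ h = 1 + m * t := by
    have h1 : m ∣ 2 ^ h - 1 :=
      (Nat.modEq_iff_dvd' Nat.one_le_two_pow).1 (Nat.ModEq.pow_totient hco).symm
    obtain ⟨t, ht⟩ := h1
    have := Nat.one_le_two_pow (n := h)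
    exact ⟨t, by omega⟩
  have htodd : Odd t := by
    have h1 : Even (2 ^ h) := (Nat.even_pow.2 ⟨even_two, hh0.ne'⟩)
    rw [ht, add_comm, Nat.even_add_one, Nat.not_even_iff_odd, Nat.odd_mul] at h1
    exact h1.2
  have hodd : ∀ k : ℕ, Odd k → ∀ x : MonoidAlgebra (ZMod 2) G, (k : ℤ) • x = x := by
    intro k hk x
    rw [← Int.cast_smul_eq_zsmul (ZMod 2), Int.cast_natCast, (ZMod.natCast_eq_one_iff_odd).2 hk,
      one_smul]
  have htwo : ∀ x : MonoidAlgebra (ZMod 2) G, x + x = 0 := by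
    intro x
    rw [← two_smul (ZMod 2) x, show (2 : ZMod 2) = 0 from rfl, zero_smul]
  set M : ℤ := 2 ^ h with hM
  have htZ : M = 1 + m * t := by rw [hM]; exact_mod_cast ht
  let u : MonoidAlgebra ℤ G := M • 1 - (t : ℤ) • E
  let w : MonoidAlgebra ℤ G := 1 + (t : ℤ) • E
  have hwu : w * u = M • 1 := by
    simp only [w, u, mul_sub, add_mul, one_mul, mul_one, smul_mul_assoc, mul_smul_comm, hE,
      smul_smul, htZ]
    module
  have huw : u * w = M • 1 := by
    simp only [w, u, sub_mul, mul_add, one_mul, mul_one, smul_mul_assoc, mul_smul_comm, hE,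
      smul_smul, htZ]
    module
  set e := red G E with he
  have hee : e * e = e := by rw [he, ← map_mul, hE, map_zsmul, hodd m hm]
  have hw : red G w = 1 + e := by rw [map_add, map_one, map_zsmul, hodd t htodd]
  obtain ⟨a', ha'⟩ := red_surj a
  obtain ⟨b', hb'⟩ := red_surj b
  obtain ⟨c', hc'⟩ := red_surj c
  obtain ⟨d', hd'⟩ := red_surj d
  let W : Matrix (Fin 2) (Fin 2) (MonoidAlgebra ℤ G) := !![0, a'; w, d']
  let Y0 : Matrix (Fin 2) (Fin 2) (MonoidAlgebra ℤ G) := !![0, w; b', c']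
  have hWY : ∀ i j, red G ((W * Y0 - 1) i j) = 0 := by
    intro i j
    fin_cases i <;> fin_cases j <;>
      simp [W, Y0, ha', hb', hc', hd', hw, hab, hac, hdb, hdc]
    have e1 : (1 + e) * (1 + e) + e - 1 = (e + e) + (e + e) := by
      rw [mul_add, add_mul, add_mul, one_mul, mul_one, one_mul, hee]
      abel
    rw [e1, htwo]
  choose Z hZ using fun i j => red_ker (hWY i j)
  have hZ' : W * Y0 = 1 - (2 : ℤ) • (-Matrix.of Z) := by
    ext i j : 2
    have := hZ i j
    rw [Matrix.sub_apply, sub_eq_iff_eq_add] at this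
    rw [this]
    simp [add_comm]
  let Y := Y0 * ∑ i ∈ Finset.range h, ((2 : ℤ) • (-Matrix.of Z)) ^ i
  let Z' := (-Matrix.of Z) ^ h
  have hY : W * Y = 1 - M • Z' := by
    simp only [Y, Z']
    rw [← mul_assoc, hZ', mul_neg_geom_sum, smul_pow]
  let U : Matrix (Fin 2) (Fin 2) (MonoidAlgebra ℤ G) := !![u, 0; 0, M • 1]
  let W' : Matrix (Fin 2) (Fin 2) (MonoidAlgebra ℤ G) := !![0, a'; 1, d']
  have hU : W * U = M • W' := by
    refine Matrix.ext fun i j => ?_
    fin_cases i <;> fin_cases j <;>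
      simp [W, U, W', Matrix.mul_apply, Fin.sum_univ_two, hwu, -zsmul_eq_mul, -zsmul_one]
  let σ := MonoidAlgebra.mapRingHom G (Int.castRingHom ℚ)
  have hMq : (M : ℚ) ≠ 0 := by rw [hM]; positivity
  have hMq1 : (M : ℚ) = 1 + m * t := by exact_mod_cast htZ
  have hzs : ∀ (k : ℤ) (x : MonoidAlgebra ℤ G), σ (k • x) = (k : ℚ) • σ x := by
    intro k x
    rw [map_zsmul, Int.cast_smul_eq_zsmul]
  have hzm : ∀ (k : ℤ) (x : Matrix (Fin 2) (Fin 2) (MonoidAlgebra ℤ G)),
      σ.mapMatrix (k • x) = (k : ℚ) • σ.mapMatrix x := by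
    intro k x
    rw [map_zsmul, Int.cast_smul_eq_zsmul]
  have hch := chain (M : ℚ) hMq (σ.mapMatrix U) (σ.mapMatrix Y) (σ.mapMatrix W) (σ.mapMatrix W')
    (σ.mapMatrix Z') (by rw [← map_mul, hU, hzm]) (by rw [← map_mul, hY, map_sub, map_one, hzm])
  have hX0 : (M : ℚ)⁻¹ • σ.mapMatrix U = !![(M : ℚ)⁻¹ • σ u, 0; 0, 1] := by
    refine Matrix.ext fun i j => ?_
    fin_cases i <;> fin_cases j <;> simp [U, hzs, smul_smul, hMq, -zsmul_eq_mul, -zsmul_one, -map_zsmul]
  rw [hX0] at hch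
  refine smallMat_of (fromBlocks U Y (-W') Z') (fromBlocks !![(M : ℚ)⁻¹ • σ u, 0; 0, 1] 0 0 1)
    ?_ ?_ ?_
  · have e1 : ((M : ℚ)⁻¹ • σ u) * σ w = 1 := by
      rw [smul_mul_assoc, ← map_mul, huw, hzs, smul_smul, inv_mul_cancel₀ hMq, map_one, one_smul]
    have e2 : σ w * ((M : ℚ)⁻¹ • σ u) = 1 := by
      rw [mul_smul_comm, ← map_mul, hwu, hzs, smul_smul, inv_mul_cancel₀ hMq, map_one, one_smul]
    generalize (M : ℚ)⁻¹ • σ u = x at e1 e2
    refine ⟨⟨fromBlocks !![x, 0; 0, 1] 0 0 1, fromBlocks !![σ w, 0; 0, 1] 0 0 1,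
      ?_, ?_⟩, rfl⟩
    · rw [fromBlocks_multiply, ← fromBlocks_one]
      simp [e1, ← Matrix.one_fin_two]
    · rw [fromBlocks_multiply, ← fromBlocks_one]
      simp [e2, ← Matrix.one_fin_two]
  · rw [fromBlocks_map]
    rw [← map_neg] at hch
    exact hch
  · have hmq : (0 : ℚ) < m := by exact_mod_cast hm0
    have htq : (0 : ℚ) < t := by exact_mod_cast htodd.pos
    have e1 : (M : ℚ)⁻¹ • σ u = 1 - ((m * t : ℚ) / M) • ((m : ℚ)⁻¹ • σ E) := by
      simp only [u, map_sub, hzs, map_one, smul_sub, smul_smul, inv_mul_cancel₀ hMq, one_smul]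
      congr 2
      push_cast
      field_simp
    have e2 : nsq ((M : ℚ)⁻¹ • σ u) < 1 := by
      rw [e1]
      refine nsq_lt ?_ ?_ ?_ ?_ ?_
      · rw [smul_mul_assoc, mul_smul_comm, ← map_mul, hE, hzs, smul_smul, smul_smul]
        congr 1
        push_cast
        field_simp
      · intro g
        simp [σ, hs]
      · refine smul_ne_zero (inv_ne_zero hmq.ne') fun h => h0 ?_
        ext g
        have := congrArg (fun y => y.coeff g) h
        simpa [σ] using this
      · rw [hMq1]; positivity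
      · rw [hMq1, div_lt_iff₀ (by positivity)]
        nlinarith [mul_pos hmq htq]
    simp only [Fintype.sum_sum_type, Fin.sum_univ_two, fromBlocks_apply₁₁, fromBlocks_apply₁₂,
      fromBlocks_apply₂₁, fromBlocks_apply₂₂]
    simp [nsq_zero, nsq_one]
    linarith

end Crest.Agent.R177.Wr
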