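import Mathlib
import Crest.Agent.R177.WreathCore

/-!
The wreath product `ℤ/3 ≀ G` carries a small matrix when `𝔽₂[G]` has a one-sided unit that is a
zero divisor.
-/

set_option autoImplicit false

namespace Crest.Agent.R177.Wr

open MonoidAlgebra

variable (G : Type) [Group G]

/-- the base group -/
abbrev Base : Type := Multiplicative (G →₀ ZMod 3)

/-- the action on the base group -/
noncomputable def act : G →* MulAut (Base G) where
  toFun g := AddEquiv.toMultiplicative (Finsupp.domCongr (Equiv.mulLeft g))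
  map_one' := by
    ext f : 1
    apply Multiplicative.toAdd.injective
    ext x
    simp [-Equiv.mulLeft_one]
  map_mul' g h := by
    ext f : 1
    apply Multiplicative.toAdd.injective
    ext x
    simp [mul_assoc, -Equiv.mulLeft_mul]

/-- the wreath product -/
abbrev W : Type := Base G ⋊[act G] G

variable {G}

/-- the generator at `g` -/
noncomputable def z (g : G) : Base G := Multiplicative.ofAdd (Finsupp.single g 1)

theorem act_z (g h : G) : act G g (z h) = z (g * h) := by
  apply Multiplicative.toAdd.injective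
  simp [act, z]

omit [Group G] in
theorem z_cube (g : G) : z g * z g * z g = 1 := by
  apply Multiplicative.toAdd.injective
  simp only [z, toAdd_mul, toAdd_ofAdd, toAdd_one, ← Finsupp.single_add]
  rw [show (1 + 1 + 1 : ZMod 3) = 0 from rfl, Finsupp.single_zero]

theorem conj_z (g : G) : (SemidirectProduct.inr g : W G) * SemidirectProduct.inl (z 1) =
    SemidirectProduct.inl (z g) * SemidirectProduct.inr g := by
  ext : 1
  · simp [act_z]
  · simp

theorem fg_W (h : Group.FG G) : Group.FG (W G) := by
  obtain ⟨S, hS, hfin⟩ := Group.fg_iff.1 h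
  refine Group.fg_iff.2 ⟨SemidirectProduct.inr '' S ∪ {SemidirectProduct.inl (z 1)}, ?_,
    (hfin.image _).union (Set.finite_singleton _)⟩
  set H := Subgroup.closure
    ((SemidirectProduct.inr '' S ∪ {SemidirectProduct.inl (z 1)} : Set (W G))) with hH
  have h1 : ∀ g : G, (SemidirectProduct.inr g : W G) ∈ H := by
    intro g
    have hg : g ∈ Subgroup.closure S := by rw [hS]; trivial
    have := Subgroup.mem_map_of_mem (SemidirectProduct.inr : G →* W G) hg
    rw [MonoidHom.map_closure] at this
    exact Subgroup.closure_mono Set.subset_union_left this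
  have h2 : ∀ g : G, (SemidirectProduct.inl (z g) : W G) ∈ H := by
    intro g
    have : (SemidirectProduct.inl (z g) : W G) =
        SemidirectProduct.inr g * SemidirectProduct.inl (z 1) * (SemidirectProduct.inr g)⁻¹ := by
      rw [conj_z, mul_inv_cancel_right]
    rw [this]
    exact H.mul_mem (H.mul_mem (h1 g) (Subgroup.subset_closure (Or.inr rfl))) (H.inv_mem (h1 g))
  have h3 : ∀ f : G →₀ ZMod 3, (SemidirectProduct.inl (Multiplicative.ofAdd f) : W G) ∈ H := by
    intro f
    induction f using Finsupp.induction_linear with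
    | zero => simp
    | add f g hf hg => rw [ofAdd_add, map_mul]; exact H.mul_mem hf hg
    | single g a =>
      have : Multiplicative.ofAdd (Finsupp.single g a) = z g ^ a.val := by
        apply Multiplicative.toAdd.injective
        simp [z]
      rw [this, map_pow]
      exact H.pow_mem (h2 g) _
  rw [eq_top_iff]
  intro x _
  rw [← SemidirectProduct.inl_left_mul_inr_right x]
  exact H.mul_mem (h3 _) (h1 _)

section Ring

variable (R : Type) [CommRing R]

/-- the norm element -/
noncomputable def nn (g : G) : MonoidAlgebra R (Base G) :=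
  1 + single (z g) 1 + single (z g * z g) 1

omit [Group G] in
theorem nn_sq (g : G) : nn R g * nn R g = 3 * nn R g := by
  have h : (single (z g) 1 : MonoidAlgebra R (Base G)) ^ 3 = 1 := by
    rw [single_pow, one_pow, pow_three', z_cube, one_def]
  have h2 : (single (z g * z g) 1 : MonoidAlgebra R (Base G)) = single (z g) 1 ^ 2 := by
    rw [single_pow, one_pow, sq]
  rw [nn, h2]
  linear_combination (single (z g) 1 + 2) * h

/-- the multiple of an idempotent -/
noncomputable def EE (T : Finset G) (g₀ : G) : MonoidAlgebra R (Base G) :=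
  (3 - nn R g₀) * ∏ g ∈ T, nn R g

omit [Group G] in
theorem prod_sq (T : Finset G) :
    (∏ g ∈ T, nn R g) * ∏ g ∈ T, nn R g = 3 ^ T.card * ∏ g ∈ T, nn R g := by
  rw [← Finset.prod_mul_distrib, Finset.prod_congr rfl fun g _ => nn_sq R g,
    Finset.prod_mul_distrib, Finset.prod_const]

omit [Group G] in
theorem EE_sq (T : Finset G) (g₀ : G) : EE R T g₀ * EE R T g₀ = 3 ^ (T.card + 1) * EE R T g₀ := by
  have h1 := prod_sq R T
  have h2 := nn_sq R g₀
  rw [EE]
  linear_combination (3 - nn R g₀) ^ 2 * h1 + 3 ^ T.card * (∏ g ∈ T, nn R g) * h2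

omit [Group G] in
theorem EE_inv (T : Finset G) (g₀ : G) :
    mapDomainRingHom R (invMonoidHom : Base G →* Base G) (EE R T g₀) = EE R T g₀ := by
  have h : ∀ g : G, mapDomainRingHom R (invMonoidHom : Base G →* Base G) (nn R g) = nn R g := by
    intro g
    have e1 : (z g)⁻¹ = z g * z g := inv_eq_of_mul_eq_one_left (z_cube g)
    have e2 : (z g * z g)⁻¹ = z g := inv_eq_of_mul_eq_one_right (z_cube g)
    simp only [nn, map_add, map_one, mapDomainRingHom_apply, mapDomain_single,
      invMonoidHom_apply, e1, e2]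
    ring
  simp only [EE, map_mul, map_sub, map_prod, h, map_ofNat]

/-- the embedding of the group ring of the base -/
noncomputable abbrev emb : MonoidAlgebra R (Base G) →+* MonoidAlgebra R (W G) :=
  mapDomainRingHom R SemidirectProduct.inl

theorem emb_sym (x : MonoidAlgebra R (Base G))
    (hx : mapDomainRingHom R (invMonoidHom : Base G →* Base G) x = x) (g : W G) :
    (emb R x).coeff g⁻¹ = (emb R x).coeff g := by
  have hinj : Function.Injective (SemidirectProduct.inl : Base G → W G) :=
    SemidirectProduct.inl_injective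
  have hc : ∀ y : MonoidAlgebra R (Base G), (emb R y).coeff =
      Finsupp.mapDomain (SemidirectProduct.inl : Base G →* W G) y.coeff := fun _ => rfl
  rw [hc]
  by_cases hg : g ∈ Set.range (SemidirectProduct.inl : Base G →* W G)
  · obtain ⟨y, rfl⟩ := hg
    rw [← map_inv, Finsupp.mapDomain_apply hinj, Finsupp.mapDomain_apply hinj]
    conv_lhs => rw [← hx]
    exact Finsupp.mapDomain_apply (f := fun y : Base G => y⁻¹) inv_injective _ _
  · rw [Finsupp.mapDomain_of_notMem_range _ _ hg, Finsupp.mapDomain_of_notMem_range]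
    rintro ⟨y, hy⟩
    exact hg ⟨y⁻¹, by rw [map_inv, hy, inv_inv]⟩

end Ring

/-- a character of order three with values in `ℤ/7` -/
noncomputable def chi (g₀ : G) : Base G →* ZMod 7 where
  toFun f := 2 ^ (f.toAdd g₀).val
  map_one' := by simp
  map_mul' a b := by
    simp only [toAdd_mul, Finsupp.add_apply]
    generalize a.toAdd g₀ = x
    generalize b.toAdd g₀ = y
    revert x y
    decide

omit [Group G] in
theorem EE_ne_zero (T : Finset G) (g₀ : G) (h : g₀ ∉ T) : EE ℤ T g₀ ≠ 0 := by
  intro h0
  have h1 := congrArg (MonoidAlgebra.lift ℤ (ZMod 7) (Base G) (chi g₀)) h0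
  have e1 : chi g₀ (z g₀) = 2 := by
    simp only [chi, z, MonoidHom.coe_mk, OneHom.coe_mk, toAdd_ofAdd, Finsupp.single_eq_same]
    rfl
  have e2 : ∀ g ∈ T, MonoidAlgebra.lift ℤ (ZMod 7) (Base G) (chi g₀) (nn ℤ g) = 3 := by
    intro g hg
    have hne : g₀ ≠ g := fun h' => h (h' ▸ hg)
    have : chi g₀ (z g) = 1 := by
      simp [chi, z, Finsupp.single_eq_of_ne hne]
    simp only [nn, map_add, map_one, lift_single, map_mul, this, one_smul]
    rfl
  have e3 : MonoidAlgebra.lift ℤ (ZMod 7) (Base G) (chi g₀) (nn ℤ g₀) = 0 := by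
    simp only [nn, map_add, map_one, lift_single, map_mul, e1, one_smul]
    rfl
  rw [EE, map_mul, map_sub, map_prod, Finset.prod_congr rfl e2, e3, map_ofNat, map_zero,
    Finset.prod_const, sub_zero, ← pow_succ'] at h1
  have h3 : (3 : ZMod 7) ≠ 0 := by decide
  have : Fact (Nat.Prime 7) := ⟨by norm_num⟩
  exact pow_ne_zero _ h3 h1

theorem red_EE (T : Finset G) (g₀ : G) :
    red (W G) (emb ℤ (EE ℤ T g₀)) = emb (ZMod 2) (EE (ZMod 2) T g₀) := by
  have h := mapRingHom_comp_mapDomainRingHom (Int.castRingHom (ZMod 2))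
    (SemidirectProduct.inl : Base G →* W G)
  have h1 := RingHom.congr_fun h (EE ℤ T g₀)
  simp only [RingHom.comp_apply] at h1
  refine h1.trans ?_
  congr 1
  simp [EE, nn, map_ofNat]

end Crest.Agent.R177.Wr

namespace Crest.Agent.R177

open Wr MonoidAlgebra

theorem wreathStmt : WreathStmt := by
  classical
  rintro G _ hG ⟨a, b, c, hab, hac, hc⟩
  refine ⟨W G, inferInstance, fg_W hG, ?_⟩
  obtain ⟨g₀, hg₀⟩ : c.coeff.support.Nonempty := by
    rw [Finsupp.support_nonempty_iff]
    simpa using hc
  set T := c.coeff.support.erase g₀ with hT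
  let j : MonoidAlgebra (ZMod 2) G →+* MonoidAlgebra (ZMod 2) (W G) :=
    mapDomainRingHom (ZMod 2) SemidirectProduct.inr
  let χ : MonoidAlgebra (ZMod 2) (Base G) := ∏ g ∈ T, nn (ZMod 2) g
  let e := emb (ZMod 2) (EE (ZMod 2) T g₀)
  have h3 : (3 : MonoidAlgebra (ZMod 2) (Base G)) = 1 := by
    rw [← map_ofNat (algebraMap (ZMod 2) (MonoidAlgebra (ZMod 2) (Base G))) 3,
      show (OfNat.ofNat 3 : ZMod 2) = 1 from rfl, map_one]
  have hconj : ∀ g : G, j (single g 1) * emb (ZMod 2) (3 - nn (ZMod 2) (1 : G)) =
      emb (ZMod 2) (3 - nn (ZMod 2) g) * j (single g 1) := by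
    intro g
    have e1 := conj_z g
    have e2 : (SemidirectProduct.inr g : W G) *
        (SemidirectProduct.inl (z 1) * SemidirectProduct.inl (z 1)) =
        SemidirectProduct.inl (z g) * SemidirectProduct.inl (z g) * SemidirectProduct.inr g := by
      rw [← mul_assoc, e1, mul_assoc, e1, mul_assoc]
    simp only [h3, nn, j, map_sub, map_add, map_one, mapDomainRingHom_apply, mapDomain_single,
      mul_sub, sub_mul, mul_add, add_mul, one_mul, mul_one, single_mul_single, map_mul, e1, e2]
  have hc1 : c = ∑ g ∈ c.coeff.support, single g 1 := by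
    conv_lhs => rw [← sum_coeff_single c, Finsupp.sum]
    refine Finset.sum_congr rfl fun g hg => ?_
    have h1 := Finsupp.mem_support_iff.1 hg
    generalize c.coeff g = x at h1
    congr 1
    revert x
    decide
  have hkey : emb (ZMod 2) χ * j c * emb (ZMod 2) (3 - nn (ZMod 2) (1 : G)) =
      e * j (single g₀ 1) := by
    rw [hc1, map_sum, Finset.mul_sum, Finset.sum_mul, ← Finset.add_sum_erase _ _ hg₀, ← hT]
    simp only [mul_assoc, hconj]
    simp only [← mul_assoc, ← map_mul]
    rw [Finset.sum_eq_zero, add_zero, mul_comm χ]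
    · rfl
    · intro g hg
      have : χ * (3 - nn (ZMod 2) g) = 0 := by
        simp only [χ]
        rw [← Finset.prod_erase_mul _ _ hg]
        linear_combination (-∏ x ∈ T.erase g, nn (ZMod 2) x) * nn_sq (ZMod 2) g
      rw [this, map_zero, zero_mul]
  refine core (3 ^ (T.card + 1)) (Odd.pow (by decide)) (emb ℤ (EE ℤ T g₀)) ?_
    (emb_sym ℤ _ (EE_inv ℤ T g₀)) ?_ (j a) (j b)
    (j c * emb (ZMod 2) (3 - nn (ZMod 2) (1 : G)) * j (single g₀⁻¹ 1))
    (emb (ZMod 2) χ * j (1 - b * a)) ?_ ?_ ?_ ?_
  · rw [← map_mul, EE_sq, map_mul, map_pow, map_ofNat, zsmul_eq_mul]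
    push_cast
    rfl
  · intro h
    refine EE_ne_zero T g₀ (Finset.notMem_erase _ _) ?_
    exact mapDomain_injective SemidirectProduct.inl_injective (h.trans (mapDomain_zero _).symm)
  · rw [← map_mul, hab, map_one]
  · rw [← mul_assoc, ← mul_assoc, ← map_mul, hac, map_zero, zero_mul, zero_mul]
  · rw [mul_assoc, ← map_mul, sub_mul, one_mul, mul_assoc, hab, mul_one, sub_self, map_zero,
      mul_zero]
  · have : j (1 - b * a) * j c = j c := by
      rw [← map_mul, sub_mul, one_mul, mul_assoc, hac, mul_zero, sub_zero]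
    rw [red_EE, ← mul_assoc, ← mul_assoc, mul_assoc _ (j _) (j c), this, hkey, mul_assoc, ← map_mul,
      single_mul_single, mul_inv_cancel, mul_one, ← one_def, map_one, mul_one]

end Crest.Agent.R177
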