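import Crest.Agent.R177.Final
import Crest.Agent.R177.Local
import Crest.Agent.R177.Move
import Crest.Agent.R177.Euler
import Crest.Agent.R177.Seg
import Crest.Agent.R177.Sep
import Crest.Agent.R177.Hyp
import Crest.Agent.R177.Alg
import Crest.Agent.R177.Diag
import Crest.Agent.R177.Global
import Crest.Agent.R177.Switch
import Crest.Agent.R177.Rep
import Crest.Agent.R177.Des2
import Crest.Agent.R177.DesOdd
import Crest.Agent.R177.Wreath
import Crest.Agent.R177.FK
import Crest.Agent.R177.Htp
import Crest.Agent.R177.Contr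
import Crest.Agent.R177.CW

/-! All modules together. -/

set_option autoImplicit false

namespace Crest.Agent.R177

theorem localStmt : LocalStmt := localStmt_of switchStmt repStmt cycStmt

theorem globalStmt : GlobalStmt :=
  globalStmt_of moveStmt eulerStmt (minorStmt_of moveStmt) (segStmt_of moveStmt) cycStmt sepStmt
    (diagStmt_of moveStmt)

theorem topStmt : TopStmt := topStmt_of (contrStmt_of squareStmt hepStmt solveStmt) cwStmt

theorem core2 : Core (ZMod 2) := core_of _ des2Stmt localStmt globalStmt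

theorem minFac_gt (m : ℕ) : m < Nat.minFac (m.factorial ^ 2 + 1) := by
  by_contra h
  push Not at h
  have hp : (Nat.minFac (m.factorial ^ 2 + 1)).Prime :=
    Nat.minFac_prime (by have : 0 < m.factorial ^ 2 := pow_pos (Nat.factorial_pos m) 2; omega)
  have h1 : Nat.minFac (m.factorial ^ 2 + 1) ∣ m.factorial ^ 2 :=
    Dvd.dvd.pow (Nat.dvd_factorial hp.pos h) (by norm_num)
  have h2 := (Nat.dvd_add_right h1).1 (Nat.minFac_dvd _)
  exact hp.one_lt.ne' (Nat.dvd_one.1 h2)

theorem odd_case (m : ℕ) (hm : 6 ≤ m) :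
    Nat.Prime (Nat.minFac (m.factorial ^ 2 + 1)) ∧
    Odd (Nat.minFac (m.factorial ^ 2 + 1)) ∧
    ∃ (K : Type) (_ : Field K) (G : Type) (_ : Group G),
      Nat.card K = Nat.minFac (m.factorial ^ 2 + 1) ^ 4 ∧
      Group.FG G ∧ (∃ g : G, g ≠ 1 ∧ IsOfFinOrder g) ∧
      ∃ a b : MonoidAlgebra K G, a * b = 1 ∧ b * a ≠ 1 := by
  have h1 := minFac_gt m
  have hp : (Nat.minFac (m.factorial ^ 2 + 1)).Prime :=
    Nat.minFac_prime (by have : 0 < m.factorial ^ 2 := pow_pos (Nat.factorial_pos m) 2; omega)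
  generalize Nat.minFac (m.factorial ^ 2 + 1) = p at h1 hp ⊢
  have : Fact p.Prime := ⟨hp⟩
  refine ⟨hp, hp.odd_of_ne_two (by omega), GaloisField p 4, inferInstance, ?_⟩
  obtain ⟨G, iG, k1, k2, k3⟩ :=
    s0275_of _ (core_of _ (desOddStmt p (by omega)) localStmt globalStmt) algStmt
  exact ⟨G, iG, GaloisField.card p 4 (by norm_num), k1, k2, k3⟩

end Crest.Agent.R177
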