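import Crest.Agent.R177.TopDefs

/-! Row 177, CW part 1: continuous functions on the universal cover, group action. -/

set_option autoImplicit false

namespace Crest.Agent.R177.CW

open unitInterval
open scoped Classical

variable {A R : Type} (T : Tri A R)

lemma x_rel (ρ : R) : T.x (T.a ρ) * T.x (T.b ρ) = T.x (T.c ρ) := by
  have h : T.π (T.rel ρ) = 1 := PresentedGroup.one_of_mem ⟨ρ, rfl⟩
  rw [Tri.rel, map_mul, map_mul, map_inv, mul_inv_eq_one] at h
  exact h

lemma continuous_cellMap : Continuous T.cellMap := continuous_coinduced_rng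

lemma continuous_edge (g : T.G) (s : A) : Continuous (T.edge g s) :=
  (continuous_cellMap T).comp (continuous_inr.comp (continuous_inl.comp
    (@continuous_sigmaMk _ (fun _ : T.G × A => I) _ (g, s))))

lemma continuous_face (g : T.G) (ρ : R) : Continuous (T.face g ρ) :=
  (continuous_cellMap T).comp (continuous_inr.comp (continuous_inr.comp
    (@continuous_sigmaMk _ (fun _ : T.G × R => I × I) _ (g, ρ))))

lemma continuous_of_cells {Z : Type*} [TopologicalSpace Z] (Φ : T.Cov → Z)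
    (h1 : ∀ g s, Continuous fun t => Φ (T.edge g s t))
    (h2 : ∀ g ρ, Continuous fun z => Φ (T.face g ρ z)) : Continuous Φ := by
  refine continuous_coinduced_dom.2 (continuous_sum_dom.2 ⟨?_, continuous_sum_dom.2 ⟨?_, ?_⟩⟩)
  · exact continuous_sigma fun g => continuous_of_discreteTopology
  · exact continuous_sigma fun p => h1 p.1 p.2
  · exact continuous_sigma fun p => h2 p.1 p.2

instance : MulAction T.G T.Cov where
  smul h e := (h * e.1, e.2)
  one_smul e := Prod.ext (one_mul _) rfl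
  mul_smul h h' e := Prod.ext (mul_assoc _ _ _) rfl

lemma smul_mk (h g : T.G) (p : Pt A R) :
    h • (show T.Cov from (g, p)) = (show T.Cov from (h * g, p)) := rfl

lemma smul_vtx (h g : T.G) : h • T.vtx g = T.vtx (h * g) := rfl

lemma smul_edge (h g : T.G) (s : A) (t : I) : h • T.edge g s t = T.edge (h * g) s t := by
  unfold Tri.edge
  split_ifs
  · rfl
  · rw [smul_vtx, mul_assoc]
  · rfl

lemma smul_face (h g : T.G) (ρ : R) (z : I × I) : h • T.face g ρ z = T.face (h * g) ρ z := by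
  unfold Tri.face
  split_ifs
  · exact smul_edge ..
  · exact smul_edge ..
  · rw [smul_edge, mul_assoc]
  · rfl
  · rw [smul_vtx, mul_assoc]
  · rfl

lemma continuous_smul' (h : T.G) : Continuous fun e : T.Cov => h • e :=
  continuous_of_cells T _ (fun g s => by simp only [smul_edge]; exact continuous_edge T _ _)
    (fun g ρ => by simp only [smul_face]; exact continuous_face T _ _)

/-- barycentric coordinate of the middle vertex -/
noncomputable def x1 (z : I × I) : ℝ := (1 - z.2) * (1 - |2 * (z.1 : ℝ) - 1|)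
/-- barycentric coordinate of the first vertex -/
noncomputable def x0 (z : I × I) : ℝ := (1 - x1 z - (2 * z.1 - 1)) / 2
/-- barycentric coordinate of the last vertex -/
noncomputable def x2 (z : I × I) : ℝ := (1 - x1 z + (2 * z.1 - 1)) / 2
/-- bubble function -/
noncomputable def bub (z : I × I) : ℝ := z.1 * (1 - z.1) * (z.2 * (1 - z.2))

lemma continuous_x1 : Continuous x1 := by unfold x1; fun_prop
lemma continuous_x0 : Continuous x0 := by have := continuous_x1; unfold x0; fun_prop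
lemma continuous_x2 : Continuous x2 := by have := continuous_x1; unfold x2; fun_prop
lemma continuous_bub : Continuous bub := by unfold bub; fun_prop

lemma abs_le_one' (s : I) : |2 * (s : ℝ) - 1| ≤ 1 :=
  abs_le.2 ⟨by linarith [s.2.1], by linarith [s.2.2]⟩

lemma x1_nonneg (z : I × I) : 0 ≤ x1 z :=
  mul_nonneg (sub_nonneg.2 z.2.2.2) (sub_nonneg.2 (abs_le_one' z.1))

lemma x1_le (z : I × I) : x1 z ≤ 1 - |2 * (z.1 : ℝ) - 1| := by
  have := z.2.2.1
  have := abs_le_one' z.1
  unfold x1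
  nlinarith

lemma x0_nonneg (z : I × I) : 0 ≤ x0 z := by
  have := x1_le z
  have := le_abs_self (2 * (z.1 : ℝ) - 1)
  unfold x0
  linarith

lemma x2_nonneg (z : I × I) : 0 ≤ x2 z := by
  have := x1_le z
  have := neg_abs_le (2 * (z.1 : ℝ) - 1)
  unfold x2
  linarith

lemma bub_nonneg (z : I × I) : 0 ≤ bub z :=
  mul_nonneg (mul_nonneg z.1.2.1 (sub_nonneg.2 z.1.2.2))
    (mul_nonneg z.2.2.1 (sub_nonneg.2 z.2.2.2))

lemma mul_one_sub_pos {t : I} (h0 : t ≠ 0) (h1 : t ≠ 1) : 0 < (t : ℝ) * (1 - t) :=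
  mul_pos (lt_of_le_of_ne t.2.1 fun h => h0 (Subtype.ext h.symm))
    (sub_pos.2 (lt_of_le_of_ne t.2.2 fun h => h1 (Subtype.ext h)))

/-- data of a piecewise polynomial function -/
structure Dat where
  v : T.G → ℝ
  w : T.G → A → ℝ
  w' : T.G → A → ℝ
  u : T.G → R → I × I → ℝ

variable {T}

/-- value on a closed edge -/
noncomputable def Dat.φ1 (D : Dat T) (g : T.G) (s : A) (t : ℝ) : ℝ :=
  (1 - t) * D.v g + t * D.v (g * T.x s) + (1 - t) * t * (D.w g s + t * D.w' g s)

/-- value on a closed face -/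
noncomputable def Dat.φ2 (D : Dat T) (g : T.G) (ρ : R) (z : I × I) : ℝ :=
  x0 z * D.v g + x1 z * D.v (g * T.x (T.a ρ)) + x2 z * D.v (g * T.x (T.c ρ)) +
    x0 z * x1 z * (D.w g (T.a ρ) + x1 z * D.w' g (T.a ρ)) +
    x1 z * x2 z * (D.w (g * T.x (T.a ρ)) (T.b ρ) + x2 z * D.w' (g * T.x (T.a ρ)) (T.b ρ)) +
    x0 z * x2 z * (D.w g (T.c ρ) + x2 z * D.w' g (T.c ρ)) + bub z * D.u g ρ z

/-- the function on the cover -/
noncomputable def Dat.Φ (D : Dat T) (e : T.Cov) : ℝ :=
  match e.2 with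
  | Pt.v => D.v e.1
  | Pt.e s t _ _ => D.φ1 e.1 s t
  | Pt.f ρ s β _ _ _ _ => D.φ2 e.1 ρ (s, β)

lemma Dat.Φ_vtx (D : Dat T) (g : T.G) : D.Φ (T.vtx g) = D.v g := rfl

lemma Dat.Φ_edge (D : Dat T) (g : T.G) (s : A) (t : I) : D.Φ (T.edge g s t) = D.φ1 g s t := by
  unfold Tri.edge
  split_ifs with h0 h1
  · subst h0; simp [Dat.Φ_vtx, Dat.φ1]
  · subst h1; simp [Dat.Φ_vtx, Dat.φ1]
  · rfl

lemma Dat.Φ_face (D : Dat T) (g : T.G) (ρ : R) (z : I × I) :
    D.Φ (T.face g ρ z) = D.φ2 g ρ z := by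
  obtain ⟨s, β⟩ := z
  unfold Tri.face
  split_ifs with h3 h2 hs h0 h1
  · simp only at h3
    subst h3
    have a1 : x1 (s, 1) = 0 := by simp [x1]
    have a0 : x0 (s, 1) = 1 - s := by rw [x0, a1]; ring
    have a2 : x2 (s, 1) = s := by rw [x2, a1]; ring
    have a3 : bub (s, 1) = 0 := by simp [bub]
    rw [Dat.Φ_edge, Dat.φ1, Dat.φ2, a0, a1, a2, a3]
    ring
  · simp only at h2 hs
    subst h2
    have b : ((dbl s : I) : ℝ) = 2 * s := by
      rw [dbl, Set.projIcc_of_mem _ ⟨by linarith [s.2.1], by linarith⟩]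
    have a1 : x1 (s, 0) = 2 * s := by
      simp only [x1, Set.Icc.coe_zero]
      rw [abs_of_nonpos (by linarith)]; ring
    have a0 : x0 (s, 0) = 1 - 2 * s := by rw [x0, a1]; ring
    have a2 : x2 (s, 0) = 0 := by rw [x2, a1]; ring
    have a3 : bub (s, 0) = 0 := by simp [bub]
    rw [Dat.Φ_edge, Dat.φ1, Dat.φ2, a0, a1, a2, a3, b]
    ring
  · simp only at h2 hs
    subst h2
    push Not at hs
    have b : ((dbl' s : I) : ℝ) = 2 * s - 1 := by
      rw [dbl', Set.projIcc_of_mem _ ⟨by linarith, by linarith [s.2.2]⟩]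
    have a1 : x1 (s, 0) = 2 - 2 * s := by
      simp only [x1, Set.Icc.coe_zero]
      rw [abs_of_nonneg (by linarith)]; ring
    have a0 : x0 (s, 0) = 0 := by rw [x0, a1]; ring
    have a2 : x2 (s, 0) = 2 * s - 1 := by rw [x2, a1]; ring
    have a3 : bub (s, 0) = 0 := by simp [bub]
    rw [Dat.Φ_edge, Dat.φ1, Dat.φ2, a0, a1, a2, a3, b, mul_assoc g, x_rel]
    ring
  · simp only at h0
    subst h0
    have a1 : x1 (0, β) = 0 := by simp [x1]
    have a0 : x0 (0, β) = 1 := by rw [x0, a1]; simp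
    have a2 : x2 (0, β) = 0 := by rw [x2, a1]; simp
    have a3 : bub (0, β) = 0 := by simp [bub]
    rw [Dat.Φ_vtx, Dat.φ2, a0, a1, a2, a3]
    ring
  · simp only at h1
    subst h1
    have a1 : x1 (1, β) = 0 := by simp only [x1, Set.Icc.coe_one]; norm_num
    have a0 : x0 (1, β) = 0 := by rw [x0, a1]; simp only [Set.Icc.coe_one]; norm_num
    have a2 : x2 (1, β) = 1 := by rw [x2, a1]; simp only [Set.Icc.coe_one]; norm_num
    have a3 : bub (1, β) = 0 := by simp [bub]
    rw [Dat.Φ_vtx, Dat.φ2, a0, a1, a2, a3]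
    ring
  · rfl

lemma Dat.continuous_Φ (D : Dat T) (hu : ∀ g ρ, Continuous (D.u g ρ)) : Continuous D.Φ := by
  refine continuous_of_cells T _ (fun g s => ?_) (fun g ρ => ?_)
  · simp only [Dat.Φ_edge, Dat.φ1]
    fun_prop
  · simp only [Dat.Φ_face, Dat.φ2]
    have := continuous_x0
    have := continuous_x1
    have := continuous_x2
    have := continuous_bub
    have := hu g ρ
    fun_prop

/-- translated data -/
def Dat.sh (D : Dat T) (h : T.G) : Dat T :=
  ⟨fun g => D.v (h * g), fun g => D.w (h * g), fun g => D.w' (h * g), fun g => D.u (h * g)⟩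

lemma Dat.Φ_smul (D : Dat T) (h : T.G) (e : T.Cov) : D.Φ (h • e) = (D.sh h).Φ e := by
  obtain ⟨g, p⟩ := e
  cases p with
  | v => rfl
  | e s t h0 h1 =>
    change D.φ1 (h * g) s t = (D.sh h).φ1 g s t
    simp only [Dat.φ1, Dat.sh, mul_assoc]
  | f ρ s β h0 h1 h2 h3 =>
    change D.φ2 (h * g) ρ (s, β) = (D.sh h).φ2 g ρ (s, β)
    simp only [Dat.φ2, Dat.sh, mul_assoc]

lemma Dat.add_le (D D' D'' : Dat T) (hv : ∀ g, D.v g + D'.v g ≤ D''.v g)
    (hw : ∀ g s, D.w g s + D'.w g s ≤ D''.w g s) (h1 : D.w' = 0) (h2 : D'.w' = 0)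
    (h3 : D''.w' = 0) (hu : ∀ g ρ z, D.u g ρ z + D'.u g ρ z ≤ D''.u g ρ z) (e : T.Cov) :
    D.Φ e + D'.Φ e ≤ D''.Φ e := by
  obtain ⟨g, p⟩ := e
  cases p with
  | v => exact hv g
  | e s t h0 h1' =>
    change D.φ1 g s t + D'.φ1 g s t ≤ D''.φ1 g s t
    simp only [Dat.φ1, h1, h2, h3, Pi.zero_apply, mul_zero, add_zero]
    have a := mul_le_mul_of_nonneg_left (hv g) (sub_nonneg.2 t.2.2)
    have b := mul_le_mul_of_nonneg_left (hv (g * T.x s)) t.2.1
    have c := mul_le_mul_of_nonneg_left (hw g s) (mul_nonneg (sub_nonneg.2 t.2.2) t.2.1)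
    linarith
  | f ρ s β h0 h1' h2' h3' =>
    change D.φ2 g ρ (s, β) + D'.φ2 g ρ (s, β) ≤ D''.φ2 g ρ (s, β)
    simp only [Dat.φ2, h1, h2, h3, Pi.zero_apply, mul_zero, add_zero]
    have p0 := x0_nonneg (s, β)
    have p1 := x1_nonneg (s, β)
    have p2 := x2_nonneg (s, β)
    have a := mul_le_mul_of_nonneg_left (hv g) p0
    have b := mul_le_mul_of_nonneg_left (hv (g * T.x (T.a ρ))) p1
    have c := mul_le_mul_of_nonneg_left (hv (g * T.x (T.c ρ))) p2
    have d := mul_le_mul_of_nonneg_left (hw g (T.a ρ)) (mul_nonneg p0 p1)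
    have e := mul_le_mul_of_nonneg_left (hw (g * T.x (T.a ρ)) (T.b ρ)) (mul_nonneg p1 p2)
    have f := mul_le_mul_of_nonneg_left (hw g (T.c ρ)) (mul_nonneg p0 p2)
    have k := mul_le_mul_of_nonneg_left (hu g ρ (s, β)) (bub_nonneg (s, β))
    linarith

/-- data built from a weight on the group and a choice of labels -/
def mkD (c : T.G → ℝ) (a : ℝ) (b : A → ℝ) (d : R → ℝ) : Dat T :=
  ⟨fun g => c g * a, fun g s => c g * b s, 0, fun g ρ _ => c g * d ρ⟩

lemma disjoint_aux (e : T.Cov) (a : ℝ) (b : A → ℝ) (d : R → ℝ) (ha : 0 ≤ a) (hb : ∀ s, 0 ≤ b s)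
    (hd : ∀ ρ, 0 ≤ d ρ)
    (he : (mkD (fun _ => 1) a b d).Φ e < 2 * (mkD (fun g => if g = e.1 then 1 else 0) a b d).Φ e) :
    ∃ U ∈ nhds e, ∀ g : T.G, ((g • ·) '' U ∩ U).Nonempty → g = 1 := by
  refine ⟨{e' | (mkD (fun _ => 1) a b d).Φ e' <
    2 * (mkD (fun g => if g = e.1 then 1 else 0) a b d).Φ e'}, ?_, ?_⟩
  · refine (isOpen_lt (Dat.continuous_Φ _ fun _ _ => continuous_const)
      (continuous_const.mul (Dat.continuous_Φ _ fun _ _ => continuous_const))).mem_nhds he
  · rintro h ⟨_, ⟨e', h1, rfl⟩, h2⟩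
    by_contra hne
    simp only [Set.mem_ofPred_eq, Dat.Φ_smul] at h1 h2
    have key : ∀ g : T.G, (if g = e.1 then (1 : ℝ) else 0) + (if h * g = e.1 then 1 else 0) ≤ 1 := by
      intro g
      split_ifs with p q q
      · exact absurd (by rw [← p] at q; simpa using q) hne
      all_goals norm_num
    have := Dat.add_le (mkD (fun g => if g = e.1 then 1 else 0) a b d)
      ((mkD (fun g => if g = e.1 then 1 else 0) a b d).sh h) (mkD (fun _ => 1) a b d)
      (fun g => by
        have := mul_le_mul_of_nonneg_right (key g) ha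
        simp only [mkD, Dat.sh]; linarith)
      (fun g s => by
        have := mul_le_mul_of_nonneg_right (key g) (hb s)
        simp only [mkD, Dat.sh]; linarith) rfl rfl rfl
      (fun g ρ z => by
        have := mul_le_mul_of_nonneg_right (key g) (hd ρ)
        simp only [mkD, Dat.sh]; linarith) e'
    have h3 : (mkD (fun _ => 1) a b d).sh h = (mkD (fun _ => 1) a b d : Dat T) := rfl
    rw [h3] at h2
    linarith

lemma disjoint_nhds (e : T.Cov) :
    ∃ U ∈ nhds e, ∀ g : T.G, ((g • ·) '' U ∩ U).Nonempty → g = 1 := by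
  obtain ⟨g, p⟩ := e
  cases p with
  | v =>
    refine disjoint_aux _ 1 0 0 zero_le_one (fun _ => le_rfl) (fun _ => le_rfl) ?_
    simp [Dat.Φ, mkD]
  | e s t h0 h1 =>
    refine disjoint_aux _ 0 1 0 le_rfl (fun _ => zero_le_one) (fun _ => le_rfl) ?_
    have := mul_one_sub_pos h0 h1
    simp only [Dat.Φ, mkD, Dat.φ1, Pi.one_apply, Pi.zero_apply, if_true]
    linarith
  | f ρ s β h0 h1 h2 h3 =>
    refine disjoint_aux _ 0 0 1 le_rfl (fun _ => le_rfl) (fun _ => zero_le_one) ?_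
    have : 0 < bub (s, β) := mul_pos (mul_one_sub_pos h0 h1) (mul_one_sub_pos h2 h3)
    simp only [Dat.Φ, mkD, Dat.φ2, Pi.one_apply, Pi.zero_apply, if_true]
    linarith

end Crest.Agent.R177.CW
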