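import Crest.Agent.R177.TopDefs

/-!
The universal cover of the presentation complex of a triangular presentation with `Split` is
contractible.
-/

set_option autoImplicit false

namespace Crest.Agent.R177

open unitInterval
open scoped Classical

namespace Contr

/-! ### the interval maps -/

lemma dbl_lo (s : I) : dbl (lo s) = s := by
  unfold dbl lo
  have : (2 : ℝ) * (s / 2) = s := by ring
  simp only [this]
  exact Set.projIcc_val _ s

lemma dbl'_hi (s : I) : dbl' (hi s) = s := by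
  unfold dbl' hi
  have : (2 : ℝ) * ((1 + s) / 2) - 1 = s := by ring
  simp only [this]
  exact Set.projIcc_val _ s

lemma lo_dbl {s : I} (h : (s : ℝ) ≤ 1 / 2) : lo (dbl s) = s := by
  have h2 : (2 : ℝ) * s ∈ Set.Icc (0 : ℝ) 1 := ⟨by linarith [s.2.1], by linarith⟩
  apply Subtype.ext
  simp only [lo, dbl, Set.projIcc_of_mem _ h2]
  ring

lemma hi_dbl' {s : I} (h : 1 / 2 ≤ (s : ℝ)) : hi (dbl' s) = s := by
  have h2 : (2 : ℝ) * s - 1 ∈ Set.Icc (0 : ℝ) 1 := ⟨by linarith, by linarith [s.2.2]⟩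
  apply Subtype.ext
  simp only [hi, dbl', Set.projIcc_of_mem _ h2]
  ring

lemma continuous_dbl : Continuous dbl := by
  unfold dbl
  exact continuous_projIcc.comp (by fun_prop)

lemma continuous_dbl' : Continuous dbl' := by
  unfold dbl'
  exact continuous_projIcc.comp (by fun_prop)

lemma lo_zero : lo 0 = 0 := by
  apply Subtype.ext; simp [lo]

lemma hi_one : hi 1 = 1 := by
  apply Subtype.ext; simp [hi]

lemma lo_one : lo 1 = hi 0 := by
  apply Subtype.ext; simp [lo, hi]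

lemma bd_cases {z : I × I} (hz : z ∈ Bd) : (∃ β, z = (0, β)) ∨ (∃ β, z = (1, β)) ∨
    (∃ s, z = (lo s, 0)) ∨ (∃ s, z = (hi s, 0)) ∨ (∃ s, z = (s, 1)) := by
  obtain ⟨s, β⟩ := z
  rcases hz with h | h | h | h
  · exact Or.inl ⟨β, Prod.ext h rfl⟩
  · exact Or.inr (Or.inl ⟨β, Prod.ext h rfl⟩)
  · rcases le_total (s : ℝ) (1 / 2) with h' | h'
    · exact Or.inr (Or.inr (Or.inl ⟨dbl s, Prod.ext (lo_dbl h').symm h⟩))
    · exact Or.inr (Or.inr (Or.inr (Or.inl ⟨dbl' s, Prod.ext (hi_dbl' h').symm h⟩)))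
  · exact Or.inr (Or.inr (Or.inr (Or.inr ⟨s, Prod.ext rfl h⟩)))

variable {A R : Type} (T : Tri A R)

/-! ### values of the cells -/

lemma x_rel (ρ : R) : T.x (T.a ρ) * T.x (T.b ρ) = T.x (T.c ρ) := by
  have h : T.π (T.rel ρ) = 1 := PresentedGroup.one_of_mem ⟨ρ, rfl⟩
  simp only [Tri.rel, map_mul, map_inv] at h
  exact eq_of_mul_inv_eq_one h

lemma edge_zero (g : T.G) (s : A) : T.edge g s 0 = T.vtx g := by
  simp [Tri.edge]

lemma edge_one (g : T.G) (s : A) : T.edge g s 1 = T.vtx (g * T.x s) := by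
  simp [Tri.edge]

lemma face_top (g : T.G) (ρ : R) (s : I) : T.face g ρ (s, 1) = T.edge g (T.c ρ) s := by
  simp [Tri.face]

lemma face_bot (g : T.G) (ρ : R) (s : I) : T.face g ρ (s, 0) =
    if (s : ℝ) ≤ 1 / 2 then T.edge g (T.a ρ) (dbl s)
      else T.edge (g * T.x (T.a ρ)) (T.b ρ) (dbl' s) := by
  unfold Tri.face
  rw [dif_neg (by simp), dif_pos rfl]

lemma face_lo (g : T.G) (ρ : R) (s : I) : T.face g ρ (lo s, 0) = T.edge g (T.a ρ) s := by
  rw [face_bot, if_pos, dbl_lo]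
  simp only [lo]
  linarith [s.2.2]

lemma face_hi (g : T.G) (ρ : R) (s : I) :
    T.face g ρ (hi s, 0) = T.edge (g * T.x (T.a ρ)) (T.b ρ) s := by
  by_cases h : s = 0
  · subst h
    rw [← lo_one, face_lo, edge_one, edge_zero]
  · rw [face_bot, if_neg, dbl'_hi]
    have : (0 : ℝ) < s := lt_of_le_of_ne s.2.1 (fun h' => h (Subtype.ext h'.symm))
    simp only [hi]
    linarith

lemma face_left (g : T.G) (ρ : R) (β : I) : T.face g ρ (0, β) = T.vtx g := by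
  by_cases h1 : β = 1
  · subst h1; rw [face_top, edge_zero]
  by_cases h0 : β = 0
  · subst h0
    have := face_lo T g ρ 0
    rwa [lo_zero, edge_zero] at this
  unfold Tri.face
  rw [dif_neg h1, dif_neg h0, dif_pos rfl]

lemma face_right (g : T.G) (ρ : R) (β : I) : T.face g ρ (1, β) = T.vtx (g * T.x (T.c ρ)) := by
  by_cases h1 : β = 1
  · subst h1; rw [face_top, edge_one]
  by_cases h0 : β = 0
  · subst h0
    have := face_hi T g ρ 1
    rwa [hi_one, edge_one, mul_assoc, x_rel] at this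
  unfold Tri.face
  rw [dif_neg h1, dif_neg h0, dif_neg (by simp), dif_pos rfl]

lemma continuous_cellMap : Continuous T.cellMap := continuous_coinduced_rng

lemma continuous_edge (g : T.G) (s : A) : Continuous (T.edge g s) :=
  (continuous_cellMap T).comp (continuous_inr.comp (continuous_inl.comp
    (@continuous_sigmaMk (T.G × A) (fun _ => I) _ (g, s))))

lemma continuous_face (g : T.G) (ρ : R) : Continuous (T.face g ρ) :=
  (continuous_cellMap T).comp (continuous_inr.comp (continuous_inr.comp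
    (@continuous_sigmaMk (T.G × R) (fun _ => I × I) _ (g, ρ))))

lemma continuous_of_cells {W : Type} [TopologicalSpace W] (φ : T.Cov → W)
    (h1 : ∀ g s, Continuous fun t => φ (T.edge g s t))
    (h2 : ∀ g ρ, Continuous fun z => φ (T.face g ρ z)) : Continuous φ := by
  refine continuous_coinduced_dom.2 ?_
  refine continuous_sum_dom.2 ⟨?_, continuous_sum_dom.2 ⟨?_, ?_⟩⟩
  · exact continuous_sigma fun g => continuous_of_discreteTopology
  · exact continuous_sigma fun i => h1 i.1 i.2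
  · exact continuous_sigma fun i => h2 i.1 i.2

lemma cov_cases (y : T.Cov) : (∃ g, y = T.vtx g) ∨ (∃ g s t, y = T.edge g s t) ∨
    ∃ g ρ z, y = T.face g ρ z := by
  obtain ⟨g, p⟩ := y
  cases p with
  | v => exact Or.inl ⟨g, rfl⟩
  | e s t h0 h1 =>
    refine Or.inr (Or.inl ⟨g, s, t, ?_⟩)
    unfold Tri.edge
    rw [dif_neg h0, dif_neg h1]
  | f ρ s β h0 h1 h2 h3 =>
    refine Or.inr (Or.inr ⟨g, ρ, (s, β), ?_⟩)
    unfold Tri.face
    rw [dif_neg h3, dif_neg h2, dif_neg h0, dif_neg h1]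

/-! ### gluing -/

/-- the map defined cell by cell -/
def glue {W : Type} (J0 : T.G → W) (J1 : T.G × A → I → W) (J2 : T.G × R → I × I → W) :
    T.Cov → W
  | (g, Pt.v) => J0 g
  | (g, Pt.e s t _ _) => J1 (g, s) t
  | (g, Pt.f ρ s β _ _ _ _) => J2 (g, ρ) (s, β)

section glue
variable {W : Type} {J0 : T.G → W} {J1 : T.G × A → I → W} {J2 : T.G × R → I × I → W}

lemma glue_vtx (g : T.G) : glue T J0 J1 J2 (T.vtx g) = J0 g := rfl

lemma glue_edge (h0 : ∀ g s, J1 (g, s) 0 = J0 g) (h1 : ∀ g s, J1 (g, s) 1 = J0 (g * T.x s))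
    (g : T.G) (s : A) (t : I) : glue T J0 J1 J2 (T.edge g s t) = J1 (g, s) t := by
  by_cases ht0 : t = 0
  · subst ht0; rw [edge_zero, glue_vtx, h0]
  by_cases ht1 : t = 1
  · subst ht1; rw [edge_one, glue_vtx, h1]
  unfold Tri.edge
  rw [dif_neg ht0, dif_neg ht1]
  rfl

lemma glue_face_int (g : T.G) (ρ : R) {z : I × I} (hz : z ∉ Bd) :
    glue T J0 J1 J2 (T.face g ρ z) = J2 (g, ρ) z := by
  obtain ⟨s, β⟩ := z
  simp only [Bd, Set.mem_ofPred_eq, not_or] at hz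
  unfold Tri.face
  rw [dif_neg hz.2.2.2, dif_neg hz.2.2.1, dif_neg hz.1, dif_neg hz.2.1]
  rfl

lemma glue_face (h0 : ∀ g s, J1 (g, s) 0 = J0 g) (h1 : ∀ g s, J1 (g, s) 1 = J0 (g * T.x s))
    (g : T.G) (ρ : R) (k1 : ∀ β, J2 (g, ρ) (0, β) = J0 g)
    (k2 : ∀ β, J2 (g, ρ) (1, β) = J0 (g * T.x (T.c ρ)))
    (k3 : ∀ s, J2 (g, ρ) (lo s, 0) = J1 (g, T.a ρ) s)
    (k4 : ∀ s, J2 (g, ρ) (hi s, 0) = J1 (g * T.x (T.a ρ), T.b ρ) s)
    (k5 : ∀ s, J2 (g, ρ) (s, 1) = J1 (g, T.c ρ) s) (z : I × I) :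
    glue T J0 J1 J2 (T.face g ρ z) = J2 (g, ρ) z := by
  by_cases hz : z ∈ Bd
  · rcases bd_cases hz with ⟨β, rfl⟩ | ⟨β, rfl⟩ | ⟨s, rfl⟩ | ⟨s, rfl⟩ | ⟨s, rfl⟩
    · rw [face_left, glue_vtx, k1]
    · rw [face_right, glue_vtx, k2]
    · rw [face_lo, glue_edge T h0 h1, k3]
    · rw [face_hi, glue_edge T h0 h1, k4]
    · rw [face_top, glue_edge T h0 h1, k5]
  · exact glue_face_int T g ρ hz

lemma continuousOn_glue_bd [TopologicalSpace W] (h0 : ∀ g s, J1 (g, s) 0 = J0 g)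
    (h1 : ∀ g s, J1 (g, s) 1 = J0 (g * T.x s)) (hc : ∀ i, Continuous (J1 i)) (g : T.G) (ρ : R) :
    ContinuousOn (fun z => glue T J0 J1 J2 (T.face g ρ z)) Bd := by
  have hsub : Bd ⊆ {z : I × I | z.1 = 0} ∪ ({z : I × I | z.1 = 1} ∪ ({z : I × I | z.2 = 1} ∪
      (({z : I × I | z.2 = 0} ∩ {z : I × I | (z.1 : ℝ) ≤ 1 / 2}) ∪
        ({z : I × I | z.2 = 0} ∩ {z : I × I | 1 / 2 ≤ (z.1 : ℝ)})))) := by
    rintro z (h | h | h | h)
    · exact Or.inl h
    · exact Or.inr (Or.inl h)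
    · rcases le_total (z.1 : ℝ) (1 / 2) with h' | h'
      · exact Or.inr (Or.inr (Or.inr (Or.inl ⟨h, h'⟩)))
      · exact Or.inr (Or.inr (Or.inr (Or.inr ⟨h, h'⟩)))
    · exact Or.inr (Or.inr (Or.inl h))
  have c1 : IsClosed {z : I × I | z.1 = 0} := isClosed_eq continuous_fst continuous_const
  have c2 : IsClosed {z : I × I | z.1 = 1} := isClosed_eq continuous_fst continuous_const
  have c3 : IsClosed {z : I × I | z.2 = 1} := isClosed_eq continuous_snd continuous_const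
  have c4 : IsClosed ({z : I × I | z.2 = 0} ∩ {z : I × I | (z.1 : ℝ) ≤ 1 / 2}) :=
    (isClosed_eq continuous_snd continuous_const).inter
      (isClosed_le (by fun_prop) continuous_const)
  have c5 : IsClosed ({z : I × I | z.2 = 0} ∩ {z : I × I | 1 / 2 ≤ (z.1 : ℝ)}) :=
    (isClosed_eq continuous_snd continuous_const).inter
      (isClosed_le continuous_const (by fun_prop))
  refine ContinuousOn.mono ?_ hsub
  refine ContinuousOn.union_of_isClosed ?_ (ContinuousOn.union_of_isClosed ?_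
    (ContinuousOn.union_of_isClosed ?_ (ContinuousOn.union_of_isClosed ?_ ?_ c4 c5) c3
      (c4.union c5)) c2 (c3.union (c4.union c5))) c1 (c2.union (c3.union (c4.union c5)))
  · refine (continuousOn_const (c := J0 g)).congr ?_
    rintro ⟨s, β⟩ (rfl : s = 0)
    simp only [face_left, glue_vtx]
  · refine (continuousOn_const (c := J0 (g * T.x (T.c ρ)))).congr ?_
    rintro ⟨s, β⟩ (rfl : s = 1)
    simp only [face_right, glue_vtx]
  · refine ((hc (g, T.c ρ)).comp continuous_fst).continuousOn.congr ?_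
    rintro ⟨s, β⟩ (rfl : β = 1)
    simp only [face_top, glue_edge T h0 h1, Function.comp]
  · refine ((hc (g, T.a ρ)).comp (continuous_dbl.comp continuous_fst)).continuousOn.congr ?_
    rintro ⟨s, β⟩ ⟨(rfl : β = 0), (h : (s : ℝ) ≤ 1 / 2)⟩
    have := face_lo T g ρ (dbl s)
    rw [lo_dbl h] at this
    simp only [this, glue_edge T h0 h1, Function.comp]
  · refine ((hc (g * T.x (T.a ρ), T.b ρ)).comp
      (continuous_dbl'.comp continuous_fst)).continuousOn.congr ?_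
    rintro ⟨s, β⟩ ⟨(rfl : β = 0), (h : 1 / 2 ≤ (s : ℝ))⟩
    have := face_hi T g ρ (dbl' s)
    rw [hi_dbl' h] at this
    simp only [this, glue_edge T h0 h1, Function.comp]

end glue

/-- gluing of homotopies -/
lemma exists_glue {Z : Type} [TopologicalSpace Z] (J0 : T.G → C(I, Z))
    (J1 : T.G × A → C(I × I, Z)) (J2 : T.G × R → C((I × I) × I, Z))
    (h0 : ∀ g s t, J1 (g, s) (0, t) = J0 g t) (h1 : ∀ g s t, J1 (g, s) (1, t) = J0 (g * T.x s) t)
    (k1 : ∀ g ρ β t, J2 (g, ρ) ((0, β), t) = J0 g t)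
    (k2 : ∀ g ρ β t, J2 (g, ρ) ((1, β), t) = J0 (g * T.x (T.c ρ)) t)
    (k3 : ∀ g ρ s t, J2 (g, ρ) ((lo s, 0), t) = J1 (g, T.a ρ) (s, t))
    (k4 : ∀ g ρ s t, J2 (g, ρ) ((hi s, 0), t) = J1 (g * T.x (T.a ρ), T.b ρ) (s, t))
    (k5 : ∀ g ρ s t, J2 (g, ρ) ((s, 1), t) = J1 (g, T.c ρ) (s, t)) :
    ∃ J : C(T.Cov × I, Z), (∀ g t, J (T.vtx g, t) = J0 g t) ∧
      (∀ g s u t, J (T.edge g s u, t) = J1 (g, s) (u, t)) ∧
      (∀ g ρ z t, J (T.face g ρ z, t) = J2 (g, ρ) (z, t)) := by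
  let φ : T.Cov → C(I, Z) := glue T J0 (fun i => (J1 i).curry) (fun i => (J2 i).curry)
  have h0' : ∀ g s, (J1 (g, s)).curry 0 = J0 g := fun g s => ContinuousMap.ext (h0 g s)
  have h1' : ∀ g s, (J1 (g, s)).curry 1 = J0 (g * T.x s) := fun g s => ContinuousMap.ext (h1 g s)
  have e1 : ∀ g s u, φ (T.edge g s u) = (J1 (g, s)).curry u := fun g s u =>
    glue_edge T (J1 := fun i => (J1 i).curry) h0' h1' g s u
  have e2 : ∀ g ρ z, φ (T.face g ρ z) = (J2 (g, ρ)).curry z := fun g ρ z =>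
    glue_face T (J1 := fun i => (J1 i).curry) (J2 := fun i => (J2 i).curry) h0' h1' g ρ
      (fun β => ContinuousMap.ext (k1 g ρ β)) (fun β => ContinuousMap.ext (k2 g ρ β))
      (fun s => ContinuousMap.ext (k3 g ρ s)) (fun s => ContinuousMap.ext (k4 g ρ s))
      (fun s => ContinuousMap.ext (k5 g ρ s)) z
  have hφ : Continuous φ := by
    refine continuous_of_cells T φ (fun g s => ?_) (fun g ρ => ?_)
    · simp only [e1]; exact (J1 (g, s)).curry.continuous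
    · simp only [e2]; exact (J2 (g, ρ)).curry.continuous
  refine ⟨ContinuousMap.uncurry ⟨φ, hφ⟩, fun g t => rfl, fun g s u t => ?_, fun g ρ z t => ?_⟩
  · exact congrArg (fun f : C(I, Z) => f t) (e1 g s u)
  · exact congrArg (fun f : C(I, Z) => f t) (e2 g ρ z)

/-- gluing on the boundary of a face -/
lemma exists_bd {Z : Type} [TopologicalSpace Z] (J0 : T.G → C(I, Z))
    (J1 : T.G × A → C(I × I, Z))
    (h0 : ∀ g s t, J1 (g, s) (0, t) = J0 g t) (h1 : ∀ g s t, J1 (g, s) (1, t) = J0 (g * T.x s) t)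
    (g : T.G) (ρ : R) :
    ∃ h : C(Bd × I, Z), (∀ β hz t, h (⟨(0, β), hz⟩, t) = J0 g t) ∧
      (∀ β hz t, h (⟨(1, β), hz⟩, t) = J0 (g * T.x (T.c ρ)) t) ∧
      (∀ s hz t, h (⟨(lo s, 0), hz⟩, t) = J1 (g, T.a ρ) (s, t)) ∧
      (∀ s hz t, h (⟨(hi s, 0), hz⟩, t) = J1 (g * T.x (T.a ρ), T.b ρ) (s, t)) ∧
      (∀ s hz t, h (⟨(s, 1), hz⟩, t) = J1 (g, T.c ρ) (s, t)) := by
  let φ : T.Cov → C(I, Z) := glue T J0 (fun i => (J1 i).curry) (fun _ _ => J0 1)
  have h0' : ∀ g s, (J1 (g, s)).curry 0 = J0 g := fun g s => ContinuousMap.ext (h0 g s)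
  have h1' : ∀ g s, (J1 (g, s)).curry 1 = J0 (g * T.x s) := fun g s => ContinuousMap.ext (h1 g s)
  have e1 : ∀ g s u, φ (T.edge g s u) = (J1 (g, s)).curry u := fun g s u =>
    glue_edge T (J1 := fun i => (J1 i).curry) h0' h1' g s u
  have e0 : ∀ g, φ (T.vtx g) = J0 g := fun g => rfl
  have hc : ContinuousOn (fun z => φ (T.face g ρ z)) Bd :=
    continuousOn_glue_bd T (J1 := fun i => (J1 i).curry) h0' h1'
      (fun i => (J1 i).curry.continuous) g ρ
  refine ⟨ContinuousMap.uncurry ⟨Bd.domRestrict fun z => φ (T.face g ρ z), hc.domRestrict⟩,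
    fun β hz t => ?_, fun β hz t => ?_, fun s hz t => ?_, fun s hz t => ?_, fun s hz t => ?_⟩
  · change φ (T.face g ρ (0, β)) t = _
    rw [face_left, e0]
  · change φ (T.face g ρ (1, β)) t = _
    rw [face_right, e0]
  · change φ (T.face g ρ (lo s, 0)) t = _
    rw [face_lo, e1]; rfl
  · change φ (T.face g ρ (hi s, 0)) t = _
    rw [face_hi, e1]; rfl
  · change φ (T.face g ρ (s, 1)) t = _
    rw [face_top, e1]; rfl

/-! ### combinatorial simple connectivity -/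

open CategoryTheory in
lemma exists_lift {C : Type} [Groupoid.{0} C] (o : T.G → C)
    (e : ∀ (g : T.G) (s : A) (g' : T.G), g' = g * T.x s → (o g ⟶ o g'))
    (he : ∀ g ρ g' h h', e g (T.a ρ) _ rfl ≫ e (g * T.x (T.a ρ)) (T.b ρ) g' h =
      e g (T.c ρ) g' h') :
    ∃ p : ∀ g, o g ⟶ o 1, ∀ g s, e g s _ rfl ≫ p (g * T.x s) = p g := by
  let X : Type := Σ g : T.G, (o 1 ⟶ o g)
  let sg : A → X → X := fun s ξ => ⟨ξ.1 * T.x s, ξ.2 ≫ e ξ.1 s _ rfl⟩
  have hsg : ∀ s g (q : o 1 ⟶ o g) g' (h : g' = g * T.x s), sg s ⟨g, q⟩ = ⟨g', q ≫ e g s g' h⟩ := by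
    intro s g q g' h
    subst h
    rfl
  have hbij : ∀ s, Function.Bijective (sg s) := by
    intro s
    constructor
    · rintro ⟨g1, q1⟩ ⟨g2, q2⟩ h
      have hg : g1 = g2 := mul_right_cancel (congrArg Sigma.fst h)
      subst hg
      have h2 : q1 ≫ e g1 s _ rfl = q2 ≫ e g1 s _ rfl := eq_of_heq (Sigma.mk.inj_iff.1 h).2
      rw [(cancel_mono _).1 h2]
    · rintro ⟨g', q'⟩
      obtain ⟨g, rfl⟩ : ∃ g, g' = g * T.x s := ⟨g' * (T.x s)⁻¹, by simp⟩
      refine ⟨⟨g, q' ≫ inv (e g s _ rfl)⟩, ?_⟩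
      rw [hsg s g _ _ rfl]
      simp
  let τ : A → Equiv.Perm X := fun s => Equiv.ofBijective (sg s) (hbij s)
  have hrel : ∀ ρ, τ (T.b ρ) * τ (T.a ρ) = τ (T.c ρ) := by
    intro ρ
    ext1 ⟨g, q⟩
    change sg (T.b ρ) (sg (T.a ρ) ⟨g, q⟩) = sg (T.c ρ) ⟨g, q⟩
    have hx : g * T.x (T.c ρ) = g * T.x (T.a ρ) * T.x (T.b ρ) := by rw [mul_assoc, x_rel]
    rw [hsg _ g q _ rfl, hsg _ _ _ _ hx, hsg _ g q _ rfl, Category.assoc, he g ρ _ hx rfl]
  have hk : ∀ r ∈ Set.range T.rel, FreeGroup.lift (fun s => (τ s)⁻¹) r = 1 := by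
    rintro _ ⟨ρ, rfl⟩
    simp only [Tri.rel, map_mul, map_inv, FreeGroup.lift_apply_of, inv_inv, ← hrel]
    group
  let φ : T.G →* Equiv.Perm X := PresentedGroup.toGroup hk
  have hφ : ∀ s, φ (T.x s) = (τ s)⁻¹ := fun s => PresentedGroup.toGroup.of hk
  let S : Subgroup T.G :=
    { carrier := {g | ∀ ξ : X, ((φ g)⁻¹ ξ).1 = ξ.1 * g}
      one_mem' := by intro ξ; simp
      mul_mem' := by
        intro g g' hg hg' ξ
        rw [map_mul, mul_inv_rev, Equiv.Perm.mul_apply, hg', hg, mul_assoc]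
      inv_mem' := by
        intro g hg ξ
        have := hg ((φ g⁻¹)⁻¹ ξ)
        rw [← Equiv.Perm.mul_apply, ← mul_inv_rev, ← map_mul, inv_mul_cancel, map_one, inv_one,
          Equiv.Perm.one_apply] at this
        rw [this, mul_inv_cancel_right] }
  have hS : ∀ g : T.G, g ∈ S := by
    refine PresentedGroup.generated_by _ S fun s ξ => ?_
    change ((φ (T.x s))⁻¹ ξ).1 = ξ.1 * T.x s
    rw [hφ, inv_inv]
    rfl
  have hq : ∀ g : T.G, ∃ q : o 1 ⟶ o g, (φ g)⁻¹ ⟨1, 𝟙 _⟩ = ⟨g, q⟩ := by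
    intro g
    have h := hS g ⟨1, 𝟙 _⟩
    rw [one_mul] at h
    generalize (φ g)⁻¹ ⟨1, 𝟙 _⟩ = ξ at h
    obtain ⟨g', q⟩ := ξ
    obtain rfl : g' = g := h
    exact ⟨q, rfl⟩
  choose q hq using hq
  refine ⟨fun g => inv (q g), fun g s => ?_⟩
  have h := hq (g * T.x s)
  rw [map_mul, mul_inv_rev, Equiv.Perm.mul_apply, hq, hφ, inv_inv] at h
  have h' : (⟨g * T.x s, q g ≫ e g s _ rfl⟩ : X) = ⟨g * T.x s, q (g * T.x s)⟩ := h
  have h2 : q g ≫ e g s _ rfl = q (g * T.x s) := eq_of_heq (Sigma.mk.inj_iff.1 h').2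
  simp only [← h2]
  simp

/-- an edge as a path -/
noncomputable def edgePath (g : T.G) (s : A) (g' : T.G) (h : g' = g * T.x s) :
    Path (T.vtx g) (T.vtx g') where
  toFun := T.edge g s
  continuous_toFun := continuous_edge T g s
  source' := edge_zero T g s
  target' := by rw [h]; exact edge_one T g s

lemma edgePath_rel (g : T.G) (ρ : R) (g' : T.G) (h : g' = g * T.x (T.a ρ) * T.x (T.b ρ))
    (h' : g' = g * T.x (T.c ρ)) :
    ((edgePath T g (T.a ρ) _ rfl).trans (edgePath T _ (T.b ρ) g' h)).Homotopic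
      (edgePath T g (T.c ρ) g' h') := by
  have hb : ∀ s, T.face g ρ (s, 0) =
      ((edgePath T g (T.a ρ) _ rfl).trans (edgePath T _ (T.b ρ) g' h)) s := by
    intro s
    rw [face_bot]
    rfl
  refine ⟨⟨⟨⟨fun z => T.face g ρ (z.2, z.1), (continuous_face T g ρ).comp (by fun_prop)⟩,
    fun s => hb s, fun s => face_top T g ρ s⟩, ?_⟩⟩
  rintro t x (rfl | rfl)
  · change T.face g ρ (0, t) = _
    rw [face_left]
    exact (Path.source _).symm
  · change T.face g ρ (1, t) = _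
    rw [face_right, ← h']
    exact (Path.target _).symm

lemma exists_paths : ∃ γ : ∀ g, Path (T.vtx g) (T.vtx 1), ∀ g s,
    ((edgePath T g s _ rfl).trans (γ (g * T.x s))).Homotopic (γ g) := by
  obtain ⟨p, hp⟩ := exists_lift T (C := FundamentalGroupoid T.Cov) (fun g => ⟨T.vtx g⟩)
    (fun g s g' h => (⟦edgePath T g s g' h⟧ : Path.Homotopic.Quotient (T.vtx g) (T.vtx g')))
    (fun g ρ g' h h' => Quotient.sound (edgePath_rel T g ρ g' h h'))
  have hr : ∀ g, ∃ γ : Path (T.vtx g) (T.vtx 1),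
      (⟦γ⟧ : Path.Homotopic.Quotient (T.vtx g) (T.vtx 1)) = p g := fun g =>
    Quotient.exists_rep (p g)
  choose γ hγ using hr
  refine ⟨γ, fun g s => ?_⟩
  have h := hp g s
  rw [← hγ, ← hγ] at h
  exact Quotient.exact h

end Contr

open Contr in
theorem contrStmt_of (h1 : SquareStmt) (h2 : HepStmt) (h3 : SolveStmt) : ContrStmt := by
  intro A R T hT
  obtain ⟨γ, hγ⟩ := exists_paths T
  -- step 1: the squares over the edges
  have hsq : ∀ i : T.G × A, ∃ F : C(I × I, T.Cov), (∀ s, F (s, 0) = T.edge i.1 i.2 s) ∧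
      (∀ s, F (s, 1) = T.vtx 1) ∧ (∀ t, F (0, t) = γ i.1 t) ∧
      (∀ t, F (1, t) = γ (i.1 * T.x i.2) t) := fun i =>
    h1 T.Cov _ _ _ _ (edgePath T i.1 i.2 _ rfl) (γ i.1) (γ (i.1 * T.x i.2)) (Path.refl _)
      ((hγ i.1 i.2).trans (Path.Homotopic.trans_refl _).symm)
  choose J1 a1 a2 a3 a4 using hsq
  have hcube : ∀ j : T.G × R, ∃ H : C((I × I) × I, T.Cov), (∀ z, H (z, 0) = T.face j.1 j.2 z) ∧
      (∀ β t, H ((0, β), t) = γ j.1 t) ∧ (∀ β t, H ((1, β), t) = γ (j.1 * T.x (T.c j.2)) t) ∧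
      (∀ s t, H ((lo s, 0), t) = J1 (j.1, T.a j.2) (s, t)) ∧
      (∀ s t, H ((hi s, 0), t) = J1 (j.1 * T.x (T.a j.2), T.b j.2) (s, t)) ∧
      (∀ s t, H ((s, 1), t) = J1 (j.1, T.c j.2) (s, t)) := by
    rintro ⟨g, ρ⟩
    obtain ⟨h, b1, b2, b3, b4, b5⟩ := exists_bd T (fun g => (γ g).toContinuousMap) J1
      (fun g s t => a3 (g, s) t) (fun g s t => a4 (g, s) t) g ρ
    obtain ⟨H, c1, c2⟩ := h2 T.Cov ⟨T.face g ρ, continuous_face T g ρ⟩ h (by
      rintro ⟨z, hz⟩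
      change h (⟨z, hz⟩, 0) = T.face g ρ z
      rcases bd_cases hz with ⟨β, rfl⟩ | ⟨β, rfl⟩ | ⟨s, rfl⟩ | ⟨s, rfl⟩ | ⟨s, rfl⟩
      · rw [b1, face_left]; exact Path.source _
      · rw [b2, face_right]; exact Path.source _
      · rw [b3, face_lo, a1]
      · rw [b4, face_hi, a1]
      · rw [b5, face_top, a1])
    refine ⟨H, c1, fun β t => ?_, fun β t => ?_, fun s t => ?_, fun s t => ?_, fun s t => ?_⟩
    · exact (c2 ⟨(0, β), Or.inl rfl⟩ t).trans (b1 _ _ _)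
    · exact (c2 ⟨(1, β), Or.inr (Or.inl rfl)⟩ t).trans (b2 _ _ _)
    · exact (c2 ⟨(lo s, 0), Or.inr (Or.inr (Or.inl rfl))⟩ t).trans (b3 _ _ _)
    · exact (c2 ⟨(hi s, 0), Or.inr (Or.inr (Or.inl rfl))⟩ t).trans (b4 _ _ _)
    · exact (c2 ⟨(s, 1), Or.inr (Or.inr (Or.inr rfl))⟩ t).trans (b5 _ _ _)
  choose J2 d0 d1 d2 d3 d4 d5 using hcube
  obtain ⟨J, e0, e1, e2⟩ := exists_glue T (fun g => (γ g).toContinuousMap) J1 J2
    (fun g s t => a3 (g, s) t) (fun g s t => a4 (g, s) t) (fun g ρ => d1 (g, ρ))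
    (fun g ρ => d2 (g, ρ)) (fun g ρ => d3 (g, ρ)) (fun g ρ => d4 (g, ρ)) (fun g ρ => d5 (g, ρ))
  -- step 2: killing the obstruction
  let Θ : T.G × R → C(I × I, T.Cov) := fun j =>
    ⟨fun z => J2 j (z, 1), (J2 j).continuous.comp (by fun_prop)⟩
  obtain ⟨V, F, v1, v2, v3, v4, f1, f2, f3, f4, f5, f6, f7⟩ :=
    h3 T.Cov (T.vtx 1) (T.G × A) (T.G × R) (fun j => (j.1, T.a j.2))
      (fun j => (j.1 * T.x (T.a j.2), T.b j.2)) (fun j => (j.1, T.c j.2))
      (fun _ => Path.refl _) Θ (fun _ => Path.Homotopic.refl _)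
      (fun j s => (d3 j s 1).trans (a2 _ _)) (fun j s => (d4 j s 1).trans (a2 _ _))
      (fun j s => (d5 j s 1).trans (a2 _ _)) (fun j β => (d1 j β 1).trans (Path.target _))
      (fun j β => (d2 j β 1).trans (Path.target _))
      (fun K _ ω => by
        obtain ⟨k, hk⟩ := hT K ω
        exact ⟨k, fun j => hk j.1 j.2⟩)
  obtain ⟨J', g0, g1, g2⟩ := exists_glue T (fun _ => ContinuousMap.const I (T.vtx 1)) V F
    (fun g s t => v3 (g, s) t) (fun g s t => v4 (g, s) t) (fun g ρ => f3 (g, ρ))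
    (fun g ρ => f4 (g, ρ)) (fun g ρ => f5 (g, ρ)) (fun g ρ => f6 (g, ρ)) (fun g ρ => f7 (g, ρ))
  let ψ : C(T.Cov, T.Cov) := ⟨fun y => J (y, 1), J.continuous.comp (by fun_prop)⟩
  have H1 : (ContinuousMap.id T.Cov).Homotopic ψ := by
    refine ⟨⟨⟨fun z => J (z.2, z.1), J.continuous.comp (by fun_prop)⟩, fun y => ?_, fun y => rfl⟩⟩
    change J (y, 0) = y
    rcases cov_cases T y with ⟨g, rfl⟩ | ⟨g, s, t, rfl⟩ | ⟨g, ρ, z, rfl⟩
    · rw [e0]; exact Path.source _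
    · rw [e1, a1]
    · rw [e2, d0]
  have H2 : ψ.Homotopic (ContinuousMap.const _ (T.vtx 1)) := by
    refine ⟨⟨⟨fun z => J' (z.2, z.1), J'.continuous.comp (by fun_prop)⟩, fun y => ?_, fun y => ?_⟩⟩
    · change J' (y, 0) = J (y, 1)
      rcases cov_cases T y with ⟨g, rfl⟩ | ⟨g, s, t, rfl⟩ | ⟨g, ρ, z, rfl⟩
      · rw [e0, g0]; exact (Path.target (γ g)).symm
      · rw [e1, g1, v1, a2]; rfl
      · rw [e2, g2, f1]; rfl
    · change J' (y, 1) = T.vtx 1
      rcases cov_cases T y with ⟨g, rfl⟩ | ⟨g, s, t, rfl⟩ | ⟨g, ρ, z, rfl⟩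
      · rw [g0]; rfl
      · rw [g1, v2]
      · rw [g2, f2]
  exact (contractible_iff_id_nullhomotopic _).2 ⟨T.vtx 1, H1.trans H2⟩

end Crest.Agent.R177
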