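import Crest.Agent.R177.Defs

/-!
Counting classes and cycles: `ncc` calculus and the swap lemma.
-/

set_option autoImplicit false

namespace Crest.Agent.R177.Cyc

open Equiv Relation
open scoped Classical

variable {X Y : Type}

/-! ### `ncc` -/

theorem mk_eq_iff {r : X → X → Prop} {x y : X} : Quot.mk r x = Quot.mk r y ↔ EqvGen r x y :=
  Quot.eq

theorem eqvGen_imp {r : X → X → Prop} {s : Y → Y → Prop} (f : X → Y)
    (h : ∀ x y, r x y → EqvGen s (f x) (f y)) {x y : X} (hxy : EqvGen r x y) :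
    EqvGen s (f x) (f y) := by
  induction hxy with
  | rel x y hr => exact h x y hr
  | refl x => exact EqvGen.refl _
  | symm x y _ ih => exact ih.symm _ _
  | trans x y z _ _ ih1 ih2 => exact ih1.trans _ _ _ ih2

theorem ncc_le_of_surj [Finite X] {r : X → X → Prop} {s : Y → Y → Prop} (f : X → Y)
    (h : ∀ x y, r x y → EqvGen s (f x) (f y)) (hs : ∀ y, ∃ x, EqvGen s (f x) y) :
    ncc s ≤ ncc r := by
  refine Nat.card_le_card_of_surjective
    (Quot.lift (fun x => Quot.mk s (f x)) fun x y hxy => mk_eq_iff.2 (h x y hxy)) ?_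
  rintro ⟨y⟩
  obtain ⟨x, hx⟩ := hs y
  exact ⟨Quot.mk r x, mk_eq_iff.2 hx⟩

theorem ncc_le_of_imp [Finite X] {r s : X → X → Prop} (h : ∀ x y, r x y → EqvGen s x y) :
    ncc s ≤ ncc r :=
  ncc_le_of_surj id h fun y => ⟨y, EqvGen.refl _⟩

theorem ncc_congr [Finite X] {r s : X → X → Prop} (h : ∀ x y, r x y → EqvGen s x y)
    (h' : ∀ x y, s x y → EqvGen r x y) : ncc r = ncc s :=
  le_antisymm (ncc_le_of_imp h') (ncc_le_of_imp h)

theorem card_le_ncc [Finite X] {r : X → X → Prop} (f : X → Y) (hf : Function.Surjective f)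
    (h : ∀ x y, r x y → f x = f y) : Nat.card Y ≤ ncc r := by
  refine Nat.card_le_card_of_surjective (Quot.lift f h) fun y => ?_
  obtain ⟨x, rfl⟩ := hf y
  exact ⟨Quot.mk r x, rfl⟩

theorem ncc_le_card [Finite X] (r : X → X → Prop) : ncc r ≤ Nat.card X :=
  Nat.card_le_card_of_surjective (Quot.mk r) Quot.mk_surjective

theorem ncc_equiv {r : X → X → Prop} {s : Y → Y → Prop} (e : X ≃ Y)
    (h : ∀ x y, r x y ↔ s (e x) (e y)) : ncc r = ncc s :=
  Nat.card_congr (Quot.congr e h)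

theorem ncc_sum [Finite X] [Finite Y] {r : X ⊕ Y → X ⊕ Y → Prop} {r₁ : X → X → Prop}
    {r₂ : Y → Y → Prop} (h1 : ∀ x x', r (.inl x) (.inl x') ↔ r₁ x x')
    (h2 : ∀ y y', r (.inr y) (.inr y') ↔ r₂ y y') (h3 : ∀ x y, ¬ r (.inl x) (.inr y))
    (h4 : ∀ x y, ¬ r (.inr y) (.inl x)) : ncc r = ncc r₁ + ncc r₂ := by
  unfold ncc
  rw [← Nat.card_sum]
  refine Nat.card_congr
    { toFun := Quot.lift (Sum.map (Quot.mk r₁) (Quot.mk r₂)) ?_
      invFun := Sum.elim (Quot.map Sum.inl fun x x' h => (h1 x x').2 h)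
        (Quot.map Sum.inr fun y y' h => (h2 y y').2 h)
      left_inv := ?_
      right_inv := ?_ }
  · rintro (x | y) (x' | y') h
    · exact congrArg Sum.inl (Quot.sound ((h1 _ _).1 h))
    · exact absurd h (h3 _ _)
    · exact absurd h (h4 _ _)
    · exact congrArg Sum.inr (Quot.sound ((h2 _ _).1 h))
  · rintro ⟨x | y⟩ <;> rfl
  · rintro (x | x) <;> induction x using Quot.ind <;> rfl

/-- the relation `r` with the extra pair `(a, b)` -/
def add (r : X → X → Prop) (a b : X) (x y : X) : Prop := r x y ∨ (x = a ∧ y = b)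

theorem add_left {r : X → X → Prop} {a b x y : X} (h : r x y) : EqvGen (add r a b) x y :=
  EqvGen.rel _ _ (Or.inl h)

theorem add_pair (r : X → X → Prop) (a b : X) : EqvGen (add r a b) a b :=
  EqvGen.rel _ _ (Or.inr ⟨rfl, rfl⟩)

theorem ncc_add_of_eqv [Finite X] {r : X → X → Prop} {a b : X} (h : EqvGen r a b) :
    ncc (add r a b) = ncc r :=
  ncc_congr (by rintro x y (hr | ⟨rfl, rfl⟩); exacts [EqvGen.rel _ _ hr, h])
    fun _ _ hr => add_left hr

theorem ncc_add_of_not [Finite X] {r : X → X → Prop} {a b : X} (h : ¬ EqvGen r a b) :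
    ncc (add r a b) + 1 = ncc r := by
  have hab : Quot.mk r a ≠ Quot.mk r b := fun e => h (mk_eq_iff.1 e)
  let f : X → Quot r := fun x => if Quot.mk r x = Quot.mk r b then Quot.mk r a else Quot.mk r x
  have hf : ∀ x y, add r a b x y → f x = f y := by
    rintro x y (hr | ⟨rfl, rfl⟩)
    · simp only [f, Quot.sound hr]
    · simp only [f, if_neg hab, if_true]
  let g : Quot (add r a b) → Quot r := Quot.lift f hf
  let p : Quot r → Quot (add r a b) := Quot.map id fun x y hr => Or.inl hr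
  have hpg : Function.LeftInverse p g := by
    rintro ⟨x⟩
    change p (f x) = Quot.mk _ x
    simp only [f]
    split_ifs with hx
    · have h1 : p (Quot.mk r x) = p (Quot.mk r b) := congrArg p hx
      exact (mk_eq_iff.2 (add_pair r a b)).trans h1.symm
    · rfl
  have hr : Set.range g = {Quot.mk r b}ᶜ := by
    ext q
    constructor
    · rintro ⟨⟨x⟩, rfl⟩
      change f x ≠ _
      simp only [f]
      split_ifs with hx
      exacts [hab, hx]
    · obtain ⟨x⟩ := q
      intro hx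
      exact ⟨Quot.mk _ x, if_neg hx⟩
  have h1 : ncc (add r a b) = ({Quot.mk r b}ᶜ : Set (Quot r)).ncard := by
    rw [← hr, Set.ncard_range_of_injective hpg.injective]; rfl
  have h2 := Set.ncard_add_ncard_compl ({Quot.mk r b} : Set (Quot r))
  rw [Set.ncard_singleton] at h2
  rw [h1, add_comm, h2]; rfl

theorem swap_rel {r : X → X → Prop} {a b : X} (h : EqvGen r a b) (x : X) :
    EqvGen r x (swap a b x) := by
  rw [swap_apply_def]
  split_ifs with h1 h2
  · rw [h1]; exact h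
  · rw [h2]; exact h.symm _ _
  · exact EqvGen.refl _

/-! ### cycles -/

theorem eqvGen_iff_sameCycle [Finite X] {σ : Perm X} {x y : X} :
    EqvGen (fun x y => σ x = y) x y ↔ σ.SameCycle x y := by
  constructor
  · intro h
    induction h with
    | rel x y hr => exact ⟨1, by simpa using hr⟩
    | refl x => exact Perm.SameCycle.refl _ _
    | symm x y _ ih => exact ih.symm
    | trans x y z _ _ ih1 ih2 => exact ih1.trans ih2
  · intro h
    obtain ⟨n, -, rfl⟩ := h.exists_pow_eq'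
    induction n with
    | zero => exact EqvGen.refl _
    | succ n ih =>
      refine (ih ⟨n, by simp⟩).trans _ _ _ (EqvGen.rel _ _ ?_)
      rw [pow_succ', Perm.mul_apply]

/-- a relation containing the steps of `σ` contains its cycles -/
theorem eqvGen_of_sameCycle [Finite X] {σ : Perm X} {r : X → X → Prop}
    (h : ∀ x, EqvGen r x (σ x)) {x y : X} (hxy : σ.SameCycle x y) : EqvGen r x y :=
  eqvGen_imp id (by rintro x _ rfl; exact h x) (eqvGen_iff_sameCycle.2 hxy)

theorem cyc_eq_card_quotient [Finite X] (σ : Perm X) :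
    cyc σ = Nat.card (Quotient (Perm.SameCycle.setoid σ)) :=
  ncc_congr (s := σ.SameCycle) (fun _ _ h => EqvGen.rel _ _ ⟨1, by simpa using h⟩)
    fun _ _ h => eqvGen_iff_sameCycle.2 h

theorem cyc_mk_eq_iff [Finite X] {σ : Perm X} {x y : X} :
    Quot.mk (fun x y => σ x = y) x = Quot.mk (fun x y => σ x = y) y ↔ σ.SameCycle x y :=
  mk_eq_iff.trans eqvGen_iff_sameCycle

theorem cyc_le_of_sameCycle [Finite X] {σ τ : Perm X} (h : ∀ x, τ.SameCycle x (σ x)) :
    cyc τ ≤ cyc σ :=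
  ncc_le_of_imp (by rintro x _ rfl; exact eqvGen_iff_sameCycle.2 (h x))

theorem cyc_inv [Finite X] (σ : Perm X) : cyc σ⁻¹ = cyc σ :=
  le_antisymm (cyc_le_of_sameCycle fun x => ⟨-1, by simp⟩)
    (cyc_le_of_sameCycle fun x => ⟨-1, by simp⟩)

theorem cyc_one [Finite X] : cyc (1 : Perm X) = Nat.card X :=
  le_antisymm (ncc_le_card _) (card_le_ncc id Function.surjective_id fun _ _ h => h)

theorem cyc_le_card [Finite X] (σ : Perm X) : cyc σ ≤ Nat.card X := ncc_le_card _

theorem orb_le_left [Finite X] (σ τ : Perm X) : orb σ τ ≤ cyc σ :=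
  ncc_le_of_imp fun _ _ h => EqvGen.rel _ _ (Or.inl h)

theorem orb_le_right [Finite X] (σ τ : Perm X) : orb σ τ ≤ cyc τ :=
  ncc_le_of_imp fun _ _ h => EqvGen.rel _ _ (Or.inr h)

theorem sameCycle_mul_swap_of_not [Finite X] {σ : Perm X} {a b : X} (h : ¬ σ.SameCycle a b) :
    (σ * swap a b).SameCycle a b := by
  have key : ∀ n : ℕ, (σ * swap a b).SameCycle b ((σ ^ (n + 1)) a) := by
    have h0 : (σ * swap a b).SameCycle b (σ a) := ⟨1, by simp⟩
    intro n
    induction n with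
    | zero => simpa using h0
    | succ n ih =>
      rw [pow_succ' σ (n + 1), Perm.mul_apply]
      by_cases h1 : (σ ^ (n + 1)) a = a
      · rw [h1]; exact h0
      · have h2 : (σ ^ (n + 1)) a ≠ b := fun e => h ⟨(n + 1 : ℕ), by rw [zpow_natCast, e]⟩
        refine ih.trans ⟨1, ?_⟩
        rw [zpow_one, Perm.mul_apply, swap_apply_of_ne_of_ne h1 h2]
  have := key (orderOf σ - 1)
  rw [Nat.sub_add_cancel (orderOf_pos σ), pow_orderOf_eq_one] at this
  exact this.symm

theorem not_sameCycle_mul_swap [Finite X] {σ : Perm X} {a b : X} (hab : a ≠ b)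
    (h : σ.SameCycle a b) : ¬ (σ * swap a b).SameCycle a b := by
  have hex : ∃ k : ℕ, (σ ^ k) a = b := by
    obtain ⟨k, -, hk⟩ := h.exists_pow_eq'
    exact ⟨k, hk⟩
  set k := Nat.find hex with hk
  have hkb : (σ ^ k) a = b := Nat.find_spec hex
  have hmin : ∀ i, i < k → (σ ^ i) a ≠ b := fun i hi => Nat.find_min hex hi
  have hk0 : 1 ≤ k := Nat.pos_of_ne_zero fun e => hab (by simpa [e] using hkb)
  have hna : ∀ i, 1 ≤ i → i ≤ k → (σ ^ i) a ≠ a := by
    intro i h1 h2 e
    apply hmin (k - i) (by omega)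
    rw [← hkb]
    conv_lhs => rw [← e, ← Perm.mul_apply, ← pow_add, Nat.sub_add_cancel h2]
  have inv : ∀ n : ℕ, ∃ i, 1 ≤ i ∧ i ≤ k ∧ ((σ * swap a b) ^ n) b = (σ ^ i) a := by
    intro n
    induction n with
    | zero => exact ⟨k, hk0, le_rfl, hkb.symm⟩
    | succ n ih =>
      obtain ⟨i, h1, h2, h3⟩ := ih
      rw [pow_succ', Perm.mul_apply, h3, Perm.mul_apply]
      rcases h2.eq_or_lt with rfl | h4
      · exact ⟨1, le_rfl, hk0, by rw [hkb]; simp⟩
      · refine ⟨i + 1, by omega, h4, ?_⟩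
        rw [swap_apply_of_ne_of_ne (hna i h1 h2) (hmin i h4), pow_succ', Perm.mul_apply]
  intro h'
  obtain ⟨n, -, hn⟩ := h'.symm.exists_pow_eq'
  obtain ⟨i, h1, h2, h3⟩ := inv n
  exact hna i h1 h2 (h3.symm.trans hn)

theorem sameCycle_mul_swap_iff [Finite X] {σ : Perm X} {a b : X} (hab : a ≠ b) :
    (σ * swap a b).SameCycle a b ↔ ¬ σ.SameCycle a b :=
  ⟨fun h h' => not_sameCycle_mul_swap hab h' h, sameCycle_mul_swap_of_not⟩

theorem ncc_add_swap [Finite X] (σ : Perm X) (a b : X) :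
    ncc (add (fun x y => (σ * swap a b) x = y) a b) = ncc (add (fun x y => σ x = y) a b) := by
  refine ncc_congr ?_ ?_
  · rintro x y (rfl | ⟨rfl, rfl⟩)
    · exact (swap_rel (add_pair _ a b) x).trans _ _ _ (add_left rfl)
    · exact add_pair _ _ _
  · rintro x y (rfl | ⟨rfl, rfl⟩)
    · exact (swap_rel (add_pair _ a b) x).trans _ _ _ (add_left (by simp))
    · exact add_pair _ _ _

/-- swap lemma: splitting a cycle -/
theorem cyc_mul_swap_of_sameCycle [Finite X] {σ : Perm X} {a b : X} (hab : a ≠ b)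
    (h : σ.SameCycle a b) : cyc (σ * swap a b) = cyc σ + 1 := by
  have h1 := ncc_add_of_eqv (eqvGen_iff_sameCycle.2 h)
  have h2 := ncc_add_of_not (mt eqvGen_iff_sameCycle.1 (not_sameCycle_mul_swap hab h))
  rw [ncc_add_swap, h1] at h2
  exact h2.symm

/-- swap lemma: merging two cycles -/
theorem cyc_mul_swap_of_not [Finite X] {σ : Perm X} {a b : X} (h : ¬ σ.SameCycle a b) :
    cyc (σ * swap a b) + 1 = cyc σ := by
  have h1 := ncc_add_of_eqv (eqvGen_iff_sameCycle.2 (sameCycle_mul_swap_of_not h))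
  have h2 := ncc_add_of_not (mt eqvGen_iff_sameCycle.1 h)
  rw [← ncc_add_swap, h1] at h2
  exact h2

theorem cyc_mul_swap [Finite X] {σ : Perm X} {a b : X} (hab : a ≠ b) :
    (σ.SameCycle a b ∧ ¬ (σ * swap a b).SameCycle a b ∧ cyc (σ * swap a b) = cyc σ + 1) ∨
    (¬ σ.SameCycle a b ∧ (σ * swap a b).SameCycle a b ∧ cyc (σ * swap a b) + 1 = cyc σ) := by
  by_cases h : σ.SameCycle a b
  · exact Or.inl ⟨h, not_sameCycle_mul_swap hab h, cyc_mul_swap_of_sameCycle hab h⟩
  · exact Or.inr ⟨h, sameCycle_mul_swap_of_not h, cyc_mul_swap_of_not h⟩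

theorem cyc_le_mul_swap [Finite X] (σ : Perm X) (a b : X) : cyc σ ≤ cyc (σ * swap a b) + 1 := by
  rcases eq_or_ne a b with rfl | hab
  · rw [swap_self, ← Perm.one_def, mul_one]; omega
  rcases cyc_mul_swap (σ := σ) hab with h | h <;> omega

theorem swap_mul_eq (σ : Perm X) (a b : X) : swap a b * σ = σ * swap (σ⁻¹ a) (σ⁻¹ b) := by
  rw [mul_swap_eq_swap_mul]; simp

theorem cyc_swap_mul_of_sameCycle [Finite X] {σ : Perm X} {a b : X} (hab : a ≠ b)
    (h : σ.SameCycle a b) : cyc (swap a b * σ) = cyc σ + 1 := by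
  rw [swap_mul_eq]
  exact cyc_mul_swap_of_sameCycle (by simpa using hab) (by simpa using h)

theorem cyc_swap_mul_of_not [Finite X] {σ : Perm X} {a b : X} (h : ¬ σ.SameCycle a b) :
    cyc (swap a b * σ) + 1 = cyc σ := by
  rw [swap_mul_eq]
  exact cyc_mul_swap_of_not (by simpa using h)

/-- if `a, b` lie on one cycle, multiplying by the swap refines the cycles -/
theorem sameCycle_of_mul_swap [Finite X] {σ : Perm X} {a b x y : X} (h : σ.SameCycle a b)
    (hxy : (σ * swap a b).SameCycle x y) : σ.SameCycle x y :=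
  eqvGen_iff_sameCycle.1 (eqvGen_of_sameCycle (fun x =>
    (swap_rel (eqvGen_iff_sameCycle.2 h) x).trans _ _ _ (EqvGen.rel _ _ rfl)) hxy)

theorem cyc_sumCongr [Finite X] [Finite Y] (σ : Perm X) (τ : Perm Y) :
    cyc (Perm.sumCongr σ τ) = cyc σ + cyc τ :=
  ncc_sum (by simp) (by simp) (by simp) (by simp)

theorem orb_sumCongr [Finite X] [Finite Y] (σ σ' : Perm X) (τ τ' : Perm Y) :
    orb (Perm.sumCongr σ τ) (Perm.sumCongr σ' τ') = orb σ σ' + orb τ τ' :=
  ncc_sum (by simp [Step]) (by simp [Step]) (by simp [Step]) (by simp [Step])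

theorem cyc_permCongr (e : X ≃ Y) (σ : Perm X) : cyc (e.permCongr σ) = cyc σ :=
  (ncc_equiv e (by simp)).symm

theorem orb_permCongr (e : X ≃ Y) (σ τ : Perm X) :
    orb (e.permCongr σ) (e.permCongr τ) = orb σ τ :=
  (ncc_equiv e (by simp [Step])).symm

end Crest.Agent.R177.Cyc
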