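import Crest.Agent.R177.Defs

/-!
Designs given by vectors over the coefficient field, and their algebraic property.
-/

set_option autoImplicit false
set_option linter.unusedSectionVars false

namespace Crest.Agent.R177.FO

open Finset
open scoped Classical

variable {P K : Type} [Fintype P] [Field K] [Fintype K]

/-- the coloured labels carried by a vector in a sheet -/
noncomputable def lab (v : P → K) (a : Bool) : Finset (P × Kˣ × Bool) :=
  {l | (l.2.1 : K) = v l.1 ∧ l.2.2 = a}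

lemma mem_lab {v : P → K} {a : Bool} {l : P × Kˣ × Bool} :
    l ∈ lab v a ↔ (l.2.1 : K) = v l.1 ∧ l.2.2 = a := by simp [lab]

lemma injOn_lab (v : P → K) (a : Bool) : Set.InjOn Prod.fst (lab v a : Set (P × Kˣ × Bool)) := by
  rintro ⟨s, μ, b⟩ h ⟨s', μ', b'⟩ h' (rfl : s = s')
  rw [mem_coe, mem_lab] at h h'
  simp only at h h'
  rw [h.2, h'.2, Units.ext (h.1.trans h'.1.symm)]

/-- the design of two families of vectors -/
noncomputable def vdes {U Y : Type} [Fintype U] [Fintype Y] (vU : U → P → K) (sU : U → Bool)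
    (vY : Y → P → K) (sY : Y → Bool) : Des (Prod.fst : P × Kˣ × Bool → P) where
  U := U
  Y := Y
  SU w := lab (vU w) (sU w)
  SY y := lab (vY y) (sY y)
  injU _ := injOn_lab _ _
  injY _ := injOn_lab _ _

variable {U Y : Type} [Fintype U] [Fintype Y] {vU : U → P → K} {sU : U → Bool}
  {vY : Y → P → K} {sY : Y → Bool}

lemma sum_transfer (β : (vdes vU sU vY sY).Conf) {M : Type} [AddCommMonoid M] [Module K M]
    (s : P) (a : Bool) (Ψ : U → M) (Ψ' : Y → M)
    (h : ∀ e : (vdes vU sU vY sY).E, e.1.2.1 = s → Ψ e.1.1 = Ψ' (β.1 e)) :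
    ∑ w with sU w = a, vU w s • Ψ w = ∑ y with sY y = a, vY y s • Ψ' y := by
  rw [← sum_filter_of_ne (p := fun w => vU w s ≠ 0) (fun w _ hw h0 => hw (by rw [h0, zero_smul])),
    ← sum_filter_of_ne (s := {y | sY y = a}) (p := fun y => vY y s ≠ 0)
      (fun w _ hw h0 => hw (by rw [h0, zero_smul]))]
  let E : ∀ w ∈ ({w ∈ ({w | sU w = a} : Finset U) | vU w s ≠ 0} : Finset U),
      (vdes vU sU vY sY).E := fun w hw =>
    ⟨(w, (s, Units.mk0 (vU w s) (mem_filter.1 hw).2, a)),
      mem_lab.2 ⟨rfl, (mem_filter.1 (mem_filter.1 hw).1).2.symm⟩⟩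
  have hE : ∀ w hw, vU w s = vY (β.1 (E w hw)) s ∧ a = sY (β.1 (E w hw)) := fun w hw =>
    mem_lab.1 (β.2.1 (E w hw))
  refine sum_bij (fun w hw => β.1 (E w hw)) (fun w hw => ?_) (fun w hw w' hw' hh => ?_)
    (fun y hy => ?_) (fun w hw => ?_)
  · rw [mem_filter, mem_filter]
    exact ⟨⟨mem_univ _, (hE w hw).2.symm⟩, (hE w hw).1 ▸ (mem_filter.1 hw).2⟩
  · have h1 : vU w s = vU w' s := by rw [(hE w hw).1, (hE w' hw').1, hh]
    have h2 := β.2.2.1 (E w hw) (E w' hw') hh (by simp [E, h1])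
    exact congrArg (fun e => e.1.1) h2
  · rw [mem_filter, mem_filter] at hy
    obtain ⟨e, he1, he2⟩ := β.2.2.2 y (s, Units.mk0 (vY y s) hy.2, a)
      (mem_lab.2 ⟨rfl, hy.1.2.symm⟩)
    obtain ⟨⟨w, l⟩, hl⟩ := e
    simp only at he2
    subst he2
    have h1 := mem_lab.1 hl
    simp only [Units.val_mk0] at h1
    have hw : w ∈ ({w ∈ ({w | sU w = a} : Finset U) | vU w s ≠ 0} : Finset U) :=
      mem_filter.2 ⟨mem_filter.2 ⟨mem_univ _, h1.2.symm⟩, h1.1 ▸ hy.2⟩
    refine ⟨w, hw, ?_⟩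
    rw [← he1]
    congr 1
    simp [E, h1.1]
  · rw [← (hE w hw).1, h (E w hw) rfl]

lemma vdes_alg (ε : U → K) (ν : Y) (κ : K) (γ : U)
    (hU : ∀ w w', ∑ s, vU w s * vU w' s = ε w * ε w')
    (hY : ∀ y y', ∑ s, vY y s * vY y' s = if y = ν ∧ y' = ν then κ else 0)
    (hν : sY ν = true) (hκ : κ ≠ 0) (hγ : sU γ = false) (hε : ε γ ≠ 0) :
    (vdes vU sU vY sY).Alg K γ := by
  intro β G _ φ x hx hγ'
  let u : G → MonoidAlgebra K G := fun g => MonoidAlgebra.single g 1
  have hu : ∀ g h, u g * u h = u (g * h) := fun g h => by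
    simp [u, MonoidAlgebra.single_mul_single]
  have hu1 : u 1 = 1 := rfl
  let A : Bool → MonoidAlgebra K G := fun a => ∑ w with sU w = a, ε w • u (φ (.inl w))
  let B : Bool → MonoidAlgebra K G := fun a => ∑ w with sU w = a, ε w • u (φ (.inl w))⁻¹
  have key : ∀ a b, A a * B b = ∑ y with sY y = a, ∑ y' with sY y' = b,
      (if y = ν ∧ y' = ν then κ else 0) • (u (φ (.inr y)) * u (φ (.inr y'))⁻¹) := by
    intro a b
    have h1 : ∀ s, (∑ w with sU w = a, vU w s • u (φ (.inl w))) *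
        (∑ w with sU w = b, vU w s • u (φ (.inl w))⁻¹) =
        (∑ y with sY y = a, vY y s • u (φ (.inr y))) *
          (∑ y with sY y = b, vY y s • u (φ (.inr y))⁻¹) := by
      intro s
      rw [← sum_transfer β s a (fun w => u (φ (.inl w)) * u (x s)) (fun y => u (φ (.inr y)))
          (fun e he => by rw [hu, ← he, hx]),
        ← sum_transfer β s b (fun w => u (x s)⁻¹ * u (φ (.inl w))⁻¹) (fun y => u (φ (.inr y))⁻¹)
          (fun e he => by rw [hu, ← he, ← mul_inv_rev, hx])]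
      simp only [sum_mul_sum, smul_mul_smul_comm, hu]
      simp [mul_assoc]
    have h2 := sum_congr (rfl : (univ : Finset P) = univ) fun s _ => h1 s
    simp only [sum_mul_sum, smul_mul_smul_comm] at h2
    simp only [A, B, sum_mul_sum, smul_mul_smul_comm, ← hU, ← hY, sum_smul]
    rw [sum_comm] at h2
    conv at h2 => rhs; rw [sum_comm]
    simpa only [sum_comm (s := (univ : Finset P))] using h2
  refine ⟨A true, κ⁻¹ • B true, B false, ?_, ?_, ?_⟩
  · rw [mul_smul_comm, key, sum_eq_single ν, sum_eq_single ν]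
    · simp [hu, hu1, smul_smul, hκ]
    · intro y _ hy
      simp [hy]
    · simp [hν]
    · intro y _ hy
      simp [hy]
    · simp [hν]
  · rw [key]
    refine sum_eq_zero fun y _ => sum_eq_zero fun y' hy' => ?_
    have : y' ≠ ν := by
      rintro rfl
      simp [hν] at hy'
    simp [this]
  · intro h0
    have h1 := congrArg (fun z : MonoidAlgebra K G => z.coeff (φ (.inl γ))⁻¹) h0
    simp only [B, MonoidAlgebra.coeff_sum, Finsupp.finsetSum_apply, MonoidAlgebra.coeff_zero,
      Finsupp.zero_apply] at h1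
    rw [sum_eq_single γ] at h1
    · simp [u, hε] at h1
    · intro w _ hw
      have : ¬ φ (.inl w) = φ (.inl γ) := fun h => hw (Sum.inl.inj (hγ' _ h))
      simp [u, Finsupp.single_apply, this]
    · simp [hγ]

end Crest.Agent.R177.FO
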