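import Crest.Agent.R177.Defs

/-!
Permutation-level surgery for van Kampen diagrams: pruning, folding, deleting a band.
-/

set_option autoImplicit false

namespace Crest.Agent.R177.Diag

open Equiv Finset
open scoped Classical

variable {X : Type}

/-- remove `z` from its cycle -/
noncomputable def pr (φ : Perm X) (z : X) : Perm X := φ * swap (φ⁻¹ z) z

theorem pr_self (φ : Perm X) (z : X) : pr φ z z = z := by simp [pr]

theorem pr_apply (φ : Perm X) {z y : X} (h : y ≠ z) :
    pr φ z y = if φ y = z then φ z else φ y := by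
  unfold pr
  split_ifs with h1
  · have : y = φ⁻¹ z := by rw [← h1]; simp
    rw [this]; simp
  · have : y ≠ φ⁻¹ z := fun e => h1 (by rw [e]; simp)
    rw [Perm.mul_apply, swap_apply_of_ne_of_ne this h]

theorem planar_pr (hm : MoveStmt) [Finite X] {φ α : Perm X} (h : Planar φ α) (z : X) :
    Planar (pr φ z) α :=
  hm.1 X φ α _ _ h ⟨1, by simp⟩

theorem fold_perm (hm : MoveStmt) [Finite X] {φ α : Perm X} (h : Planar φ α)
    (inv : ∀ z, α (α z) = z) {x x' : X} (hx : φ x = x') (hne : x ≠ x') (lx : α x ≠ x)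
    (lx' : α x' ≠ x') :
    ∃ φ' α' : Perm X, Planar φ' α' ∧ φ' x = x ∧ φ' x' = x' ∧
      (∀ z, z ≠ x → z ≠ x' → φ' z = if φ z = x then φ x' else φ z) ∧
      α' x = x ∧ α' x' = x' ∧
      (∀ z, z ≠ x → z ≠ x' →
        α' z = if z = α x then α x' else if z = α x' then α x else α z) := by
  have inj : ∀ {a b}, α a = b → a = α b := fun {a b} e => by rw [← e, inv]
  by_cases ha : α x = x'
  · have hb : α x' = x := by rw [← ha, inv]
    have h1 := hm.2.1 X φ α x x' h ⟨1, by simpa using ha⟩
    refine ⟨pr (φ * swap x x') x, swap x x' * α, planar_pr hm h1 x, pr_self _ _, ?_, ?_, ?_, ?_, ?_⟩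
    · rw [pr_apply _ hne.symm]; simp [hx, hne.symm]
    · intro z hz hz'
      rw [pr_apply _ hz]; simp [swap_apply_of_ne_of_ne hz hz']
    · simp [ha]
    · simp [hb]
    · intro z hz hz'
      rw [if_neg (by rwa [ha]), if_neg (by rwa [hb]), Perm.mul_apply, swap_apply_of_ne_of_ne]
      · intro e; exact hz' (by rw [inj e, ha])
      · intro e; exact hz (by rw [inj e, hb])
  · set a := α x with ha'
    set b := α x' with hb'
    have hax : α a = x := inv x
    have hbx : α b = x' := inv x'
    have hb : b ≠ x := fun e => ha (by rw [ha', ← e, hbx])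
    have hab : a ≠ b := fun e => hne (α.injective e)
    -- cut the bigon
    obtain ⟨φ1, h1, e1, e2, e3⟩ : ∃ φ1 : Perm X, Planar φ1 α ∧ φ1 x = x' ∧ φ1 x' = x ∧
        ∀ z, z ≠ x → z ≠ x' → φ1 z = if φ z = x then φ x' else φ z := by
      refine ⟨φ * swap (φ⁻¹ x) x', hm.1 X φ α _ _ h ?_, ?_, by simp, ?_⟩
      · exact ⟨2, by rw [zpow_two, Perm.mul_apply, ← hx]; simp⟩
      · rw [Perm.mul_apply, swap_apply_of_ne_of_ne _ hne, hx]
        intro e
        apply hne
        rw [← hx]; nth_rw 2 [e]; simp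
      · intro z hz hz'
        split_ifs with h1
        · have : z = φ⁻¹ x := by rw [← h1]; simp
          rw [this]; simp
        · have : z ≠ φ⁻¹ x := fun e => h1 (by rw [e]; simp)
          rw [Perm.mul_apply, swap_apply_of_ne_of_ne this hz']
    have n1 : ∀ z, z ≠ x' → φ1 z ≠ x := fun z hz e => hz (φ1.injective (e.trans e2.symm))
    have n2 : ∀ z, z ≠ x → φ1 z ≠ x' := fun z hz e => hz (φ1.injective (e.trans e1.symm))
    have h2 := hm.2.1 X φ1 α x a h1 ⟨1, by simp [ha']⟩
    have h3 := hm.2.2.2.2.2.1 X X (swap a x') _ _ h2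
    set φ3 := (swap a x').permCongr (φ1 * swap x a) with hφ3
    have p3 : ∀ z, φ3 z = swap a x' (φ1 (swap x a (swap a x' z))) := fun z => by
      simp [hφ3]
    have f1 : φ3 a = x := by
      rw [p3, swap_apply_left, swap_apply_of_ne_of_ne hne.symm (Ne.symm ha), e2,
        swap_apply_of_ne_of_ne lx.symm hne]
    have f2 : φ3 x' = a := by
      rw [p3, swap_apply_right, swap_apply_right, e1, swap_apply_right]
    have f3 : φ3 x = swap a x' (φ1 a) := by
      rw [p3, swap_apply_of_ne_of_ne lx.symm hne, swap_apply_left]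
    have f4 : ∀ z, z ≠ x → z ≠ x' → z ≠ a → φ3 z = swap a x' (φ1 z) := fun z h1 h2 h3 => by
      rw [p3, swap_apply_of_ne_of_ne h3 h2, swap_apply_of_ne_of_ne h1 h3]
    have g0 : ∀ t, t ≠ x' → (if swap a x' t = x' then a else swap a x' t) = t := fun t ht => by
      by_cases h : t = a
      · subst h; simp
      · rw [swap_apply_of_ne_of_ne h ht, if_neg ht]
    have g1 : pr φ3 x' a = x := by rw [pr_apply _ ha, f1, if_neg hne]
    have g2 : pr φ3 x' x = φ1 a := by rw [pr_apply _ hne, f3, f2, g0 _ (n2 _ lx)]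
    have g3 : ∀ z, z ≠ x → z ≠ x' → z ≠ a → pr φ3 x' z = φ1 z := fun z h1 h2 h3 => by
      rw [pr_apply _ h2, f4 z h1 h2 h3, f2, g0 _ (n2 _ h1)]
    have q3 : ∀ z, (swap a x').permCongr (swap x a * α) z =
        swap a x' (swap x a (α (swap a x' z))) := fun z => by simp
    refine ⟨pr (pr φ3 x') x, _, planar_pr hm (planar_pr hm h3 x') x, pr_self _ _, ?_, ?_, ?_, ?_,
      ?_⟩
    · rw [pr_apply _ hne.symm, pr_self, if_neg hne.symm]
    · intro z hz hz'
      rw [← e3 z hz hz', pr_apply _ hz]
      by_cases hza : z = a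
      · subst hza; rw [g1, if_pos rfl, g2]
      · rw [g3 z hz hz' hza, if_neg (n1 z hz')]
    · rw [q3, swap_apply_of_ne_of_ne lx.symm hne, ← ha', swap_apply_right,
        swap_apply_of_ne_of_ne lx.symm hne]
    · rw [q3, swap_apply_right, hax, swap_apply_left, swap_apply_left]
    · intro z hz hz'
      rw [q3]
      split_ifs with c1 c2
      · subst c1
        rw [swap_apply_left, ← hb', swap_apply_of_ne_of_ne hb hab.symm,
          swap_apply_of_ne_of_ne hab.symm lx']
      · subst c2
        rw [swap_apply_of_ne_of_ne hab.symm lx', hbx, swap_apply_of_ne_of_ne hne.symm (Ne.symm ha),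
          swap_apply_right]
      · have k1 : α z ≠ x := fun e => c1 (inj e)
        have k2 : α z ≠ a := fun e => hz (by rw [inj e, hax])
        have k3 : α z ≠ x' := fun e => c2 (inj e)
        rw [swap_apply_of_ne_of_ne c1 hz', swap_apply_of_ne_of_ne k1 k2,
          swap_apply_of_ne_of_ne k2 k3]

/-- pruning a dart whose two ends agree keeps the walk condition -/
theorem pr_walk {T : Type} (φ : Perm X) (st en : X → T) (S : X → Prop) (x : X)
    (h : ∀ z, S z → en z = st (φ z)) (hx : S x) (e : st x = en x) :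
    ∀ z, S z → z ≠ x → en z = st (pr φ x z) := by
  intro z hz hzx
  rw [pr_apply _ hzx]
  split_ifs with h1
  · rw [h z hz, h1, e, h x hx]
  · exact h z hz

theorem delete_perm (hm : MoveStmt) [Finite X] {φ α : Perm X} (h : Planar φ α)
    (inv : ∀ z, α (α z) = z) {x y : X} (hxy : α x = y) (hne : x ≠ y) :
    ∃ φ' α' : Perm X, Planar φ' α' ∧ φ' x = x ∧ φ' y = y ∧
      (∀ z, z ≠ x → z ≠ y → φ z ≠ x → φ z ≠ y → φ' z = φ z) ∧
      (∀ (T : Type) (st en : X → T) (S : X → Prop), (∀ z, S z → en z = st (φ z)) → S x → S y →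
        st x = en y → st y = en x → ∀ z, S z → z ≠ x → z ≠ y → en z = st (φ' z)) ∧
      α' x = x ∧ α' y = y ∧ (∀ z, z ≠ x → z ≠ y → α' z = α z) := by
  have hyx : α y = x := by rw [← hxy, inv]
  have h1 := hm.2.1 X φ α x y h ⟨1, by simpa using hxy⟩
  refine ⟨pr (pr (φ * swap x y) x) y, swap x y * α, planar_pr hm (planar_pr hm h1 x) y, ?_,
    pr_self _ _, ?_, ?_, by simp [hxy], by simp [hyx], ?_⟩
  · rw [pr_apply _ hne, pr_self, if_neg hne]
  · intro z h1 h2 h3 h4
    have : pr (φ * swap x y) x z = φ z := by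
      rw [pr_apply _ h1, Perm.mul_apply, swap_apply_of_ne_of_ne h1 h2, if_neg h3]
    rw [pr_apply _ h2, this, if_neg h4]
  · intro T st en S hS sx sy e1 e2
    let en' : X → T := fun z => en (swap x y z)
    have k1 : ∀ z, S z → en' z = st ((φ * swap x y) z) := by
      intro z hz
      refine hS _ ?_
      by_cases c1 : z = x
      · subst c1; simpa using sy
      · by_cases c2 : z = y
        · subst c2; simpa using sx
        · rwa [swap_apply_of_ne_of_ne c1 c2]
    have k2 := pr_walk _ st en' S x k1 sx (by simpa [en'] using e1)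
    have k3 := pr_walk (pr (φ * swap x y) x) st en' (fun z => S z ∧ z ≠ x) y
      (fun z hz => k2 z hz.1 hz.2) ⟨sy, hne.symm⟩ (by simpa [en'] using e2)
    intro z hz c1 c2
    have := k3 z ⟨hz, c1⟩ c2
    simpa [en', swap_apply_of_ne_of_ne c1 c2] using this
  · intro z h1 h2
    rw [Perm.mul_apply, swap_apply_of_ne_of_ne]
    · intro e; exact h2 (by rw [← inv z, e, hxy])
    · intro e; exact h1 (by rw [← inv z, e, hyx])

end Crest.Agent.R177.Diag
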