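import Crest.Agent.R177.Diag1

/-!
Positioned diagrams and their surgery.
-/

set_option autoImplicit false

namespace Crest.Agent.R177.Diag

open Equiv Finset
open scoped Classical

variable {P : Type} (L : FGraph P)

abbrev Lt := (P ⊕ L.V) × Bool
abbrev Ch := L.tri.G × L.E →₀ ℤ

def fl {A : Type} (s : A × Bool) : A × Bool := (s.1, !s.2)

@[simp] theorem fl_fl {A : Type} (s : A × Bool) : fl (fl s) = s := by simp [fl]

theorem fl_ne {A : Type} (s : A × Bool) : fl s ≠ s := by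
  rcases s with ⟨a, _ | _⟩ <;> simp [fl]

def valW (w : List (Lt L)) : L.tri.G := L.tri.π (FreeGroup.mk w)

def val (s : Lt L) : L.tri.G := valW L [s]

variable {L}

@[simp] theorem valW_nil : valW L [] = 1 := map_one _

theorem valW_append (w w' : List (Lt L)) : valW L (w ++ w') = valW L w * valW L w' := by
  rw [valW, ← FreeGroup.mul_mk, map_mul]; rfl

theorem valW_cons (s : Lt L) (w : List (Lt L)) : valW L (s :: w) = val L s * valW L w :=
  valW_append [s] w

theorem val_fl (s : Lt L) : val L (fl s) = (val L s)⁻¹ := by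
  rw [val, val, valW, valW, ← map_inv, FreeGroup.inv_mk]; rfl

theorem val_true (a : P ⊕ L.V) : val L (a, true) = L.tri.x a := rfl

theorem val_false (a : P ⊕ L.V) : val L (a, false) = (L.tri.x a)⁻¹ := val_fl (a, true)

theorem rel_eq (e : L.E) :
    L.tri.x (.inr (L.src e)) * L.tri.x (.inl (L.lab e)) = L.tri.x (.inr (L.tgt e)) := by
  have : L.tri.π (L.tri.rel e) = 1 := PresentedGroup.one_of_mem ⟨e, rfl⟩
  rw [Tri.rel, map_mul, map_mul, map_inv, mul_inv_eq_one] at this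
  exact this

/-- contribution of an inner dart to the chain -/
noncomputable def term (p : L.tri.G) : L.cone.Dart → Ch L
  | (.inl e, true) => -Finsupp.single (p * (L.tri.x (.inr (L.src e)))⁻¹, e) 1
  | (.inl e, false) => Finsupp.single (p * (L.tri.x (.inr (L.tgt e)))⁻¹, e) 1
  | (.inr _, _) => 0

theorem term_cancel (p : L.tri.G) (d : L.cone.Dart) :
    term p d + term (p * val L (L.cone.label d)) (L.cone.rev d) = 0 := by
  rcases d with ⟨e | v, _ | _⟩
  · show Finsupp.single _ _ + -Finsupp.single (p * val L (.inl (L.lab e), false) * _, e) 1 = 0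
    rw [val_false, ← rel_eq, mul_inv_rev, mul_assoc, add_neg_cancel]
  · show -Finsupp.single _ _ + Finsupp.single (p * val L (.inl (L.lab e), true) * _, e) 1 = 0
    rw [val_true, ← rel_eq, mul_inv_rev, mul_assoc, mul_inv_cancel_left, neg_add_cancel]
  · exact add_zero _
  · exact add_zero _

theorem head_rev (d : L.cone.Dart) : L.cone.head (L.cone.rev d) = L.cone.tail d := by
  rcases d with ⟨e, _ | _⟩ <;> rfl

theorem tail_rev (d : L.cone.Dart) : L.cone.tail (L.cone.rev d) = L.cone.head d := by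
  rcases d with ⟨e, _ | _⟩ <;> rfl

theorem label_rev (d : L.cone.Dart) : L.cone.label (L.cone.rev d) = fl (L.cone.label d) := rfl

variable (L) in
structure PD (g : L.tri.G) (w : List (Lt L)) (c : Ch L) (X : Type) [Fintype X] where
  φ : Perm X
  α : Perm X
  inv : ∀ x, α (α x) = x
  planar : Planar φ α
  dead : ∀ x, α x = x → φ x = x
  o : List X
  o_nodup : o.Nodup
  lab : X → Lt L
  o_lab : o.map lab = w
  o_cyc : o.map φ = o.rotate 1
  o_live : ∀ x ∈ o, α x ≠ x
  lab_α : ∀ x, α x ≠ x → lab (α x) = fl (lab x)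
  lift : X → L.cone.Dart
  lift_lab : ∀ x, x ∉ o → α x ≠ x → L.cone.label (lift x) = lab x
  walk : ∀ x, x ∉ o → α x ≠ x → L.cone.head (lift x) = L.cone.tail (lift (φ x))
  pos : X → L.tri.G
  pos_φ : ∀ x, α x ≠ x → pos x * val L (lab x) = pos (φ x)
  pos_α : ∀ x, α x ≠ x → pos x * val L (lab x) = pos (α x)
  pos_o : ∀ x ∈ o.head?, pos x = g
  chain : c = ∑ x ∈ univ.filter (fun x => x ∉ o ∧ α x ≠ x), term (pos x) (lift x)

namespace PD
variable {g : L.tri.G} {w : List (Lt L)} {c : Ch L} {X : Type} [Fintype X] (D : PD L g w c X)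

theorem mem_o {z : X} (h : z ∈ D.o) : D.φ z ∈ D.o := by
  rw [← List.mem_rotate (n := 1), ← D.o_cyc]; exact List.mem_map_of_mem h

theorem mem_o' {z : X} (h : D.φ z ∈ D.o) : z ∈ D.o := by
  rw [← List.mem_rotate (n := 1), ← D.o_cyc, List.mem_map] at h
  obtain ⟨a, ha, e⟩ := h
  rwa [← D.φ.injective e]

theorem live_φ {z : X} (h : D.α z ≠ z) : D.α (D.φ z) ≠ D.φ z := fun e => by
  have := D.φ.injective (D.dead _ e)
  rw [this] at e; exact h e

theorem live_α {z : X} (h : D.α z ≠ z) : D.α (D.α z) ≠ D.α z := by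
  rw [D.inv]; exact h.symm

/-- number of live darts -/
noncomputable def nl : ℕ := #{x | D.α x ≠ x}

/-- Generic removal of two darts. -/
noncomputable def kill (x x' : X) (φ' α' : Perm X) (o' : List X) (w' : List (Lt L))
    (hp : Planar φ' α') (f1 : φ' x = x) (f2 : φ' x' = x') (a1 : α' x = x) (a2 : α' x' = x')
    (ainv : ∀ z, α' (α' z) = z)
    (alive : ∀ z, z ≠ x → z ≠ x' → (α' z = z ↔ D.α z = z))
    (adead : ∀ z, z ≠ x → z ≠ x' → D.α z = z → φ' z = z)
    (alab : ∀ z, z ≠ x → z ≠ x' → D.α z ≠ z → D.lab (α' z) = D.lab (D.α z) ∧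
      D.pos (α' z) = D.pos (D.α z))
    (fpos : ∀ z, z ≠ x → z ≠ x' → D.α z ≠ z → D.pos z * val L (D.lab z) = D.pos (φ' z))
    (fwalk : ∀ z, z ≠ x → z ≠ x' → z ∉ D.o → D.α z ≠ z →
      L.cone.head (D.lift z) = L.cone.tail (D.lift (φ' z)))
    (omem : ∀ z, z ∈ o' ↔ z ∈ D.o ∧ z ≠ x ∧ z ≠ x') (ond : o'.Nodup) (olab : o'.map D.lab = w')
    (ocyc : o'.map φ' = o'.rotate 1) (opos : ∀ z ∈ o'.head?, D.pos z = g)
    (hc : c = ∑ z ∈ univ.filter (fun z => z ∉ D.o ∧ D.α z ≠ z ∧ z ≠ x ∧ z ≠ x'),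
      term (D.pos z) (D.lift z)) : PD L g w' c X :=
  have key : ∀ z, α' z ≠ z → z ≠ x ∧ z ≠ x' ∧ D.α z ≠ z := fun z hz => by
    have h1 : z ≠ x := by rintro rfl; exact hz a1
    have h2 : z ≠ x' := by rintro rfl; exact hz a2
    exact ⟨h1, h2, fun e => hz ((alive z h1 h2).2 e)⟩
  { φ := φ', α := α', inv := ainv, planar := hp
    dead := fun z hz => by
      by_cases h1 : z = x
      · rw [h1, f1]
      by_cases h2 : z = x'
      · rw [h2, f2]
      exact adead z h1 h2 ((alive z h1 h2).1 hz)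
    o := o', o_nodup := ond, lab := D.lab, o_lab := olab, o_cyc := ocyc
    o_live := fun z hz e => by
      obtain ⟨h0, h1, h2⟩ := (omem z).1 hz
      exact D.o_live z h0 ((alive z h1 h2).1 e)
    lab_α := fun z hz => by
      obtain ⟨h1, h2, h3⟩ := key z hz
      rw [(alab z h1 h2 h3).1, D.lab_α z h3]
    lift := D.lift
    lift_lab := fun z ho hz => by
      obtain ⟨h1, h2, h3⟩ := key z hz
      exact D.lift_lab z (fun h => ho ((omem z).2 ⟨h, h1, h2⟩)) h3
    walk := fun z ho hz => by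
      obtain ⟨h1, h2, h3⟩ := key z hz
      exact fwalk z h1 h2 (fun h => ho ((omem z).2 ⟨h, h1, h2⟩)) h3
    pos := D.pos
    pos_φ := fun z hz => by
      obtain ⟨h1, h2, h3⟩ := key z hz
      exact fpos z h1 h2 h3
    pos_α := fun z hz => by
      obtain ⟨h1, h2, h3⟩ := key z hz
      rw [(alab z h1 h2 h3).2, D.pos_α z h3]
    pos_o := opos
    chain := by
      refine hc.trans (Finset.sum_congr ?_ fun _ _ => rfl)
      ext z
      simp only [mem_filter, mem_univ, true_and]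
      constructor
      · rintro ⟨h0, h3, h1, h2⟩
        exact ⟨fun h => h0 ((omem z).1 h).1, fun e => h3 ((alive z h1 h2).1 e)⟩
      · rintro ⟨h0, hz⟩
        obtain ⟨h1, h2, h3⟩ := key z hz
        exact ⟨fun h => h0 ((omem z).2 ⟨h, h1, h2⟩), h3, h1, h2⟩ }

theorem chain_erase {x x' : X} (hne : x ≠ x') (h1 : x ∉ D.o) (h2 : D.α x ≠ x) (h3 : x' ∉ D.o)
    (h4 : D.α x' ≠ x') (hl : D.lift x' = L.cone.rev (D.lift x))
    (hp : D.pos x * val L (D.lab x) = D.pos x') :
    c = ∑ z ∈ univ.filter (fun z => z ∉ D.o ∧ D.α z ≠ z ∧ z ≠ x ∧ z ≠ x'),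
      term (D.pos z) (D.lift z) := by
  have e : univ.filter (fun z => z ∉ D.o ∧ D.α z ≠ z) =
      insert x (insert x' (univ.filter (fun z => z ∉ D.o ∧ D.α z ≠ z ∧ z ≠ x ∧ z ≠ x'))) := by
    ext z
    simp only [mem_filter, mem_univ, true_and, mem_insert]
    by_cases c1 : z = x
    · subst c1; simp [h1, h2]
    by_cases c2 : z = x'
    · subst c2; simp [h3, h4]
    simp [c1, c2]
  conv_lhs => rw [D.chain, e]
  rw [sum_insert (by simp [hne]), sum_insert (by simp), ← add_assoc, hl, ← hp,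
    ← D.lift_lab x h1 h2, term_cancel, zero_add]

theorem nl_lt {g' : L.tri.G} {w' : List (Lt L)} {c' : Ch L} (D' : PD L g' w' c' X) (x : X)
    (h1 : D.α x ≠ x) (h2 : D'.α x = x) (h : ∀ z, D'.α z ≠ z → D.α z ≠ z) : D'.nl < D.nl := by
  refine card_lt_card ⟨fun z hz => ?_, fun hs => ?_⟩
  · simp only [mem_filter, mem_univ, true_and] at hz ⊢; exact h z hz
  · have := hs (show x ∈ _ by simpa using h1)
    simp [h2] at this

/-- The data common to inner and outer folds. -/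
theorem fold_data (hm : MoveStmt) {x x' : X} (hx : D.φ x = x') (lx : D.α x ≠ x)
    (hl : D.lab x' = fl (D.lab x)) :
    x ≠ x' ∧ ∃ φ' α' : Perm X, Planar φ' α' ∧ φ' x = x ∧ φ' x' = x' ∧ α' x = x ∧ α' x' = x' ∧
      (∀ z, α' (α' z) = z) ∧ (∀ z, z ≠ x → z ≠ x' → (α' z = z ↔ D.α z = z)) ∧
      (∀ z, z ≠ x → z ≠ x' → D.α z = z → φ' z = z) ∧
      (∀ z, z ≠ x → z ≠ x' → D.α z ≠ z → D.lab (α' z) = D.lab (D.α z) ∧
        D.pos (α' z) = D.pos (D.α z)) ∧
      (∀ z, z ≠ x → z ≠ x' → D.α z ≠ z → D.pos z * val L (D.lab z) = D.pos (φ' z)) ∧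
      (∀ z, z ≠ x → z ≠ x' → φ' z = if D.φ z = x then D.φ x' else D.φ z) := by
  have hne : x ≠ x' := fun e => fl_ne (D.lab x) (by rw [← hl, ← e])
  have lx' : D.α x' ≠ x' := hx ▸ D.live_φ lx
  obtain ⟨φ', α', hp, f1, f2, f3, a1, a2, a3⟩ := fold_perm hm D.planar D.inv hx hne lx lx'
  have inj : ∀ {a b}, D.α a = b → a = D.α b := fun {a b} e => by rw [← e, D.inv]
  have hab : D.α x ≠ D.α x' := fun e => hne (D.α.injective e)
  have p1 : D.pos x * val L (D.lab x) = D.pos x' := hx ▸ D.pos_φ x lx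
  have p2 : D.pos x' * val L (D.lab x') = D.pos x := by rw [← p1, hl, val_fl]; simp
  refine ⟨hne, φ', α', hp, f1, f2, a1, a2, ?_, ?_, ?_, ?_, ?_, f3⟩
  · intro z
    by_cases h1 : z = x
    · rw [h1, a1, a1]
    by_cases h2 : z = x'
    · rw [h2, a2, a2]
    have n1 : α' z ≠ x := fun e => h1 (α'.injective (e.trans a1.symm))
    have n2 : α' z ≠ x' := fun e => h2 (α'.injective (e.trans a2.symm))
    rw [a3 _ n1 n2, a3 z h1 h2]
    by_cases c1 : z = D.α x
    · rw [if_pos c1, if_neg hab.symm, if_pos rfl, c1]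
    by_cases c2 : z = D.α x'
    · rw [if_neg c1, if_pos c2, if_pos rfl, c2]
    rw [if_neg c1, if_neg c2, if_neg (fun e => h1 (D.α.injective e)),
      if_neg (fun e => h2 (D.α.injective e)), D.inv]
  · intro z h1 h2
    rw [a3 z h1 h2]
    split_ifs with c1 c2
    · subst c1
      exact ⟨fun e => (hab e.symm).elim, fun e => (D.live_α lx e).elim⟩
    · subst c2
      exact ⟨fun e => (hab e).elim, fun e => (D.live_α lx' e).elim⟩
    · rfl
  · intro z h1 h2 h3
    rw [f3 z h1 h2, D.dead z h3, if_neg h1]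
  · intro z h1 h2 h3
    rw [a3 z h1 h2]
    split_ifs with c1 c2
    · subst c1
      rw [D.inv, D.lab_α _ lx', hl, fl_fl, ← D.pos_α _ lx', p2]
      exact ⟨rfl, rfl⟩
    · subst c2
      rw [D.inv, D.lab_α _ lx, hl, ← D.pos_α _ lx, p1]
      exact ⟨rfl, rfl⟩
    · exact ⟨rfl, rfl⟩
  · intro z h1 h2 h3
    rw [f3 z h1 h2, D.pos_φ z h3]
    split_ifs with c1
    · rw [c1, ← D.pos_φ _ lx', p2]
    · rfl

theorem fold_inner (hm : MoveStmt) {x : X} (h1 : x ∉ D.o) (lx : D.α x ≠ x)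
    (hl : D.lift (D.φ x) = L.cone.rev (D.lift x)) : ∃ D' : PD L g w c X, D'.nl < D.nl := by
  have h3 : D.φ x ∉ D.o := fun h => h1 (D.mem_o' h)
  have lx' := D.live_φ lx
  have hlab : D.lab (D.φ x) = fl (D.lab x) := by
    rw [← D.lift_lab _ h3 lx', hl, label_rev, D.lift_lab _ h1 lx]
  obtain ⟨hne, φ', α', hp, f1, f2, a1, a2, ainv, alive, adead, alab, fpos, f3⟩ :=
    D.fold_data hm rfl lx hlab
  have hox : ∀ z ∈ D.o, z ≠ x ∧ z ≠ D.φ x := fun z hz =>
    ⟨by rintro rfl; exact h1 hz, by rintro rfl; exact h3 hz⟩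
  refine ⟨D.kill x (D.φ x) φ' α' D.o w hp f1 f2 a1 a2 ainv alive adead alab fpos ?_
    (fun z => ⟨fun h => ⟨h, hox z h⟩, fun h => h.1⟩) D.o_nodup D.o_lab ?_ D.pos_o
    (D.chain_erase hne h1 lx h3 lx' hl (D.pos_φ x lx)), D.nl_lt _ x lx a1 ?_⟩
  · intro z c1 c2 c3 c4
    rw [f3 z c1 c2, D.walk z c3 c4]
    split_ifs with c5
    · rw [c5, ← D.walk _ h3 lx', hl, head_rev]
    · rfl
  · rw [← D.o_cyc]
    refine List.map_congr_left fun z hz => ?_
    rw [f3 z (hox z hz).1 (hox z hz).2, if_neg (hox _ (D.mem_o hz)).1]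
  · intro z hz
    change α' z ≠ z at hz
    have c1 : z ≠ x := by rintro rfl; exact hz a1
    have c2 : z ≠ D.φ x := by rintro rfl; exact hz a2
    exact fun e => hz ((alive z c1 c2).2 e)

theorem delete (hm : MoveStmt) {x : X} (h1 : x ∉ D.o) (lx : D.α x ≠ x) (h3 : D.α x ∉ D.o)
    (hl : D.lift (D.α x) = L.cone.rev (D.lift x)) : ∃ D' : PD L g w c X, D'.nl < D.nl := by
  have lx' := D.live_α lx
  obtain ⟨φ', α', hp, f1, f2, f3, f4, a1, a2, a3⟩ := delete_perm hm D.planar D.inv rfl lx.symm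
  have hox : ∀ z ∈ D.o, z ≠ x ∧ z ≠ D.α x := fun z hz =>
    ⟨by rintro rfl; exact h1 hz, by rintro rfl; exact h3 hz⟩
  refine ⟨D.kill x (D.α x) φ' α' D.o w hp f1 f2 a1 a2 ?_ (fun z c1 c2 => by rw [a3 z c1 c2]) ?_
    (fun z c1 c2 _ => by rw [a3 z c1 c2]; exact ⟨rfl, rfl⟩) ?_ ?_
    (fun z => ⟨fun h => ⟨h, hox z h⟩, fun h => h.1⟩) D.o_nodup D.o_lab ?_ D.pos_o
    (D.chain_erase lx.symm h1 lx h3 lx' hl (D.pos_α x lx)), D.nl_lt _ x lx a1 ?_⟩
  · intro z
    by_cases c1 : z = x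
    · rw [c1, a1, a1]
    by_cases c2 : z = D.α x
    · rw [c2, a2, a2]
    rw [a3 z c1 c2, a3, D.inv]
    · intro e; exact c2 (by rw [← e, D.inv])
    · intro e; exact c1 (D.α.injective e)
  · intro z c1 c2 c3
    have := D.dead z c3
    rw [f3 z c1 c2 (by rwa [this]) (by rwa [this]), this]
  · intro z c1 c2 c3
    refine f4 _ D.pos (fun z => D.pos z * val L (D.lab z)) (fun z => D.α z ≠ z) D.pos_φ lx lx' ?_
      (D.pos_α x lx).symm z c3 c1 c2
    rw [D.pos_α _ lx', D.inv]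
  · intro z c1 c2 c3 c4
    exact f4 _ (fun z => L.cone.tail (D.lift z)) (fun z => L.cone.head (D.lift z))
      (fun z => z ∉ D.o ∧ D.α z ≠ z) (fun z hz => D.walk z hz.1 hz.2) ⟨h1, lx⟩ ⟨h3, lx'⟩
      (by rw [hl, head_rev]) (by rw [hl, tail_rev]) z ⟨c3, c4⟩ c1 c2
  · rw [← D.o_cyc]
    refine List.map_congr_left fun z hz => ?_
    exact f3 z (hox z hz).1 (hox z hz).2 (hox _ (D.mem_o hz)).1 (hox _ (D.mem_o hz)).2
  · intro z hz
    change α' z ≠ z at hz
    have c1 : z ≠ x := by rintro rfl; exact hz a1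
    have c2 : z ≠ D.α x := by rintro rfl; exact hz a2
    rwa [a3 z c1 c2] at hz

end PD

theorem PD.fold_outer (hm : MoveStmt) {g : L.tri.G} {s : Lt L} {w : List (Lt L)} {c : Ch L}
    {X : Type} [Fintype X] (D : PD L g (s :: fl s :: w) c X) : Nonempty (PD L g w c X) := by
  obtain ⟨x, x', l, ho⟩ : ∃ x x' l, D.o = x :: x' :: l := by
    have := D.o_lab
    rcases h : D.o with _ | ⟨x, _ | ⟨x', l⟩⟩
    · simp [h] at this
    · simp [h] at this
    · exact ⟨x, x', l, rfl⟩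
  have hlab := D.o_lab
  have hcyc := D.o_cyc
  have hnd := D.o_nodup
  rw [ho] at hlab hcyc hnd
  simp only [List.map_cons, List.cons.injEq, List.rotate_cons_succ, List.rotate_zero,
    List.cons_append, List.nodup_cons, List.mem_cons, not_or] at hlab hcyc hnd
  have lx : D.α x ≠ x := D.o_live x (by simp [ho])
  have hl : D.lab x' = fl (D.lab x) := by rw [hlab.1, hlab.2.1]
  obtain ⟨hne, φ', α', hp, f1, f2, a1, a2, ainv, alive, adead, alab, fpos, f3⟩ :=
    D.fold_data hm hcyc.1 lx hl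
  have hl' : ∀ z ∈ l, z ≠ x ∧ z ≠ x' := fun z hz =>
    ⟨by rintro rfl; exact hnd.1.2 hz, by rintro rfl; exact hnd.2.1 hz⟩
  refine ⟨D.kill x x' φ' α' l w hp f1 f2 a1 a2 ainv alive adead alab fpos ?_ ?_ hnd.2.2 hlab.2.2 ?_
    ?_ ?_⟩
  · intro z c1 c2 c3 c4
    rw [f3 z c1 c2, if_neg, D.walk z c3 c4]
    intro e
    exact c3 (D.mem_o' (by simp [e, ho]))
  · intro z
    rw [ho]
    constructor
    · intro h; exact ⟨by simp [h], hl' z h⟩
    · rintro ⟨h, c1, c2⟩; simpa [c1, c2] using h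
  · rcases l with _ | ⟨y, l⟩
    · rfl
    · have h2 := hcyc.2
      simp only [List.cons_append, List.cons.injEq] at h2
      have : List.map φ' (y :: l) =
          List.map (fun t => if t = x then y else t) (List.map D.φ (y :: l)) := by
        rw [List.map_map]
        refine List.map_congr_left fun z hz => ?_
        rw [f3 z (hl' z hz).1 (hl' z hz).2, h2.1]; rfl
      rw [this, h2.2, List.map_append, List.rotate_cons_succ, List.rotate_zero]
      congr 1
      · conv_rhs => rw [← List.map_id l]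
        refine List.map_congr_left fun z hz => ?_
        rw [if_neg (hl' z (by simp [hz])).1]; rfl
      · simp
  · intro y hy
    rcases l with _ | ⟨y', l⟩
    · simp at hy
    · have h2 := hcyc.2
      simp only [List.cons_append, List.cons.injEq] at h2
      simp only [List.head?_cons, Option.mem_def, Option.some.injEq] at hy
      rw [← hy, ← h2.1, ← D.pos_φ _ (D.o_live x' (by simp [ho])), ← hcyc.1, ← D.pos_φ _ lx,
        hcyc.1, hl, val_fl, D.pos_o x (by simp [ho])]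
      simp
  · conv_lhs => rw [D.chain]
    refine Finset.sum_congr ?_ fun _ _ => rfl
    ext z
    simp only [mem_filter, mem_univ, true_and]
    refine ⟨fun h => ⟨h.1, h.2, ?_, ?_⟩, fun h => ⟨h.1, h.2.1⟩⟩
    · rintro rfl; exact h.1 (by simp [ho])
    · rintro rfl; exact h.1 (by simp [ho])

end Crest.Agent.R177.Diag
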