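import Crest.Agent.R177.TopDefs

/-! Assembly of the modules. -/

set_option autoImplicit false

namespace Crest.Agent.R177

open Finset
open scoped Classical

/-- the group with all its properties -/
def Core (K : Type) [Field K] : Prop :=
  ∃ (A R : Type) (_ : Fintype A) (_ : Fintype R) (T : Tri A R) (C : ℕ), T.Fill C ∧
    ∃ a b c : MonoidAlgebra K T.G, a * b = 1 ∧ a * c = 0 ∧ c ≠ 0

theorem core_of (K : Type) [Field K] (hD : DesStmt K) (hL : LocalStmt) (hG : GlobalStmt) :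
    Core K := by
  obtain ⟨P, Λ, iP, iΛ, pr, r, c, d, St, h1, h2, h3, hD⟩ := hD
  obtain ⟨C, hC⟩ := hL P Λ pr r c d St h1 h2 h3
  obtain ⟨K', B, M, m, g₀, hG⟩ := hG C
  obtain ⟨g, N, hg, hN, hC⟩ := hC K' B M m g₀
  obtain ⟨D, γ, hgood, halg⟩ := hD N hN
  obtain ⟨β, hgi, hloc⟩ := hC D γ hgood
  obtain ⟨⟨C', hfill⟩, halone⟩ := hG g hg P (D.graph β) (Sum.inl γ) hgi hloc
  have fV : Fintype (D.graph β).V := inferInstanceAs (Fintype (D.U ⊕ D.Y))
  have fE' : Finite D.E := inferInstance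
  have fE : Fintype (D.graph β).E := @Fintype.ofFinite D.E fE'
  refine ⟨P ⊕ (D.graph β).V, (D.graph β).E, inferInstance, fE, (D.graph β).tri, C', hfill, ?_⟩
  refine halg β (D.graph β).tri.G (fun v => (D.graph β).tri.x (Sum.inr v))
    (fun s => (D.graph β).tri.x (Sum.inl s)) ?_ halone
  intro e
  have h : (D.graph β).tri.π ((D.graph β).tri.rel e) = 1 :=
    PresentedGroup.one_of_mem ⟨e, rfl⟩
  simp only [Tri.rel, map_mul, map_inv, mul_inv_eq_one] at h
  exact h

theorem fp_of {A R : Type} [Fintype A] [Fintype R] (T : Tri A R) :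
    Group.IsFinitelyPresented T.G := by
  have : Finite (Set.range T.rel) := (Set.finite_range _).to_subtype
  infer_instance

theorem fg_of {A R : Type} [Fintype A] (T : Tri A R) (C : ℕ) (hA : AlgStmt) (h : T.Fill C) :
    Group.FG T.G :=
  ⟨⟨univ.image T.x, (hA.1 A R T C h).2.2⟩⟩

theorem not_comm {S : Type} [Ring S] {a b c : S} (h1 : a * c = 0) (h2 : c ≠ 0) : b * a ≠ 1 := by
  intro h
  apply h2
  calc c = (b * a) * c := by rw [h, one_mul]
    _ = 0 := by rw [mul_assoc, h1, mul_zero]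

theorem s0274_of (h : Core (ZMod 2)) (hA : AlgStmt) (hT : TopStmt) :
    ∃ (G : Type) (_ : Group G), Group.IsFinitelyPresented G ∧ (∀ g : G, IsOfFinOrder g → g = 1) ∧
      Crest.Topology.HasFiniteClassifyingComplex G 2 ∧
      ∃ a b c : MonoidAlgebra (ZMod 2) G, a * b = 1 ∧ a * c = 0 ∧ c ≠ 0 := by
  obtain ⟨A, R, iA, iR, T, C, hf, habc⟩ := h
  have h2 := hA.2.1 A R T (hA.1 A R T C hf).1
  exact ⟨T.G, inferInstance, fp_of T, h2.2, hT A R T h2.1, habc⟩

theorem s0303_of (h : Core (ZMod 2)) (hA : AlgStmt) (hH : HypStmt) :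
    ∃ (G : Type) (_ : Group G),
      (∀ g : G, IsOfFinOrder g → g = 1) ∧ Crest.GroupTheory.IsHyperbolicGroup G ∧
        ¬ Group.ResiduallyFinite G := by
  obtain ⟨A, R, iA, iR, T, C, hf, a, b, c, h1, h2, h3⟩ := h
  obtain ⟨k1, k2, k3⟩ := hA.1 A R T C hf
  exact ⟨T.G, inferInstance, (hA.2.1 A R T k1).2, hH T.G _ _ k3 k2,
    fun hr => h3 (hA.2.2 T.G (ZMod 2) hr a b c h1 h2)⟩

theorem s0276_of (h : Core (ZMod 2)) (hA : AlgStmt) (hW : WreathStmt) (hF : FKStmt) : DetGoal := by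
  obtain ⟨A, R, iA, iR, T, C, hf, habc⟩ := h
  obtain ⟨G', iG', h1, h2⟩ := hW T.G (fg_of T C hA hf) habc
  exact hF G' h1 h2

theorem s0275_of (K : Type) [Field K] (h : Core K) (hA : AlgStmt) :
    ∃ (G : Type) (_ : Group G), Group.FG G ∧ (∃ g : G, g ≠ 1 ∧ IsOfFinOrder g) ∧
      ∃ a b : MonoidAlgebra K G, a * b = 1 ∧ b * a ≠ 1 := by
  obtain ⟨A, R, iA, iR, T, C, hf, a, b, c, h1, h2, h3⟩ := h
  have := fg_of T C hA hf
  let Z := Multiplicative (ZMod 2)
  let f : MonoidAlgebra K T.G →+* MonoidAlgebra K (T.G × Z) :=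
    MonoidAlgebra.mapDomainRingHom K (MonoidHom.inl T.G Z)
  have hf' : Function.Injective f :=
    MonoidAlgebra.mapDomain_injective (f := MonoidHom.inl T.G Z)
      (fun x y h => congrArg Prod.fst h)
  refine ⟨T.G × Z, inferInstance, inferInstance, ⟨(1, Multiplicative.ofAdd 1), ?_, ?_⟩,
    f a, f b, by rw [← map_mul, h1, map_one], ?_⟩
  · intro h
    have h' : (Multiplicative.ofAdd 1 : Multiplicative (ZMod 2)) = 1 := congrArg Prod.snd h
    exact absurd h' (by decide)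
  · refine isOfFinOrder_iff_pow_eq_one.2 ⟨2, by norm_num, Prod.ext (by simp) ?_⟩
    have h' : (Multiplicative.ofAdd 1 : Multiplicative (ZMod 2)) ^ 2 = 1 := by decide
    exact h'
  · intro h
    apply not_comm (b := b) h2 h3
    apply hf'
    rw [map_mul, h, map_one]

end Crest.Agent.R177
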