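import Crest.Agent.R177.Defs

/-! Local to global, part 1: generalities on permutations and on reduced diagrams. -/

set_option autoImplicit false

namespace Crest.Agent.R177

open Equiv Finset
open scoped Classical

namespace Glob

/-! ### cells -/

/-- the cycle of `x` -/
def cell {X : Type} (ψ : Perm X) (x : X) : Quot (fun x y => ψ x = y) := Quot.mk _ x

theorem cell_apply {X : Type} (ψ : Perm X) (x : X) : cell ψ (ψ x) = cell ψ x :=
  (Quot.sound (r := fun x y => ψ x = y) (a := x) (b := ψ x) rfl).symm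

theorem cell_pow {X : Type} (ψ : Perm X) (n : ℕ) (x : X) : cell ψ ((ψ ^ n) x) = cell ψ x := by
  induction n with
  | zero => rfl
  | succ n ih => rw [pow_succ', Perm.mul_apply, cell_apply, ih]

theorem cell_eq_iff {X : Type} [Finite X] (ψ : Perm X) (x y : X) :
    cell ψ x = cell ψ y ↔ ψ.SameCycle x y := by
  constructor
  · intro h
    have h1 := Quot.eqvGen_exact h
    clear h
    induction h1 with
    | rel a b h => rw [← h]; exact Perm.sameCycle_apply_right.2 (Perm.SameCycle.refl _ _)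
    | refl a => exact Perm.SameCycle.refl _ _
    | symm a b _ ih => exact ih.symm
    | trans a b c _ _ ih1 ih2 => exact ih1.trans ih2
  · intro h
    obtain ⟨n, -, rfl⟩ := h.exists_pow_eq'
    exact (cell_pow ψ n x).symm

theorem mem_of_sameCycle {X : Type} [Finite X] {ψ : Perm X} {S : Finset X}
    (h : ∀ x ∈ S, ψ x ∈ S) {x y : X} (hx : x ∈ S) (hxy : ψ.SameCycle x y) : y ∈ S := by
  obtain ⟨n, -, rfl⟩ := hxy.exists_pow_eq'
  clear hxy
  induction n with
  | zero => exact hx
  | succ n ih => rw [pow_succ', Perm.mul_apply]; exact h _ ih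

theorem mul_card_image_le {X Q : Type} (f : X → Q) (S Z : Finset X) (g : ℕ)
    (h : ∀ x ∈ S, (∃ z ∈ Z, f z = f x) ∨ g ≤ #{y ∈ S | f y = f x}) :
    g * #(S.image f) ≤ g * #Z + #S := by
  have h1 : S.image f ⊆ Z.image f ∪ (S.image f).filter fun q => g ≤ #{y ∈ S | f y = q} := by
    intro q hq
    obtain ⟨x, hx, rfl⟩ := mem_image.1 hq
    rcases h x hx with ⟨z, hz, e⟩ | h2
    · exact mem_union_left _ (mem_image.2 ⟨z, hz, e⟩)
    · exact mem_union_right _ (mem_filter.2 ⟨hq, h2⟩)
  have h2 := (card_le_card h1).trans (card_union_le _ _)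
  have h3 : #(Z.image f) ≤ #Z := Finset.card_image_le
  have h4 : g * #((S.image f).filter fun q => g ≤ #{y ∈ S | f y = q}) ≤ #S := by
    rw [card_eq_sum_card_image f S, mul_comm, ← smul_eq_mul, ← sum_const]
    exact (sum_le_sum fun q hq => (mem_filter.1 hq).2).trans
      (sum_le_sum_of_subset (filter_subset _ _))
  calc g * #(S.image f) ≤ g * (#Z + #((S.image f).filter fun q => g ≤ #{y ∈ S | f y = q})) :=
        Nat.mul_le_mul_left _ (by omega)
    _ ≤ _ := by rw [mul_add]; omega

theorem card_le_mul_image {X Q : Type} (f : X → Q) (S : Finset X) (R : Finset Q) (n : ℕ)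
    (hR : ∀ x ∈ S, f x ∈ R) (h : ∀ q ∈ R, #{y ∈ S | f y = q} ≤ n) : #S ≤ n * #R :=
  card_le_mul_card_image_of_maps_to hR n h

/-- deleting bands keeps planarity -/
theorem delete_bands (hM : MoveStmt) {X : Type} [Finite X] (φ α : Perm X) (hα : ∀ x, α (α x) = x)
    (hP : Planar φ α) (Z : Finset X) :
    ∃ β : Perm X, Planar φ β ∧ ∀ x, β x = if x ∈ Z ∨ α x ∈ Z then x else α x := by
  induction Z using Finset.induction_on with
  | empty => exact ⟨α, hP, by simp⟩
  | insert a Z _ ih =>
    obtain ⟨β, h1, h2⟩ := ih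
    by_cases h : a ∈ Z ∨ α a ∈ Z
    · refine ⟨β, h1, fun x => ?_⟩
      rw [h2]
      refine if_congr ?_ rfl rfl
      simp only [mem_insert]
      constructor
      · tauto
      · rintro ((rfl | h3) | (h3 | h3))
        · exact h
        · exact Or.inl h3
        · subst h3; rw [hα] at h; exact h.symm
        · exact Or.inr h3
    · have ha : β a = α a := by rw [h2, if_neg h]
      refine ⟨swap a (α a) * β, hM.2.2.1 X φ β a (α a) h1 ?_, fun x => ?_⟩
      · rw [← ha]; exact Perm.sameCycle_apply_right.2 (Perm.SameCycle.refl _ _)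
      · rw [Perm.mul_apply, h2]
        simp only [mem_insert]
        by_cases hx : x = a
        · subst hx; simp [h]
        by_cases hx' : α x = a
        · subst hx'
          rw [hα] at h
          rw [if_neg (by tauto), if_pos (by tauto), hα, swap_apply_left]
        have hx'' : x ≠ α a := fun e => hx' (by rw [e, hα])
        by_cases h3 : x ∈ Z ∨ α x ∈ Z
        · rw [if_pos h3, if_pos (by tauto), swap_apply_of_ne_of_ne hx hx'']
        · rw [if_neg h3, if_neg (by tauto), swap_apply_of_ne_of_ne hx' (α.injective.ne hx)]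

/-- separators for the cells of a planar pair -/
theorem sep_cells (hMin : MinorStmt) {μ K : ℕ}
    (hK : ∀ (V : Type) [Fintype V] (G : SimpleGraph V), ¬ HasKMinor G 8 →
      ∃ (S : Finset V) (part : V → ℕ), μ * #S ≤ Fintype.card V ∧
        (∀ a b, a ∉ S → b ∉ S → G.Adj a b → part a = part b) ∧
        ∀ k, #{a | a ∉ S ∧ part a = k} ≤ K)
    {X : Type} [Finite X] (ψ β : Perm X) (hP : Planar ψ β) (hβ : ∀ x, β (β x) = x)
    (S : Finset X) (hS : ∀ x ∈ S, β x ∈ S) :
    ∃ (Sep : Finset (Quot fun x y => ψ x = y)) (part : (Quot fun x y => ψ x = y) → ℕ),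
      μ * #Sep ≤ #(S.image (cell ψ)) ∧
      (∀ x ∈ S, cell ψ x ∉ Sep → cell ψ (β x) ∉ Sep → part (cell ψ x) = part (cell ψ (β x))) ∧
      ∀ k, #{q ∈ S.image (cell ψ) | q ∉ Sep ∧ part q = k} ≤ K := by
  let V : Type := {q // q ∈ S.image (cell ψ)}
  let G : SimpleGraph V :=
    { Adj := fun q q' => q ≠ q' ∧ ∃ x, cell ψ x = q.1 ∧ cell ψ (β x) = q'.1
      symm := ⟨fun q q' h => ⟨h.1.symm, by
        obtain ⟨x, h1, h2⟩ := h.2
        exact ⟨β x, h2, by rw [hβ]; exact h1⟩⟩⟩
      loopless := ⟨fun q h => h.1 rfl⟩ }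
  have hG : ¬ HasKMinor G 8 := by
    rintro ⟨B, -, hc, hd, ha⟩
    let col : X → Option (Fin 8) := fun x =>
      if h : ∃ i, ∃ q ∈ B i, q.1 = cell ψ x then some h.choose else none
    have hcol : ∀ x i, col x = some i ↔ ∃ q ∈ B i, q.1 = cell ψ x := by
      intro x i
      constructor
      · intro h
        simp only [col] at h
        split_ifs at h with h1
        have := h1.choose_spec
        rwa [Option.some.inj h] at this
      · intro h
        have h1 : ∃ i, ∃ q ∈ B i, q.1 = cell ψ x := ⟨i, h⟩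
        simp only [col, dif_pos h1]
        obtain ⟨q, hq, e⟩ := h
        obtain ⟨q', hq', e'⟩ := h1.choose_spec
        have : q = q' := Subtype.ext (e.trans e'.symm)
        subst this
        by_contra hne
        exact Set.disjoint_left.1 (hd _ _ fun e => hne (congrArg some e)) hq' hq
    have hin : ∀ x y, cell ψ x = cell ψ y → Relation.ReflTransGen
        (fun a b => ψ a = b ∨ (β a = b ∧ col a = col b)) x y := by
      intro x y h
      obtain ⟨n, -, rfl⟩ := ((cell_eq_iff ψ x y).1 h).exists_pow_eq'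
      clear h
      induction n with
      | zero => exact Relation.ReflTransGen.refl
      | succ n ih => exact ih.tail (Or.inl (by rw [pow_succ', Perm.mul_apply]))
    refine hMin X ψ β col hP hβ (fun x => by simp only [col, cell_apply]) ?_ ?_
    · intro x y i hx hy
      obtain ⟨q, hq, e⟩ := (hcol x i).1 hx
      obtain ⟨q', hq', e'⟩ := (hcol y i).1 hy
      have h1 := hc i q hq q' hq'
      clear hq' hy
      induction h1 generalizing y with
      | refl => exact hin _ _ (e.symm.trans e')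
      | tail _ h2 ih =>
        obtain ⟨hb, hc', -, z, z1, z2⟩ := h2
        refine ((ih z z1.symm).tail (Or.inr ⟨rfl, ?_⟩)).trans (hin _ _ (z2.trans e'))
        rw [(hcol z i).2 ⟨_, hb, z1.symm⟩, (hcol (β z) i).2 ⟨_, hc', z2.symm⟩]
    · intro i j hij
      obtain ⟨a, ha, b, hb, -, x, x1, x2⟩ := ha i j hij
      exact ⟨x, (hcol x i).2 ⟨a, ha, x1.symm⟩, (hcol _ j).2 ⟨b, hb, x2.symm⟩⟩
  obtain ⟨Sep, part, h1, h2, h3⟩ := hK V G hG
  refine ⟨Sep.map (Function.Embedding.subtype _),
    fun q => if h : q ∈ S.image (cell ψ) then part ⟨q, h⟩ else 0, ?_, ?_, ?_⟩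
  · rw [card_map]
    simpa [V] using h1
  · intro x hx a1 a2
    have m1 : cell ψ x ∈ S.image (cell ψ) := mem_image_of_mem _ hx
    have m2 : cell ψ (β x) ∈ S.image (cell ψ) := mem_image_of_mem _ (hS x hx)
    simp only [dif_pos m1, dif_pos m2]
    by_cases e : (⟨_, m1⟩ : V) = ⟨_, m2⟩
    · rw [e]
    · exact h2 _ _ (fun h => a1 (mem_map.2 ⟨_, h, rfl⟩)) (fun h => a2 (mem_map.2 ⟨_, h, rfl⟩))
        ⟨e, x, rfl, rfl⟩
  · intro k
    refine le_trans (card_le_card_of_surjOn (fun q : V => q.1) fun q hq => ?_) (h3 k)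
    simp only [coe_filter, Set.mem_ofPred_eq] at hq
    obtain ⟨m1, a1, a2⟩ := hq
    refine ⟨⟨q, m1⟩, ?_, rfl⟩
    simp only [coe_filter, mem_univ, true_and, Set.mem_ofPred_eq]
    refine ⟨fun h => a1 (mem_map.2 ⟨_, h, rfl⟩), ?_⟩
    rwa [dif_pos m1] at a2

theorem mem_D_of_π {A R : Type} (T : Tri A R) (n : FreeGroup A) (h : T.π n = 1) :
    ∃ c, (n, Multiplicative.ofAdd c) ∈ T.D := by
  have h1 : n ∈ Subgroup.normalClosure (Set.range T.rel) :=
    (PresentedGroup.mk_eq_one_iff).1 h
  clear h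
  induction h1 using Subgroup.closure_induction with
  | mem x hx =>
    obtain ⟨a, ⟨ρ, rfl⟩, hx⟩ := Group.mem_conjugatesOfSet_iff.1 hx
    obtain ⟨u, rfl⟩ := isConj_iff.1 hx
    exact ⟨_, Subgroup.subset_closure ⟨u, ρ, rfl⟩⟩
  | one => exact ⟨0, T.D.one_mem⟩
  | mul x y _ _ hx hy =>
    obtain ⟨c, hc⟩ := hx
    obtain ⟨c', hc'⟩ := hy
    exact ⟨c + c', T.D.mul_mem hc hc'⟩
  | inv x _ hx =>
    obtain ⟨c, hc⟩ := hx
    exact ⟨-c, T.D.inv_mem hc⟩

/-! ### folded graphs -/

section graph
variable {P : Type} (L : FGraph P)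

theorem folded {d d' : L.Dart} (h1 : L.tail d = L.tail d') (h2 : L.label d = L.label d') :
    d = d' := by
  obtain ⟨e, b⟩ := d
  obtain ⟨e', b'⟩ := d'
  simp only [FGraph.label, Prod.mk.injEq] at h2
  obtain ⟨h2, rfl⟩ := h2
  cases b
  · rw [L.inj_tgt e e' (by simpa [FGraph.tail] using h1) h2]
  · rw [L.inj_src e e' (by simpa [FGraph.tail] using h1) h2]

theorem tail_rev (d : L.Dart) : L.tail (L.rev d) = L.head d := by
  obtain ⟨e, b⟩ := d
  cases b <;> rfl

/-- a dart of `L` as a dart of the cone -/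
def up (d : L.Dart) : L.cone.Dart := (Sum.inl d.1, d.2)

theorem tail_up (d : L.Dart) : L.cone.tail (up L d) = some (L.tail d) := by
  obtain ⟨e, b⟩ := d
  cases b <;> rfl

theorem head_up (d : L.Dart) : L.cone.head (up L d) = some (L.head d) := by
  obtain ⟨e, b⟩ := d
  cases b <;> rfl

theorem nx_up {d d' : L.Dart} (h : L.cone.Nx (up L d) (up L d')) : L.Nx d d' := by
  refine ⟨?_, fun e => h.2 (by rw [e]; rfl)⟩
  have := h.1
  rw [tail_up, head_up] at this
  exact Option.some.inj this

theorem label_inr {d : L.cone.Dart} {v : L.V} {b : Bool} (h : L.cone.label d = (Sum.inr v, b)) :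
    d = (Sum.inr v, b) := by
  obtain ⟨e | u, c⟩ := d
  · simp [FGraph.label, FGraph.cone] at h
  · simpa [FGraph.label, FGraph.cone] using h

theorem label_left {d : L.cone.Dart} (h : (L.cone.label d).1.isLeft) : ∃ d', d = up L d' := by
  obtain ⟨e | u, c⟩ := d
  · exact ⟨(e, c), rfl⟩
  · simp [FGraph.label, FGraph.cone] at h

theorem head_none {d : L.cone.Dart} (h : L.cone.head d = none) :
    ∃ v, L.cone.label d = (Sum.inr v, false) := by
  obtain ⟨e | u, c⟩ := d <;> cases c <;> simp [FGraph.head, FGraph.cone] at h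
  exact ⟨u, rfl⟩

theorem tail_none {d : L.cone.Dart} (h : L.cone.tail d = none) :
    ∃ v, L.cone.label d = (Sum.inr v, true) := by
  obtain ⟨e | u, c⟩ := d <;> cases c <;> simp [FGraph.tail, FGraph.cone] at h
  exact ⟨u, rfl⟩

end graph

end Glob

end Crest.Agent.R177
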