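import Crest.Agent.R177.Global1

/-! Local to global, part 2: reduced diagrams, Euler bound, the local inequality on a group. -/

set_option autoImplicit false

namespace Crest.Agent.R177

open Equiv Finset
open scoped Classical

namespace Glob

variable {P : Type} {L : FGraph P} {w : List ((P ⊕ L.V) × Bool)} {X : Type} [Fintype X]
  (D : L.RDiag w X)

/-- inner live darts with a label in `P` -/
noncomputable def SS : Finset X := {x | x ∉ D.o ∧ D.α x ≠ x ∧ (D.lab x).1.isLeft}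

/-- inner live cone darts pointing to the apex -/
noncomputable def FF : Finset X := {x | x ∉ D.o ∧ D.α x ≠ x ∧ ∃ v, D.lab x = (Sum.inr v, false)}

/-- forced cuts -/
noncomputable def C0 : Finset X := {x ∈ SS D | D.φ x ∉ SS D}

/-- darts at vertices of degree one -/
noncomputable def Fix : Finset X := {x | D.α x ≠ x ∧ D.φ (D.α x) = x}

/-- darts at vertices of degree at least three -/
noncomputable def B3 : Finset X :=
  {x | D.α x ≠ x ∧ D.φ (D.α x) ≠ x ∧ D.φ (D.α (D.φ (D.α x))) ≠ x}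

theorem mem_SS {x : X} : x ∈ SS D ↔ x ∉ D.o ∧ D.α x ≠ x ∧ (D.lab x).1.isLeft := by simp [SS]

theorem mem_FF {x : X} :
    x ∈ FF D ↔ x ∉ D.o ∧ D.α x ≠ x ∧ ∃ v, D.lab x = (Sum.inr v, false) := by simp [FF]

theorem mem_C0 {x : X} : x ∈ C0 D ↔ x ∈ SS D ∧ D.φ x ∉ SS D := by simp [C0]

omit [Fintype X] in
theorem φ_mem_o {x : X} (h : x ∈ D.o) : D.φ x ∈ D.o := by
  obtain ⟨i, hi, rfl⟩ := List.getElem_of_mem h
  rw [D.o_cyc i hi]
  exact List.getElem_mem _

theorem φ_notMem_o {x : X} (h : x ∉ D.o) : D.φ x ∉ D.o := by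
  intro h1
  have := mem_of_sameCycle (ψ := D.φ) (S := D.o.toFinset)
    (fun x hx => List.mem_toFinset.2 (φ_mem_o D (List.mem_toFinset.1 hx))) (List.mem_toFinset.2 h1)
    (Perm.sameCycle_apply_left.2 (Perm.SameCycle.refl _ x))
  exact h (List.mem_toFinset.1 this)

omit [Fintype X] in
theorem length_o : D.o.length = w.length := by
  have := congrArg List.length D.o_lab
  rwa [List.length_map] at this

omit [Fintype X] in
theorem φ_live {x : X} (h : D.α x ≠ x) : D.α (D.φ x) ≠ D.φ x := by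
  intro h1
  have h2 : D.φ x = x := D.φ.injective (D.dead _ h1)
  rw [h2] at h1
  exact h h1

omit [Fintype X] in
theorem live_of_φ {x : X} (h : D.α (D.φ x) ≠ D.φ x) : D.α x ≠ x := by
  intro h1
  rw [D.dead x h1] at h
  exact h h1

omit [Fintype X] in
theorem α_live {x : X} (h : D.α x ≠ x) : D.α (D.α x) ≠ D.α x := by
  rw [D.inv]; exact h.symm

omit [Fintype X] in
theorem label_α {x : X} (h0 : x ∉ D.o) (h : D.α x ≠ x) (h1 : D.α x ∉ D.o) :
    L.cone.label (D.lift (D.α x)) = L.cone.label (L.cone.rev (D.lift x)) := by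
  rw [D.lift_lab _ h1 (α_live D h), D.lab_α x h, ← D.lift_lab x h0 h]
  rfl

omit [Fintype X] in
theorem α_mem_o_of_cone {x : X} (h0 : x ∉ D.o) (h : D.α x ≠ x) {v : L.V} {b : Bool}
    (hl : D.lab x = (Sum.inr v, b)) : D.α x ∈ D.o := by
  by_contra h1
  refine D.red x h0 h h1 ?_
  have h2 := label_α D h0 h h1
  have h3 : D.lift x = (Sum.inr v, b) := label_inr L (by rw [D.lift_lab x h0 h, hl])
  rw [h3] at h2 ⊢
  exact label_inr L h2

theorem α_mem_o_of_fix {x : X} (h : D.α x ≠ x) (hf : D.φ (D.α x) = x) : D.α x ∈ D.o := by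
  by_contra h1
  have h2 := D.walk _ h1 (α_live D h)
  have h0 : x ∉ D.o := hf ▸ φ_notMem_o D h1
  rw [hf] at h2
  refine h2.2 (folded _ ?_ ?_)
  · rw [tail_rev, h2.1]
  · have := label_α D h1 (α_live D h) (by rw [D.inv]; exact h0)
    rwa [D.inv] at this

omit [Fintype X] in
theorem card_le_of_α (Z : Finset X) (h : ∀ x ∈ Z, D.α x ∈ D.o) : #Z ≤ w.length := by
  have h1 : #Z ≤ #D.o.toFinset :=
    card_le_card_of_injOn D.α (fun x hx => List.mem_toFinset.2 (h x hx)) D.α.injective.injOn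
  rw [← length_o D]
  exact h1.trans (List.toFinset_card_le _)

theorem card_FF_le : #(FF D) ≤ w.length :=
  card_le_of_α D _ fun x hx => by
    obtain ⟨h0, h, v, hv⟩ := (mem_FF D).1 hx
    exact α_mem_o_of_cone D h0 h hv

theorem card_Fix_le : #(Fix D) ≤ w.length :=
  card_le_of_α D _ fun x hx => by
    simp only [Fix, mem_filter, mem_univ, true_and] at hx
    exact α_mem_o_of_fix D hx.1 hx.2

theorem α_mem_SS {x : X} (h : x ∈ SS D) (h1 : D.α x ∉ D.o) : D.α x ∈ SS D := by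
  obtain ⟨-, h2, h3⟩ := (mem_SS D).1 h
  refine (mem_SS D).2 ⟨h1, α_live D h2, ?_⟩
  rw [D.lab_α x h2]
  exact h3

theorem exists_up {x : X} (h : x ∈ SS D) : ∃ d, D.lift x = up L d := by
  obtain ⟨h1, h2, h3⟩ := (mem_SS D).1 h
  exact label_left L (by rw [D.lift_lab x h1 h2]; exact h3)

/-- the dart of `L` under a dart of `SS` -/
noncomputable def dn (x : X) (h : x ∈ SS D) : L.Dart := (exists_up D h).choose

theorem up_dn (x : X) (h : x ∈ SS D) : D.lift x = up L (dn D x h) := (exists_up D h).choose_spec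

theorem nx_dn {x y : X} (h : x ∈ SS D) (h' : y ∈ SS D) (e : y = D.φ x) :
    L.Nx (dn D x h) (dn D y h') := by
  obtain ⟨h1, h2, -⟩ := (mem_SS D).1 h
  refine nx_up L ?_
  rw [← up_dn, ← up_dn, e]
  exact D.walk x h1 h2

theorem φ_mem_FF {x : X} (h : x ∈ C0 D) : D.φ x ∈ FF D := by
  obtain ⟨h, h'⟩ := (mem_C0 D).1 h
  obtain ⟨h1, h2, -⟩ := (mem_SS D).1 h
  have a1 := φ_notMem_o D h1
  have a2 := φ_live D h2
  refine (mem_FF D).2 ⟨a1, a2, ?_⟩
  have h3 := (D.walk x h1 h2).1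
  rw [up_dn D x h, head_up] at h3
  rcases hl : D.lab (D.φ x) with ⟨p | v, b⟩
  · exact absurd ((mem_SS D).2 ⟨a1, a2, by rw [hl]; rfl⟩) h'
  · cases b
    · exact ⟨v, rfl⟩
    · rw [label_inr L ((D.lift_lab _ a1 a2).trans hl)] at h3
      simp [FGraph.tail, FGraph.cone] at h3

theorem card_C0_le : #(C0 D) ≤ #(FF D) :=
  card_le_card_of_injOn D.φ (fun _ hx => φ_mem_FF D hx) D.φ.injective.injOn

/-- a cycle without cuts is long -/
theorem girth_le {g : ℕ} (hg : L.Girth g) (ψ : Perm X) (x : X)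
    (h : ∀ y, ψ.SameCycle x y → y ∈ SS D ∧ ψ y = D.φ y) :
    g ≤ #{y ∈ SS D | ψ.SameCycle x y} := by
  have hs : ∀ i : ℕ, ψ.SameCycle x (ψ^[i] x) := fun i => ⟨i, by simp [Perm.iterate_eq_pow]⟩
  have hp : 0 < Function.minimalPeriod ψ x :=
    Function.minimalPeriod_pos_of_mem_periodicPts (ψ.injective.mem_periodicPts x)
  obtain ⟨n, hn⟩ : ∃ n, Function.minimalPeriod ψ x = n + 1 := ⟨_, (Nat.succ_pred_eq_of_pos hp).symm⟩
  have hnx : ∀ i, L.Nx (dn D _ (h _ (hs i)).1) (dn D _ (h _ (hs (i + 1))).1) := fun i =>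
    nx_dn D _ _ (by rw [Function.iterate_succ_apply', (h _ (hs i)).2])
  have h1 : g ≤ n + 1 := by
    refine hg n (fun i => dn D _ (h _ (hs i)).1) (fun i _ => hnx i) ?_
    rw [(hnx n).1]
    have : ψ^[n + 1] x = ψ^[0] x := by
      rw [← hn]; exact Function.iterate_minimalPeriod
    simp only [this]
  refine h1.trans ?_
  rw [← hn, ← card_range (Function.minimalPeriod ψ x)]
  refine card_le_card_of_injOn (fun i => ψ^[i] x) (fun i _ => ?_) ?_
  · simp only [coe_filter, Set.mem_ofPred_eq]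
    exact ⟨(h _ (hs i)).1, hs i⟩
  · rw [coe_range]
    exact Function.iterate_injOn_Iio_minimalPeriod

theorem inner_of_sameCycle {x y : X} (h0 : x ∉ D.o) (h : D.α x ≠ x)
    (hxy : D.φ.SameCycle x y) : y ∉ D.o ∧ D.α y ≠ y := by
  obtain ⟨n, -, rfl⟩ := hxy.exists_pow_eq'
  clear hxy
  induction n with
  | zero => exact ⟨h0, h⟩
  | succ n ih =>
    rw [pow_succ', Perm.mul_apply]
    exact ⟨φ_notMem_o D ih.1, φ_live D ih.2⟩

omit [Fintype X] in
theorem sameCycle_o (h : 0 < D.o.length) (i : ℕ) (hi : i < D.o.length) :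
    D.φ.SameCycle D.o[0] D.o[i] := by
  induction i with
  | zero => exact Perm.SameCycle.refl _ _
  | succ i ih =>
    have h1 := D.o_cyc i (by omega)
    simp only [Nat.mod_eq_of_lt hi] at h1
    rw [← h1]
    exact Perm.sameCycle_apply_right.2 (ih (by omega))

theorem cyc_le (hC : CycStmt) {g : ℕ} (hg : L.Girth g) :
    g * cyc D.φ ≤ g * (#{x | D.α x = x} + min 1 w.length + #(FF D)) + #(SS D) := by
  have h := hC.2 X D.φ (({x | D.α x = x} : Finset X) ∪ (D.o.take 1).toFinset ∪ FF D) (SS D) g ?_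
  · refine h.trans (Nat.add_le_add_right (Nat.mul_le_mul_left _ ?_) _)
    refine (card_union_le _ _).trans (Nat.add_le_add_right ((card_union_le _ _).trans
      (Nat.add_le_add_left ?_ _)) _)
    refine (List.toFinset_card_le _).trans ?_
    rw [List.length_take, length_o D]
  intro x
  by_cases h1 : D.α x = x
  · exact Or.inl ⟨x, by simp [h1], Perm.SameCycle.refl _ _⟩
  by_cases h0 : x ∈ D.o
  · obtain ⟨i, hi, rfl⟩ := List.getElem_of_mem h0
    refine Or.inl ⟨D.o[0]'(by omega), ?_, (sameCycle_o D (by omega) i hi).symm⟩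
    refine mem_union_left _ (mem_union_right _ (List.mem_toFinset.2 ?_))
    exact List.mem_take_iff_getElem.2 ⟨0, by omega, rfl⟩
  by_cases h2 : ∀ y, D.φ.SameCycle x y → y ∈ SS D
  · exact Or.inr (girth_le D hg D.φ x fun y hy => ⟨h2 y hy, rfl⟩)
  push Not at h2
  obtain ⟨y, hy, hy'⟩ := h2
  obtain ⟨a1, a2⟩ := inner_of_sameCycle D h0 h1 hy
  left
  rcases hl : D.lab y with ⟨p | v, b⟩
  · exact absurd ((mem_SS D).2 ⟨a1, a2, by rw [hl]; rfl⟩) hy'
  cases b
  · exact ⟨y, mem_union_right _ ((mem_FF D).2 ⟨a1, a2, v, hl⟩), hy⟩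
  have hz : D.φ.SameCycle x (D.φ.symm y) := Perm.sameCycle_symm_apply_right.2 hy
  obtain ⟨b1, b2⟩ := inner_of_sameCycle D h0 h1 hz
  refine ⟨_, mem_union_right _ ((mem_FF D).2 ⟨b1, b2, ?_⟩), hz⟩
  have h3 := (D.walk _ b1 b2).1
  simp only [apply_symm_apply] at h3
  rw [label_inr L ((D.lift_lab _ a1 a2).trans hl)] at h3
  rw [← D.lift_lab _ b1 b2]
  exact head_none L h3

theorem euler (hE : EulerStmt) :
    #(B3 D) + 6 * #{x | D.α x = x} + (if ∃ x, D.α x ≠ x then 12 else 0) ≤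
      6 * cyc D.φ + 3 * #(Fix D) :=
  hE X D.φ D.α D.planar D.inv D.dead

theorem B3_le (hE : EulerStmt) (hC : CycStmt) {g : ℕ} (hg : L.Girth g) :
    g * #(B3 D) ≤ 6 * (g * min 1 w.length) + 6 * (g * #(FF D)) + 6 * #(SS D) +
      3 * (g * #(Fix D)) := by
  have h1 := cyc_le D hC hg
  have h2 : #(B3 D) + 6 * #{x | D.α x = x} ≤ 6 * cyc D.φ + 3 * #(Fix D) :=
    (Nat.le_add_right _ _).trans (euler D hE)
  have h3 := Nat.mul_le_mul_left g h2
  nlinarith

/-- breaks of the gluing pattern -/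
noncomputable def Br (C : Finset X) : Finset X :=
  {x ∈ SS D | x ∈ C ∨ D.α (D.φ x) ∈ C ∨ D.φ (D.α (D.φ x)) ≠ D.α x}

theorem card_Br_le (C : Finset X) : #(Br D C) ≤ 2 * #C + #(B3 D) + #(Fix D) := by
  have h1 : Br D C ⊆ C ∪ C.image (fun y => D.φ⁻¹ (D.α y)) ∪ (B3 D ∪ Fix D).image D.α := by
    intro x hx
    simp only [Br, mem_filter] at hx
    obtain ⟨hx, h | h | h⟩ := hx
    · exact mem_union_left _ (mem_union_left _ h)
    · exact mem_union_left _ (mem_union_right _ (mem_image.2 ⟨_, h, by simp [D.inv]⟩))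
    · refine mem_union_right _ (mem_image.2 ⟨D.α x, ?_, D.inv x⟩)
      have h2 := α_live D ((mem_SS D).1 hx).2.1
      simp only [B3, Fix, mem_union, mem_filter, mem_univ, true_and]
      by_cases h3 : D.φ (D.α (D.α x)) = D.α x
      · exact Or.inr ⟨h2, h3⟩
      · exact Or.inl ⟨h2, h3, by rw [D.inv]; exact h⟩
  have h2 := (card_le_card h1).trans (card_union_le _ _)
  have h3 := card_union_le C (C.image fun y => D.φ⁻¹ (D.α y))
  have h4 : #(C.image fun y => D.φ⁻¹ (D.α y)) ≤ #C := Finset.card_image_le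
  have h5 : #((B3 D ∪ Fix D).image D.α) ≤ #(B3 D ∪ Fix D) := Finset.card_image_le
  have h6 := card_union_le (B3 D) (Fix D)
  omega

omit [Fintype X] in
theorem card_filter_subtype (Y : Finset X) (p : Y → Prop) (q : X → Prop) [DecidablePred p]
    [DecidablePred q]
    (h : ∀ x : Y, p x ↔ q x) : #{x | p x} = #{x ∈ Y | q x} := by
  refine card_bij (fun x _ => x.1) (fun x hx => ?_) (fun x _ y _ e => Subtype.ext e) fun y hy => ?_
  · exact mem_filter.2 ⟨x.2, (h x).1 (mem_filter.1 hx).2⟩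
  · obtain ⟨h1, h2⟩ := mem_filter.1 hy
    exact ⟨⟨y, h1⟩, mem_filter.2 ⟨mem_univ _, (h _).2 h2⟩, rfl⟩

/-- the local inequality for a union of cells -/
theorem local_group {γ : L.V} {C K B M m g : ℕ} (hL : L.Local γ C K B M m g) (ψ : Perm X)
    (Cu : Finset X) (hψ : ∀ x ∈ SS D, x ∉ Cu → ψ x = D.φ x) (Y : Finset X) (hY : Y ⊆ SS D)
    (hi : ∀ x, ψ x ∈ Y ↔ x ∈ Y) (hK : #(Y.image (cell ψ)) ≤ K) (hM : #Y ≤ M * g)
    (hB : #{x ∈ Y | x ∈ Br D Cu} ≤ B) :
    m * #Y ≤ m * C * #{x ∈ Y | D.α x ∉ Y} + m * C * g * (#{x ∈ Y | x ∈ Cu} -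
      if ∃ x ∈ Y, L.cone.tail (D.lift x) = some γ then 1 else 0) + g := by
  let a : Y → Y := fun x => if h : D.α x ∈ Y then ⟨D.α x, h⟩ else x
  have ha1 : ∀ x : Y, D.α x ∈ Y → (a x).1 = D.α x := fun x h => by simp [a, h]
  have ha2 : ∀ x : Y, D.α x ∉ Y → a x = x := fun x h => by simp [a, h]
  have ha3 : ∀ x : Y, a x = x ↔ D.α x ∉ Y := by
    intro x
    refine ⟨fun h h' => ((mem_SS D).1 (hY x.2)).2.1 ?_, ha2 x⟩
    rw [← ha1 x h', h]
  have hinv : Function.Involutive a := by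
    intro x
    by_cases h : D.α x ∈ Y
    · apply Subtype.ext
      rw [ha1 _ (by rw [ha1 x h, D.inv]; exact x.2), ha1 x h, D.inv]
    · rw [ha2 x h, ha2 x h]
  let c : L.Cfg Y :=
    { φ := ψ.subtypePerm hi
      α := hinv.toPerm a
      inv := hinv
      cut := {x | x.1 ∈ Cu}
      lift := fun x => dn D x.1 (hY x.2)
      walk := fun x hx => nx_dn D _ _ (hψ _ (hY x.2) (by simpa using hx))
      pair := by
        intro x hx
        have h : D.α x ∈ Y := by
          by_contra h; exact hx (ha2 x h)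
        obtain ⟨h1, h2, -⟩ := (mem_SS D).1 (hY x.2)
        have h3 := ((mem_SS D).1 (hY h)).1
        have h4 := label_α D h1 h2 h3
        have h5 := D.red _ h1 h2 h3
        rw [← ha1 x h, up_dn D _ (hY (a x).2), up_dn D _ (hY x.2)] at h4 h5
        change L.lab (dn D _ (hY (a x).2)).1 = _ ∧ (dn D _ (hY (a x).2)).2 = _ ∧
          (dn D _ (hY (a x).2)).1 ≠ _
        generalize dn D _ (hY (a x).2) = d at h4 h5 ⊢
        generalize dn D _ (hY x.2) = d' at h4 h5 ⊢
        obtain ⟨e, b⟩ := d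
        obtain ⟨e', b'⟩ := d'
        simp only [FGraph.label, up, FGraph.rev, FGraph.cone, Sum.map_inl, Prod.mk.injEq,
          Sum.inl.injEq] at h4
        refine ⟨h4.1, h4.2, fun e1 => h5 ?_⟩
        simp only at e1
        rw [e1, h4.2]; rfl }
  have cα : ∀ x, c.α x = a x := fun _ => rfl
  have cφ : ∀ x, (c.φ x).1 = ψ x := fun _ => rfl
  have e1 : Fintype.card Y = #Y := Fintype.card_coe Y
  have e2 : #c.cut = #{x ∈ Y | x ∈ Cu} := card_filter_subtype Y _ _ fun _ => Iff.rfl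
  have e4 : (∃ x, L.tail (c.lift x) = γ) ↔ ∃ x ∈ Y, L.cone.tail (D.lift x) = some γ := by
    constructor
    · rintro ⟨x, hx⟩
      exact ⟨x.1, x.2, by rw [up_dn D _ (hY x.2), tail_up]; exact congrArg some hx⟩
    · rintro ⟨x, hx, h⟩
      rw [up_dn D _ (hY hx), tail_up] at h
      exact ⟨⟨x, hx⟩, Option.some.inj h⟩
  have h := hL Y c ?_ (by rw [e1]; exact hM) ?_ ?_
  · rw [e1, e2, @card_filter_subtype X Y (fun x => c.α x = x) (fun x => D.α x ∉ Y) (_) _ ha3,
      if_congr e4 rfl rfl] at h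
    exact h
  · refine le_trans ?_ hK
    rw [← Nat.card_eq_finsetCard]
    refine Nat.card_le_card_of_injective (Quot.lift
      (fun x : Y => (⟨cell ψ x.1, mem_image_of_mem _ x.2⟩ : Y.image (cell ψ))) ?_) ?_
    · rintro x y rfl
      exact Subtype.ext (cell_apply ψ x.1).symm
    · rintro ⟨x⟩ ⟨y⟩ h
      have h1 : cell ψ x.1 = cell ψ y.1 := congrArg Subtype.val h
      exact (cell_eq_iff c.φ x y).2 
        ((Perm.sameCycle_subtypePerm (h := hi)).2 ((cell_eq_iff ψ _ _).1 h1))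
  · refine le_trans ?_ hB
    rw [← card_filter_subtype Y (fun x => x.1 ∈ Br D Cu) _ fun _ => Iff.rfl]
    refine card_le_card fun x hx => mem_filter.2 ⟨mem_univ _, ?_⟩
    by_contra hb
    refine (mem_filter.1 hx).2 ?_
    simp only [Br, mem_filter, hY x.2, true_and, not_or, not_not] at hb
    obtain ⟨b1, b2, b3⟩ := hb
    have y1 : (c.φ x).1 = D.φ x := (cφ x).trans (hψ _ (hY x.2) b1)
    have y2 : D.α (c.φ x) ∈ SS D → ψ (D.α (c.φ x)) = D.α x := fun h => by
      rw [hψ _ h (by rw [y1]; exact b2), y1, b3]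
    by_cases h : D.α x ∈ Y
    · have h1 : D.α (c.φ x) ∈ SS D := by
        refine α_mem_SS D (hY (c.φ x).2) fun h2 => ((mem_SS D).1 (hY h)).1 ?_
        rw [← b3, ← y1]
        exact φ_mem_o D h2
      have h2 : D.α (c.φ x) ∈ Y := by rw [← hi, y2 h1]; exact h
      refine Or.inr ⟨fun e => (ha3 _).1 e h, fun e => (ha3 _).1 e h2, Subtype.ext ?_⟩
      rw [cφ, cα, cα, ha1 _ h2, ha1 _ h, y2 h1]
    · refine Or.inl ⟨ha2 _ h, ha2 _ fun h2 => h ?_⟩
      rw [← y2 (hY h2), hi]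
      exact h2
  · rw [e2]
    refine le_trans (card_le_card fun x hx => ?_) hB
    obtain ⟨h1, h2⟩ := mem_filter.1 hx
    exact mem_filter.2 ⟨h1, mem_filter.2 ⟨hY h1, Or.inl h2⟩⟩

end Glob

end Crest.Agent.R177
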