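import Crest.Agent.R177.Defs

/-! Two counting lemmas for the first moment argument. -/

set_option autoImplicit false

namespace Crest.Agent.R177.LL

open Finset
open scoped Classical

/-- subsets of size at most `B` -/
theorem card_small_subsets {X : Type} (s : Finset X) (B : ℕ) (F : Finset (Finset X))
    (hF : ∀ t ∈ F, t ⊆ s ∧ #t ≤ B) : #F ≤ (#s + 1) ^ B := by
  induction B generalizing F with
  | zero =>
    rw [pow_zero]
    refine card_le_one.2 fun a ha b hb => ?_
    rw [card_eq_zero.1 (Nat.le_zero.1 (hF a ha).2), card_eq_zero.1 (Nat.le_zero.1 (hF b hb).2)]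
  | succ B ih =>
    let G : Finset (Finset X) := s.powerset.filter (fun t => #t ≤ B)
    have hG : #G ≤ (#s + 1) ^ B := ih G fun t ht => by
      simp only [G, mem_filter, mem_powerset] at ht; exact ht
    have hsub : F ⊆ G ∪ (s ×ˢ G).image (fun p => insert p.1 p.2) := by
      intro t ht
      obtain ⟨h1, h2⟩ := hF t ht
      rcases t.eq_empty_or_nonempty with rfl | ⟨x, hx⟩
      · simp [G]
      · refine mem_union_right _ (mem_image.2 ⟨(x, t.erase x), ?_, insert_erase hx⟩)
        simp only [G, mem_product, mem_filter, mem_powerset]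
        refine ⟨h1 hx, (erase_subset _ _).trans h1, ?_⟩
        rw [card_erase_of_mem hx]; omega
    calc #F ≤ #G + #s * #G := by
          refine (card_le_card hsub).trans ((card_union_le _ _).trans ?_)
          gcongr
          exact card_image_le.trans (card_product _ _).le
      _ = (#s + 1) * #G := by ring
      _ ≤ (#s + 1) * (#s + 1) ^ B := by gcongr
      _ = _ := by ring

/-- functions that follow a two-step recursion except at `B` places -/
theorem card_tame {β : Type} (box : Finset β) (n B : ℕ) (dflt : β) (step : ℕ → β → β → β)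
    (F : Finset (ℕ → β)) (h1 : ∀ f ∈ F, ∀ i, n ≤ i → f i = dflt)
    (h2 : ∀ f ∈ F, ∀ i, i < n → f i ∈ box)
    (h3 : ∀ f ∈ F, #{i ∈ range n | i < 2 ∨ f i ≠ step i (f (i - 1)) (f (i - 2))} ≤ B) :
    #F ≤ (n * #box + 1) ^ B := by
  let code : (ℕ → β) → Finset (ℕ × β) := fun f =>
    ({i ∈ range n | i < 2 ∨ f i ≠ step i (f (i - 1)) (f (i - 2))} : Finset ℕ).image
      fun i => (i, f i)
  have hinj : Set.InjOn code F := by
    intro f hf f' hf' h
    funext i
    induction i using Nat.strong_induction_on with
    | _ i ih =>
      by_cases hi : n ≤ i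
      · rw [h1 f hf i hi, h1 f' hf' i hi]
      push Not at hi
      by_cases hb : i < 2 ∨ f i ≠ step i (f (i - 1)) (f (i - 2))
      · have : (i, f i) ∈ code f' := by
          rw [← h]; exact mem_image.2 ⟨i, mem_filter.2 ⟨mem_range.2 hi, hb⟩, rfl⟩
        obtain ⟨j, -, hj⟩ := mem_image.1 this
        simp only [Prod.mk.injEq] at hj
        obtain ⟨rfl, hj⟩ := hj
        exact hj.symm
      by_cases hb' : i < 2 ∨ f' i ≠ step i (f' (i - 1)) (f' (i - 2))
      · have : (i, f' i) ∈ code f := by
          rw [h]; exact mem_image.2 ⟨i, mem_filter.2 ⟨mem_range.2 hi, hb'⟩, rfl⟩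
        obtain ⟨j, -, hj⟩ := mem_image.1 this
        simp only [Prod.mk.injEq] at hj
        obtain ⟨rfl, hj⟩ := hj
        exact hj
      push Not at hb hb'
      rw [hb.2, hb'.2, ih (i - 1) (by omega), ih (i - 2) (by omega)]
  rw [← card_image_of_injOn hinj]
  have := card_small_subsets (range n ×ˢ box) B (F.image code) (by
    intro t ht
    obtain ⟨f, hf, rfl⟩ := mem_image.1 ht
    refine ⟨fun p hp => ?_, card_image_le.trans (h3 f hf)⟩
    obtain ⟨i, hi, rfl⟩ := mem_image.1 hp
    have hi' := (mem_filter.1 hi).1
    exact mem_product.2 ⟨hi', h2 f hf i (mem_range.1 hi')⟩)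
  rwa [card_product, card_range] at this

/-- sequential choice -/
theorem card_seq {β : Type} (I : Finset ℕ) (dflt : β) (c : ℕ → ℕ) (F : Finset (ℕ → β))
    (h1 : ∀ f ∈ F, ∀ i, i ∉ I → f i = dflt)
    (h2 : ∀ f ∈ F, ∀ i ∈ I, ∃ s : Finset β, #s ≤ c i ∧
      ∀ f' ∈ F, (∀ k, k < i → f' k = f k) → f' i ∈ s) :
    #F ≤ ∏ i ∈ I, c i := by
  let res : ℕ → (ℕ → β) → (ℕ → β) := fun n f i => if i < n then f i else dflt
  have key : ∀ n, #(F.image (res n)) ≤ ∏ i ∈ I with i < n, c i := by
    intro n
    induction n with
    | zero =>
      simp only [not_lt_zero, filter_false, prod_empty]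
      refine card_le_one.2 fun a ha b hb => ?_
      obtain ⟨f, -, rfl⟩ := mem_image.1 ha
      obtain ⟨f', -, rfl⟩ := mem_image.1 hb
      funext i; simp [res]
    | succ n ih =>
      have hres : ∀ f, res n (res (n + 1) f) = res n f := by
        intro f; funext i
        by_cases h : i < n
        · simp only [res, if_pos h, if_pos (Nat.lt_succ_of_lt h)]
        · simp [res, h]
      by_cases hn : n ∈ I
      · have e1 : ({i ∈ I | i < n + 1} : Finset ℕ) = insert n {i ∈ I | i < n} := by
          ext i; simp only [mem_filter, mem_insert]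
          constructor
          · rintro ⟨h, h'⟩
            rcases Nat.lt_succ_iff_lt_or_eq.1 h' with h' | h'
            · exact Or.inr ⟨h, h'⟩
            · exact Or.inl h'
          · rintro (rfl | ⟨h, h'⟩)
            · exact ⟨hn, by omega⟩
            · exact ⟨h, by omega⟩
        rw [e1, prod_insert (by simp)]
        have h3 := card_le_mul_card_image (f := res n) (F.image (res (n + 1))) (c n) (by
          intro a ha
          obtain ⟨f1, hf1, rfl⟩ := mem_image.1 ha
          obtain ⟨f, hf, rfl⟩ := mem_image.1 hf1
          obtain ⟨s, hs, hs'⟩ := h2 f hf n hn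
          refine le_trans (card_le_card_of_injOn (fun g => g n) ?_ ?_) hs
          · intro g hg
            obtain ⟨hg1, hg2⟩ := mem_filter.1 (mem_coe.1 hg)
            obtain ⟨f', hf', rfl⟩ := mem_image.1 hg1
            rw [hres, hres] at hg2
            have := hs' f' hf' fun k hk => by
              have := congrFun hg2 k
              simpa [res, hk] using this
            simpa [res] using this
          · intro g hg g' hg' hgg
            obtain ⟨hg1, hg2⟩ := mem_filter.1 (mem_coe.1 hg)
            obtain ⟨hg1', hg2'⟩ := mem_filter.1 (mem_coe.1 hg')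
            obtain ⟨f1, -, rfl⟩ := mem_image.1 hg1
            obtain ⟨f2, -, rfl⟩ := mem_image.1 hg1'
            have e := hg2.trans hg2'.symm
            rw [hres, hres] at e
            funext i
            rcases lt_trichotomy i n with h | rfl | h
            · have := congrFun e i
              simpa [res, h, Nat.lt_succ_of_lt h] using this
            · exact hgg
            · simp [res, show ¬ i < n + 1 by omega])
        have e2 : (F.image (res (n + 1))).image (res n) = F.image (res n) := by
          rw [image_image]; congr 1; funext f; exact hres f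
        rw [e2] at h3
        exact h3.trans (Nat.mul_le_mul_left _ ih)
      · have e1 : ({i ∈ I | i < n + 1} : Finset ℕ) = {i ∈ I | i < n} := by
          ext i; simp only [mem_filter]
          constructor
          · rintro ⟨h, h'⟩
            refine ⟨h, ?_⟩
            rcases Nat.lt_succ_iff_lt_or_eq.1 h' with h' | rfl
            · exact h'
            · exact absurd h hn
          · rintro ⟨h, h'⟩; exact ⟨h, by omega⟩
        have e2 : F.image (res (n + 1)) = F.image (res n) := by
          refine image_congr fun f hf => ?_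
          funext i
          rcases lt_trichotomy i n with h | rfl | h
          · simp [res, h, Nat.lt_succ_of_lt h]
          · simp [res, h1 f hf i hn]
          · simp [res, show ¬ i < n + 1 by omega, show ¬ i < n by omega]
        rw [e1, e2]; exact ih
  have h3 := key (I.sup id + 1)
  have e1 : ({i ∈ I | i < I.sup id + 1} : Finset ℕ) = I :=
    filter_true_of_mem fun i hi => Nat.lt_succ_of_le (le_sup (f := id) hi)
  have e2 : F.image (res (I.sup id + 1)) = F := by
    conv_rhs => rw [← image_id (s := F)]
    refine image_congr fun f hf => ?_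
    funext i
    by_cases h : i < I.sup id + 1
    · simp [res, h]
    · have : i ∉ I := fun hi => h (Nat.lt_succ_of_le (le_sup (f := id) hi))
      simp [res, h, h1 f hf i this]
  rwa [e1, e2] at h3

/-- layer cake -/
theorem sum_levels {X : Type} (s : Finset X) (μ : X → ℕ) (J : ℕ) (h : ∀ x ∈ s, μ x ≤ J) :
    ∑ j ∈ Icc 1 J, #{x ∈ s | j ≤ μ x} = ∑ x ∈ s, μ x := by
  simp only [card_filter]
  rw [sum_comm]
  refine sum_congr rfl fun x hx => ?_
  rw [← card_filter]
  have : ({j ∈ Icc 1 J | j ≤ μ x} : Finset ℕ) = Icc 1 (μ x) := by
    ext j; simp only [mem_filter, mem_Icc]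
    have := h x hx
    omega
  rw [this]; simp

end Crest.Agent.R177.LL
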