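import Crest.Agent.R177.LSum

/-! The number of configurations that realise a pattern. -/

set_option autoImplicit false

namespace Crest.Agent.R177.LL

open Finset
open scoped Classical

theorem fib_mul {α β : Type} [DecidableEq β] (s : Finset α) (f : α → β) (X Y : ℕ)
    (h : ∀ a ∈ s, #{x ∈ s | f x = f a} * X ≤ Y) : #s * X ≤ #(s.image f) * Y := by
  rw [card_eq_sum_card_image f s, sum_mul]
  refine (sum_le_card_nsmul _ _ Y fun b hb => ?_).trans (by simp)
  obtain ⟨a, ha, rfl⟩ := mem_image.1 hb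
  exact h a ha

theorem card_image_pair {α β γ : Type} (s : Finset α) (f : α → β) (g : α → γ) :
    #(s.image fun x => (f x, g x)) ≤ #(s.image f) * #(s.image g) := by
  rw [← card_product]
  refine card_le_card fun p hp => ?_
  obtain ⟨a, ha, rfl⟩ := mem_image.1 hp
  exact mem_product.2 ⟨mem_image_of_mem _ ha, mem_image_of_mem _ ha⟩

theorem card_image_eq_of_iff {α β γ : Type} (s : Finset α) (f : α → β) (g : α → γ)
    (h : ∀ x ∈ s, ∀ y ∈ s, f x = f y ↔ g x = g y) : #(s.image f) = #(s.image g) := by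
  have key : ∀ {β γ : Type} (f : α → β) (g : α → γ), (∀ x ∈ s, ∀ y ∈ s, g x = g y → f x = f y) →
      #(s.image f) ≤ #(s.image g) := by
    intro β γ f g h
    have h1 : s.image f = (s.image fun x => (f x, g x)).image Prod.fst := by
      rw [image_image]; rfl
    rw [h1]
    refine card_image_le.trans (card_le_card_of_injOn Prod.snd ?_ ?_)
    · intro p hp
      obtain ⟨a, ha, rfl⟩ := mem_image.1 (mem_coe.1 hp)
      exact mem_coe.2 (mem_image_of_mem _ ha)
    · intro p hp q hq hpq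
      obtain ⟨a, ha, rfl⟩ := mem_image.1 (mem_coe.1 hp)
      obtain ⟨b, hb, rfl⟩ := mem_image.1 (mem_coe.1 hq)
      exact Prod.ext (h a ha b hb hpq) hpq
  exact le_antisymm (key f g fun x hx y hy => (h x hx y hy).2)
    (key g f fun x hx y hy => (h x hx y hy).1)

theorem card_le_natCard {α : Type} [Finite α] (s : Finset α) (p : α → Prop) (h : ∀ x ∈ s, p x) :
    #s ≤ Nat.card {x // p x} := by
  have := Nat.card_le_card_of_injective (fun x : s => (⟨x.1, h x.1 x.2⟩ : {x // p x}))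
    (fun x y hxy => Subtype.ext (Subtype.mk.inj hxy))
  simpa using this

/-- codes supported on `I` with values in `t` -/
theorem card_code {α β : Type} (s : Finset α) (I : Finset ℕ) (t : Finset β) (f : α → ℕ → β)
    (h : ∀ a ∈ s, ∀ i ∈ I, f a i ∈ t) :
    #(s.image fun a i => if i ∈ I then some (f a i) else none) ≤ #t ^ #I := by
  rw [← prod_const]
  refine card_seq I none _ _ ?_ ?_
  · intro g hg i hi
    obtain ⟨a, -, rfl⟩ := mem_image.1 hg
    simp [hi]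
  · intro g hg i hi
    refine ⟨t.image some, card_image_le, fun g' hg' _ => ?_⟩
    obtain ⟨a, ha, rfl⟩ := mem_image.1 hg'
    simp only [hi, if_true]
    exact mem_image_of_mem _ (h a ha i hi)

section Agree
variable {P : Type} {π : Pat} {L L' : FGraph P} {γ : L.V} {γ' : L'.V} {d : ℕ → L.Dart}
  {d' : ℕ → L'.Dart}

def Ag (d : ℕ → L.Dart) (d' : ℕ → L'.Dart) (r : ℕ) : Prop :=
  L.lab (d (r - 1)).1 = L'.lab (d' (r - 1)).1 ∧ L.lab (d r).1 = L'.lab (d' r).1

variable (R : Real π L γ d) (R' : Real π L' γ' d')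
include R R'

theorem lab_key {i k : ℕ} (hi : i ∈ π.occ) (hk : k ∈ π.occ) (h : π.key i = π.key k) :
    L.lab (d i).1 = L'.lab (d' i).1 ↔ L.lab (d k).1 = L'.lab (d' k).1 := by
  rw [(R.key_eq_iff hi hk).1 h, (R'.key_eq_iff hi hk).1 h]

theorem ag_iff {r i : ℕ} (h : π.reg r) (hi : i < π.T) (hr : π.ρ i = r) :
    Ag d d' r ↔ Ag d d' i := by
  obtain ⟨a1, a2⟩ := R.good_occ (h.2.2 i hi hr)
  obtain ⟨b1, b2⟩ := R.good_occ (R.reg_good h)
  unfold Ag
  rcases R.reg_keys h hi hr with ⟨k1, k2⟩ | ⟨k1, k2⟩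
  · rw [lab_key R R' a1 b1 k1, lab_key R R' a2 b2 k2]
  · rw [lab_key R R' a1 b2 k1, lab_key R R' a2 b1 k2, and_comm]

theorem ag_link {i : ℕ} (h : π.link i) : Ag d d' i ↔ Ag d d' (π.α (i - 1)) := by
  obtain ⟨-, a2, a3, -⟩ := R.link_facts h
  have h1 := h.1
  unfold Ag
  rw [← a3, (R.pair i h1 a2).1, (R'.pair i h1 a2).1, (R.pair (i - 1) (by omega) h.2.2.1).1,
    (R'.pair (i - 1) (by omega) h.2.2.1).1, and_comm]

theorem ag_eqv {r r' : ℕ} (h : Relation.EqvGen π.Rel r r') : Ag d d' r ↔ Ag d d' r' := by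
  induction h with
  | rel a b h =>
    obtain ⟨i, hl, rfl, rfl⟩ := h
    rw [ag_iff R R' hl.2.1.1 hl.1 rfl, ag_iff R R' hl.2.2.2.1 (R.link_facts hl).1 rfl,
      ag_link R R' hl]
  | refl => rfl
  | symm a b _ ih => exact ih.symm
  | trans a b c _ _ ih1 ih2 => exact ih1.trans ih2

theorem lab_eq {j : ℕ} (h1 : ∀ r ∈ π.Ld j, Ag d d' r)
    (h2 : ∀ i ∈ π.irrO, L.lab (d i).1 = L'.lab (d' i).1) {i : ℕ} (hi : i ∈ π.occ)
    (hj : π.key i ∈ π.Ej j) : L.lab (d i).1 = L'.lab (d' i).1 := by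
  by_cases hr : π.regV (π.key i).2
  swap
  · exact h2 i (mem_filter.2 ⟨hi, hr⟩)
  obtain ⟨r₀, k1, k2, k3⟩ := π.exists_lead hr
  have k4 : j ≤ π.cls (π.key i).2 := (R.Vj_le (Real.ends_mem_Vj hj).2).2.2
  have k5 := (ag_eqv R R' k2).1 (h1 r₀ (mem_filter.2 ⟨mem_range.2 k1.1.1.1, k1, by omega⟩))
  obtain ⟨b1, b2⟩ := R.good_occ (R.reg_good hr.1)
  rcases R.reg_incident hr.1 hi (Or.inr rfl) with h | h
  · exact (lab_key R R' hi b1 h).2 k5.1
  · exact (lab_key R R' hi b2 h).2 k5.2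

end Agree

namespace Real
variable {P : Type} {π : Pat} {L : FGraph P} {γ : L.V} {d : ℕ → L.Dart} (R : Real π L γ d)
include R

theorem regU_darts {r : ℕ} (h : π.regU r) :
    L.tail (d (r - 1)) = L.tgt (d (r - 1)).1 ∧ L.tail (d r) = L.src (d (r - 1)).1 ∧
      L.tail (d r) = L.src (d r).1 ∧ (d r).1 ≠ (d (r - 1)).1 := by
  have hg := R.reg_good h.1
  obtain ⟨b1, b2⟩ := R.good_occ hg
  obtain ⟨c1, c2⟩ := R.reg_key_ends h.1
  have e1 := R.tgt_key b1
  have e2 := R.src_key b1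
  have e3 := R.src_key b2
  rw [c1, h.2] at e1 e2
  rw [c2, h.2] at e3
  exact ⟨e1, e2, e3, fun he => R.good_key_ne hg ((R.key_eq_iff b2 b1).2 he)⟩

theorem regV_darts {r : ℕ} (h : π.regV r) :
    L.tail (d (r - 1)) = L.src (d (r - 1)).1 ∧ L.tail (d r) = L.tgt (d (r - 1)).1 ∧
      L.tail (d r) = L.tgt (d r).1 ∧ (d r).1 ≠ (d (r - 1)).1 := by
  have hg := R.reg_good h.1
  obtain ⟨b1, b2⟩ := R.good_occ hg
  obtain ⟨c1, c2⟩ := R.reg_key_ends h.1
  have e1 := R.src_key b1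
  have e2 := R.tgt_key b1
  have e3 := R.tgt_key b2
  rw [c1, h.2] at e1 e2
  rw [c2, h.2] at e3
  exact ⟨e1, e2, e3, fun he => R.good_key_ne hg ((R.key_eq_iff b2 b1).2 he)⟩

end Real

section Fibre
variable {P Λ : Type} [Fintype P] [Fintype Λ] {pr : Λ → P} {D : Des pr} {γ : D.U}
  {r₀ c n : ℕ} {St : Finset (P × P)} {π : Pat}

instance : Finite D.Conf := inferInstance

/-- the choices of the edges, given labels and vertices -/
theorem fib_edges (g A n₀ j : ℕ) (hT : π.T ≤ n₀)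
    (hsw : ∀ (S : Finset D.E) (t : D.E → D.Y), #S ≤ n₀ →
      Nat.card {β : D.Conf // (D.graph β).Girth g ∧ ∀ e ∈ S, β.1 e = t e} * (n - A) ^ #S ≤
        Nat.card {β : D.Conf // (D.graph β).Girth g})
    (s : Finset D.Conf) (dd : D.Conf → ℕ → D.E × Bool)
    (hs : ∀ β ∈ s, (D.graph β).Girth g ∧ Real π (D.graph β) (Sum.inl γ) (dd β))
    (hl : ∀ β ∈ s, ∀ β' ∈ s, ∀ i ∈ π.occ, π.key i ∈ π.Ej j →
      pr (dd β i).1.1.2 = pr (dd β' i).1.1.2)
    (hz : ∀ β ∈ s, ∀ β' ∈ s, ∀ r ∈ π.Vj j,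
      (D.graph β).tail (dd β r) = (D.graph β').tail (dd β' r)) :
    #s * (n - A) ^ #(π.Ej j) ≤ Nat.card {β : D.Conf // (D.graph β).Girth g} := by
  rcases s.eq_empty_or_nonempty with rfl | ⟨β₀, h₀⟩
  · simp
  let O : Finset ℕ := {i ∈ π.occ | π.key i ∈ π.Ej j}
  let S : Finset D.E := O.image fun i => (dd β₀ i).1
  have R₀ := (hs β₀ h₀).2
  have e1 : π.Ej j = O.image π.key := by
    ext κ; constructor
    · intro h
      obtain ⟨i, hi, rfl⟩ := mem_image.1 (mem_filter.1 h).1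
      exact mem_image_of_mem _ (mem_filter.2 ⟨hi, h⟩)
    · intro h
      obtain ⟨i, hi, rfl⟩ := mem_image.1 h
      exact (mem_filter.1 hi).2
  have e2 : #(π.Ej j) = #S := by
    rw [e1]
    convert card_image_eq_of_iff O π.key (fun i => (dd β₀ i).1) fun x hx y hy =>
      R₀.key_eq_iff (mem_filter.1 hx).1 (mem_filter.1 hy).1
  have e3 : #S ≤ n₀ := by
    have := π.occ_add
    exact card_image_le.trans ((card_filter_le _ _).trans (by omega))
  rw [e2]
  refine le_trans (Nat.mul_le_mul_right _ (card_le_natCard _ _ fun β hβ => ?_)) (hsw S β₀.1 e3)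
  refine ⟨(hs β hβ).1, fun e he => ?_⟩
  obtain ⟨i, hi, rfl⟩ := mem_image.1 he
  obtain ⟨h1, h2⟩ := mem_filter.1 hi
  have R := (hs β hβ).2
  have k1 := hz β hβ β₀ h₀ _ (Real.ends_mem_Vj h2).1
  have k2 := hz β hβ β₀ h₀ _ (Real.ends_mem_Vj h2).2
  rw [R.src_key h1, R₀.src_key h1] at k1
  rw [R.tgt_key h1, R₀.tgt_key h1] at k2
  have k3 : (dd β i).1 = (dd β₀ i).1 :=
    (D.graph β).inj_src _ _ k1 (hl β hβ β₀ h₀ i h1 h2)
  have k4 : β.1 (dd β i).1 = β₀.1 (dd β₀ i).1 := Sum.inr.inj k2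
  rw [← k4, k3]

/-- number of choices for a vertex -/
noncomputable def cw (π : Pat) (r₀ m w : ℕ) (r : ℕ) : ℕ :=
  if π.pn r = true then 1 else if π.regU r then m / r₀ else if π.regV r then m else w * m

theorem prod_cw {P : Type} {L : FGraph P} {γ : L.V} {d : ℕ → L.Dart} (R : Real π L γ d)
    (r₀ m w j : ℕ) (hw : 1 ≤ w) :
    (∏ r ∈ π.Vj j, cw π r₀ m w r) * r₀ ^ π.uj j ≤ m ^ π.vj j * w ^ #π.irrP := by
  have e1 : r₀ ^ π.uj j = ∏ r ∈ π.Vj j, if π.regU r ∧ π.pn r = false then r₀ else 1 := by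
    rw [← prod_filter, prod_const]; rfl
  have e2 : m ^ π.vj j = ∏ r ∈ π.Vj j, if π.pn r = false then m else 1 := by
    rw [← prod_filter, prod_const]; rfl
  have e3 : (∏ r ∈ π.Vj j, if ¬ π.reg r then w else 1) ≤ w ^ #π.irrP := by
    rw [← prod_filter, prod_const]
    refine Nat.pow_le_pow_right hw (card_le_card fun r hr => ?_)
    obtain ⟨h1, h2⟩ := mem_filter.1 hr
    obtain ⟨h3, h4, -⟩ := R.Vj_le h1
    exact mem_filter.2 ⟨mem_range.2 h3, by rwa [h4]⟩
  rw [e1, e2, ← prod_mul_distrib]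
  refine le_trans ?_ (Nat.mul_le_mul_left _ e3)
  rw [← prod_mul_distrib]
  refine prod_le_prod' fun r _ => ?_
  unfold cw
  cases hp : π.pn r
  · by_cases h1 : π.regU r
    · simp [h1, h1.1, Nat.div_mul_le_self]
    by_cases h2 : π.regV r
    · simp [h1, h2, h2.1]
    have h3 : ¬ π.reg r := by
      intro h
      cases hk : π.kd r
      · exact h2 ⟨h, hk⟩
      · exact h1 ⟨h, hk⟩
    simp [h1, h2, h3, mul_comm]
  · simp only [if_true, Bool.true_eq_false, and_false, if_false, one_mul]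
    split_ifs <;> omega

/-- the choices of the vertices, given the labels -/
theorem fib_vertices (hD : D.Good r₀ c St n) (hr₀ : 1 ≤ r₀) (j : ℕ)
    (s : Finset D.Conf) (dd : D.Conf → ℕ → D.E × Bool)
    (hs : ∀ β ∈ s, Real π (D.graph β) (Sum.inl γ) (dd β))
    (hl : ∀ β ∈ s, ∀ β' ∈ s, ∀ i ∈ π.occ, π.key i ∈ π.Ej j →
      pr (dd β i).1.1.2 = pr (dd β' i).1.1.2) :
    #(s.image fun β r => if r ∈ π.Vj j then (D.graph β).tail (dd β r) else Sum.inl γ :
        Finset (ℕ → D.U ⊕ D.Y)) ≤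
      ∏ r ∈ π.Vj j, cw π r₀ (n + c) (2 * Fintype.card Λ + 1) r := by
  refine card_seq _ (Sum.inl γ) _ _ ?_ ?_
  · intro f hf i hi
    obtain ⟨β, -, rfl⟩ := mem_image.1 hf
    simp [hi]
  intro f hf r hr
  obtain ⟨β, hβ, rfl⟩ := mem_image.1 hf
  have R := hs β hβ
  obtain ⟨h1, h2, h3⟩ := R.Vj_le hr
  unfold cw
  split_ifs with k1 k2 k3
  · refine ⟨{Sum.inl γ}, by simp, fun f' hf' _ => ?_⟩
    obtain ⟨β', hβ', rfl⟩ := mem_image.1 hf'
    simp only [hr, if_true, mem_singleton]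
    exact ((hs β' hβ').pn r h1).1 k1
  · obtain ⟨a1, a2, a3, a4⟩ := R.regU_darts k2
    obtain ⟨b1, b2⟩ := R.good_occ (R.reg_good k2.1)
    obtain ⟨c1, c2⟩ := R.reg_Ej k2.1 h3
    have hv := (R.reg_Vj k2.1 h3).2
    have hr1 := (R.reg_good k2.1).1
    refine ⟨({w | (dd β (r - 1)).1.1.2 ∈ D.SU w ∧ ∃ l' ∈ D.SU w, pr l' = pr (dd β r).1.1.2} :
      Finset D.U).image Sum.inl, card_image_le.trans ?_, fun f' hf' hp => ?_⟩
    · rw [Nat.le_div_iff_mul_le hr₀, mul_comm]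
      exact hD.two _ _ fun he => a4 ((D.graph β).inj_src _ _ (a3.symm.trans a2) he)
    · obtain ⟨β', hβ', rfl⟩ := mem_image.1 hf'
      obtain ⟨a1', a2', a3', -⟩ := (hs β' hβ').regU_darts k2
      have e := hp (r - 1) (by omega)
      simp only [hv, if_true] at e
      rw [a1, a1'] at e
      have e' : β'.1 (dd β' (r - 1)).1 = β.1 (dd β (r - 1)).1 := Sum.inr.inj e
      have m1 := β.2.1 (dd β (r - 1)).1
      have m2 := β'.2.1 (dd β' (r - 1)).1
      rw [e'] at m2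
      have e2 := D.injY _ m1 m2 (hl β hβ β' hβ' _ b1 c1)
      have e3 : (dd β' r).1.1.1 = (dd β' (r - 1)).1.1.1 := Sum.inl.inj (a3'.symm.trans a2')
      simp only [hr, if_true]
      rw [a3']
      refine mem_image.2 ⟨(dd β' r).1.1.1, ?_, rfl⟩
      simp only [mem_filter, mem_univ, true_and]
      refine ⟨?_, _, (dd β' r).1.2, (hl β hβ β' hβ' _ b2 c2).symm⟩
      rw [e2, e3]; exact (dd β' (r - 1)).1.2
  · obtain ⟨a1, a2, a3, a4⟩ := R.regV_darts k3
    obtain ⟨b1, b2⟩ := R.good_occ (R.reg_good k3.1)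
    obtain ⟨c1, c2⟩ := R.reg_Ej k3.1 h3
    have hv := (R.reg_Vj k3.1 h3).2
    have hr1 := (R.reg_good k3.1).1
    refine ⟨({y | (dd β (r - 1)).1.1.2 ∈ D.SY y} : Finset D.Y).image Sum.inr,
      card_image_le.trans ?_, fun f' hf' hp => ?_⟩
    · rw [← hD.bal]; exact hD.hi _
    · obtain ⟨β', hβ', rfl⟩ := mem_image.1 hf'
      obtain ⟨a1', a2', a3', -⟩ := (hs β' hβ').regV_darts k3
      have e := hp (r - 1) (by omega)
      simp only [hv, if_true] at e
      rw [a1, a1'] at e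
      have e' : (dd β' (r - 1)).1.1.1 = (dd β (r - 1)).1.1.1 := Sum.inl.inj e
      have m1 := (dd β (r - 1)).1.2
      have m2 := (dd β' (r - 1)).1.2
      rw [e'] at m2
      have e2 := D.injU _ m1 m2 (hl β hβ β' hβ' _ b1 c1)
      simp only [hr, if_true]
      rw [a2']
      refine mem_image.2 ⟨β'.1 (dd β' (r - 1)).1, ?_, rfl⟩
      simp only [mem_filter, mem_univ, true_and]
      rw [e2]; exact β'.2.1 _
  · refine ⟨univ.biUnion fun l : Λ => ({w | l ∈ D.SU w} : Finset D.U).image Sum.inl ∪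
      ({y | l ∈ D.SY y} : Finset D.Y).image Sum.inr, ?_, fun f' hf' _ => ?_⟩
    · refine (card_biUnion_le_card_mul _ _ (2 * (n + c)) fun l _ => ?_).trans ?_
      · refine (card_union_le _ _).trans ?_
        have h1 := (card_image_le (f := (Sum.inl : D.U → D.U ⊕ D.Y))).trans (hD.hi l)
        have h2 := (card_image_le (f := (Sum.inr : D.Y → D.U ⊕ D.Y))).trans
          ((hD.bal l).symm.le.trans (hD.hi l))
        omega
      · rw [card_univ]; nlinarith
    · obtain ⟨β', hβ', rfl⟩ := mem_image.1 hf'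
      simp only [hr, if_true]
      refine mem_biUnion.2 ⟨(dd β' r).1.1.2, mem_univ _, ?_⟩
      unfold FGraph.tail
      split_ifs
      · exact mem_union_left _ (mem_image.2 ⟨_, mem_filter.2 ⟨mem_univ _, (dd β' r).1.2⟩, rfl⟩)
      · exact mem_union_right _ (mem_image.2 ⟨_, mem_filter.2 ⟨mem_univ _, β'.2.1 _⟩, rfl⟩)

/-- the fibre bound -/
theorem fibre (hD : D.Good r₀ c St n) (hr₀ : 1 ≤ r₀) (g A n₀ j : ℕ) (hT : π.T ≤ n₀)
    (hsw : ∀ (S : Finset D.E) (t : D.E → D.Y), #S ≤ n₀ →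
      Nat.card {β : D.Conf // (D.graph β).Girth g ∧ ∀ e ∈ S, β.1 e = t e} * (n - A) ^ #S ≤
        Nat.card {β : D.Conf // (D.graph β).Girth g})
    (s : Finset D.Conf) (dd : D.Conf → ℕ → D.E × Bool)
    (hs : ∀ β ∈ s, (D.graph β).Girth g ∧ Real π (D.graph β) (Sum.inl γ) (dd β)) :
    #s * ((n - A) ^ #(π.Ej j) * r₀ ^ π.uj j) ≤
      (#St ^ #(π.Ld j) * Fintype.card P ^ #π.irrO) *
        (((n + c) ^ π.vj j * (2 * Fintype.card Λ + 1) ^ #π.irrP) *
          Nat.card {β : D.Conf // (D.graph β).Girth g}) := by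
  let c1 : D.Conf → ℕ → Option (P × P) := fun β r =>
    if r ∈ π.Ld j then some (pr (dd β (r - 1)).1.1.2, pr (dd β r).1.1.2) else none
  let c2 : D.Conf → ℕ → Option P := fun β i =>
    if i ∈ π.irrO then some (pr (dd β i).1.1.2) else none
  have h1 : #(s.image c1) ≤ #St ^ #(π.Ld j) := by
    refine card_code s _ St _ fun β hβ r hr => ?_
    obtain ⟨a1, a2, a3, a4⟩ := (hs β hβ).2.regV_darts (mem_filter.1 hr).2.1.1
    have e : β.1 (dd β r).1 = β.1 (dd β (r - 1)).1 := Sum.inr.inj (a3.symm.trans a2)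
    have m1 := β.2.1 (dd β r).1
    rw [e] at m1
    exact hD.st _ _ (β.2.1 _) _ m1 fun he => a4 (β.2.2.1 _ _ e he.symm)
  have h2 : #(s.image c2) ≤ Fintype.card P ^ #π.irrO :=
    card_code s _ univ _ fun β hβ r hr => mem_univ _
  refine (fib_mul s (fun β => (c1 β, c2 β)) _ _ fun β₀ h₀ => ?_).trans
    (Nat.mul_le_mul_right _ ((card_image_pair _ _ _).trans (Nat.mul_le_mul h1 h2)))
  set s' : Finset D.Conf := {β ∈ s | (c1 β, c2 β) = (c1 β₀, c2 β₀)} with hs'
  have hsub : ∀ β ∈ s', β ∈ s := fun β h => (mem_filter.1 h).1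
  have hl : ∀ β ∈ s', ∀ β' ∈ s', ∀ i ∈ π.occ, π.key i ∈ π.Ej j →
      pr (dd β i).1.1.2 = pr (dd β' i).1.1.2 := by
    intro β hβ β' hβ' i hi hj
    have e := (mem_filter.1 hβ).2.trans (mem_filter.1 hβ').2.symm
    simp only [Prod.mk.injEq] at e
    refine lab_eq (hs β (hsub β hβ)).2 (hs β' (hsub β' hβ')).2 (j := j) ?_ ?_ hi hj
    · intro r hr
      have := congrFun e.1 r
      simp only [c1, hr, if_true, Option.some.injEq, Prod.mk.injEq] at this
      exact this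
    · intro r hr
      have := congrFun e.2 r
      simp only [c2, hr, if_true, Option.some.injEq] at this
      exact this
  let z : D.Conf → ℕ → D.U ⊕ D.Y := fun β r =>
    if r ∈ π.Vj j then (D.graph β).tail (dd β r) else Sum.inl γ
  have h3 := fib_mul s' z ((n - A) ^ #(π.Ej j)) (Nat.card {β : D.Conf // (D.graph β).Girth g})
    fun β₁ _ => fib_edges (γ := γ) g A n₀ j hT hsw _ dd
      (fun β hβ => hs β (hsub β (mem_filter.1 hβ).1))
      (fun β hβ β' hβ' => hl β (mem_filter.1 hβ).1 β' (mem_filter.1 hβ').1)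
      (fun β hβ β' hβ' r hr => by
        have := congrFun ((mem_filter.1 hβ).2.trans (mem_filter.1 hβ').2.symm) r
        simp only [z, hr, if_true] at this
        exact this)
  have h4 := fib_vertices hD hr₀ j s' dd (fun β hβ => (hs β (hsub β hβ)).2) hl
  have h5 := prod_cw (hs β₀ h₀).2 r₀ (n + c) (2 * Fintype.card Λ + 1) j (by omega)
  calc #s' * ((n - A) ^ #(π.Ej j) * r₀ ^ π.uj j)
      = (#s' * (n - A) ^ #(π.Ej j)) * r₀ ^ π.uj j := by ring
    _ ≤ (#(s'.image z) * Nat.card {β : D.Conf // (D.graph β).Girth g}) * r₀ ^ π.uj j := by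
        gcongr
    _ = (#(s'.image z) * r₀ ^ π.uj j) * Nat.card {β : D.Conf // (D.graph β).Girth g} := by ring
    _ ≤ _ := Nat.mul_le_mul_right _ ((Nat.mul_le_mul_right _ h4).trans h5)

end Fibre

end Crest.Agent.R177.LL
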