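import Crest.Agent.R177.LCount0

/-! Patterns of families of paths and the facts that follow from a realisation. -/

set_option autoImplicit false

namespace Crest.Agent.R177.LL

open Finset
open scoped Classical

theorem rep_le {V : Type} (z : ℕ → V) (i : ℕ) : rep z i ≤ i := Nat.sInf_le rfl

theorem rep_spec {V : Type} (z : ℕ → V) (i : ℕ) : z (rep z i) = z i :=
  Nat.sInf_mem (s := {j | z j = z i}) ⟨i, rfl⟩

theorem rep_eq_iff {V : Type} (z : ℕ → V) (i j : ℕ) : rep z i = rep z j ↔ z i = z j := by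
  constructor
  · intro h; rw [← rep_spec z i, h, rep_spec z j]
  · intro h; unfold rep; rw [h]

structure Pat where
  T : ℕ
  φ : ℕ → ℕ
  α : ℕ → ℕ
  ρ : ℕ → ℕ
  kd : ℕ → Bool
  ct : ℕ → Bool
  pn : ℕ → Bool

/-- ordered pair with `a` in the place of kind `b` -/
def pk (b : Bool) (a a' : ℕ) : ℕ × ℕ := if b then (a, a') else (a', a)

namespace Pat
variable (π : Pat)

noncomputable def occ : Finset ℕ := {i ∈ range π.T | π.ct i = false}
def key (i : ℕ) : ℕ × ℕ := pk (π.kd i) (π.ρ i) (π.ρ (π.φ i))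
noncomputable def mu (κ : ℕ × ℕ) : ℕ := #{i ∈ π.occ | π.key i = κ}
noncomputable def Ej (j : ℕ) : Finset (ℕ × ℕ) := {κ ∈ π.occ.image π.key | j ≤ π.mu κ}
noncomputable def Vj (j : ℕ) : Finset ℕ := (π.Ej j).image Prod.fst ∪ (π.Ej j).image Prod.snd
noncomputable def cls (r : ℕ) : ℕ := #{i ∈ range π.T | π.ρ i = r}
def Par (x : ℕ) : Prop :=
  (π.α x = x ∧ π.α (π.φ x) = π.φ x) ∨
    (π.α x ≠ x ∧ π.α (π.φ x) ≠ π.φ x ∧ π.φ (π.α (π.φ x)) = π.α x)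
def good (i : ℕ) : Prop :=
  1 ≤ i ∧ i + 1 < π.T ∧ π.φ (i - 1) = i ∧ π.φ i = i + 1 ∧ π.ct (i - 1) = false ∧ π.ct i = false ∧
    1 ≤ π.ρ i ∧ ({π.ρ (i - 1), π.ρ (i + 1)} : Finset ℕ) = {π.ρ i - 1, π.ρ i + 1} ∧ π.Par (i - 1)
def reg (r : ℕ) : Prop := r < π.T ∧ π.ρ r = r ∧ ∀ i, i < π.T → π.ρ i = r → π.good i
def regU (r : ℕ) : Prop := π.reg r ∧ π.kd r = true
def regV (r : ℕ) : Prop := π.reg r ∧ π.kd r = false
def link (i : ℕ) : Prop :=
  i < π.T ∧ π.regV (π.ρ i) ∧ π.α (i - 1) ≠ i - 1 ∧ π.regV (π.ρ (π.α (i - 1)))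
def Rel (r r' : ℕ) : Prop := ∃ i, π.link i ∧ π.ρ i = r ∧ π.ρ (π.α (i - 1)) = r'
def lead (r : ℕ) : Prop :=
  π.regV r ∧ ∀ r', π.regV r' → Relation.EqvGen π.Rel r r' →
    π.cls r' < π.cls r ∨ (π.cls r' = π.cls r ∧ r ≤ r')
noncomputable def Ld (j : ℕ) : Finset ℕ := {r ∈ range π.T | π.lead r ∧ j ≤ π.cls r}
noncomputable def irrO : Finset ℕ := {i ∈ π.occ | ¬ π.regV (π.key i).2}
noncomputable def irrP : Finset ℕ := {i ∈ range π.T | ¬ π.reg (π.ρ i)}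

theorem mem_occ {i : ℕ} : i ∈ π.occ ↔ i < π.T ∧ π.ct i = false := by simp [occ]

/-- every regular class of kind `false` has a leader -/
theorem exists_lead {r : ℕ} (hr : π.regV r) :
    ∃ r₀, π.lead r₀ ∧ Relation.EqvGen π.Rel r₀ r ∧ π.cls r ≤ π.cls r₀ := by
  let S : Finset ℕ := {r' ∈ range π.T | π.regV r' ∧ Relation.EqvGen π.Rel r r'}
  have hS : S.Nonempty := ⟨r, by simp [S, hr, hr.1.1, Relation.EqvGen.refl]⟩
  obtain ⟨r₁, h1, h1'⟩ := exists_max_image S π.cls hS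
  let S' : Finset ℕ := {r' ∈ S | π.cls r' = π.cls r₁}
  have hS' : S'.Nonempty := ⟨r₁, by simp [S', h1]⟩
  obtain ⟨r₀, h0, h0'⟩ := exists_min_image S' id hS'
  simp only [S', S, mem_filter, mem_range] at h0
  obtain ⟨⟨-, k1, k2⟩, k3⟩ := h0
  refine ⟨r₀, ⟨k1, fun r' hr' he => ?_⟩, k2.symm _ _, ?_⟩
  · have hm : r' ∈ S := by
      simp only [S, mem_filter, mem_range]
      exact ⟨hr'.1.1, hr', k2.trans _ _ _ he⟩
    rcases (h1' r' hm).lt_or_eq with h | h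
    · left; omega
    · right
      exact ⟨by omega, h0' r' (by simp only [S', mem_filter]; exact ⟨hm, h⟩)⟩
  · rw [k3]; exact h1' r (by simp [S, hr, hr.1.1, Relation.EqvGen.refl])

theorem lead_unique {r r' : ℕ} (h : π.lead r) (h' : π.lead r')
    (he : Relation.EqvGen π.Rel r r') : r = r' := by
  have h1 := h.2 r' h'.1 he
  have h2 := h'.2 r h.1 (he.symm _ _)
  omega

end Pat

/-- the darts `d` realise the pattern `π` in `L` -/
structure Real {P : Type} (π : Pat) (L : FGraph P) (γ : L.V) (d : ℕ → L.Dart) : Prop where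
  bip : ∀ e e', L.src e ≠ L.tgt e'
  gir : L.Girth 3
  φ_lt : ∀ i, i < π.T → π.φ i < π.T
  φ_inj : ∀ i j, i < π.T → j < π.T → π.φ i = π.φ j → i = j
  α_lt : ∀ i, i < π.T → π.α i < π.T
  α_inv : ∀ i, i < π.T → π.α (π.α i) = i
  kd : ∀ i, i < π.T → π.kd i = (d i).2
  ρ : ∀ i, i < π.T → π.ρ i = rep (fun j => L.tail (d j)) i
  pn : ∀ i, i < π.T → (π.pn i = true ↔ L.tail (d i) = γ)
  walk : ∀ i, i < π.T → π.ct i = false → L.Nx (d i) (d (π.φ i))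
  pair : ∀ i, i < π.T → π.α i ≠ i → L.lab (d (π.α i)).1 = L.lab (d i).1 ∧
    (d (π.α i)).2 = !(d i).2 ∧ (d (π.α i)).1 ≠ (d i).1

namespace Real
variable {P : Type} {π : Pat} {L : FGraph P} {γ : L.V} {d : ℕ → L.Dart} (R : Real π L γ d)
include R

theorem ρ_le {i : ℕ} (hi : i < π.T) : π.ρ i ≤ i := by rw [R.ρ i hi]; exact rep_le _ _

theorem ρ_lt {i : ℕ} (hi : i < π.T) : π.ρ i < π.T := lt_of_le_of_lt (R.ρ_le hi) hi

theorem tail_ρ {i : ℕ} (hi : i < π.T) : L.tail (d (π.ρ i)) = L.tail (d i) := by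
  rw [R.ρ i hi]; exact rep_spec (fun j => L.tail (d j)) i

theorem ρ_eq_iff {i j : ℕ} (hi : i < π.T) (hj : j < π.T) :
    π.ρ i = π.ρ j ↔ L.tail (d i) = L.tail (d j) := by
  rw [R.ρ i hi, R.ρ j hj]; exact rep_eq_iff _ _ _

theorem ρ_ρ {i : ℕ} (hi : i < π.T) : π.ρ (π.ρ i) = π.ρ i :=
  (R.ρ_eq_iff (R.ρ_lt hi) hi).2 (R.tail_ρ hi)

theorem kd_eq {i j : ℕ} (hi : i < π.T) (hj : j < π.T) (h : π.ρ i = π.ρ j) : π.kd i = π.kd j := by
  have h1 := (R.ρ_eq_iff hi hj).1 h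
  rw [R.kd i hi, R.kd j hj]
  unfold FGraph.tail at h1
  cases h2 : (d i).2 <;> cases h3 : (d j).2 <;> simp [h2, h3] at h1 ⊢
  · exact R.bip _ _ h1.symm
  · exact R.bip _ _ h1

theorem kd_ρ {i : ℕ} (hi : i < π.T) : π.kd (π.ρ i) = π.kd i :=
  R.kd_eq (R.ρ_lt hi) hi (R.ρ_ρ hi)

theorem kd_φ {i : ℕ} (hi : i ∈ π.occ) : π.kd (π.φ i) = !π.kd i := by
  obtain ⟨h1, h2⟩ := π.mem_occ.1 hi
  have h := (R.walk i h1 h2).1
  rw [R.kd i h1, R.kd _ (R.φ_lt i h1)]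
  unfold FGraph.tail FGraph.head at h
  cases h2 : (d i).2 <;> cases h3 : (d (π.φ i)).2 <;> simp [h2, h3] at h ⊢
  · exact R.bip _ _ h
  · exact R.bip _ _ h.symm

theorem src_key {i : ℕ} (hi : i ∈ π.occ) : L.tail (d (π.key i).1) = L.src (d i).1 := by
  obtain ⟨h1, h2⟩ := π.mem_occ.1 hi
  have h := (R.walk i h1 h2).1
  unfold Pat.key pk
  rw [R.kd i h1]
  cases h3 : (d i).2
  · simp only [Bool.false_eq_true, if_false]
    rw [R.tail_ρ (R.φ_lt i h1), ← h]; simp [FGraph.head, h3]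
  · simp only [if_true]
    rw [R.tail_ρ h1]; simp [FGraph.tail, h3]

theorem tgt_key {i : ℕ} (hi : i ∈ π.occ) : L.tail (d (π.key i).2) = L.tgt (d i).1 := by
  obtain ⟨h1, h2⟩ := π.mem_occ.1 hi
  have h := (R.walk i h1 h2).1
  unfold Pat.key pk
  rw [R.kd i h1]
  cases h3 : (d i).2
  · simp only [Bool.false_eq_true, if_false]
    rw [R.tail_ρ h1]; simp [FGraph.tail, h3]
  · simp only [if_true]
    rw [R.tail_ρ (R.φ_lt i h1), ← h]; simp [FGraph.head, h3]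

theorem key_cases (i : ℕ) :
    (π.kd i = true ∧ π.key i = (π.ρ i, π.ρ (π.φ i))) ∨
      (π.kd i = false ∧ π.key i = (π.ρ (π.φ i), π.ρ i)) := by
  unfold Pat.key pk
  cases π.kd i <;> simp

theorem key_fst {i : ℕ} (hi : i ∈ π.occ) :
    (π.key i).1 < π.T ∧ π.ρ (π.key i).1 = (π.key i).1 ∧ π.kd (π.key i).1 = true := by
  have h1 := (π.mem_occ.1 hi).1
  have h2 := R.φ_lt i h1
  rcases R.key_cases i with ⟨h, e⟩ | ⟨h, e⟩ <;> rw [e]
  · exact ⟨R.ρ_lt h1, R.ρ_ρ h1, by rw [R.kd_ρ h1, h]⟩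
  · exact ⟨R.ρ_lt h2, R.ρ_ρ h2, by rw [R.kd_ρ h2, R.kd_φ hi, h]; rfl⟩

theorem key_snd {i : ℕ} (hi : i ∈ π.occ) :
    (π.key i).2 < π.T ∧ π.ρ (π.key i).2 = (π.key i).2 ∧ π.kd (π.key i).2 = false := by
  have h1 := (π.mem_occ.1 hi).1
  have h2 := R.φ_lt i h1
  rcases R.key_cases i with ⟨h, e⟩ | ⟨h, e⟩ <;> rw [e]
  · exact ⟨R.ρ_lt h2, R.ρ_ρ h2, by rw [R.kd_ρ h2, R.kd_φ hi, h]; rfl⟩
  · exact ⟨R.ρ_lt h1, R.ρ_ρ h1, by rw [R.kd_ρ h1, h]⟩

theorem edge_eq {e e' : L.E} (h1 : L.src e = L.src e') (h2 : L.tgt e = L.tgt e') : e = e' := by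
  by_contra hne
  have := R.gir 1 (fun i => if i = 0 then (e, true) else (e', false))
    (by
      intro i hi
      obtain rfl : i = 0 := by omega
      refine ⟨by simp [FGraph.head, FGraph.tail, h2], ?_⟩
      simp [FGraph.rev, Ne.symm hne])
    (by simp [FGraph.head, FGraph.tail, h1])
  omega

theorem key_eq_iff {i j : ℕ} (hi : i ∈ π.occ) (hj : j ∈ π.occ) :
    π.key i = π.key j ↔ (d i).1 = (d j).1 := by
  constructor
  · intro h
    apply R.edge_eq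
    · rw [← R.src_key hi, ← R.src_key hj, h]
    · rw [← R.tgt_key hi, ← R.tgt_key hj, h]
  · intro h
    obtain ⟨a1, a2, -⟩ := R.key_fst hi
    obtain ⟨b1, b2, -⟩ := R.key_fst hj
    obtain ⟨c1, c2, -⟩ := R.key_snd hi
    obtain ⟨d1, d2, -⟩ := R.key_snd hj
    refine Prod.ext ?_ ?_
    · rw [← a2, ← b2, R.ρ_eq_iff a1 b1, R.src_key hi, R.src_key hj, h]
    · rw [← c2, ← d2, R.ρ_eq_iff c1 d1, R.tgt_key hi, R.tgt_key hj, h]

theorem key_φ_ne {i : ℕ} (hi : i ∈ π.occ) (hj : π.φ i ∈ π.occ) : π.key (π.φ i) ≠ π.key i := by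
  intro h
  obtain ⟨h1, h2⟩ := π.mem_occ.1 hi
  apply (R.walk i h1 h2).2
  refine Prod.ext ((R.key_eq_iff hj hi).1 h) ?_
  have := R.kd_φ hi
  rwa [R.kd i h1, R.kd _ (R.φ_lt i h1)] at this

theorem mu_le_cls (κ : ℕ × ℕ) (b : Bool) : π.mu κ ≤ π.cls (if b then κ.1 else κ.2) := by
  refine card_le_card_of_injOn (fun i => if π.kd i = b then i else π.φ i) ?_ ?_
  · intro i hi
    obtain ⟨h1, rfl⟩ := mem_filter.1 (mem_coe.1 hi)
    have h2 := (π.mem_occ.1 h1).1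
    have h3 := R.φ_lt i h2
    simp only [coe_filter, mem_range, Set.mem_setOf_eq]
    rcases R.key_cases i with ⟨h, e⟩ | ⟨h, e⟩ <;> rw [e, h] <;> cases b <;> simp [h2, h3]
  · intro i hi j hj hij
    obtain ⟨h1, h2⟩ := mem_filter.1 (mem_coe.1 hi)
    obtain ⟨h3, h4⟩ := mem_filter.1 (mem_coe.1 hj)
    simp only at hij
    split_ifs at hij with k1 k2 k2
    · exact hij
    · subst hij; exact absurd (h2.trans h4.symm) (R.key_φ_ne h3 h1)
    · subst hij; exact absurd (h4.trans h2.symm) (R.key_φ_ne h1 h3)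
    · exact R.φ_inj i j (π.mem_occ.1 h1).1 (π.mem_occ.1 h3).1 hij

theorem good_occ {i : ℕ} (h : π.good i) : i - 1 ∈ π.occ ∧ i ∈ π.occ := by
  obtain ⟨h1, h2, -, -, h5, h6, -⟩ := h
  exact ⟨π.mem_occ.2 ⟨by omega, h5⟩, π.mem_occ.2 ⟨by omega, h6⟩⟩

theorem good_kd {i : ℕ} (h : π.good i) : π.kd (i - 1) = !π.kd i := by
  have := R.kd_φ (R.good_occ h).1
  rw [h.2.2.1] at this
  rw [this]; simp

theorem good_key {i : ℕ} (h : π.good i) :
    π.key (i - 1) = pk (π.kd i) (π.ρ i) (π.ρ (i - 1)) ∧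
      π.key i = pk (π.kd i) (π.ρ i) (π.ρ (i + 1)) := by
  unfold Pat.key
  rw [R.good_kd h, h.2.2.1, h.2.2.2.1]
  refine ⟨?_, rfl⟩
  unfold pk; cases π.kd i <;> simp

theorem reg_good {r : ℕ} (h : π.reg r) : π.good r := h.2.2 r h.1 h.2.1

theorem reg_ρ {r : ℕ} (h : π.reg r) : π.ρ (r - 1) = r - 1 ∧ π.ρ (r + 1) = r + 1 := by
  obtain ⟨h1, h2, -, -, -, -, -, h8, -⟩ := R.reg_good h
  rw [h.2.1] at h8
  have h3 := R.ρ_le (i := r - 1) (by omega)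
  have a1 : π.ρ (r - 1) ∈ ({r - 1, r + 1} : Finset ℕ) := by rw [← h8]; simp
  have a2 : r + 1 ∈ ({π.ρ (r - 1), π.ρ (r + 1)} : Finset ℕ) := by rw [h8]; simp
  simp only [mem_insert, mem_singleton] at a1 a2
  omega

theorem reg_keys {r i : ℕ} (h : π.reg r) (hi : i < π.T) (hr : π.ρ i = r) :
    (π.key (i - 1) = π.key (r - 1) ∧ π.key i = π.key r) ∨
      (π.key (i - 1) = π.key r ∧ π.key i = π.key (r - 1)) := by
  have hg := h.2.2 i hi hr
  obtain ⟨a1, a2⟩ := R.good_key hg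
  obtain ⟨b1, b2⟩ := R.good_key (R.reg_good h)
  obtain ⟨c1, c2⟩ := R.reg_ρ h
  have hk : π.kd i = π.kd r := by rw [← hr, R.kd_ρ hi]
  rw [a1, a2, b1, b2, c1, c2, hr, hk, h.2.1]
  obtain ⟨-, -, -, -, -, -, h7, h8, -⟩ := hg
  rw [hr] at h7 h8
  have a1 : π.ρ (i - 1) ∈ ({r - 1, r + 1} : Finset ℕ) := by rw [← h8]; simp
  have a2 : π.ρ (i + 1) ∈ ({r - 1, r + 1} : Finset ℕ) := by rw [← h8]; simp
  have a3 : r + 1 ∈ ({π.ρ (i - 1), π.ρ (i + 1)} : Finset ℕ) := by rw [h8]; simp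
  have a4 : r - 1 ∈ ({π.ρ (i - 1), π.ρ (i + 1)} : Finset ℕ) := by rw [h8]; simp
  simp only [mem_insert, mem_singleton] at a1 a2 a3 a4
  rcases a1 with a1 | a1
  · left; rw [a1, show π.ρ (i + 1) = r + 1 by omega]; exact ⟨rfl, rfl⟩
  · right; rw [a1, show π.ρ (i + 1) = r - 1 by omega]; exact ⟨rfl, rfl⟩

theorem good_key_ne {i : ℕ} (h : π.good i) : π.key i ≠ π.key (i - 1) := by
  have := R.key_φ_ne (R.good_occ h).1 (by rw [h.2.2.1]; exact (R.good_occ h).2)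
  rwa [h.2.2.1] at this

theorem reg_incident {r i : ℕ} (h : π.reg r) (hi : i ∈ π.occ)
    (hk : (π.key i).1 = r ∨ (π.key i).2 = r) : π.key i = π.key (r - 1) ∨ π.key i = π.key r := by
  have h1 := (π.mem_occ.1 hi).1
  have h2 := R.φ_lt i h1
  have : π.ρ i = r ∨ π.ρ (π.φ i) = r := by
    rcases R.key_cases i with ⟨-, e⟩ | ⟨-, e⟩ <;> rw [e] at hk
    · exact hk
    · exact hk.symm
  rcases this with h3 | h3
  · rcases R.reg_keys h h1 h3 with h4 | h4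
    · exact Or.inr h4.2
    · exact Or.inl h4.2
  · have hg := h.2.2 _ h2 h3
    have : π.φ i - 1 = i := R.φ_inj _ _ (by omega) h1 hg.2.2.1
    rcases R.reg_keys h h2 h3 with h4 | h4 <;> rw [this] at h4
    · exact Or.inl h4.1
    · exact Or.inr h4.1

theorem cls_le_mu {r : ℕ} (h : π.reg r) {κ : ℕ × ℕ} (hκ : κ = π.key (r - 1) ∨ κ = π.key r) :
    π.cls r ≤ π.mu κ := by
  refine card_le_card_of_injOn (fun i => if π.key i = κ then i else i - 1) ?_ ?_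
  · intro i hi
    obtain ⟨h1, h2⟩ := mem_filter.1 (mem_coe.1 hi)
    have h1 := mem_range.1 h1
    have hg := h.2.2 i h1 h2
    simp only [coe_filter, Set.mem_setOf_eq]
    split_ifs with k
    · exact ⟨(R.good_occ hg).2, k⟩
    · refine ⟨(R.good_occ hg).1, ?_⟩
      rcases R.reg_keys h h1 h2 with h4 | h4 <;> rcases hκ with rfl | rfl
      · exact h4.1
      · exact absurd h4.2 k
      · exact absurd h4.2 k
      · exact h4.1
  · intro i hi j hj hij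
    obtain ⟨h1, h2⟩ := mem_filter.1 (mem_coe.1 hi)
    obtain ⟨h3, h4⟩ := mem_filter.1 (mem_coe.1 hj)
    have h1 := mem_range.1 h1
    have h3 := mem_range.1 h3
    have hg := h.2.2 i h1 h2
    have hg' := h.2.2 j h3 h4
    have hk := R.kd_eq h1 h3 (h2.trans h4.symm)
    simp only at hij
    split_ifs at hij with k1 k2 k2
    · exact hij
    · have := R.good_kd hg'
      rw [← hij, hk] at this
      simp at this
    · have := R.good_kd hg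
      rw [hij, hk] at this
      simp at this
    · have := hg.1; have := hg'.1; omega

theorem reg_key_ends {r : ℕ} (h : π.reg r) :
    π.key (r - 1) = pk (π.kd r) r (r - 1) ∧ π.key r = pk (π.kd r) r (r + 1) := by
  obtain ⟨b1, b2⟩ := R.good_key (R.reg_good h)
  obtain ⟨c1, c2⟩ := R.reg_ρ h
  rw [b1, b2, c1, c2, h.2.1]; exact ⟨rfl, rfl⟩

theorem mu_eq_cls {r : ℕ} (h : π.reg r) {κ : ℕ × ℕ} (hκ : κ = π.key (r - 1) ∨ κ = π.key r) :
    π.mu κ = π.cls r := by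
  refine le_antisymm ?_ (R.cls_le_mu h hκ)
  have := R.mu_le_cls κ (π.kd r)
  obtain ⟨a1, a2⟩ := R.reg_key_ends h
  have e : (if π.kd r = true then κ.1 else κ.2) = r := by
    rcases hκ with rfl | rfl
    · rw [a1]; unfold pk; cases π.kd r <;> simp
    · rw [a2]; unfold pk; cases π.kd r <;> simp
  rwa [e] at this

theorem mem_Vj {j r : ℕ} (hr : r ∈ π.Vj j) :
    ∃ i ∈ π.occ, j ≤ π.mu (π.key i) ∧ ((π.key i).1 = r ∨ (π.key i).2 = r) := by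
  simp only [Pat.Vj, Pat.Ej, mem_union, mem_image, mem_filter] at hr
  rcases hr with ⟨κ, ⟨⟨i, hi, rfl⟩, h⟩, rfl⟩ | ⟨κ, ⟨⟨i, hi, rfl⟩, h⟩, rfl⟩
  · exact ⟨i, hi, h, Or.inl rfl⟩
  · exact ⟨i, hi, h, Or.inr rfl⟩

theorem Vj_le {j r : ℕ} (hr : r ∈ π.Vj j) : r < π.T ∧ π.ρ r = r ∧ j ≤ π.cls r := by
  obtain ⟨i, hi, h1, rfl | rfl⟩ := R.mem_Vj hr
  · exact ⟨(R.key_fst hi).1, (R.key_fst hi).2.1, h1.trans (R.mu_le_cls _ true)⟩
  · exact ⟨(R.key_snd hi).1, (R.key_snd hi).2.1, h1.trans (R.mu_le_cls _ false)⟩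

omit R in
theorem key_mem_Ej {j i : ℕ} (hi : i ∈ π.occ) (h : j ≤ π.mu (π.key i)) : π.key i ∈ π.Ej j :=
  mem_filter.2 ⟨mem_image_of_mem _ hi, h⟩

omit R in
theorem ends_mem_Vj {j : ℕ} {κ : ℕ × ℕ} (h : κ ∈ π.Ej j) : κ.1 ∈ π.Vj j ∧ κ.2 ∈ π.Vj j :=
  ⟨mem_union_left _ (mem_image_of_mem _ h), mem_union_right _ (mem_image_of_mem _ h)⟩

theorem reg_Ej {j r : ℕ} (h : π.reg r) (hj : j ≤ π.cls r) :
    π.key (r - 1) ∈ π.Ej j ∧ π.key r ∈ π.Ej j := by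
  have hg := R.good_occ (R.reg_good h)
  exact ⟨key_mem_Ej hg.1 (by rw [R.mu_eq_cls h (Or.inl rfl)]; exact hj),
    key_mem_Ej hg.2 (by rw [R.mu_eq_cls h (Or.inr rfl)]; exact hj)⟩

theorem reg_Vj {j r : ℕ} (h : π.reg r) (hj : j ≤ π.cls r) : r ∈ π.Vj j ∧ r - 1 ∈ π.Vj j := by
  have h1 := ends_mem_Vj (R.reg_Ej h hj).1
  rw [(R.reg_key_ends h).1] at h1
  unfold pk at h1
  cases hk : π.kd r <;> simp only [hk, Bool.false_eq_true, if_false, if_true] at h1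
  · exact h1.symm
  · exact h1

/-- the partner of a linked position -/
theorem link_facts {i : ℕ} (h : π.link i) :
    π.α (i - 1) < π.T ∧ π.α i ≠ i ∧ π.α i = π.α (i - 1) - 1 ∧ π.ρ (π.α (i - 1)) ≠ π.ρ i := by
  obtain ⟨h1, h2, h3, h4⟩ := h
  have hg := h2.1.2.2 i h1 rfl
  have hp := R.α_lt (i - 1) (by omega)
  have hg' := h4.1.2.2 _ hp rfl
  have hpar := hg.2.2.2.2.2.2.2.2
  rcases hpar with hpar | hpar
  · exact absurd hpar.1 h3
  rw [hg.2.2.1] at hpar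
  refine ⟨hp, hpar.2.1, R.φ_inj _ _ (R.α_lt i h1) (by omega) (hpar.2.2.trans hg'.2.2.1.symm), ?_⟩
  intro he
  obtain ⟨k1, k2, k3⟩ := R.pair (i - 1) (by omega) h3
  apply k3
  refine L.inj_tgt _ _ ?_ k1
  have e1 : π.kd i = false := by rw [← R.kd_ρ h1]; exact h2.2
  have e2 : π.kd (π.α (i - 1)) = false := by rw [← R.kd_ρ hp]; exact h4.2
  rw [← R.tgt_key (R.good_occ hg').2, ← R.tgt_key (R.good_occ hg).1, (R.good_key hg).1,
    (R.good_key hg').2, e1, e2, he]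
  rfl

end Real

end Crest.Agent.R177.LL
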