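import Crest.Agent.R177.LPat

/-! Sums over the levels of a realised pattern. -/

set_option autoImplicit false

namespace Crest.Agent.R177.LL

open Finset
open scoped Classical

namespace Pat
variable (π : Pat)

noncomputable def uj (j : ℕ) : ℕ := #{r ∈ π.Vj j | π.regU r ∧ π.pn r = false}
noncomputable def vj (j : ℕ) : ℕ := #{r ∈ π.Vj j | π.pn r = false}
noncomputable def nb : ℕ := #{i ∈ range π.T | π.α i = i}
noncomputable def nk : ℕ := #{i ∈ range π.T | π.ct i = true}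
noncomputable def np : ℕ := #{i ∈ range π.T | π.pn i = true}
noncomputable def ng : ℕ := #{i ∈ range π.T | ¬ π.good i}

theorem sum_cls (s : Finset ℕ) : ∑ r ∈ s, π.cls r = #{i ∈ range π.T | π.ρ i ∈ s} :=
  sum_card_fiberwise_eq_card_filter _ _ _

theorem occ_add : #π.occ + π.nk = π.T := by
  have := card_filter_add_card_filter_not (s := range π.T) (fun i => π.ct i = false)
  rw [card_range] at this
  have e : ({i ∈ range π.T | π.ct i = true} : Finset ℕ) = {i ∈ range π.T | ¬ π.ct i = false} := by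
    ext i; simp
  unfold occ nk
  rw [e]; exact this

end Pat

namespace Real
variable {P : Type} {π : Pat} {L : FGraph P} {γ : L.V} {d : ℕ → L.Dart} (R : Real π L γ d)
include R

theorem pn_ρ {i : ℕ} (hi : i < π.T) : π.pn (π.ρ i) = π.pn i := by
  have h1 := R.pn _ (R.ρ_lt hi)
  have h2 := R.pn _ hi
  rw [R.tail_ρ hi] at h1
  exact Bool.eq_iff_iff.2 (h1.trans h2.symm)

theorem sum_Ej {J : ℕ} (hJ : ∀ r, π.cls r ≤ J) : ∑ j ∈ Icc 1 J, #(π.Ej j) + π.nk = π.T := by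
  rw [← π.occ_add]; congr 1
  unfold Pat.Ej
  rw [sum_levels _ _ J fun κ _ => (R.mu_le_cls κ true).trans (hJ _)]
  exact (card_eq_sum_card_image _ _).symm

theorem sum_vj {J : ℕ} (hJ : ∀ r, π.cls r ≤ J) : ∑ j ∈ Icc 1 J, π.vj j + π.np ≤ π.T := by
  let s : Finset ℕ := {r ∈ range π.T | π.pn r = false}
  have h1 : ∑ j ∈ Icc 1 J, π.vj j ≤ ∑ j ∈ Icc 1 J, #{r ∈ s | j ≤ π.cls r} := by
    refine sum_le_sum fun j _ => card_le_card fun r hr => ?_
    obtain ⟨h1, h2⟩ := mem_filter.1 hr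
    obtain ⟨h3, -, h5⟩ := R.Vj_le h1
    exact mem_filter.2 ⟨mem_filter.2 ⟨mem_range.2 h3, h2⟩, h5⟩
  rw [sum_levels _ _ J fun r _ => hJ r, π.sum_cls] at h1
  have h2 := card_filter_add_card_filter_not (s := range π.T) (fun i => π.pn i = true)
  rw [card_range] at h2
  have h3 : #{i ∈ range π.T | π.ρ i ∈ s} ≤ #{i ∈ range π.T | ¬ π.pn i = true} := by
    refine card_le_card fun i hi => ?_
    obtain ⟨h1, h2⟩ := mem_filter.1 hi
    have := (mem_filter.1 h2).2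
    rw [R.pn_ρ (mem_range.1 h1)] at this
    exact mem_filter.2 ⟨h1, by simp [this]⟩
  unfold Pat.np
  omega

theorem np_le {J : ℕ} (hJ : ∀ r, π.cls r ≤ J) : π.np ≤ J := by
  unfold Pat.np
  rcases ({i ∈ range π.T | π.pn i = true} : Finset ℕ).eq_empty_or_nonempty with h | ⟨i, hi⟩
  · rw [h]; simp
  · refine le_trans (card_le_card fun k hk => ?_) (hJ (π.ρ i))
    obtain ⟨h1, h2⟩ := mem_filter.1 hi
    obtain ⟨h3, h4⟩ := mem_filter.1 hk
    have h1 := mem_range.1 h1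
    have h5 := mem_range.1 h3
    refine mem_filter.2 ⟨h3, (R.ρ_eq_iff h5 h1).2 ?_⟩
    rw [(R.pn k h5).1 h4, (R.pn i h1).1 h2]

theorem sum_uj {J : ℕ} (hJ : ∀ r, π.cls r ≤ J) :
    #{i ∈ range π.T | π.regU (π.ρ i)} ≤ ∑ j ∈ Icc 1 J, π.uj j + J := by
  let s : Finset ℕ := {r ∈ range π.T | π.regU r ∧ π.pn r = false}
  have h1 : ∑ j ∈ Icc 1 J, #{r ∈ s | j ≤ π.cls r} ≤ ∑ j ∈ Icc 1 J, π.uj j := by
    refine sum_le_sum fun j _ => card_le_card fun r hr => ?_
    obtain ⟨h1, h2⟩ := mem_filter.1 hr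
    obtain ⟨-, h3⟩ := mem_filter.1 h1
    exact mem_filter.2 ⟨(R.reg_Vj h3.1.1 h2).1, h3⟩
  rw [sum_levels _ _ J fun r _ => hJ r, π.sum_cls] at h1
  have h2 := R.np_le hJ
  have h3 : ({i ∈ range π.T | π.regU (π.ρ i)} : Finset ℕ) ⊆
      {i ∈ range π.T | π.ρ i ∈ s} ∪ {i ∈ range π.T | π.pn i = true} := by
    intro i hi
    obtain ⟨h1, h2⟩ := mem_filter.1 hi
    cases h : π.pn i
    · refine mem_union_left _ (mem_filter.2 ⟨h1, mem_filter.2 ⟨mem_range.2 h2.1.1, h2, ?_⟩⟩)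
      rw [R.pn_ρ (mem_range.1 h1), h]
    · exact mem_union_right _ (mem_filter.2 ⟨h1, h⟩)
  have h4 := (card_le_card h3).trans (card_union_le _ _)
  unfold Pat.np at h2
  omega

omit R in
theorem sum_Ld {J : ℕ} (hJ : ∀ r, π.cls r ≤ J) :
    ∑ j ∈ Icc 1 J, #(π.Ld j) ≤ #{i ∈ range π.T | π.lead (π.ρ i)} := by
  let s : Finset ℕ := {r ∈ range π.T | π.lead r}
  have h1 : ∑ j ∈ Icc 1 J, #(π.Ld j) = ∑ j ∈ Icc 1 J, #{r ∈ s | j ≤ π.cls r} := by
    refine sum_congr rfl fun j _ => ?_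
    unfold Pat.Ld; rw [filter_filter]
  rw [h1, sum_levels _ _ J fun r _ => hJ r, π.sum_cls]
  refine card_le_card fun i hi => ?_
  obtain ⟨h1, h2⟩ := mem_filter.1 hi
  exact mem_filter.2 ⟨h1, (mem_filter.1 h2).2⟩

theorem irrP_le {J : ℕ} (hJ : ∀ r, π.cls r ≤ J) : #π.irrP ≤ J * π.ng := by
  have : π.irrP ⊆ ({i ∈ range π.T | ¬ π.good i} : Finset ℕ).biUnion
      fun i' => {i ∈ range π.T | π.ρ i = π.ρ i'} := by
    intro i hi
    obtain ⟨h1, h2⟩ := mem_filter.1 hi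
    have h3 := mem_range.1 h1
    by_contra hne
    apply h2
    refine ⟨R.ρ_lt h3, R.ρ_ρ h3, fun i' hi' he => ?_⟩
    by_contra hg
    exact hne (mem_biUnion.2 ⟨i', mem_filter.2 ⟨mem_range.2 hi', hg⟩,
      mem_filter.2 ⟨h1, he.symm⟩⟩)
  refine (card_le_card this).trans ?_
  rw [mul_comm]
  exact card_biUnion_le_card_mul _ _ _ fun i' _ => hJ _

theorem irrO_le : #π.irrO ≤ 2 * #π.irrP := by
  have : π.irrO ⊆ π.irrP ∪ {i ∈ range π.T | π.φ i ∈ π.irrP} := by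
    intro i hi
    obtain ⟨h1, h2⟩ := mem_filter.1 hi
    have h3 := (π.mem_occ.1 h1).1
    have h4 : ¬ π.reg (π.key i).2 := fun h => h2 ⟨h, (R.key_snd h1).2.2⟩
    rcases R.key_cases i with ⟨-, e⟩ | ⟨-, e⟩ <;> rw [e] at h4
    · exact mem_union_right _ (mem_filter.2 ⟨mem_range.2 h3,
        mem_filter.2 ⟨mem_range.2 (R.φ_lt i h3), h4⟩⟩)
    · exact mem_union_left _ (mem_filter.2 ⟨mem_range.2 h3, h4⟩)
  have h2 : #{i ∈ range π.T | π.φ i ∈ π.irrP} ≤ #π.irrP := by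
    refine card_le_card_of_injOn π.φ (fun i hi => (mem_filter.1 (mem_coe.1 hi)).2) ?_
    intro i hi j hj h
    exact R.φ_inj i j (mem_range.1 (mem_filter.1 (mem_coe.1 hi)).1)
      (mem_range.1 (mem_filter.1 (mem_coe.1 hj)).1) h
  have := (card_le_card this).trans (card_union_le _ _)
  omega

omit R in
theorem T_split : #{i ∈ range π.T | π.regU (π.ρ i)} + #{i ∈ range π.T | π.regV (π.ρ i)} +
    #π.irrP = π.T := by
  have h1 := card_filter_add_card_filter_not (s := range π.T) (fun i => π.reg (π.ρ i))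
  have h2 := card_filter_add_card_filter_not (s := {i ∈ range π.T | π.reg (π.ρ i)})
    (fun i => π.kd (π.ρ i) = true)
  rw [card_range] at h1
  rw [filter_filter, filter_filter] at h2
  have e1 : ({i ∈ range π.T | π.regU (π.ρ i)} : Finset ℕ) =
      {i ∈ range π.T | π.reg (π.ρ i) ∧ π.kd (π.ρ i) = true} := by
    ext i; simp [Pat.regU]
  have e2 : ({i ∈ range π.T | π.regV (π.ρ i)} : Finset ℕ) =
      {i ∈ range π.T | π.reg (π.ρ i) ∧ ¬ π.kd (π.ρ i) = true} := by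
    ext i; simp [Pat.regV]
  rw [e1, e2, Pat.irrP]
  omega

theorem Tv_le : #{i ∈ range π.T | π.regV (π.ρ i)} ≤
    #{i ∈ range π.T | π.regU (π.ρ i)} + #π.irrP := by
  refine le_trans (card_le_card_of_injOn (fun i => i - 1) ?_ ?_) (card_union_le _ _)
  · intro i hi
    obtain ⟨h1, h2⟩ := mem_filter.1 (mem_coe.1 hi)
    have h1 := mem_range.1 h1
    have hg := h2.1.2.2 i h1 rfl
    have h3 : i - 1 < π.T := by omega
    have h4 := R.good_kd hg
    rw [← R.kd_ρ h1, h2.2, ← R.kd_ρ h3] at h4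
    by_cases h : π.reg (π.ρ (i - 1))
    · exact mem_coe.2 (mem_union_left _ (mem_filter.2 ⟨mem_range.2 h3, h, h4⟩))
    · exact mem_coe.2 (mem_union_right _ (mem_filter.2 ⟨mem_range.2 h3, h⟩))
  · intro i hi j hj h
    obtain ⟨h1, h2⟩ := mem_filter.1 (mem_coe.1 hi)
    obtain ⟨h3, h4⟩ := mem_filter.1 (mem_coe.1 hj)
    have := (h2.1.2.2 i (mem_range.1 h1) rfl).1
    have := (h4.1.2.2 j (mem_range.1 h3) rfl).1
    simp only at h
    omega

theorem Tlead_le : 2 * #{i ∈ range π.T | π.lead (π.ρ i)} ≤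
    #{i ∈ range π.T | π.regV (π.ρ i)} + π.nb + #π.irrP := by
  have h1 : #{i ∈ range π.T | π.lead (π.ρ i)} ≤
      #(({i ∈ range π.T | π.regV (π.ρ i) ∧ ¬ π.lead (π.ρ i)} ∪ {i ∈ range π.T | π.α i = i}) ∪
        π.irrP) := by
    refine card_le_card_of_injOn (fun i => π.α (i - 1)) ?_ ?_
    · intro i hi
      obtain ⟨h1, h2⟩ := mem_filter.1 (mem_coe.1 hi)
      have h1 := mem_range.1 h1
      have hg := h2.1.1.2.2 i h1 rfl
      have h3 : i - 1 < π.T := by omega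
      have h4 := R.α_lt _ h3
      refine mem_coe.2 ?_
      by_cases ha : π.α (i - 1) = i - 1
      · refine mem_union_left _ (mem_union_right _ (mem_filter.2 ⟨mem_range.2 h4, ?_⟩))
        show π.α (π.α (i - 1)) = π.α (i - 1)
        rw [ha, ha]
      by_cases hr : π.reg (π.ρ (π.α (i - 1)))
      · have hk : π.kd (π.ρ (π.α (i - 1))) = false := by
          rw [R.kd_ρ h4, R.kd _ h4, (R.pair _ h3 ha).2.1, ← R.kd _ h3, R.good_kd hg,
            ← R.kd_ρ h1, h2.1.2]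
          rfl
        have hl : π.link i := ⟨h1, h2.1, ha, hr, hk⟩
        refine mem_union_left _ (mem_union_left _ (mem_filter.2 ⟨mem_range.2 h4, ⟨hr, hk⟩, ?_⟩))
        intro hl'
        exact (R.link_facts hl).2.2.2
          (π.lead_unique h2 hl' (Relation.EqvGen.rel _ _ ⟨i, hl, rfl, rfl⟩)).symm
      · exact mem_union_right _ (mem_filter.2 ⟨mem_range.2 h4, hr⟩)
    · intro i hi j hj h
      obtain ⟨h1, h2⟩ := mem_filter.1 (mem_coe.1 hi)
      obtain ⟨h3, h4⟩ := mem_filter.1 (mem_coe.1 hj)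
      have h1 := mem_range.1 h1
      have h3 := mem_range.1 h3
      have := (h2.1.1.2.2 i h1 rfl).1
      have := (h4.1.1.2.2 j h3 rfl).1
      simp only at h
      have h5 := congrArg π.α h
      rw [R.α_inv _ (by omega), R.α_inv _ (by omega)] at h5
      omega
  have h2 := card_filter_add_card_filter_not (s := {i ∈ range π.T | π.regV (π.ρ i)})
    (fun i => π.lead (π.ρ i))
  rw [filter_filter, filter_filter] at h2
  have e1 : ({i ∈ range π.T | π.regV (π.ρ i) ∧ π.lead (π.ρ i)} : Finset ℕ) =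
      {i ∈ range π.T | π.lead (π.ρ i)} := by
    ext i; simp only [mem_filter]
    exact ⟨fun h => ⟨h.1, h.2.2⟩, fun h => ⟨h.1, h.2.1, h.2⟩⟩
  rw [e1] at h2
  have h3 := h1.trans ((card_union_le _ _).trans (Nat.add_le_add_right (card_union_le _ _) _))
  unfold Pat.nb
  omega

theorem sums {J G : ℕ} (hJ : ∀ r, π.cls r ≤ J) (hG : π.ng ≤ G) :
    π.T ≤ 2 * ∑ j ∈ Icc 1 J, π.uj j + (2 * (J * G) + 2 * J) ∧
    4 * ∑ j ∈ Icc 1 J, #(π.Ld j) ≤ π.T + 2 * π.nb + (2 * (J * G) + 2 * J) ∧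
    #π.irrP ≤ J * G ∧ #π.irrO ≤ 2 * (J * G) := by
  have h1 := (R.irrP_le hJ).trans (Nat.mul_le_mul_left J hG)
  have h2 := R.irrO_le
  have h3 := T_split (π := π)
  have h4 := R.Tv_le
  have h5 := R.Tlead_le
  have h6 := sum_Ld hJ
  have h7 := R.sum_uj hJ
  omega

end Real

end Crest.Agent.R177.LL
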