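import Mathlib

/-!
Finite projective planes of prime power order, as a plain combinatorial structure.
-/

set_option autoImplicit false

namespace Crest.Agent.R177

open Finset
open scoped Classical

/-- a projective plane of order `q` on the point set `P` -/
structure Plane (P : Type) (q : ℕ) where
  Ln : Type
  [fLn : Fintype Ln]
  pts : Ln → Finset P
  card_pts : ∀ l, #(pts l) = q + 1
  card_lines : ∀ s, #{l | s ∈ pts l} = q + 1
  meet : ∀ l l', l ≠ l' → #(pts l ∩ pts l') = 1
  join : ∀ s s', s ≠ s' → #{l | s ∈ pts l ∧ s' ∈ pts l} ≤ 1

attribute [instance] Plane.fLn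

/-- transport along a bijection of the points -/
noncomputable def Plane.map {P P' : Type} {q : ℕ} (π : Plane P q) (e : P ≃ P') : Plane P' q where
  Ln := π.Ln
  pts l := (π.pts l).map e.toEmbedding
  card_pts l := by rw [card_map, π.card_pts]
  card_lines s := by
    rw [← π.card_lines (e.symm s)]
    congr 1
    ext l
    simp [Finset.mem_map_equiv]
  meet l l' h := by
    rw [← Finset.map_inter, card_map, π.meet l l' h]
  join s s' h := by
    have := π.join (e.symm s) (e.symm s') (fun h' => h (e.symm.injective h'))
    convert this using 2
    ext l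
    simp [Finset.mem_map_equiv]

open Configuration in
/-- a Mathlib projective plane gives a `Plane` -/
noncomputable def Plane.ofConf (P L : Type) [Membership P L] [ProjectivePlane P L] [Fintype P]
    [Fintype L] : Plane P (ProjectivePlane.order P L) where
  Ln := L
  pts l := {p | p ∈ l}
  card_pts l := by
    rw [← ProjectivePlane.pointCount_eq P l, pointCount, Nat.card_eq_fintype_card,
      Fintype.card_subtype]
  card_lines s := by
    rw [← ProjectivePlane.lineCount_eq L s, lineCount, Nat.card_eq_fintype_card,
      Fintype.card_subtype]
    congr 1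
    ext l
    simp
  meet l l' h := by
    obtain ⟨p, hp, hu⟩ := HasPoints.existsUnique_point P L l l' h
    rw [card_eq_one]
    refine ⟨p, ?_⟩
    ext x
    simp only [mem_inter, mem_filter, mem_univ, true_and, mem_singleton]
    exact ⟨fun hx => hu x hx, fun hx => hx ▸ hp⟩
  join s s' h := by
    rw [card_le_one]
    intro a ha b hb
    simp only [mem_filter, mem_univ, true_and] at ha hb
    exact (Nondegenerate.eq_or_eq ha.1 ha.2 hb.1 hb.2).resolve_left h

open Configuration LinearAlgebra.Projectivization in
/-- the plane over a finite field -/
theorem exists_plane (k : Type) [Field k] [Finite k] :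
    ∃ (P : Type) (_ : Fintype P), Fintype.card P = Nat.card k ^ 2 + Nat.card k + 1 ∧
      Nonempty (Plane P (Nat.card k)) := by
  let P := ℙ k (Fin 3 → k)
  haveI : Finite P := Projectivization.finite_of_finite k _
  letI : Fintype P := Fintype.ofFinite P
  have h1 : Fintype.card P = Nat.card k ^ 2 + Nat.card k + 1 := by
    rw [← Nat.card_eq_fintype_card, Projectivization.card_of_finrank k (Fin 3 → k) (n := 3)
      (by simp)]
    simp [Finset.sum_range_succ]
    ring
  have h2 := ProjectivePlane.card_points P P
  have h3 : ProjectivePlane.order P P = Nat.card k := by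
    rw [h1] at h2
    rcases lt_trichotomy (ProjectivePlane.order P P) (Nat.card k) with h | h | h
    · nlinarith
    · exact h
    · nlinarith
  exact ⟨P, inferInstance, h1, ⟨h3 ▸ Plane.ofConf P P⟩⟩

/-- a plane on any set of the right size -/
theorem exists_plane_on (k : Type) [Field k] [Finite k] (P : Type) [Fintype P]
    (h : Fintype.card P = Nat.card k ^ 2 + Nat.card k + 1) : Nonempty (Plane P (Nat.card k)) := by
  obtain ⟨P₀, _, h₀, ⟨π⟩⟩ := exists_plane k
  exact ⟨π.map (Fintype.equivOfCardEq (h₀.trans h.symm))⟩

end Crest.Agent.R177
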