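import Crest.Agent.R177.Defs

/-! Balanced separators in graphs without a `K_h` minor (Plotkin–Rao–Smith). -/

set_option autoImplicit false

namespace Crest.Agent.R177.Sep

open Finset Relation
open scoped Classical

variable {V : Type} (G : SimpleGraph V)

/-- connected vertex set -/
def Conn (P : Finset V) : Prop :=
  ∀ a ∈ P, ∀ b ∈ P, ReflTransGen (fun x y => x ∈ P ∧ y ∈ P ∧ G.Adj x y) a b

variable {G}

lemma conn_of_root {P : Finset V} (v : V)
    (h : ∀ a ∈ P, ∃ Q, Q ⊆ P ∧ Conn G Q ∧ a ∈ Q ∧ v ∈ Q) : Conn G P := by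
  intro a ha b hb
  obtain ⟨Q, hQ, c, h1, h2⟩ := h a ha
  obtain ⟨Q', hQ', c', h1', h2'⟩ := h b hb
  exact (ReflTransGen.mono (fun x y h => ⟨hQ h.1, hQ h.2.1, h.2.2⟩) _ _ (c a h1 v h2)).trans
    (ReflTransGen.mono (fun x y h => ⟨hQ' h.1, hQ' h.2.1, h.2.2⟩) _ _ (c' v h2' b h1'))

lemma Conn.union {P Q : Finset V} (hP : Conn G P) (hQ : Conn G Q) {v : V} (h1 : v ∈ P)
    (h2 : v ∈ Q) : Conn G (P ∪ Q) := by
  refine conn_of_root v fun a ha => ?_
  rcases mem_union.1 ha with h | h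
  · exact ⟨P, subset_union_left, hP, h, h1⟩
  · exact ⟨Q, subset_union_right, hQ, h, h2⟩

lemma conn_singleton (v : V) : Conn G {v} := by
  intro a ha b hb
  rw [mem_singleton.1 ha, mem_singleton.1 hb]

lemma conn_pair {u v : V} (h : G.Adj u v) : Conn G {u, v} := by
  intro a ha b hb
  simp only [mem_insert, mem_singleton] at ha hb
  rcases ha with rfl | rfl <;> rcases hb with rfl | rfl
  · exact .refl
  · exact .single ⟨by simp, by simp, h⟩
  · exact .single ⟨by simp, by simp, h.symm⟩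
  · exact .refl

variable (G)

/-- outer neighbours of `U` inside `R` -/
noncomputable def nb (R U : Finset V) : Finset V := R.filter fun v => v ∉ U ∧ ∃ u ∈ U, G.Adj u v

/-- balls inside `R` -/
noncomputable def ball (R : Finset V) (v : V) : ℕ → Finset V
  | 0 => {v}
  | k + 1 => ball R v k ∪ nb G R (ball R v k)

variable {G}

lemma ball_subset {R : Finset V} {v : V} (hv : v ∈ R) (k : ℕ) : ball G R v k ⊆ R := by
  induction k with
  | zero => simpa [ball] using hv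
  | succ k ih => exact union_subset ih (filter_subset _ _)

lemma mem_ball (R : Finset V) (v : V) (k : ℕ) : v ∈ ball G R v k := by
  induction k with
  | zero => simp [ball]
  | succ k ih => exact mem_union_left _ ih

lemma ball_path {R : Finset V} {v : V} (hv : v ∈ R) (k : ℕ) : ∀ x ∈ ball G R v k,
    ∃ P, P ⊆ R ∧ Conn G P ∧ v ∈ P ∧ x ∈ P ∧ #P ≤ 2 * k + 1 := by
  induction k with
  | zero =>
    intro x hx
    exact ⟨{v}, by simpa using hv, conn_singleton v, by simp, hx, by simp⟩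
  | succ k ih =>
    intro x hx
    rcases mem_union.1 hx with h | h
    · obtain ⟨P, h1, h2, h3, h4, h5⟩ := ih x h
      exact ⟨P, h1, h2, h3, h4, by omega⟩
    · obtain ⟨hx, -, u, hu, hadj⟩ := mem_filter.1 h
      obtain ⟨P, h1, h2, h3, h4, h5⟩ := ih u hu
      refine ⟨P ∪ {u, x}, union_subset h1 ?_, h2.union (conn_pair hadj) h4 (by simp),
        mem_union_left _ h3, by simp, ?_⟩
      · exact insert_subset (h1 h4) (by simpa using hx)
      · have := card_union_le P {u, x}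
        have := card_le_two (a := u) (b := x)
        omega

lemma ball_big {R : Finset V} {ℓ r : ℕ}
    (hexp : ∀ U, U ⊆ R → U.Nonempty → 2 * #U ≤ #R → #U < ℓ * #(nb G R U))
    (hr : ℓ ^ r * #R < (ℓ + 1) ^ r) {v : V} (hv : v ∈ R) : #R < 2 * #(ball G R v r) := by
  have key : ∀ k, #R < 2 * #(ball G R v k) ∨ (ℓ + 1) ^ k ≤ ℓ ^ k * #(ball G R v k) := by
    intro k
    induction k with
    | zero => right; simp [ball]
    | succ k ih =>
      have hc : #(ball G R v (k + 1)) = #(ball G R v k) + #(nb G R (ball G R v k)) :=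
        card_union_of_disjoint (disjoint_left.2 fun x hx hx' => (mem_filter.1 hx').2.1 hx)
      by_cases h : #R < 2 * #(ball G R v k)
      · left; omega
      · right
        have h1 := ih.resolve_left h
        have h2 := hexp _ (ball_subset (G := G) hv k) ⟨v, mem_ball R v k⟩ (by omega)
        rw [hc, pow_succ, pow_succ]
        calc (ℓ + 1) ^ k * (ℓ + 1) ≤ ℓ ^ k * #(ball G R v k) * (ℓ + 1) :=
              Nat.mul_le_mul_right _ h1
          _ = ℓ ^ k * (ℓ * #(ball G R v k) + #(ball G R v k)) := by ring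
          _ ≤ ℓ ^ k * (ℓ * #(ball G R v k) + ℓ * #(nb G R (ball G R v k))) :=
              Nat.mul_le_mul_left _ (by omega)
          _ = _ := by ring
  refine (key r).resolve_right fun h => ?_
  have := Nat.mul_le_mul_left (ℓ ^ r) (card_le_card (ball_subset (G := G) hv r))
  omega

lemma diam {R : Finset V} {ℓ r : ℕ}
    (hexp : ∀ U, U ⊆ R → U.Nonempty → 2 * #U ≤ #R → #U < ℓ * #(nb G R U))
    (hr : ℓ ^ r * #R < (ℓ + 1) ^ r) {v w : V} (hv : v ∈ R) (hw : w ∈ R) :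
    ∃ P, P ⊆ R ∧ Conn G P ∧ v ∈ P ∧ w ∈ P ∧ #P ≤ 4 * r + 2 := by
  have h1 := ball_big hexp hr hv
  have h2 := ball_big hexp hr hw
  have : ¬ Disjoint (ball G R v r) (ball G R w r) := by
    intro h
    have h3 := card_union_of_disjoint h
    have h4 := card_le_card (union_subset (ball_subset (G := G) hv r) (ball_subset (G := G) hw r))
    omega
  obtain ⟨x, hx, hx'⟩ := not_disjoint_iff.1 this
  obtain ⟨P, a1, a2, a3, a4, a5⟩ := ball_path hv r x hx
  obtain ⟨Q, b1, b2, b3, b4, b5⟩ := ball_path hw r x hx'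
  refine ⟨P ∪ Q, union_subset a1 b1, a2.union b2 a4 b4, mem_union_left _ a3,
    mem_union_right _ b3, ?_⟩
  have := card_union_le P Q
  omega

lemma card_lt_of_no_minor {h : ℕ} (hG : ¬ HasKMinor G h) (𝓑 : Finset (Finset V))
    (h1 : ∀ B ∈ 𝓑, B.Nonempty ∧ Conn G B)
    (h2 : ∀ B ∈ 𝓑, ∀ B' ∈ 𝓑, B ≠ B' → Disjoint B B' ∧ ∃ a ∈ B, ∃ b ∈ B', G.Adj a b) :
    #𝓑 < h := by
  by_contra hc
  apply hG
  let e : Fin h → 𝓑 := fun i => 𝓑.equivFin.symm (Fin.castLE (not_lt.1 hc) i)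
  have he : ∀ i j, i ≠ j → (e i : Finset V) ≠ e j := fun i j hij h =>
    hij (Fin.castLE_injective _ (𝓑.equivFin.symm.injective (Subtype.ext h)))
  refine ⟨fun i => (e i : Finset V), fun i => (h1 _ (e i).2).1, fun i => (h1 _ (e i).2).2,
    fun i j hij => ?_, fun i j hij => (h2 _ (e i).2 _ (e j).2 (he i j hij)).2⟩
  exact disjoint_coe.2 (h2 _ (e i).2 _ (e j).2 (he i j hij)).1

variable (G) in
/-- the state of the algorithm -/
structure Inv (W : Finset V) (ℓ b : ℕ) (Z S R : Finset V) (𝓑 : Finset (Finset V)) : Prop where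
  hZ : Z ⊆ W
  hR : R ⊆ W
  hZR : Disjoint Z R
  cover : ∀ v ∈ W, v ∈ Z ∨ v ∈ S ∨ v ∈ R ∨ ∃ B ∈ 𝓑, v ∈ B
  noadj : ∀ a ∈ Z, ∀ c ∈ R, ¬ G.Adj a c
  hS : ℓ * #S ≤ #Z
  conn : ∀ B ∈ 𝓑, B.Nonempty ∧ Conn G B
  small : ∀ B ∈ 𝓑, B ⊆ W ∧ #B ≤ b ∧ Disjoint B R
  pair : ∀ B ∈ 𝓑, ∀ B' ∈ 𝓑, B ≠ B' → Disjoint B B' ∧ ∃ a ∈ B, ∃ b ∈ B', G.Adj a b
  bal : 3 * #Z ≤ 2 * #W

lemma Inv.step {h ℓ r : ℕ} (hG : ¬ HasKMinor G h) {W Z S R : Finset V} {𝓑 : Finset (Finset V)}
    (hr : ℓ ^ r * #W < (ℓ + 1) ^ r) (I : Inv G W ℓ (h * (4 * r + 2) + 1) Z S R 𝓑)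
    (hbig : 2 * #W < 3 * #R) :
    ∃ Z' S' R' 𝓑', Inv G W ℓ (h * (4 * r + 2) + 1) Z' S' R' 𝓑' ∧
      2 * #R' + #𝓑' < 2 * #R + #𝓑 := by
  have hZR : #Z + #R ≤ #W := by
    rw [← card_union_of_disjoint I.hZR]; exact card_le_card (union_subset I.hZ I.hR)
  by_cases h1 : ∃ U, U ⊆ R ∧ U.Nonempty ∧ 2 * #U ≤ #R ∧ ℓ * #(nb G R U) ≤ #U
  · obtain ⟨U, hU, hne, h2, h3⟩ := h1
    have hd : #(Z ∪ U) = #Z + #U := card_union_of_disjoint (I.hZR.mono_right hU)
    refine ⟨Z ∪ U, S ∪ nb G R U, R \ (U ∪ nb G R U), 𝓑, ⟨union_subset I.hZ (hU.trans I.hR),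
      sdiff_subset.trans I.hR, ?_, ?_, ?_, ?_, I.conn, ?_, I.pair, by omega⟩, ?_⟩
    · rw [disjoint_union_left]
      exact ⟨I.hZR.mono_right sdiff_subset, disjoint_sdiff.mono_left subset_union_left⟩
    · intro v hv
      have := I.cover v hv
      simp only [mem_union, mem_sdiff]
      tauto
    · intro a ha c hc hadj
      obtain ⟨hc1, hc2⟩ := mem_sdiff.1 hc
      rcases mem_union.1 ha with ha | ha
      · exact I.noadj a ha c hc1 hadj
      · exact hc2 (mem_union_right _ (mem_filter.2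
          ⟨hc1, fun h => hc2 (mem_union_left _ h), a, ha, hadj⟩))
    · have := Nat.mul_le_mul_left ℓ (card_union_le S (nb G R U))
      have := I.hS
      rw [mul_add] at *
      omega
    · intro B hB
      exact ⟨(I.small B hB).1, (I.small B hB).2.1, (I.small B hB).2.2.mono_right sdiff_subset⟩
    · obtain ⟨u, hu⟩ := hne
      have : #(R \ (U ∪ nb G R U)) < #R :=
        card_lt_card ⟨sdiff_subset, fun h => (mem_sdiff.1 (h (hU hu))).2 (mem_union_left _ hu)⟩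
      omega
  by_cases h2 : ∃ B ∈ 𝓑, ∀ a ∈ B, ∀ c ∈ R, ¬ G.Adj a c
  · obtain ⟨B, hB, h2⟩ := h2
    have hd : Disjoint (Z ∪ B) R := disjoint_union_left.2 ⟨I.hZR, (I.small B hB).2.2⟩
    have hsub : Z ∪ B ⊆ W := union_subset I.hZ (I.small B hB).1
    have hc : #(Z ∪ B) + #R ≤ #W := by
      rw [← card_union_of_disjoint hd]; exact card_le_card (union_subset hsub I.hR)
    refine ⟨Z ∪ B, S, R, 𝓑.erase B, ⟨hsub, I.hR, hd, ?_, ?_,
      I.hS.trans (card_le_card subset_union_left), fun B' h => I.conn B' (mem_of_mem_erase h),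
      fun B' h => I.small B' (mem_of_mem_erase h),
      fun B' h B'' h' => I.pair B' (mem_of_mem_erase h) B'' (mem_of_mem_erase h'), by omega⟩, ?_⟩
    · intro v hv
      rcases I.cover v hv with h | h | h | ⟨B', hB', h⟩
      · exact .inl (mem_union_left _ h)
      · exact .inr (.inl h)
      · exact .inr (.inr (.inl h))
      · by_cases e : B' = B
        · exact .inl (mem_union_right _ (e ▸ h))
        · exact .inr (.inr (.inr ⟨B', mem_erase.2 ⟨e, hB'⟩, h⟩))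
    · intro a ha c hc
      rcases mem_union.1 ha with ha | ha
      · exact I.noadj a ha c hc
      · exact h2 a ha c hc
    · have := card_erase_lt_of_mem hB
      omega
  push Not at h1 h2
  obtain ⟨v, hv⟩ : R.Nonempty := card_pos.1 (by omega)
  have hr' : ℓ ^ r * #R < (ℓ + 1) ^ r :=
    lt_of_le_of_lt (Nat.mul_le_mul_left _ (card_le_card I.hR)) hr
  have h3 : ∀ B ∈ 𝓑, ∃ P, P ⊆ R ∧ Conn G P ∧ v ∈ P ∧ #P ≤ 4 * r + 2 ∧
      ∃ a ∈ B, ∃ c ∈ P, G.Adj a c := by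
    intro B hB
    obtain ⟨a, ha, c, hc, hadj⟩ := h2 B hB
    obtain ⟨P, a1, a2, a3, a4, a5⟩ := diam h1 hr' hv hc
    exact ⟨P, a1, a2, a3, a5, a, ha, c, a4, hadj⟩
  choose! P hP using h3
  set B₀ : Finset V := insert v (𝓑.biUnion P) with hB₀
  have hsub : B₀ ⊆ R := insert_subset hv (biUnion_subset.2 fun B hB => (hP B hB).1)
  have hPB : ∀ B ∈ 𝓑, P B ⊆ B₀ := fun B hB =>
    (subset_biUnion_of_mem P hB).trans (subset_insert _ _)
  have hvB : v ∈ B₀ := mem_insert_self _ _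
  have hconn : Conn G B₀ := by
    refine conn_of_root v fun a ha => ?_
    rcases mem_insert.1 ha with rfl | ha
    · exact ⟨{a}, by simpa using hvB, conn_singleton a, by simp, by simp⟩
    · obtain ⟨B, hB, ha⟩ := mem_biUnion.1 ha
      exact ⟨P B, hPB B hB, (hP B hB).2.1, ha, (hP B hB).2.2.1⟩
  have hcard : #B₀ ≤ h * (4 * r + 2) + 1 := by
    have a1 : #B₀ ≤ _ := card_insert_le v (𝓑.biUnion P)
    have a2 := card_biUnion_le_card_mul 𝓑 P (4 * r + 2) fun B hB => (hP B hB).2.2.2.1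
    have a3 := Nat.mul_le_mul_right (4 * r + 2) (card_lt_of_no_minor hG 𝓑 I.conn I.pair).le
    omega
  have hpair : ∀ B ∈ 𝓑, Disjoint B B₀ ∧ ∃ a ∈ B, ∃ b ∈ B₀, G.Adj a b := by
    intro B hB
    obtain ⟨a, ha, c, hc, hadj⟩ := (hP B hB).2.2.2.2
    exact ⟨(I.small B hB).2.2.mono_right hsub, a, ha, c, hPB B hB hc, hadj⟩
  refine ⟨Z, S, R \ B₀, insert B₀ 𝓑, ⟨I.hZ, sdiff_subset.trans I.hR,
    I.hZR.mono_right sdiff_subset, ?_, fun a ha c hc => I.noadj a ha c (mem_sdiff.1 hc).1, I.hS,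
    ?_, ?_, ?_, I.bal⟩, ?_⟩
  · intro x hx
    rcases I.cover x hx with h | h | h | ⟨B', hB', h⟩
    · exact .inl h
    · exact .inr (.inl h)
    · by_cases e : x ∈ B₀
      · exact .inr (.inr (.inr ⟨B₀, mem_insert_self _ _, e⟩))
      · exact .inr (.inr (.inl (mem_sdiff.2 ⟨h, e⟩)))
    · exact .inr (.inr (.inr ⟨B', mem_insert_of_mem hB', h⟩))
  · intro B hB
    rcases mem_insert.1 hB with rfl | hB
    · exact ⟨⟨v, hvB⟩, hconn⟩
    · exact I.conn B hB
  · intro B hB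
    rcases mem_insert.1 hB with rfl | hB
    · exact ⟨hsub.trans I.hR, hcard, disjoint_sdiff⟩
    · exact ⟨(I.small B hB).1, (I.small B hB).2.1, (I.small B hB).2.2.mono_right sdiff_subset⟩
  · intro B hB B' hB' hne
    rcases mem_insert.1 hB with e | hB <;> rcases mem_insert.1 hB' with e' | hB'
    · exact absurd (e.trans e'.symm) hne
    · obtain ⟨a1, a, ha, c, hc, hadj⟩ := hpair B' hB'
      rw [e]
      exact ⟨a1.symm, c, hc, a, ha, hadj.symm⟩
    · rw [e']; exact hpair B hB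
    · exact I.pair B hB B' hB' hne
  · have a1 : #(R \ B₀) < #R := card_lt_card ⟨sdiff_subset, fun h => (mem_sdiff.1 (h hv)).2 hvB⟩
    have a2 := card_insert_le B₀ 𝓑
    omega

/-- balanced separators -/
theorem exists_sep {h ℓ r : ℕ} (hG : ¬ HasKMinor G h) (W : Finset V)
    (hr : ℓ ^ r * #W < (ℓ + 1) ^ r) :
    ∃ Z R T : Finset V, Disjoint Z R ∧ Z ⊆ W ∧ R ⊆ W ∧ (∀ v ∈ W, v ∉ T → v ∈ Z ∨ v ∈ R) ∧
      (∀ a ∈ Z, ∀ c ∈ R, ¬ G.Adj a c) ∧ 3 * #Z ≤ 2 * #W ∧ 3 * #R ≤ 2 * #W ∧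
      ℓ * #T ≤ #W + ℓ * (h * (h * (4 * r + 2) + 1)) := by
  have key : ∀ n, ∀ Z S R 𝓑, Inv G W ℓ (h * (4 * r + 2) + 1) Z S R 𝓑 → 2 * #R + #𝓑 = n →
      ∃ Z S R 𝓑, Inv G W ℓ (h * (4 * r + 2) + 1) Z S R 𝓑 ∧ 3 * #R ≤ 2 * #W := by
    intro n
    induction n using Nat.strong_induction_on with
    | _ n ih =>
      intro Z S R 𝓑 I hn
      by_cases hb : 3 * #R ≤ 2 * #W
      · exact ⟨Z, S, R, 𝓑, I, hb⟩
      · obtain ⟨Z', S', R', 𝓑', I', hlt⟩ := I.step hG hr (not_le.1 hb)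
        exact ih _ (hn ▸ hlt) Z' S' R' 𝓑' I' rfl
  obtain ⟨Z, S, R, 𝓑, I, hb⟩ := key _ ∅ ∅ W ∅ ⟨empty_subset _, subset_refl _, by simp,
    fun v hv => .inr (.inr (.inl hv)), by simp, by simp, by simp, by simp, by simp, by simp⟩ rfl
  refine ⟨Z, R, S ∪ 𝓑.biUnion id, I.hZR, I.hZ, I.hR, ?_, I.noadj, I.bal, hb, ?_⟩
  · intro v hv hT
    rcases I.cover v hv with h | h | h | ⟨B, hB, h⟩
    · exact .inl h
    · exact absurd (mem_union_left _ h) hT
    · exact .inr h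
    · exact absurd (mem_union_right _ (mem_biUnion.2 ⟨B, hB, h⟩)) hT
  · have a1 := card_union_le S (𝓑.biUnion id)
    have a2 := card_biUnion_le_card_mul 𝓑 id _ fun B hB => (I.small B hB).2.1
    have a3 := Nat.mul_le_mul_right (h * (4 * r + 2) + 1)
      (card_lt_of_no_minor hG 𝓑 I.conn I.pair).le
    have a4 := I.hS
    have a5 := card_le_card I.hZ
    calc ℓ * #(S ∪ 𝓑.biUnion id) ≤ ℓ * (#S + h * (h * (4 * r + 2) + 1)) :=
          Nat.mul_le_mul_left _ (by omega)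
      _ ≤ _ := by rw [mul_add]; omega

end Crest.Agent.R177.Sep
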