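import Crest.Agent.R177.Defs

/-!
The presentation complex of a triangular presentation, its universal cover, and the statements of
the topological modules.
-/

set_option autoImplicit false

namespace Crest.Agent.R177

open unitInterval
open scoped Classical

/-- `s / 2` -/
noncomputable def lo (s : I) : I := ⟨s / 2, by constructor <;> linarith [s.2.1, s.2.2]⟩
/-- `(1 + s) / 2` -/
noncomputable def hi (s : I) : I := ⟨(1 + s) / 2, by constructor <;> linarith [s.2.1, s.2.2]⟩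
/-- `2 s`, clamped to the unit interval -/
noncomputable def dbl (s : I) : I := Set.projIcc 0 1 zero_le_one (2 * s)
/-- `2 s - 1`, clamped to the unit interval -/
noncomputable def dbl' (s : I) : I := Set.projIcc 0 1 zero_le_one (2 * s - 1)

/-- boundary of the square -/
def Bd : Set (I × I) := {z | z.1 = 0 ∨ z.1 = 1 ∨ z.2 = 0 ∨ z.2 = 1}

/-- filling a square -/
def SquareStmt : Prop :=
  ∀ (Z : Type) [TopologicalSpace Z] (x y x' y' : Z) (p : Path x y) (l : Path x x')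
    (r : Path y y') (q : Path x' y'), (p.trans r).Homotopic (l.trans q) →
    ∃ F : C(I × I, Z), (∀ s, F (s, 0) = p s) ∧ (∀ s, F (s, 1) = q s) ∧
      (∀ t, F (0, t) = l t) ∧ (∀ t, F (1, t) = r t)

/-- homotopy extension for the square and its boundary -/
def HepStmt : Prop :=
  ∀ (Z : Type) [TopologicalSpace Z] (f : C(I × I, Z)) (h : C(Bd × I, Z)),
    (∀ z : Bd, h (z, 0) = f z.1) →
    ∃ H : C((I × I) × I, Z), (∀ z, H (z, 0) = f z) ∧ ∀ (z : Bd) (t : I), H (z.1, t) = h (z, t)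

/-- killing the obstruction in `π₂` -/
def SolveStmt : Prop :=
  ∀ (Z : Type) [TopologicalSpace Z] (z₀ : Z) (ι κ : Type) (a b c : κ → ι)
    (ℓ : ι → Path z₀ z₀) (Θ : κ → C(I × I, Z)),
    (∀ i, (ℓ i).Homotopic (Path.refl z₀)) →
    (∀ ρ s, Θ ρ (lo s, 0) = ℓ (a ρ) s) → (∀ ρ s, Θ ρ (hi s, 0) = ℓ (b ρ) s) →
    (∀ ρ s, Θ ρ (s, 1) = ℓ (c ρ) s) → (∀ ρ β, Θ ρ (0, β) = z₀) → (∀ ρ β, Θ ρ (1, β) = z₀) →
    (∀ (K : Type) [AddCommGroup K] (ω : κ → K), ∃ k : ι → K,
      ∀ ρ, k (a ρ) + k (b ρ) - k (c ρ) = ω ρ) →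
    ∃ (V : ι → C(I × I, Z)) (F : κ → C((I × I) × I, Z)),
      (∀ i s, V i (s, 0) = ℓ i s) ∧ (∀ i s, V i (s, 1) = z₀) ∧
      (∀ i t, V i (0, t) = z₀) ∧ (∀ i t, V i (1, t) = z₀) ∧
      (∀ ρ z, F ρ (z, 0) = Θ ρ z) ∧ (∀ ρ z, F ρ (z, 1) = z₀) ∧
      (∀ ρ β t, F ρ ((0, β), t) = z₀) ∧ (∀ ρ β t, F ρ ((1, β), t) = z₀) ∧
      (∀ ρ s t, F ρ ((lo s, 0), t) = V (a ρ) (s, t)) ∧
      (∀ ρ s t, F ρ ((hi s, 0), t) = V (b ρ) (s, t)) ∧
      (∀ ρ s t, F ρ ((s, 1), t) = V (c ρ) (s, t))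

/-- points of the presentation complex, sorted by open cells -/
inductive Pt (A R : Type) : Type
  | v : Pt A R
  | e (s : A) (t : I) (h0 : t ≠ 0) (h1 : t ≠ 1) : Pt A R
  | f (ρ : R) (s β : I) (h0 : s ≠ 0) (h1 : s ≠ 1) (h2 : β ≠ 0) (h3 : β ≠ 1) : Pt A R

namespace Tri
variable {A R : Type} (T : Tri A R)

/-- the universal cover as a set: (base vertex of the open cell, point of the complex) -/
def Cov : Type := T.G × Pt A R

def vtx (g : T.G) : T.Cov := (g, Pt.v)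

/-- closed edge from `g` to `g * s` -/
noncomputable def edge (g : T.G) (s : A) (t : I) : T.Cov :=
  if h0 : t = 0 then T.vtx g else if h1 : t = 1 then T.vtx (g * T.x s) else (g, Pt.e s t h0 h1)

/-- closed triangle, as a homotopy (parameter `β`) from the path `a ρ`, `b ρ` to the path `c ρ` -/
noncomputable def face (g : T.G) (ρ : R) (z : I × I) : T.Cov :=
  if h3 : z.2 = 1 then T.edge g (T.c ρ) z.1
  else if h2 : z.2 = 0 then
    (if (z.1 : ℝ) ≤ 1 / 2 then T.edge g (T.a ρ) (dbl z.1)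
      else T.edge (g * T.x (T.a ρ)) (T.b ρ) (dbl' z.1))
  else if h0 : z.1 = 0 then T.vtx g
  else if h1 : z.1 = 1 then T.vtx (g * T.x (T.c ρ))
  else (g, Pt.f ρ z.1 z.2 h0 h1 h2 h3)

/-- disjoint union of the closed cells -/
abbrev Cells : Type := (Σ _ : T.G, Unit) ⊕ (Σ _ : T.G × A, I) ⊕ (Σ _ : T.G × R, I × I)

noncomputable def cellMap : T.Cells → T.Cov
  | Sum.inl p => T.vtx p.1
  | Sum.inr (Sum.inl p) => T.edge p.1.1 p.1.2 p.2
  | Sum.inr (Sum.inr p) => T.face p.1.1 p.1.2 p.2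

noncomputable instance : TopologicalSpace T.Cov :=
  TopologicalSpace.coinduced T.cellMap inferInstance

end Tri

def ContrStmt : Prop :=
  ∀ (A R : Type) (T : Tri A R), T.Split → ContractibleSpace T.Cov

def CWStmt : Prop :=
  ∀ (A R : Type) [Finite A] [Finite R] (T : Tri A R), ContractibleSpace T.Cov →
    Crest.Topology.HasFiniteClassifyingComplex T.G 2

theorem topStmt_of (h1 : ContrStmt) (h2 : CWStmt) : TopStmt :=
  fun A R _ _ T h => h2 A R T (h1 A R T h)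

end Crest.Agent.R177
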